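import Crest.Agent.R66.AmbBasic

/-! # Row 66: normalisation map, local finiteness, symmetries -/

set_option linter.unusedSectionVars false

namespace Crest.Agent.R66.Amb

variable {F M : Type*} [Field F] [AddCommGroup M] [Module F M] {𝒜 : Amb F M}

/-! ### the normalisation map -/

theorem sh_one_sup {W : Submodule F M} : 𝒜.sh 1 W ⊔ 𝒜.Q 2 = ⊤ ↔ W ⊔ 𝒜.Q 1 = ⊤ := by
  rw [show 𝒜.Q 2 = 𝒜.sh 1 (𝒜.Q 1) from (𝒜.sh_Q 1 1).symm, ← OrderIso.map_sup,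
    ← (𝒜.sh 1).map_top, OrderIso.apply_eq_iff_eq, OrderIso.map_top]

theorem nrm_injOn (V : Submodule F M) : Set.InjOn 𝒜.nrm {W | 𝒜.sh (-1) V ≤ W ∧ W < V} := by
  rintro W ⟨h1, h2⟩ W' ⟨h1', h2'⟩ h
  rw [sh_neg_le_iff] at h1 h1'
  unfold nrm at h
  split_ifs at h
  · exact h
  · exact absurd (h1'.trans h.ge) h2.not_ge
  · exact absurd (h1.trans h.le) h2'.not_ge
  · exact (𝒜.sh 1).injective h

theorem adj_nrm_iff {V W W' : Submodule F M} (h1 : 𝒜.sh (-1) V ≤ W) (h2 : W < V)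
    (h1' : 𝒜.sh (-1) V ≤ W') (h2' : W' < V) : 𝒜.adj (𝒜.nrm W) (𝒜.nrm W') ↔ Cmp W W' := by
  have e1 := (𝒜.sh_neg_le_iff 1 _ _).1 h1
  have e1' := (𝒜.sh_neg_le_iff 1 _ _).1 h1'
  have f1 := ((𝒜.sh (-1)).monotone h2'.le).trans h1
  have f1' := ((𝒜.sh (-1)).monotone h2.le).trans h1'
  unfold nrm adj Cmp
  split_ifs with a b b
  · exact ⟨Or.imp And.left And.left, Or.imp (⟨·, f1⟩) (⟨·, f1'⟩)⟩
  · rw [sh_neg_sh]
    refine ⟨fun h => h.elim (Or.inr ·.2) fun h => absurd (e1'.trans h.1) h2.not_ge, fun h => ?_⟩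
    exact h.elim (fun h => absurd (top_le_iff.1 (a.ge.trans (sup_le_sup_right h _))) b)
      fun h => Or.inl ⟨h2.le.trans e1', h⟩
  · rw [sh_neg_sh]
    refine ⟨fun h => h.elim (fun h => absurd (e1.trans h.1) h2'.not_ge) (Or.inl ·.2), fun h => ?_⟩
    exact h.elim (fun h => Or.inr ⟨h2'.le.trans e1, h⟩)
      fun h => absurd (top_le_iff.1 (b.ge.trans (sup_le_sup_right h _))) a
  · simp only [sh_neg_sh, OrderIso.le_iff_le]
    exact ⟨Or.imp And.left And.left, Or.imp (⟨·, h2'.le.trans e1⟩) (⟨·, h2.le.trans e1'⟩)⟩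

theorem Norm.nrm {L W : Submodule F M} (hL : 𝒜.Norm L) (h1 : 𝒜.sh (-1) L < W) (h2 : W < L) :
    𝒜.Norm (𝒜.nrm W) ∧ 𝒜.adj L (𝒜.nrm W) ∧ 𝒜.nrm W ≠ L := by
  have hW := hL.1.between h1.le h2.le
  have e1 := (𝒜.sh_neg_le_iff 1 _ _).1 h1.le
  unfold Amb.nrm
  split_ifs with a
  · exact ⟨⟨hW, a, fun h => hL.2.2 (top_le_iff.1 (h.ge.trans (sup_le_sup_right h2.le _)))⟩,
      Or.inr ⟨h2.le, h1.le⟩, h2.ne⟩
  · refine ⟨⟨hW.sh 1, top_le_iff.1 (hL.2.1.ge.trans (sup_le_sup_right e1 _)),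
      fun h => a (sh_one_sup.1 h)⟩, Or.inl ⟨e1, by simpa using h2.le⟩, fun h => h1.ne ?_⟩
    rw [← h, sh_neg_sh]

theorem Norm.exists_nrm {L w : Submodule F M} (hL : 𝒜.Norm L) (hw : 𝒜.Norm w) (ha : 𝒜.adj L w)
    (hne : w ≠ L) : ∃ W, 𝒜.sh (-1) L < W ∧ W < L ∧ 𝒜.nrm W = w := by
  rcases ha with ⟨h1, h2⟩ | ⟨h1, h2⟩
  · have h : 𝒜.sh (-1) w ⊔ 𝒜.Q 1 ≠ ⊤ := fun h => hw.2.2 (by simpa using sh_one_sup.2 h)
    refine ⟨𝒜.sh (-1) w, (𝒜.sh (-1)).strictMono (h1.lt_of_ne hne.symm),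
      h2.lt_of_ne fun e => h (e ▸ hL.2.1), ?_⟩
    rw [Amb.nrm, if_neg h, sh_sh_neg]
  · refine ⟨w, h2.lt_of_ne fun e => hL.2.2 ?_, h1.lt_of_ne hne, if_pos hw.2.1⟩
    simpa using sh_one_sup.2 (e ▸ hw.2.1 : 𝒜.sh (-1) L ⊔ 𝒜.Q 1 = ⊤)

/-! ### local finiteness and symmetries -/

/-- Recipe: vertices `W` of such faces satisfy `sh (-1) L ≤ W ≤ sh 1 L`; `W ↦ W ⊓ Q 0` is
injective on these (modular law, `sh (-1) L ⊔ Q 0 = ⊤`) with values in the subspaces of the finite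
set `sh 1 L ⊓ Q 0`; then `Set.Finite.finite_subsets`-type argument (`Finset.powerset`). -/
theorem Good.locFin [Finite F] {L : Submodule F M} (h : 𝒜.Good L) :
    {c | c ∈ 𝒜.Δ ∧ L ∈ c}.Finite := by
  have hL := h.1.1
  have := (hL.sh 1).fin 0
  have : Finite ↥(𝒜.sh 1 L ⊓ 𝒜.Q 0) := Module.finite_of_finite F
  have hS : {W | 𝒜.sh (-1) L ≤ W ∧ W ≤ 𝒜.sh 1 L}.Finite := by
    refine Set.Finite.of_finite_image (f := fun W : Submodule F M => ((W ⊓ 𝒜.Q 0 : Submodule F M) :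
      Set M)) ((Set.toFinite ((𝒜.sh 1 L ⊓ 𝒜.Q 0 : Submodule F M) : Set M)).finite_subsets.subset ?_)
      fun W hW W' hW' e => ?_
    · rintro _ ⟨W, hW, rfl⟩
      exact inf_le_inf_right (𝒜.Q 0) hW.2
    · have k : ∀ W, 𝒜.sh (-1) L ≤ W → W = 𝒜.sh (-1) L ⊔ W ⊓ 𝒜.Q 0 := fun W hW => by
        rw [inf_comm, ← sup_inf_assoc_of_le _ hW, sh_neg_sup_Q_zero h.1.2.1, top_inf_eq]
      rw [k W hW.1, k W' hW'.1, SetLike.coe_injective e]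
  refine (hS.finite_subsets.preimage Finset.coe_injective.injOn).subset fun c hc W hW => ?_
  by_cases e : L = W
  · exact e ▸ ⟨(𝒜.sh_neg_le_iff 1 _ _).2 hL.1, hL.1⟩
  · exact ⟨adj_ge hL (hc.1.2 L hc.2 W hW e), adj_le hL (hc.1.2 L hc.2 W hW e)⟩

theorem IsSym.map_sh {g : M ≃ₗ[F] M} (hg : 𝒜.IsSym g) (m : ℤ) (L : Submodule F M) :
    Submodule.orderIsoMapComap g (𝒜.sh m L) = 𝒜.sh m (Submodule.orderIsoMapComap g L) := by
  have h : Commute (Submodule.orderIsoMapComap g) (Submodule.orderIsoMapComap 𝒜.t) := by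
    refine OrderIso.ext (funext fun L => ?_)
    change (L.map (𝒜.t : M →ₗ[F] M)).map (g : M →ₗ[F] M) =
      (L.map (g : M →ₗ[F] M)).map (𝒜.t : M →ₗ[F] M)
    rw [← Submodule.map_comp, ← Submodule.map_comp]
    exact congrArg (L.map ·) (LinearMap.ext hg.comm)
  exact DFunLike.congr_fun (h.zpow_right m).eq L

theorem IsSym.map_Q {g : M ≃ₗ[F] M} (hg : 𝒜.IsSym g) (a : ℤ) :
    Submodule.orderIsoMapComap g (𝒜.Q a) = 𝒜.Q a := by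
  rw [Q, hg.map_sh, hg.mapP]

theorem IsSym.good {g : M ≃ₗ[F] M} (hg : 𝒜.IsSym g) {L : Submodule F M} (h : 𝒜.Good L) :
    𝒜.Good (Submodule.orderIsoMapComap g L) := by
  obtain ⟨⟨⟨h1, m, h2, h3⟩, h4, h5⟩, h6⟩ := h
  obtain ⟨k, h7, h8⟩ := hg.bdd
  set G := Submodule.orderIsoMapComap g
  refine ⟨⟨⟨hg.map_sh 1 L ▸ G.monotone h1, m + k, ?_, ?_⟩, ?_, fun e => h5 ?_⟩, ?_⟩
  · refine le_trans ?_ (G.monotone h2)
    rw [hg.map_sh, Nat.cast_add, neg_add, ← sh_sh]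
    exact (𝒜.sh _).monotone h8
  · refine (G.monotone h3).trans ?_
    rw [hg.map_sh, Nat.cast_add, ← sh_sh]
    exact (𝒜.sh _).monotone h7
  · rw [← hg.map_Q, ← G.map_sup, h4, G.map_top]
  · rwa [← hg.map_Q, ← G.map_sup, ← G.map_top, G.apply_eq_iff_eq] at e
  · rw [← hg.map_Q, ← G.map_inf, h6, G.map_bot]

theorem IsSym.typ {g : M ≃ₗ[F] M} (hg : 𝒜.IsSym g) (L : Submodule F M) :
    𝒜.typ (Submodule.orderIsoMapComap g L) = 𝒜.typ L := by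
  rw [Amb.typ, ← hg.map_Q, ← OrderIso.map_inf]
  exact g.finrank_map_eq _

theorem IsSym.mem_Δ {g : M ≃ₗ[F] M} (hg : 𝒜.IsSym g) {σ : Finset (Submodule F M)}
    (h : σ ∈ 𝒜.Δ) : σ.image (Submodule.orderIsoMapComap g) ∈ 𝒜.Δ := by
  refine ⟨Finset.forall_mem_image.2 fun v hv => hg.good (h.1 v hv),
    Finset.forall_mem_image.2 fun v hv => Finset.forall_mem_image.2 fun w hw e => ?_⟩
  simpa only [adj, ← hg.map_sh, OrderIso.le_iff_le] using h.2 v hv w hw fun e' => e (e' ▸ rfl)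

end Crest.Agent.R66.Amb
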