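import Crest.Agent.R66.DFill
import Crest.Agent.R66.AmbNrm

/-! # Row 66: `Δ₀` is acyclic in low degrees -/

set_option linter.unusedSectionVars false

namespace Crest.Agent.R66.Amb

variable {F M : Type*} [Field F] [AddCommGroup M] [Module F M] {𝒜 : Amb F M}

theorem Lat.sh_neg_le {L : Submodule F M} (h : 𝒜.Lat L) : 𝒜.sh (-1) L ≤ L :=
  (𝒜.sh_neg_le_iff 1 L L).2 h.1

theorem sup_top_mono {L L' E E' : Submodule F M} (h : L ⊔ E = ⊤) (h1 : L ≤ L') (h2 : E ≤ E') :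
    L' ⊔ E' = ⊤ :=
  top_le_iff.1 (h ▸ sup_le_sup h1 h2)

theorem del_lt_del {X Y : Submodule F M} (hY : 𝒜.Lat Y) (hX : X ⊔ 𝒜.Q 1 = ⊤) (h : X < Y) :
    𝒜.del X < 𝒜.del Y :=
  (isDim (B := X) hY (sup_top_mono hX le_rfl (𝒜.Q_anti zero_le_one))).mono X Y le_rfl h le_rfl

/-- the truncated vertex sets used in `exact_B0`. -/
def Utr (𝒜 : Amb F M) (m a : ℤ) : Set (Submodule F M) :=
  {L | (𝒜.Lat L ∧ L ⊔ 𝒜.Q 1 = ⊤) ∧ 𝒜.sh a 𝒜.Λ ≤ L ∧ L ≤ 𝒜.sh m 𝒜.Λ}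

theorem push_Utr {m a : ℤ} (ha : a + 1 ≤ m) {j : ℕ} {c : Ch (Submodule F M)}
    (hc : c ∈ Cs (Flag 𝒜.adj (𝒜.Utr m a)) j) (hbd : bd c = 0) :
    ∃ u ∈ Cs (Flag 𝒜.adj (𝒜.Utr m a)) (j + 1),
      c + bd u ∈ Cs (Flag 𝒜.adj (𝒜.Utr m (a + 1))) j := by
  have key : ∀ v : Submodule F M, 𝒜.sh (-1) (v ⊔ 𝒜.sh (a + 1) 𝒜.Λ) =
      𝒜.sh (-1) v ⊔ 𝒜.sh a 𝒜.Λ := by
    intro v
    have e : (-1 : ℤ) + (a + 1) = a := by ring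
    rw [OrderIso.map_sup, 𝒜.sh_sh, e]
  have hφ : ∀ v ∈ 𝒜.Utr m a, v ∈ {L | ¬ 𝒜.sh (a + 1) 𝒜.Λ ≤ L} →
      v ⊔ 𝒜.sh (a + 1) 𝒜.Λ ∈ 𝒜.Utr m a ∧ v ⊔ 𝒜.sh (a + 1) 𝒜.Λ ∉ {L | ¬ 𝒜.sh (a + 1) 𝒜.Λ ≤ L} ∧
      𝒜.adj v (v ⊔ 𝒜.sh (a + 1) 𝒜.Λ) ∧
      ∀ w ∈ 𝒜.Utr m a, w ≠ v → 𝒜.adj v w → (w ∉ {L | ¬ 𝒜.sh (a + 1) 𝒜.Λ ≤ L} ∨ ¬ v < w) →
        w = v ⊔ 𝒜.sh (a + 1) 𝒜.Λ ∨ 𝒜.adj (v ⊔ 𝒜.sh (a + 1) 𝒜.Λ) w := by
    rintro v ⟨⟨hv, hv1⟩, hv2, hv3⟩ -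
    refine ⟨⟨⟨hv.sup (𝒜.lat_Λ.sh _), sup_top_mono hv1 le_sup_left le_rfl⟩,
      hv2.trans le_sup_left, sup_le hv3 (𝒜.sh_mono_int 𝒜.lat_Λ.1 ha)⟩,
      not_not.2 le_sup_right, Or.inl ⟨le_sup_left, ?_⟩, ?_⟩
    · rw [key]; exact sup_le hv.sh_neg_le hv2
    · rintro w ⟨-, hw2, -⟩ hwv hadj hor
      right
      rcases hadj with ⟨h1, h2⟩ | ⟨h1, h2⟩
      · have hlt : v < w := lt_of_le_of_ne h1 hwv.symm
        have hw : 𝒜.sh (a + 1) 𝒜.Λ ≤ w := by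
          rcases hor with h | h
          · exact not_not.1 h
          · exact absurd hlt h
        exact Or.inl ⟨sup_le h1 hw, h2.trans le_sup_left⟩
      · refine Or.inr ⟨h1.trans le_sup_left, ?_⟩
        rw [key]; exact sup_le h2 hw2
  obtain ⟨u, hu, hu', -⟩ := push 𝒜.adj adj_symm (𝒜.Utr m a) {L | ¬ 𝒜.sh (a + 1) 𝒜.Λ ≤ L}
    (fun L => L ⊔ 𝒜.sh (a + 1) 𝒜.Λ) hφ hc hbd
  refine ⟨u, hu, Cs_mono (Flag_mono _ ?_) j hu'⟩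
  rintro L ⟨hL, hL'⟩
  exact ⟨hL.1, not_not.1 hL', hL.2.2⟩

/-- the building is contractible.  Recipe: choose `m` with `sh (-m) Λ ≤ L ≤ sh m Λ` for all vertices
of `z`.  With `U a = {L | Lat L ∧ L ⊔ Q 1 = ⊤ ∧ sh a Λ ≤ L ∧ L ≤ sh m Λ}` show by induction on
`k ≤ 2m` that `z + bd u ∈ Cs (Flag adj (U (-m + k))) j` for some `u`, using `push` with
`Bad = {L | ¬ sh (a+1) Λ ≤ L}`, `φ L = L ⊔ sh (a+1) Λ`.  At `a = m` all vertices equal `sh m Λ`: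
`fill_of_apex`. -/
theorem exact_B0 {j : ℕ} {z : Ch (Submodule F M)}
    (hz : z ∈ Cs (Flag 𝒜.adj {L | 𝒜.Lat L ∧ L ⊔ 𝒜.Q 1 = ⊤}) j) (hbd : bd z = 0) :
    ∃ c ∈ Cs (Flag 𝒜.adj {L | 𝒜.Lat L ∧ L ⊔ 𝒜.Q 1 = ⊤}) (j + 1), bd c = z := by
  classical
  -- a uniform bound
  have hex : ∀ s : Finset (Submodule F M), (∀ L ∈ s, 𝒜.Lat L) →
      ∃ m : ℕ, ∀ L ∈ s, 𝒜.sh (-(m : ℤ)) 𝒜.Λ ≤ L ∧ L ≤ 𝒜.sh m 𝒜.Λ := by
    intro s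
    induction s using Finset.induction_on with
    | empty => intro _; exact ⟨0, by simp⟩
    | insert a s _ ih =>
      intro h
      obtain ⟨m, hm⟩ := ih fun L hL => h L (Finset.mem_insert_of_mem hL)
      obtain ⟨-, n, hn1, hn2⟩ := h a (Finset.mem_insert_self a s)
      refine ⟨m + n, fun L hL => ?_⟩
      rcases Finset.mem_insert.1 hL with rfl | hL
      · exact ⟨(𝒜.sh_mono_int 𝒜.lat_Λ.1 (by push_cast; omega)).trans hn1,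
          hn2.trans (𝒜.sh_mono_int 𝒜.lat_Λ.1 (by push_cast; omega))⟩
      · exact ⟨(𝒜.sh_mono_int 𝒜.lat_Λ.1 (by push_cast; omega)).trans (hm L hL).1,
          (hm L hL).2.trans (𝒜.sh_mono_int 𝒜.lat_Λ.1 (by push_cast; omega))⟩
  obtain ⟨m, hm⟩ := hex (z.support.biUnion id) (by
    intro L hL
    obtain ⟨σ, hσ, hL⟩ := Finset.mem_biUnion.1 hL
    exact ((mem_Cs.1 hz σ hσ).1.1 L hL).1)
  have hsub : ∀ a : ℤ, 𝒜.Utr m a ⊆ {L | 𝒜.Lat L ∧ L ⊔ 𝒜.Q 1 = ⊤} := fun a L hL => hL.1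
  have hind : ∀ k : ℕ, k ≤ 2 * m →
      ∃ u ∈ Cs (Flag 𝒜.adj {L | 𝒜.Lat L ∧ L ⊔ 𝒜.Q 1 = ⊤}) (j + 1),
        z + bd u ∈ Cs (Flag 𝒜.adj (𝒜.Utr m (-(m : ℤ) + k))) j := by
    intro k
    induction k with
    | zero =>
      intro _
      refine ⟨0, Submodule.zero_mem _, ?_⟩
      rw [map_zero, add_zero]
      refine mem_Cs.2 fun σ hσ => ⟨⟨fun L hL => ⟨(mem_Cs.1 hz σ hσ).1.1 L hL, ?_⟩,
        (mem_Cs.1 hz σ hσ).1.2⟩, (mem_Cs.1 hz σ hσ).2⟩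
      simpa using hm L (Finset.mem_biUnion.2 ⟨σ, hσ, hL⟩)
    | succ k ih =>
      intro hk
      obtain ⟨u, hu, hu'⟩ := ih (by omega)
      obtain ⟨u', h1, h2⟩ := push_Utr (a := -(m : ℤ) + k) (by omega) hu'
        (by rw [map_add, hbd, bd_bd, add_zero])
      refine ⟨u + u', Submodule.add_mem _ hu (Cs_mono (Flag_mono _ (hsub _)) _ h1), ?_⟩
      rw [map_add, ← add_assoc]
      have e : -(m : ℤ) + ((k + 1 : ℕ) : ℤ) = -(m : ℤ) + k + 1 := by push_cast; ring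
      rw [e]; exact h2
  obtain ⟨u, hu, hu'⟩ := hind (2 * m) le_rfl
  have e : -(m : ℤ) + ((2 * m : ℕ) : ℤ) = m := by push_cast; ring
  rw [e] at hu'
  have hΛ : 𝒜.Λ ⊔ 𝒜.Q 1 = ⊤ := by simpa using 𝒜.Λ_sup_Q 0
  have hle : 𝒜.Λ ≤ 𝒜.sh m 𝒜.Λ := by
    simpa using 𝒜.sh_mono_int 𝒜.lat_Λ.1 (Int.natCast_nonneg m)
  obtain ⟨h1, h2⟩ := fill_of_apex 𝒜.adj adj_symm (hsub m) (𝒜.sh m 𝒜.Λ)
    ⟨𝒜.lat_Λ.sh _, sup_top_mono hΛ hle le_rfl⟩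
    (fun w hw hne => absurd (le_antisymm hw.2.2 hw.2.1) hne) hu'
    (by rw [map_add, hbd, bd_bd, add_zero])
  refine ⟨_, Submodule.add_mem _ h1 hu, ?_⟩
  rw [map_add, h2, add_assoc, add_self2, add_zero]

/-- pushing into normalised lattices.  Recipe: `morse` with `U = {Lat ∧ ⊔ Q 1 = ⊤}`,
`Gd = {L | L ⊔ Q 2 ≠ ⊤}`, `key = del`.  `del` is strictly monotone on `U` (`isDim`).  The descending
link of `v` (with `v ⊔ Q 2 = ⊤`) consists of lattices `w < v` and is a cone with apex `sh (-1) v`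
(`fill_of_apex`; `sh (-1) v ≠ v` because `del (sh (-1) v) = typ v < del v` as `1 ≤ N`). -/
theorem morse_norm (hN : 1 ≤ 𝒜.N) {j : ℕ} {c : Ch (Submodule F M)}
    (hc : c ∈ Cs (Flag 𝒜.adj {L | 𝒜.Lat L ∧ L ⊔ 𝒜.Q 1 = ⊤}) (j + 1))
    (hbd : bd c ∈ Cs (Flag 𝒜.adj {L | 𝒜.Norm L}) j) :
    ∃ c' ∈ Cs (Flag 𝒜.adj {L | 𝒜.Norm L}) (j + 1), bd c' = bd c := by
  have e : {L | 𝒜.Norm L} =
      {L | 𝒜.Lat L ∧ L ⊔ 𝒜.Q 1 = ⊤} ∩ {L | L ⊔ 𝒜.Q 2 ≠ ⊤} := by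
    ext L; exact and_assoc.symm
  rw [e] at hbd ⊢
  refine morse 𝒜.adj adj_symm _ _ 𝒜.del j ?_ ?_ hc hbd
  · rintro v hv w hw - - hne (h | h)
    · exact (del_lt_del hw.1 hv.2 (lt_of_le_of_ne h.1 hne)).ne
    · exact (del_lt_del hv.1 hw.2 (lt_of_le_of_ne h.1 hne.symm)).ne'
  · intro v hv hv' z hz hz'
    have hv2 : v ⊔ 𝒜.Q 2 = ⊤ := not_not.1 hv'
    have hlt : 𝒜.del (𝒜.sh (-1) v) < 𝒜.del v := by
      rw [del_sh_neg, del_eq hv.1 hv.2]; omega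
    have h1 : 𝒜.sh (-1) v ⊔ 𝒜.Q 1 = ⊤ := by
      have := congrArg (𝒜.sh (-1)) hv2
      rw [OrderIso.map_sup, OrderIso.map_top, 𝒜.sh_Q] at this
      simpa using this
    refine ⟨_, fill_of_apex 𝒜.adj adj_symm subset_rfl (𝒜.sh (-1) v) ?_ ?_ hz hz'⟩
    · exact ⟨⟨hv.1.sh _, h1⟩, fun h => by rw [h] at hlt; exact lt_irrefl _ hlt,
        Or.inr ⟨hv.1.sh_neg_le, le_rfl⟩, Or.inr hlt⟩
    rintro w ⟨hw, hwv, h | h, hor⟩ -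
    · exfalso
      rcases hor with hor | hor
      · exact hor (sup_top_mono hv2 h.1 le_rfl)
      · exact lt_asymm hor (del_lt_del hw.1 hv.2 (lt_of_le_of_ne h.1 hwv.symm))
    · exact Or.inl ⟨h.2, (𝒜.sh (-1)).monotone h.1⟩

/-- the top level: least `c` with `L ⊓ Q c = ⊥`. -/
noncomputable def tp (𝒜 : Amb F M) (L : Submodule F M) : ℕ := sInf {c : ℕ | L ⊓ 𝒜.Q c = ⊥}

/-- the Morse function on normalised lattices. -/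
noncomputable def mkey (𝒜 : Amb F M) (L : Submodule F M) : ℕ ×ₗ (ℕ ×ₗ ℕ) :=
  toLex (𝒜.tp L, toLex (Module.finrank F ↥(L ⊓ 𝒜.Q ((𝒜.tp L : ℤ) - 1)),
    𝒜.N * 𝒜.tp L - 𝒜.del L))

theorem Lat.inf_Q_tp {L : Submodule F M} (h : 𝒜.Lat L) : L ⊓ 𝒜.Q (𝒜.tp L) = ⊥ :=
  Nat.sInf_mem (s := {c : ℕ | L ⊓ 𝒜.Q c = ⊥}) h.exists_inf_Q

theorem Lat.inf_Q_of_le {L : Submodule F M} (h : 𝒜.Lat L) {a : ℤ} (ha : (𝒜.tp L : ℤ) ≤ a) :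
    L ⊓ 𝒜.Q a = ⊥ :=
  le_bot_iff.1 (h.inf_Q_tp ▸ inf_le_inf_left _ (𝒜.Q_anti ha))

theorem tp_le {L : Submodule F M} {a : ℤ} (ha : 0 ≤ a) (h : L ⊓ 𝒜.Q a = ⊥) :
    (𝒜.tp L : ℤ) ≤ a := by
  obtain ⟨c, rfl⟩ := Int.eq_ofNat_of_zero_le ha
  exact_mod_cast Nat.sInf_le (s := {c : ℕ | L ⊓ 𝒜.Q c = ⊥}) h

theorem tp_mono {X Y : Submodule F M} (hY : 𝒜.Lat Y) (h : X ≤ Y) : 𝒜.tp X ≤ 𝒜.tp Y := by
  have := tp_le (L := X) (Int.natCast_nonneg (𝒜.tp Y))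
    (le_bot_iff.1 (hY.inf_Q_tp ▸ inf_le_inf_right _ h))
  exact_mod_cast this

theorem inf_Q_pred_ne {L : Submodule F M} (h : 1 ≤ 𝒜.tp L) :
    L ⊓ 𝒜.Q ((𝒜.tp L : ℤ) - 1) ≠ ⊥ := by
  intro h'
  have := tp_le (by omega) h'
  omega

theorem three_le_tp {L : Submodule F M} (hL : 𝒜.Norm L) (hg : ¬ 𝒜.Good L) : 3 ≤ 𝒜.tp L := by
  by_contra h
  exact hg ⟨hL, hL.1.inf_Q_of_le (by omega)⟩

theorem mkey_lt_of_tp {X Y : Submodule F M} (h : 𝒜.tp X < 𝒜.tp Y) : 𝒜.mkey X < 𝒜.mkey Y :=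
  Prod.Lex.toLex_lt_toLex.2 (Or.inl h)

theorem tp_eq_of_le {X Y : Submodule F M} (hX : 𝒜.Lat X) (hY : 𝒜.Lat Y) (hXY : X ≤ Y)
    (h : Y ⊓ 𝒜.Q ((𝒜.tp Y : ℤ) - 1) ≤ X) : 𝒜.tp X = 𝒜.tp Y := by
  have h1 := tp_mono hY hXY
  by_contra hne
  refine inf_Q_pred_ne (𝒜 := 𝒜) (L := Y) (by omega) (le_bot_iff.1 ?_)
  rw [← hX.inf_Q_of_le (a := (𝒜.tp Y : ℤ) - 1) (by omega)]
  exact le_inf h inf_le_right

/-- the key drops upwards when the top layer does not change. -/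
theorem mkey_lt_of_le {X Y : Submodule F M} (hX : 𝒜.Lat X) (hY : 𝒜.Lat Y) (hX1 : X ⊔ 𝒜.Q 1 = ⊤)
    (hXY : X < Y) (h : Y ⊓ 𝒜.Q ((𝒜.tp Y : ℤ) - 1) ≤ X) : 𝒜.mkey Y < 𝒜.mkey X := by
  have e := tp_eq_of_le hX hY hXY.le h
  have e2 : Y ⊓ 𝒜.Q ((𝒜.tp Y : ℤ) - 1) = X ⊓ 𝒜.Q ((𝒜.tp X : ℤ) - 1) := by
    rw [e]
    exact le_antisymm (le_inf h inf_le_right) (inf_le_inf_right _ hXY.le)
  have h1 := del_lt_del hY hX1 hXY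
  have h2 := del_le hY.inf_Q_tp
  refine Prod.Lex.toLex_lt_toLex.2 (Or.inr ⟨e.symm, Prod.Lex.toLex_lt_toLex.2 (Or.inr ⟨?_, ?_⟩)⟩)
  · show Module.finrank F ↥(Y ⊓ 𝒜.Q ((𝒜.tp Y : ℤ) - 1)) =
      Module.finrank F ↥(X ⊓ 𝒜.Q ((𝒜.tp X : ℤ) - 1))
    rw [e2]
  · show 𝒜.N * 𝒜.tp Y - 𝒜.del Y < 𝒜.N * 𝒜.tp X - 𝒜.del X
    rw [e]; omega

/-- the key grows upwards when the top layer changes. -/
theorem mkey_lt_of_not_le {X Y : Submodule F M} (hY : 𝒜.Lat Y) (hXY : X ≤ Y)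
    (h : 𝒜.tp X = 𝒜.tp Y → ¬ Y ⊓ 𝒜.Q ((𝒜.tp Y : ℤ) - 1) ≤ X) : 𝒜.mkey X < 𝒜.mkey Y := by
  rcases (tp_mono hY hXY).lt_or_eq with e | e
  · exact mkey_lt_of_tp e
  refine Prod.Lex.toLex_lt_toLex.2 (Or.inr ⟨e, Prod.Lex.toLex_lt_toLex.2 (Or.inl ?_)⟩)
  show Module.finrank F ↥(X ⊓ 𝒜.Q ((𝒜.tp X : ℤ) - 1)) <
      Module.finrank F ↥(Y ⊓ 𝒜.Q ((𝒜.tp Y : ℤ) - 1))
  have := hY.fin ((𝒜.tp Y : ℤ) - 1)
  rw [e]
  refine Submodule.finrank_lt_finrank_of_lt (lt_of_le_of_ne (inf_le_inf_right _ hXY) ?_)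
  intro h'
  exact h e (h' ▸ inf_le_left)

theorem desc_star {L W : Submodule F M} (hL : 𝒜.Lat L) (h1 : 1 ≤ 𝒜.tp L)
    (h : W ⊓ 𝒜.Q ((𝒜.tp L : ℤ) - 2) ≤ 𝒜.sh (-1) L) : ¬ L ⊓ 𝒜.Q ((𝒜.tp L : ℤ) - 1) ≤ W := by
  intro h'
  refine inf_Q_pred_ne h1 (le_bot_iff.1 ?_)
  have e : 𝒜.sh (-1) L ⊓ 𝒜.Q ((𝒜.tp L : ℤ) - 1) = ⊥ := by
    have := congrArg (𝒜.sh (-1)) hL.inf_Q_tp
    rw [OrderIso.map_inf, OrderIso.map_bot, 𝒜.sh_Q] at this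
    have e : (𝒜.tp L : ℤ) - 1 = -1 + 𝒜.tp L := by ring
    rw [e]; exact this
  rw [← e]
  exact le_inf ((le_inf h' (inf_le_right.trans (𝒜.Q_anti (by omega)))).trans h) inf_le_right

/-- classification of the neighbours of a normalised, non-good lattice `L` (so `c = tp L ≥ 3`).
Recipe: `Es = L ⊓ Q (c-1) ≠ ⊥`, `Ea = Q (c-2)`.
Type 1 (`W ⊔ Q 1 = ⊤`, `nrm W = W < L`): `tp W ≤ c`.  If `¬ Es ≤ W` then `tp W < c` or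
(`tp W = c` and the second entry drops); if `Es ≤ W` then `tp`, second entry agree, `del W < del L`
(`isDim`), so the third entry grows (`del_le`) and `W` is not good.  Also `W ⊓ Ea ≤ sh (-1) L`
implies `¬ Es ≤ W` (as `sh (-1) L ⊓ Q (c-1) = ⊥`).
Type 2 (`nrm W = sh 1 W > L`): `sh 1 W ⊓ Q (a+1) = sh 1 (W ⊓ Q a)`.  `tp ≥ c ≥ 3` so it is not good.
If `W ⊓ Ea ≤ sh (-1) L` then `tp`, second entry agree and `del` grows, so the key drops; otherwise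
`tp` grows or the second entry grows. -/
theorem desc_iff {L W : Submodule F M} (hL : 𝒜.Norm L) (hg : ¬ 𝒜.Good L)
    (h1 : 𝒜.sh (-1) L < W) (h2 : W < L) :
    (W ∈ Dset (𝒜.sh (-1) L) L (𝒜.Q ((𝒜.tp L : ℤ) - 2)) (𝒜.Q 1) (L ⊓ 𝒜.Q ((𝒜.tp L : ℤ) - 1)) →
      𝒜.mkey (𝒜.nrm W) < 𝒜.mkey L) ∧
    (W ∉ Dset (𝒜.sh (-1) L) L (𝒜.Q ((𝒜.tp L : ℤ) - 2)) (𝒜.Q 1) (L ⊓ 𝒜.Q ((𝒜.tp L : ℤ) - 1)) →
      𝒜.mkey L < 𝒜.mkey (𝒜.nrm W) ∧ ¬ 𝒜.Good (𝒜.nrm W)) := by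
  have h3 := three_le_tp hL hg
  have hW : 𝒜.Lat W := hL.1.between h1.le h2.le
  by_cases ht : W ⊔ 𝒜.Q 1 = ⊤
  · -- type 1
    have e : 𝒜.nrm W = W := if_pos ht
    rw [e]
    constructor
    · rintro ⟨-, -, h⟩
      refine mkey_lt_of_not_le hL.1 h2.le fun _ => ?_
      rcases h with h | h
      · exact desc_star hL.1 (by omega) h
      · exact h.2
    · intro h
      have hle : L ⊓ 𝒜.Q ((𝒜.tp L : ℤ) - 1) ≤ W := by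
        by_contra hn
        exact h ⟨h1, h2, Or.inr ⟨ht ▸ le_top, hn⟩⟩
      refine ⟨mkey_lt_of_le hW hL.1 ht h2 hle, fun hgW => ?_⟩
      have h4 := tp_eq_of_le hW hL.1 h2.le hle
      have h5 := tp_le (by norm_num) hgW.2
      omega
  · -- type 2
    have e : 𝒜.nrm W = 𝒜.sh 1 W := if_neg ht
    rw [e]
    have hW' : 𝒜.Lat (𝒜.sh 1 W) := hW.sh 1
    have hlt : L < 𝒜.sh 1 W := by
      have := (𝒜.sh 1).strictMono h1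
      rwa [𝒜.sh_sh_neg] at this
    have hiff : W ⊓ 𝒜.Q ((𝒜.tp L : ℤ) - 2) ≤ 𝒜.sh (-1) L ↔
        𝒜.sh 1 W ⊓ 𝒜.Q ((𝒜.tp L : ℤ) - 1) ≤ L := by
      rw [𝒜.le_sh_neg_iff, OrderIso.map_inf, 𝒜.sh_Q]
      have : (1 : ℤ) + ((𝒜.tp L : ℤ) - 2) = (𝒜.tp L : ℤ) - 1 := by ring
      rw [this]
    constructor
    · rintro ⟨-, -, h⟩
      have hle : 𝒜.sh 1 W ⊓ 𝒜.Q ((𝒜.tp L : ℤ) - 1) ≤ L := by
        rcases h with h | h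
        · exact hiff.1 h
        · exact absurd (top_le_iff.1 (hL.2.1 ▸ sup_le h.1 le_sup_right)) ht
      have h4 : (𝒜.tp (𝒜.sh 1 W) : ℤ) ≤ 𝒜.tp L := by
        refine tp_le (Int.natCast_nonneg _) (le_bot_iff.1 ?_)
        rw [← hL.1.inf_Q_tp]
        exact le_inf ((inf_le_inf_left _ (𝒜.Q_anti (by omega))).trans hle) inf_le_right
      have h5 := tp_mono hW' hlt.le
      have h6 : 𝒜.tp (𝒜.sh 1 W) = 𝒜.tp L := by omega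
      exact mkey_lt_of_le hL.1 hW' hL.2.1 hlt (by rw [h6]; exact hle)
    · intro h
      refine ⟨mkey_lt_of_not_le hW' hlt.le fun h6 hle => ?_, fun hgW => ?_⟩
      · rw [← h6] at hle
        exact h ⟨h1, h2, Or.inl (hiff.2 hle)⟩
      · have h4 := tp_mono hW' hlt.le
        have h5 := tp_le (by norm_num) hgW.2
        omega

theorem desc_hyp {L : Submodule F M} (hL : 𝒜.Norm L) (hg : ¬ 𝒜.Good L) :
    DHyp (𝒜.sh (-1) L) L (𝒜.Q ((𝒜.tp L : ℤ) - 2)) (𝒜.Q 1) (L ⊓ 𝒜.Q ((𝒜.tp L : ℤ) - 1)) := by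
  have h3 := three_le_tp hL hg
  exact ⟨hL.1.sh_neg_le, 𝒜.Q_anti (by omega), inf_le_left,
    fun W _ _ h => desc_star hL.1 (by omega) h⟩

/-- flag complexes correspond under a map that is injective and reflects adjacency. -/
theorem mem_Flag_image_iff {V V' : Type*} [DecidableEq V'] (adj : V → V → Prop)
    (adj' : V' → V' → Prop) (S : Set V) (φ : V → V') (hφ : Set.InjOn φ S)
    (ha : ∀ a ∈ S, ∀ b ∈ S, adj' (φ a) (φ b) ↔ adj a b) (τ : Finset V') :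
    τ ∈ Flag adj' (φ '' S) ↔ ∃ σ ∈ Flag adj S, σ.image φ = τ := by
  constructor
  · intro h
    obtain ⟨σ, hσ, rfl⟩ := Finset.subset_set_image_iff.1 (show (τ : Set V') ⊆ φ '' S from h.1)
    refine ⟨σ, ⟨fun v hv => hσ hv, fun v hv w hw hne => ?_⟩, rfl⟩
    exact (ha v (hσ hv) w (hσ hw)).1 (h.2 _ (Finset.mem_image_of_mem φ hv) _
      (Finset.mem_image_of_mem φ hw) fun e => hne (hφ (hσ hv) (hσ hw) e))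
  · rintro ⟨σ, hσ, rfl⟩
    refine ⟨fun v hv => ?_, fun v hv w hw hne => ?_⟩
    · obtain ⟨a, ha', rfl⟩ := Finset.mem_image.1 hv
      exact ⟨a, hσ.1 a ha', rfl⟩
    · obtain ⟨a, ha', rfl⟩ := Finset.mem_image.1 hv
      obtain ⟨b, hb', rfl⟩ := Finset.mem_image.1 hw
      exact (ha a (hσ.1 a ha') b (hσ.1 b hb')).2 (hσ.2 a ha' b hb' fun e => hne (by rw [e]))

/-- Recipe: `morse` with `U = Norm`, `Gd = Good`, `key = mkey`; by `Norm.nrm`, `Norm.exists_nrm`,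
`desc_iff` the descending vertex set is `nrm '' Dset …`, and the flag complexes correspond by
`adj_nrm_iff`, `nrm_injOn`; transport with `Exact.image`. -/
theorem morse_good {j : ℕ}
    (hex : ∀ L Ea Es : Submodule F M, 𝒜.Norm L → DHyp (𝒜.sh (-1) L) L Ea (𝒜.Q 1) Es →
      Exact (Dcx (𝒜.sh (-1) L) L Ea (𝒜.Q 1) Es) j)
    {c : Ch (Submodule F M)} (hc : c ∈ Cs (Flag 𝒜.adj {L | 𝒜.Norm L}) (j + 1))
    (hbd : bd c ∈ Cs 𝒜.Δ j) : ∃ c' ∈ Cs 𝒜.Δ (j + 1), bd c' = bd c := by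
  have e : 𝒜.Δ = Flag 𝒜.adj ({L | 𝒜.Norm L} ∩ {L | 𝒜.Good L}) := by
    have : {L | 𝒜.Good L} ⊆ {L | 𝒜.Norm L} := fun L hL => hL.1
    rw [Set.inter_eq_right.2 this]; rfl
  rw [e] at hbd ⊢
  refine morse 𝒜.adj adj_symm _ _ 𝒜.mkey j ?_ ?_ hc hbd
  · intro v hv w hw hv' _ hne ha
    obtain ⟨W, h1, h2, rfl⟩ := Norm.exists_nrm hv hw ha hne.symm
    have h := desc_iff hv hv' h1 h2
    by_cases hW : W ∈ Dset (𝒜.sh (-1) v) v (𝒜.Q ((𝒜.tp v : ℤ) - 2)) (𝒜.Q 1)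
      (v ⊓ 𝒜.Q ((𝒜.tp v : ℤ) - 1))
    · exact (h.1 hW).ne'
    · exact (h.2 hW).1.ne
  · intro v hv hv'
    have hS : {w | w ∈ {L | 𝒜.Norm L} ∧ w ≠ v ∧ 𝒜.adj v w ∧
        (w ∈ {L | 𝒜.Good L} ∨ 𝒜.mkey w < 𝒜.mkey v)} =
        𝒜.nrm '' Dset (𝒜.sh (-1) v) v (𝒜.Q ((𝒜.tp v : ℤ) - 2)) (𝒜.Q 1)
          (v ⊓ 𝒜.Q ((𝒜.tp v : ℤ) - 1)) := by
      ext w
      constructor
      · rintro ⟨hw, hne, ha, hor⟩
        obtain ⟨W, h1, h2, rfl⟩ := Norm.exists_nrm hv hw ha hne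
        refine ⟨W, ?_, rfl⟩
        by_contra hW
        have h := (desc_iff hv hv' h1 h2).2 hW
        rcases hor with hor | hor
        · exact h.2 hor
        · exact lt_asymm hor h.1
      · rintro ⟨W, hW, rfl⟩
        have h := Norm.nrm hv hW.1 hW.2.1
        exact ⟨h.1, h.2.2, h.2.1, Or.inr ((desc_iff hv hv' hW.1 hW.2.1).1 hW)⟩
    rw [hS]
    have hinj : Set.InjOn 𝒜.nrm (Dset (𝒜.sh (-1) v) v (𝒜.Q ((𝒜.tp v : ℤ) - 2)) (𝒜.Q 1)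
        (v ⊓ 𝒜.Q ((𝒜.tp v : ℤ) - 1))) :=
      (nrm_injOn v).mono fun W hW => And.intro hW.1.le hW.2.1
    exact Exact.image (Flag_isCx _ _) 𝒜.nrm _ (fun σ hσ => hσ.1) hinj
      (mem_Flag_image_iff Cmp 𝒜.adj _ 𝒜.nrm hinj
        fun a ha b hb => adj_nrm_iff ha.1.le ha.2.1 hb.1.le hb.2.1)
      (hex v _ _ hv (desc_hyp hv hv'))

/-- Recipe: combine the three steps; `hex` from `D_contr`, `HasContr.exact`, `isDim`,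
`del (sh (-1) L) + N = del L`. -/
theorem Delta_exact (m : ℕ) : ∃ q₀ : ℕ, ∀ (F M : Type) [Field F] [Fintype F] [AddCommGroup M]
    [Module F M] (𝒜 : Amb F M), q₀ ≤ Fintype.card F → m + 2 ≤ 𝒜.N → ∀ j ≤ m, Exact 𝒜.Δ j := by
  obtain ⟨R, q₀, hD⟩ := D_contr m
  refine ⟨q₀, fun F M _ _ _ _ 𝒜 hq hN j hj z hz hbd => ?_⟩
  have hz1 : z ∈ Cs (Flag 𝒜.adj {L | 𝒜.Norm L}) j :=
    Cs_mono (Flag_mono _ fun L (hL : 𝒜.Good L) => hL.1) j hz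
  have hz2 : z ∈ Cs (Flag 𝒜.adj {L | 𝒜.Lat L ∧ L ⊔ 𝒜.Q 1 = ⊤}) j :=
    Cs_mono (Flag_mono _ fun L (hL : 𝒜.Norm L) => And.intro hL.1 hL.2.1) j hz1
  obtain ⟨c, hc, rfl⟩ := exact_B0 hz2 hbd
  obtain ⟨c', hc', e⟩ := morse_norm (by omega) hc hz1
  rw [← e] at hz ⊢
  refine morse_good (fun L Ea Es hL hH => ?_) hc' hz
  refine (hD F M _ _ _ _ _ 𝒜.del hH (isDim hL.1 (sh_neg_sup_Q_zero hL.2.1)) hq ?_).exact hj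
  rw [del_sh_neg, del_eq hL.1 hL.2.1]
  omega

end Crest.Agent.R66.Amb
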