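import Crest.Agent.R66.Chain

/-! # Row 66: basic facts on lattices -/

set_option linter.unusedSectionVars false

namespace Crest.Agent.R66.Amb

variable {F M : Type*} [Field F] [AddCommGroup M] [Module F M] (𝒜 : Amb F M)

@[simp] theorem sh_zero (L : Submodule F M) : 𝒜.sh 0 L = L := by
  simp [sh]

theorem sh_sh (a b : ℤ) (L : Submodule F M) : 𝒜.sh a (𝒜.sh b L) = 𝒜.sh (a + b) L := by
  simp only [sh, zpow_add]; rfl

theorem sh_one (L : Submodule F M) : 𝒜.sh 1 L = L.map (𝒜.t : M →ₗ[F] M) := by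
  simp only [sh, zpow_one]; rfl

@[simp] theorem sh_neg_sh (a : ℤ) (L : Submodule F M) : 𝒜.sh (-a) (𝒜.sh a L) = L := by
  rw [sh_sh, neg_add_cancel, sh_zero]

@[simp] theorem sh_sh_neg (a : ℤ) (L : Submodule F M) : 𝒜.sh a (𝒜.sh (-a) L) = L := by
  rw [sh_sh, add_neg_cancel, sh_zero]

theorem sh_neg_le_iff (a : ℤ) (L L' : Submodule F M) : 𝒜.sh (-a) L ≤ L' ↔ L ≤ 𝒜.sh a L' := by
  rw [← (𝒜.sh a).le_iff_le, sh_sh_neg]

theorem le_sh_neg_iff (a : ℤ) (L L' : Submodule F M) : L ≤ 𝒜.sh (-a) L' ↔ 𝒜.sh a L ≤ L' := by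
  rw [← (𝒜.sh a).le_iff_le, sh_sh_neg]

theorem sh_Q (m a : ℤ) : 𝒜.sh m (𝒜.Q a) = 𝒜.Q (m + a) := by
  rw [Q, Q, sh_sh]

theorem Q_zero : 𝒜.Q 0 = 𝒜.P := by simp [Q]

/-- every shift is the image under a linear automorphism (`t ^ m`). -/
theorem exists_sh_eq_map (m : ℤ) : ∃ e : M ≃ₗ[F] M, ∀ L : Submodule F M,
    𝒜.sh m L = L.map (e : M →ₗ[F] M) := by
  induction m using Int.induction_on with
  | zero => exact ⟨LinearEquiv.refl F M, fun L => by simp⟩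
  | succ m ih =>
    obtain ⟨e, he⟩ := ih
    refine ⟨e.trans 𝒜.t, fun L => ?_⟩
    rw [add_comm, ← sh_sh, sh_one, he, ← Submodule.map_comp]
    rfl
  | pred m ih =>
    obtain ⟨e, he⟩ := ih
    refine ⟨e.trans 𝒜.t.symm, fun L => (𝒜.sh 1).injective ?_⟩
    rw [sh_sh, add_sub_cancel, he, sh_one, ← Submodule.map_comp]
    congr 1
    ext x
    simp

theorem finrank_sh (m : ℤ) (L : Submodule F M) :
    Module.finrank F ↥(𝒜.sh m L) = Module.finrank F ↥L := by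
  obtain ⟨e, he⟩ := 𝒜.exists_sh_eq_map m
  rw [he, LinearEquiv.finrank_map_eq]

theorem finite_sh (m : ℤ) (L : Submodule F M) [FiniteDimensional F ↥L] :
    FiniteDimensional F ↥(𝒜.sh m L) := by
  obtain ⟨e, he⟩ := 𝒜.exists_sh_eq_map m
  rw [he]
  infer_instance

theorem sh_mono_int {L : Submodule F M} (hL : L ≤ 𝒜.sh 1 L) {a b : ℤ} (h : a ≤ b) :
    𝒜.sh a L ≤ 𝒜.sh b L := by
  induction b, h using Int.le_induction with
  | base => exact le_rfl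
  | succ b _ ih => exact ih.trans (by rw [← sh_sh]; exact (𝒜.sh b).monotone hL)

theorem Q_anti {a b : ℤ} (h : a ≤ b) : 𝒜.Q b ≤ 𝒜.Q a := by
  induction b, h using Int.le_induction with
  | base => exact le_rfl
  | succ b _ ih =>
    refine le_trans ?_ ih
    rw [Q, Q, ← sh_sh]
    exact (𝒜.sh b).monotone (by rw [sh_one]; exact 𝒜.P_le)

theorem Λ_inf_Q (m : ℤ) : 𝒜.sh m 𝒜.Λ ⊓ 𝒜.Q (m + 1) = ⊥ := by
  rw [Q, ← sh_sh, ← map_inf, sh_one]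
  exact (congrArg _ 𝒜.inf_eq).trans (map_bot _)

theorem Λ_sup_Q (m : ℤ) : 𝒜.sh m 𝒜.Λ ⊔ 𝒜.Q (m + 1) = ⊤ := by
  rw [Q, ← sh_sh, ← map_sup, sh_one]
  exact (congrArg _ 𝒜.sup_eq).trans (map_top _)

theorem lat_Λ : 𝒜.Lat 𝒜.Λ := by
  exact ⟨by rw [sh_one]; exact 𝒜.Λ_le, 0, by simp, by simp⟩

variable {𝒜}

theorem Lat.sh {L : Submodule F M} (h : 𝒜.Lat L) (m : ℤ) : 𝒜.Lat (𝒜.sh m L) := by
  obtain ⟨h1, k, h2, h3⟩ := h
  refine ⟨?_, k + m.natAbs, ?_, ?_⟩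
  · rw [sh_sh, add_comm, ← sh_sh]
    exact (𝒜.sh m).monotone h1
  · refine le_trans ?_ ((𝒜.sh m).monotone h2)
    rw [sh_sh]
    exact 𝒜.sh_mono_int 𝒜.lat_Λ.1 (by omega)
  · refine ((𝒜.sh m).monotone h3).trans ?_
    rw [sh_sh]
    exact 𝒜.sh_mono_int 𝒜.lat_Λ.1 (by omega)

theorem Lat.sup {L L' : Submodule F M} (h : 𝒜.Lat L) (h' : 𝒜.Lat L') : 𝒜.Lat (L ⊔ L') := by
  obtain ⟨h1, k, h2, h3⟩ := h
  obtain ⟨h1', k', -, h3'⟩ := h'
  refine ⟨?_, k + k', ?_, sup_le ?_ ?_⟩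
  · rw [map_sup]
    exact sup_le_sup h1 h1'
  · exact ((𝒜.sh_mono_int 𝒜.lat_Λ.1 (by omega)).trans h2).trans le_sup_left
  · exact h3.trans (𝒜.sh_mono_int 𝒜.lat_Λ.1 (by omega))
  · exact h3'.trans (𝒜.sh_mono_int 𝒜.lat_Λ.1 (by omega))

theorem Lat.between {V W : Submodule F M} (h : 𝒜.Lat V) (h1 : 𝒜.sh (-1) V ≤ W) (h2 : W ≤ V) :
    𝒜.Lat W := by
  obtain ⟨-, k, h3, h4⟩ := h
  refine ⟨h2.trans ((𝒜.sh_neg_le_iff 1 _ _).1 h1), k + 1, le_trans ?_ h1,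
    (h2.trans h4).trans (𝒜.sh_mono_int 𝒜.lat_Λ.1 (by omega))⟩
  refine le_trans ?_ ((𝒜.sh (-1)).monotone h3)
  rw [sh_sh]
  exact 𝒜.sh_mono_int 𝒜.lat_Λ.1 (by omega)

theorem Lat.exists_inf_Q {L : Submodule F M} (h : 𝒜.Lat L) : ∃ c : ℕ, L ⊓ 𝒜.Q c = ⊥ := by
  obtain ⟨-, k, -, h4⟩ := h
  exact ⟨k + 1, le_bot_iff.1 ((inf_le_inf_right _ h4).trans (𝒜.Λ_inf_Q k).le)⟩

theorem finrank_map_add_inf_ker {M' : Type*} [AddCommGroup M'] [Module F M'] (f : M →ₗ[F] M')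
    (X : Submodule F M) [FiniteDimensional F ↥X] :
    Module.finrank F ↥(X.map f) + Module.finrank F ↥(X ⊓ LinearMap.ker f) = Module.finrank F ↥X := by
  rw [← LinearMap.finrank_range_add_finrank_ker (f.domRestrict X), LinearMap.range_domRestrict,
    LinearMap.ker_domRestrict, ← Submodule.map_comap_subtype, Submodule.finrank_map_subtype_eq]

/-- Recipe: `U = sh a (Λ ⊓ P) = sh a Λ ⊓ Q a` has rank `N`, `U ⊓ Q (a+1) = ⊥` and
`U ⊔ Q (a+1) = Q a` (modular law).  Let `X = L ⊓ Q a`, `Y = Q (a+1)`; the image of `X` in `M ⧸ Y`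
lies in the image of `U` (rank `N`) with equality iff `Q a ≤ L ⊔ Y`, and the kernel is
`L ⊓ Q (a+1)` (`LinearMap.finrank_range_add_finrank_ker`).  This also gives finite-dimensionality
of `L ⊓ Q a` from that of `L ⊓ Q (a+1)`. -/
theorem rank_step (L : Submodule F M) (a : ℤ) [FiniteDimensional F ↥(L ⊓ 𝒜.Q (a + 1))] :
    FiniteDimensional F ↥(L ⊓ 𝒜.Q a) ∧
    Module.finrank F ↥(L ⊓ 𝒜.Q a) ≤ Module.finrank F ↥(L ⊓ 𝒜.Q (a + 1)) + 𝒜.N ∧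
    (Module.finrank F ↥(L ⊓ 𝒜.Q a) = Module.finrank F ↥(L ⊓ 𝒜.Q (a + 1)) + 𝒜.N ↔
      𝒜.Q a ≤ L ⊔ 𝒜.Q (a + 1)) := by
  have hle : 𝒜.Q (a + 1) ≤ 𝒜.Q a := 𝒜.Q_anti (by omega)
  have := 𝒜.fin
  have := 𝒜.finite_sh a (𝒜.Λ ⊓ 𝒜.P)
  set U := 𝒜.sh a (𝒜.Λ ⊓ 𝒜.P) with hU
  have hUr : Module.finrank F ↥U = 𝒜.N := (𝒜.finrank_sh _ _).trans 𝒜.rank
  have hU' : U = 𝒜.sh a 𝒜.Λ ⊓ 𝒜.Q a := map_inf _ _ _
  have h1 : U ⊓ 𝒜.Q (a + 1) = ⊥ :=
    le_bot_iff.1 ((inf_le_inf_right _ (hU'.le.trans inf_le_left)).trans (𝒜.Λ_inf_Q a).le)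
  have h2 : U ⊔ 𝒜.Q (a + 1) = 𝒜.Q a := by
    rw [hU', inf_comm, inf_sup_assoc_of_le _ hle, 𝒜.Λ_sup_Q, inf_top_eq]
  set f := (𝒜.Q (a + 1)).mkQ
  have hk : LinearMap.ker f = 𝒜.Q (a + 1) := Submodule.ker_mkQ _
  have h3 : (𝒜.Q a).map f = U.map f := by
    rw [← h2, Submodule.map_sup, Submodule.mkQ_map_self, sup_bot_eq]
  have h4 : Module.finrank F ↥(U.map f) = 𝒜.N := by
    have := finrank_map_add_inf_ker f U
    rw [hk, h1, finrank_bot] at this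
    omega
  have h5 : (L ⊓ 𝒜.Q a).map f ≤ U.map f := h3 ▸ Submodule.map_mono inf_le_right
  have h6 : L ⊓ 𝒜.Q a ⊓ LinearMap.ker f = L ⊓ 𝒜.Q (a + 1) := by
    rw [hk, inf_assoc, inf_eq_right.2 hle]
  have h7 : FiniteDimensional F ↥(L ⊓ 𝒜.Q a) := by
    have := Submodule.finiteDimensional_of_le h5
    refine Module.Finite.iff_fg.2 (Submodule.fg_of_fg_map_of_fg_inf_ker f
      (Module.Finite.iff_fg.1 this) ?_)
    rw [h6]
    exact Module.Finite.iff_fg.1 inferInstance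
  have h8 := finrank_map_add_inf_ker f (L ⊓ 𝒜.Q a)
  rw [h6] at h8
  have h9 := Submodule.finrank_mono h5
  refine ⟨h7, by omega, fun h => ?_, fun h => ?_⟩
  · have e := Submodule.eq_of_le_of_finrank_eq h5 (by omega)
    rw [← h3] at e
    have := Submodule.map_le_iff_le_comap.1 e.ge
    rw [Submodule.comap_map_eq, hk] at this
    exact this.trans (sup_le_sup_right inf_le_left _)
  · have e : (L ⊓ 𝒜.Q a).map f = U.map f := by
      refine le_antisymm h5 ?_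
      rw [← h3, Submodule.map_le_iff_le_comap, Submodule.comap_map_eq, hk, inf_comm,
        inf_sup_assoc_of_le _ hle]
      exact le_inf le_rfl h
    rw [e] at h8
    omega

/-- Recipe: `exists_inf_Q` and downward induction with `rank_step` (`Int.le_induction_down`), or
`Q_anti` above the vanishing level. -/
theorem Lat.fin {L : Submodule F M} (h : 𝒜.Lat L) (a : ℤ) : FiniteDimensional F ↥(L ⊓ 𝒜.Q a) := by
  obtain ⟨c, hc⟩ := h.exists_inf_Q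
  rcases le_total a c with hac | hac
  · induction a, hac using Int.le_induction_down with
    | base => rw [hc]; infer_instance
    | pred a _ ih =>
      have : FiniteDimensional F ↥(L ⊓ 𝒜.Q (a - 1 + 1)) := by rwa [sub_add_cancel]
      exact (rank_step L (a - 1)).1
  · rw [le_bot_iff.1 ((inf_le_inf_left _ (𝒜.Q_anti hac)).trans hc.le)]
    infer_instance

theorem del_le {L : Submodule F M} {c : ℕ} (h : L ⊓ 𝒜.Q c = ⊥) : 𝒜.del L ≤ 𝒜.N * c := by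
  have key : ∀ k : ℕ, FiniteDimensional F ↥(L ⊓ 𝒜.Q (c - k)) ∧
      Module.finrank F ↥(L ⊓ 𝒜.Q (c - k)) ≤ 𝒜.N * k := by
    intro k
    induction k with
    | zero =>
      rw [Nat.cast_zero, sub_zero, h]
      exact ⟨inferInstance, by simp⟩
    | succ k ih =>
      rw [show (c : ℤ) - k = c - (k + 1 : ℕ) + 1 by push_cast; ring] at ih
      have := ih.1
      obtain ⟨h1, h2, -⟩ := rank_step (𝒜 := 𝒜) L (c - (k + 1 : ℕ))
      exact ⟨h1, h2.trans (by rw [mul_add, mul_one]; exact Nat.add_le_add_right ih.2 _)⟩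
  have := (key c).2
  rwa [sub_self] at this

theorem del_sh_neg (L : Submodule F M) : 𝒜.del (𝒜.sh (-1) L) = 𝒜.typ L := by
  rw [del, typ, ← 𝒜.finrank_sh (-1) (L ⊓ 𝒜.Q 1), map_inf, sh_Q, neg_add_cancel]

theorem typ_sh_one (W : Submodule F M) : 𝒜.typ (𝒜.sh 1 W) = 𝒜.del W := by
  rw [← del_sh_neg, sh_neg_sh]

theorem del_eq {L : Submodule F M} (h : 𝒜.Lat L) (h1 : L ⊔ 𝒜.Q 1 = ⊤) :
    𝒜.del L = 𝒜.typ L + 𝒜.N := by
  have : FiniteDimensional F ↥(L ⊓ 𝒜.Q (0 + 1)) := h.fin _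
  have := (rank_step (𝒜 := 𝒜) L 0).2.2
  rw [zero_add] at this
  exact this.2 (h1 ▸ le_top)

theorem Good.typ_lt {L : Submodule F M} (h : 𝒜.Good L) : 𝒜.typ L < 𝒜.N := by
  obtain ⟨⟨h1, h2, h3⟩, h4⟩ := h
  have : FiniteDimensional F ↥(L ⊓ 𝒜.Q (1 + 1)) := h1.fin _
  obtain ⟨-, h5, h6⟩ := rank_step (𝒜 := 𝒜) L 1
  rw [one_add_one_eq_two, h4, finrank_bot, zero_add] at h5 h6
  refine lt_of_le_of_ne h5 fun e => h3 (top_le_iff.1 ?_)
  rw [← h2]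
  exact sup_le le_sup_left (h6.1 e)

/-- Recipe: `mono`: `W ⊓ Q 0 < W' ⊓ Q 0` by the modular law (`W' = W ⊔ (W' ⊓ Q 0)`);
`step`: write `x = b + p`, then `(W ⊔ span {x}) ⊓ Q 0 = (W ⊓ Q 0) ⊔ span {p}`. -/
theorem isDim {B V : Submodule F M} (hV : 𝒜.Lat V) (hB : B ⊔ 𝒜.Q 0 = ⊤) : IsDim B V 𝒜.del := by
  have := hV.fin 0
  refine ⟨fun W W' h1 h2 h3 => ?_, fun W x h1 h2 _ => ?_⟩
  · have := Submodule.finiteDimensional_of_le (inf_le_inf_right (𝒜.Q 0) h3)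
    refine Submodule.finrank_lt_finrank_of_lt
      (lt_of_le_of_ne (inf_le_inf_right _ h2.le) fun e => h2.ne ?_)
    have h4 : W ⊔ 𝒜.Q 0 = ⊤ := top_le_iff.1 (hB ▸ sup_le_sup_right h1 _)
    have h5 : W ⊔ 𝒜.Q 0 ⊓ W' = W' := by rw [← sup_inf_assoc_of_le _ h2.le, h4, top_inf_eq]
    rw [← h5, inf_comm, ← e, sup_inf_self]
  · have := Submodule.finiteDimensional_of_le (inf_le_inf_right (𝒜.Q 0) h2)
    obtain ⟨b, hb, p, hp, rfl⟩ := Submodule.mem_sup.1 (hB ▸ Submodule.mem_top (x := x))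
    have h3 : W ⊔ Submodule.span F {b + p} ≤ Submodule.span F {p} ⊔ W := by
      refine sup_le le_sup_right ((Submodule.span_singleton_le_iff_mem _ _).2 ?_)
      exact add_mem (Submodule.mem_sup_right (h1 hb))
        (Submodule.mem_sup_left (Submodule.mem_span_singleton_self p))
    have h4 := inf_le_inf_right (𝒜.Q 0) h3
    rw [sup_inf_assoc_of_le _ ((Submodule.span_singleton_le_iff_mem _ _).2 hp)] at h4
    have h5 := Submodule.finrank_add_le_finrank_add_finrank (Submodule.span F {p}) (W ⊓ 𝒜.Q 0)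
    have h6 : Module.finrank F ↥(Submodule.span F {p}) ≤ 1 := by
      simpa using finrank_span_le_card (R := F) ({p} : Set M)
    have h7 := Submodule.finrank_mono h4
    unfold del
    omega

theorem sh_neg_sup_Q_zero {L : Submodule F M} (h1 : L ⊔ 𝒜.Q 1 = ⊤) :
    𝒜.sh (-1) L ⊔ 𝒜.Q 0 = ⊤ := by
  have := congrArg (𝒜.sh (-1)) h1
  rwa [map_sup, sh_Q, neg_add_cancel, map_top] at this

theorem Good.typ_lt_typ {L L' : Submodule F M} (h : 𝒜.Good L) (h' : 𝒜.Good L') (hlt : L < L') :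
    𝒜.typ L < 𝒜.typ L' := by
  rw [← del_sh_neg, ← del_sh_neg]
  exact (isDim (h'.1.1.sh (-1)) (sh_neg_sup_Q_zero h.1.2.1)).mono _ _ le_rfl
    ((𝒜.sh (-1)).strictMono hlt) le_rfl

theorem good_Λ (hN : 1 ≤ 𝒜.N) : 𝒜.Good 𝒜.Λ := by
  have h1 : 𝒜.Λ ⊓ 𝒜.Q 1 = ⊥ := by simpa using 𝒜.Λ_inf_Q 0
  have h2 : 𝒜.Λ ⊓ 𝒜.Q 2 = ⊥ :=
    le_bot_iff.1 ((inf_le_inf_left _ (𝒜.Q_anti (by norm_num))).trans h1.le)
  refine ⟨⟨𝒜.lat_Λ, by simpa using 𝒜.Λ_sup_Q 0, fun h => ?_⟩, h2⟩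
  have : FiniteDimensional F ↥(𝒜.Λ ⊓ 𝒜.Q (1 + 1)) := 𝒜.lat_Λ.fin _
  obtain ⟨-, -, h6⟩ := rank_step (𝒜 := 𝒜) 𝒜.Λ 1
  rw [one_add_one_eq_two, h1, h2, h, finrank_bot] at h6
  have := h6.2 le_top
  omega

theorem typ_Λ : 𝒜.typ 𝒜.Λ = 0 := by
  have h1 : 𝒜.Λ ⊓ 𝒜.Q 1 = ⊥ := by simpa using 𝒜.Λ_inf_Q 0
  rw [typ, h1, finrank_bot]

theorem adj_symm (L L' : Submodule F M) (h : 𝒜.adj L L') : 𝒜.adj L' L := h.symm

theorem adj_le {L L' : Submodule F M} (hL : 𝒜.Lat L) (h : 𝒜.adj L L') : L' ≤ 𝒜.sh 1 L := by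
  rcases h with h | h
  · exact (𝒜.sh_neg_le_iff 1 _ _).1 h.2
  · exact h.1.trans hL.1

theorem adj_ge {L L' : Submodule F M} (hL : 𝒜.Lat L) (h : 𝒜.adj L L') : 𝒜.sh (-1) L ≤ L' := by
  rcases h with h | h
  · exact ((𝒜.sh_neg_le_iff 1 _ _).2 hL.1).trans h.1
  · exact h.2

theorem Δ_isCx : IsCx 𝒜.Δ := Flag_isCx _ _

theorem singleton_mem_Δ {L : Submodule F M} : ({L} : Finset (Submodule F M)) ∈ 𝒜.Δ ↔ 𝒜.Good L :=
  singleton_mem_Flag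

/-- the type-`0` vertex of a simplex is its smallest vertex. -/
theorem le_of_typ_zero {L L' : Submodule F M} (h : 𝒜.Good L) (h' : 𝒜.Good L') (h0 : 𝒜.typ L = 0)
    (ha : 𝒜.adj L L') : L ≤ L' ∧ L' ≤ 𝒜.sh 1 L := by
  refine ⟨?_, adj_le h.1.1 ha⟩
  rcases ha with ha | ha
  · exact ha.1
  · rcases ha.1.eq_or_lt with e | e
    · exact e.ge
    · have := h'.typ_lt_typ h e
      omega

end Crest.Agent.R66.Amb
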