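import Crest.Agent.R66.Defs

/-! # Row 66: basic chain lemmas -/

set_option linter.unusedSectionVars false

namespace Crest.Agent.R66

variable {V V' : Type*} [DecidableEq V] [DecidableEq V']

theorem z2_cases (r : ZMod 2) : r = 0 ∨ r = 1 := by
  revert r; decide

theorem add_self2 {M : Type*} [AddCommGroup M] [Module (ZMod 2) M] (x : M) : x + x = 0 := by
  have h : (1 + 1 : ZMod 2) = 0 := by decide
  calc x + x = (1 + 1 : ZMod 2) • x := by rw [add_smul, one_smul]
    _ = 0 := by rw [h, zero_smul]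

theorem neg_eq2 {M : Type*} [AddCommGroup M] [Module (ZMod 2) M] (x : M) : -x = x :=
  neg_eq_of_add_eq_zero_left (add_self2 x)

theorem sub_eq2 {M : Type*} [AddCommGroup M] [Module (ZMod 2) M] (x y : M) : x - y = x + y := by
  rw [sub_eq_add_neg, neg_eq2]

theorem eq_of_add_eq_zero2 {M : Type*} [AddCommGroup M] [Module (ZMod 2) M] {x y : M}
    (h : x + y = 0) : x = y := by
  rw [← sub_eq2] at h; exact sub_eq_zero.1 h

/-- an odd multiple is the identity on an `F₂`-module -/
theorem odd_nsmul2 {M : Type*} [AddCommGroup M] [Module (ZMod 2) M] {n : ℕ} (hn : Odd n) (x : M) :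
    n • x = x := by
  obtain ⟨k, rfl⟩ := hn
  rw [add_smul, one_smul, mul_smul, two_smul, add_self2, zero_add]

@[simp] theorem bd_single (σ : Finset V) :
    bd (Finsupp.single σ (1 : ZMod 2)) = ∑ v ∈ σ, Finsupp.single (σ.erase v) (1 : ZMod 2) := by
  simp [bd]

theorem cone_single (a : V) (σ : Finset V) :
    cone a (Finsupp.single σ (1 : ZMod 2)) =
      if a ∈ σ then 0 else Finsupp.single (insert a σ) (1 : ZMod 2) := by
  simp [cone]

theorem lk_single (v : V) (σ : Finset V) :
    lk v (Finsupp.single σ (1 : ZMod 2)) =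
      if v ∈ σ then Finsupp.single (σ.erase v) (1 : ZMod 2) else 0 := by
  simp [lk]

omit [DecidableEq V] in
@[simp] theorem mapC_single (φ : V → V') (σ : Finset V) (r : ZMod 2) :
    mapC φ (Finsupp.single σ r) = Finsupp.single (σ.image φ) r := by
  simp [mapC]

omit [DecidableEq V] in
theorem eq_sum_support (c : Ch V) :
    c = ∑ σ ∈ c.support, Finsupp.single σ (1 : ZMod 2) := by
  conv_lhs => rw [← Finsupp.sum_single c]
  refine Finset.sum_congr rfl fun σ hσ => ?_
  rcases z2_cases (c σ) with h | h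
  · exact absurd h (Finsupp.mem_support_iff.1 hσ)
  · rw [h]

omit [DecidableEq V] in
theorem map_eq_sum_support {M : Type*} [AddCommGroup M] [Module (ZMod 2) M]
    (α : Ch V →ₗ[ZMod 2] M) (c : Ch V) :
    α c = ∑ σ ∈ c.support, α (Finsupp.single σ (1 : ZMod 2)) := by
  conv_lhs => rw [eq_sum_support c, map_sum]

omit [DecidableEq V] in
/-- two linear maps agreeing on the faces in the support of `c` agree on `c`. -/
theorem map_congr_support {M : Type*} [AddCommGroup M] [Module (ZMod 2) M]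
    (α β : Ch V →ₗ[ZMod 2] M) (c : Ch V)
    (h : ∀ σ ∈ c.support, α (Finsupp.single σ 1) = β (Finsupp.single σ 1)) : α c = β c := by
  rw [map_eq_sum_support α, map_eq_sum_support β]
  exact Finset.sum_congr rfl h

omit [DecidableEq V] in
theorem ch_hom_ext {M : Type*} [AddCommGroup M] [Module (ZMod 2) M]
    {α β : Ch V →ₗ[ZMod 2] M}
    (h : ∀ σ, α (Finsupp.single σ 1) = β (Finsupp.single σ 1)) : α = β :=
  LinearMap.ext fun c => map_congr_support α β c fun σ _ => h σ

omit [DecidableEq V] in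
theorem mem_Cs {K : Set (Finset V)} {j : ℕ} {c : Ch V} :
    c ∈ Cs K j ↔ ∀ σ ∈ c.support, σ ∈ K ∧ σ.card = j := by
  rw [Cs, Finsupp.mem_supported]
  exact ⟨fun h σ hσ => h (Finset.mem_coe.2 hσ), fun h σ hσ => h σ (Finset.mem_coe.1 hσ)⟩

omit [DecidableEq V] in
theorem single_mem_Cs {K : Set (Finset V)} {j : ℕ} {σ : Finset V} (h : σ ∈ K) (hj : σ.card = j)
    (r : ZMod 2) : Finsupp.single σ r ∈ Cs K j :=
  Finsupp.single_mem_supported _ _ ⟨h, hj⟩

omit [DecidableEq V] in
theorem Cs_mono {K K' : Set (Finset V)} (h : K ⊆ K') (j : ℕ) : Cs K j ≤ Cs K' j :=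
  fun _ hc => mem_Cs.2 fun σ hσ => ⟨h (mem_Cs.1 hc σ hσ).1, (mem_Cs.1 hc σ hσ).2⟩

omit [DecidableEq V] in
/-- a linear map sending the faces in the support into a submodule sends the chain there. -/
theorem map_mem_of_support {M : Type*} [AddCommGroup M] [Module (ZMod 2) M]
    (α : Ch V →ₗ[ZMod 2] M) (P : Submodule (ZMod 2) M) (c : Ch V)
    (h : ∀ σ ∈ c.support, α (Finsupp.single σ 1) ∈ P) : α c ∈ P := by
  rw [map_eq_sum_support]
  exact P.sum_mem h

omit [DecidableEq V] in
theorem map_mem_of_Cs {M : Type*} [AddCommGroup M] [Module (ZMod 2) M]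
    (α : Ch V →ₗ[ZMod 2] M) (P : Submodule (ZMod 2) M) {K : Set (Finset V)} {j : ℕ} {c : Ch V}
    (hc : c ∈ Cs K j) (h : ∀ σ ∈ K, σ.card = j → α (Finsupp.single σ 1) ∈ P) : α c ∈ P :=
  map_mem_of_support α P c fun σ hσ => h σ (mem_Cs.1 hc σ hσ).1 (mem_Cs.1 hc σ hσ).2

omit [DecidableEq V] in
theorem map_congr_Cs {M : Type*} [AddCommGroup M] [Module (ZMod 2) M]
    (α β : Ch V →ₗ[ZMod 2] M) {K : Set (Finset V)} {j : ℕ} {c : Ch V} (hc : c ∈ Cs K j)
    (h : ∀ σ ∈ K, σ.card = j → α (Finsupp.single σ 1) = β (Finsupp.single σ 1)) : α c = β c :=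
  map_congr_support α β c fun σ hσ => h σ (mem_Cs.1 hc σ hσ).1 (mem_Cs.1 hc σ hσ).2

/-- a symmetric double sum over ordered pairs of distinct elements vanishes mod 2. -/
theorem sum_erase_erase {M : Type*} [AddCommGroup M] [Module (ZMod 2) M] (σ : Finset V)
    (g : Finset V → M) : ∑ v ∈ σ, ∑ w ∈ σ.erase v, g ((σ.erase v).erase w) = 0 := by
  rw [Finset.sum_sigma']
  refine Finset.sum_involution (fun p _ => ⟨p.2, p.1⟩) ?_ ?_ ?_ ?_
  · rintro ⟨v, w⟩ _
    simp only
    rw [Finset.erase_right_comm, add_self2]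
  · rintro ⟨v, w⟩ hp _ h
    simp only [Finset.mem_sigma, Finset.mem_erase] at hp
    simp only [Sigma.mk.injEq, heq_eq_eq] at h
    exact hp.2.1 h.1
  · rintro ⟨v, w⟩ hp
    simp only [Finset.mem_sigma, Finset.mem_erase] at hp ⊢
    exact ⟨hp.2.2, fun h => hp.2.1 h.symm, hp.1⟩
  · rintro ⟨v, w⟩ _; rfl

theorem bd_bd (c : Ch V) : bd (bd c) = 0 := by
  have : (bd ∘ₗ bd : Ch V →ₗ[ZMod 2] Ch V) = 0 := by
    refine ch_hom_ext fun σ => ?_
    simp only [LinearMap.comp_apply, bd_single, map_sum, LinearMap.zero_apply]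
    exact sum_erase_erase σ (fun τ => Finsupp.single τ (1 : ZMod 2))
  exact LinearMap.congr_fun this c

theorem bd_cone (a : V) (c : Ch V) : bd (cone a c) + cone a (bd c) = c := by
  have : (bd ∘ₗ cone a + cone a ∘ₗ bd : Ch V →ₗ[ZMod 2] Ch V) = LinearMap.id := by
    refine ch_hom_ext fun σ => ?_
    simp only [LinearMap.add_apply, LinearMap.comp_apply, bd_single, map_sum, cone_single,
      LinearMap.id_apply]
    by_cases ha : a ∈ σ
    · rw [if_pos ha, map_zero, zero_add, Finset.sum_eq_single a]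
      · rw [if_neg (Finset.notMem_erase a σ), Finset.insert_erase ha]
      · intro b _ hb
        rw [if_pos (Finset.mem_erase.2 ⟨Ne.symm hb, ha⟩)]
      · intro h; exact absurd ha h
    · rw [if_neg ha, bd_single, Finset.sum_insert ha, Finset.erase_insert ha, add_assoc,
        ← Finset.sum_add_distrib, Finset.sum_eq_zero, add_zero]
      intro v hv
      have hva : a ≠ v := fun h => ha (h ▸ hv)
      rw [if_neg (fun h => ha (Finset.mem_of_mem_erase h)), Finset.erase_insert_of_ne hva,
        add_self2]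
  exact LinearMap.congr_fun this c

theorem bd_cone_of_cycle (a : V) {c : Ch V} (hc : bd c = 0) : bd (cone a c) = c := by
  have := bd_cone a c
  rwa [hc, map_zero, add_zero] at this

theorem lk_bd (v : V) (c : Ch V) : lk v (bd c) = bd (lk v c) := by
  have : (lk v ∘ₗ bd : Ch V →ₗ[ZMod 2] Ch V) = bd ∘ₗ lk v := by
    refine ch_hom_ext fun σ => ?_
    simp only [LinearMap.comp_apply, bd_single, map_sum, lk_single]
    by_cases hv : v ∈ σ
    · rw [if_pos hv, bd_single, ← Finset.add_sum_erase σ _ hv, if_neg (Finset.notMem_erase v σ),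
        zero_add]
      refine Finset.sum_congr rfl fun w hw => ?_
      rw [if_pos (Finset.mem_erase.2 ⟨(Finset.mem_erase.1 hw).1.symm, hv⟩),
        Finset.erase_right_comm]
    · rw [if_neg hv, map_zero]
      exact Finset.sum_eq_zero fun w _ => if_neg fun h => hv (Finset.mem_of_mem_erase h)
  exact LinearMap.congr_fun this c

theorem cone_lk_single (v : V) (σ : Finset V) :
    cone v (lk v (Finsupp.single σ (1 : ZMod 2))) =
      if v ∈ σ then Finsupp.single σ (1 : ZMod 2) else 0 := by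
  rw [lk_single]
  by_cases hv : v ∈ σ
  · rw [if_pos hv, if_pos hv, cone_single, if_neg (Finset.notMem_erase v σ),
      Finset.insert_erase hv]
  · rw [if_neg hv, if_neg hv, map_zero]

theorem lk_eq_zero {v : V} {c : Ch V} (h : ∀ σ ∈ c.support, v ∉ σ) : lk v c = 0 := by
  rw [map_eq_sum_support]
  exact Finset.sum_eq_zero fun σ hσ => by rw [lk_single, if_neg (h σ hσ)]

theorem bd_mem_Cs {K : Set (Finset V)} (hK : IsCx K) {j : ℕ} {c : Ch V} (hc : c ∈ Cs K (j + 1)) :
    bd c ∈ Cs K j := by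
  refine map_mem_of_Cs bd _ hc fun σ hσ hj => ?_
  rw [bd_single]
  refine Submodule.sum_mem _ fun v hv => single_mem_Cs (hK.2 σ hσ _ (Finset.erase_subset v σ)) ?_ _
  rw [Finset.card_erase_of_mem hv, hj]; rfl

theorem bd_eq_zero_of_Cs_zero {K : Set (Finset V)} {c : Ch V} (hc : c ∈ Cs K 0) : bd c = 0 := by
  rw [map_eq_sum_support]
  refine Finset.sum_eq_zero fun σ hσ => ?_
  rw [Finset.card_eq_zero.1 (mem_Cs.1 hc σ hσ).2, bd_single, Finset.sum_empty]

theorem cone_mem_Cs {K K' : Set (Finset V)} {j : ℕ} {c : Ch V} (a : V) (hc : c ∈ Cs K j)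
    (h : ∀ σ ∈ c.support, a ∉ σ → insert a σ ∈ K') : cone a c ∈ Cs K' (j + 1) := by
  refine map_mem_of_support _ _ c fun σ hσ => ?_
  rw [cone_single]
  split_ifs with ha
  · exact Submodule.zero_mem _
  · exact single_mem_Cs (h σ hσ ha)
      (by rw [Finset.card_insert_of_notMem ha, (mem_Cs.1 hc σ hσ).2]) _

theorem lk_mem_Cs {K K' : Set (Finset V)} {j : ℕ} {c : Ch V} (v : V) (hc : c ∈ Cs K (j + 1))
    (h : ∀ σ ∈ c.support, v ∈ σ → σ.erase v ∈ K') : lk v c ∈ Cs K' j := by
  refine map_mem_of_support _ _ c fun σ hσ => ?_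
  rw [lk_single]
  split_ifs with ha
  · exact single_mem_Cs (h σ hσ ha)
      (by rw [Finset.card_erase_of_mem ha, (mem_Cs.1 hc σ hσ).2]; rfl) _
  · exact Submodule.zero_mem _

theorem mapC_mem_Cs {K : Set (Finset V)} {K' : Set (Finset V')} {j : ℕ} {c : Ch V} (φ : V → V')
    (hc : c ∈ Cs K j) (hφ : ∀ σ ∈ c.support, Set.InjOn φ (σ : Set V) ∧ σ.image φ ∈ K') :
    mapC φ c ∈ Cs K' j := by
  refine map_mem_of_support _ _ c fun σ hσ => ?_
  rw [mapC_single]
  exact single_mem_Cs (hφ σ hσ).2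
    (by rw [Finset.card_image_of_injOn (hφ σ hσ).1, (mem_Cs.1 hc σ hσ).2]) _

theorem image_erase_of_injOn {φ : V → V'} {σ : Finset V} (h : Set.InjOn φ (σ : Set V)) {v : V}
    (hv : v ∈ σ) : (σ.erase v).image φ = (σ.image φ).erase (φ v) := by
  ext w
  simp only [Finset.mem_image, Finset.mem_erase]
  constructor
  · rintro ⟨u, ⟨hu, hu'⟩, rfl⟩
    exact ⟨fun e => hu (h hu' hv e), u, hu', rfl⟩
  · rintro ⟨hw, u, hu, rfl⟩
    exact ⟨u, ⟨fun e => hw (by rw [e]), hu⟩, rfl⟩

theorem bd_mapC (φ : V → V') (c : Ch V) (h : ∀ σ ∈ c.support, Set.InjOn φ (σ : Set V)) :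
    bd (mapC φ c) = mapC φ (bd c) := by
  refine map_congr_support (bd ∘ₗ mapC φ) (mapC φ ∘ₗ bd) c fun σ hσ => ?_
  simp only [LinearMap.comp_apply, mapC_single, bd_single, map_sum]
  rw [Finset.sum_image (h σ hσ)]
  exact Finset.sum_congr rfl fun v hv => by rw [image_erase_of_injOn (h σ hσ) hv]

theorem mapC_mapC {V'' : Type*} [DecidableEq V''] (φ : V → V') (ψ : V' → V'') (c : Ch V) :
    mapC ψ (mapC φ c) = mapC (ψ ∘ φ) c := by
  refine map_congr_support (mapC ψ ∘ₗ mapC φ) (mapC (ψ ∘ φ)) c fun σ _ => ?_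
  simp [Finset.image_image]

omit [DecidableEq V] in
theorem card_support_sum_le {ι : Type*} (s : Finset ι) (g : ι → Ch V') :
    (∑ i ∈ s, g i).support.card ≤ ∑ i ∈ s, (g i).support.card := by
  classical
  exact (Finset.card_le_card Finsupp.support_finsetSum).trans Finset.card_biUnion_le

theorem card_support_add_le (x y : Ch V) :
    (x + y).support.card ≤ x.support.card + y.support.card :=
  (Finset.card_le_card Finsupp.support_add).trans (Finset.card_union_le _ _)

omit [DecidableEq V] in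
/-- if every face is sent to a chain of size `≤ R`, sizes grow at most by the factor `R`. -/
theorem card_support_map_le (α : Ch V →ₗ[ZMod 2] Ch V') (c : Ch V) (R : ℕ)
    (h : ∀ σ ∈ c.support, (α (Finsupp.single σ 1)).support.card ≤ R) :
    (α c).support.card ≤ c.support.card * R := by
  rw [map_eq_sum_support]
  refine (card_support_sum_le _ _).trans ?_
  simpa using Finset.sum_le_card_nsmul _ _ _ h

omit [DecidableEq V] in
theorem card_support_single_le (σ : Finset V) (r : ZMod 2) :
    (Finsupp.single σ r : Ch V).support.card ≤ 1 :=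
  (Finset.card_le_card Finsupp.support_single_subset).trans (by simp)

theorem card_support_cone_le (a : V) (c : Ch V) : (cone a c).support.card ≤ c.support.card := by
  have := card_support_map_le (cone a) c 1 fun σ _ => by
    rw [cone_single]; split_ifs
    · simp
    · exact card_support_single_le _ _
  simpa using this

theorem card_support_lk_le (a : V) (c : Ch V) : (lk a c).support.card ≤ c.support.card := by
  have := card_support_map_le (lk a) c 1 fun σ _ => by
    rw [lk_single]; split_ifs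
    · exact card_support_single_le _ _
    · simp
  simpa using this

theorem card_support_mapC_le (φ : V → V') (c : Ch V) :
    (mapC φ c).support.card ≤ c.support.card := by
  have := card_support_map_le (mapC φ) c 1 fun σ _ => by
    rw [mapC_single]; exact card_support_single_le _ _
  simpa using this

omit [DecidableEq V] in
theorem Flag_isCx (adj : V → V → Prop) (U : Set V) : IsCx (Flag adj U) :=
  ⟨⟨by simp, by simp⟩, fun _ hσ _ hτ =>
    ⟨fun v hv => hσ.1 v (hτ hv), fun v hv w hw => hσ.2 v (hτ hv) w (hτ hw)⟩⟩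

omit [DecidableEq V] in
theorem Flag_mono (adj : V → V → Prop) {U U' : Set V} (h : U ⊆ U') : Flag adj U ⊆ Flag adj U' :=
  fun _ hσ => ⟨fun v hv => h (hσ.1 v hv), hσ.2⟩

omit [DecidableEq V] in
theorem singleton_mem_Flag {adj : V → V → Prop} {U : Set V} {v : V} :
    ({v} : Finset V) ∈ Flag adj U ↔ v ∈ U := by
  simp [Flag]

theorem insert_mem_Flag {adj : V → V → Prop} (hs : ∀ v w, adj v w → adj w v) {U : Set V}
    {σ : Finset V} {a : V} (hσ : σ ∈ Flag adj U) (ha : a ∈ U)
    (h : ∀ w ∈ σ, w ≠ a → adj a w) : insert a σ ∈ Flag adj U := by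
  refine ⟨fun v hv => ?_, fun v hv w hw hvw => ?_⟩
  · rcases Finset.mem_insert.1 hv with rfl | hv
    · exact ha
    · exact hσ.1 v hv
  · rcases Finset.mem_insert.1 hv with e | hv'
    · rcases Finset.mem_insert.1 hw with e' | hw'
      · exact absurd (e.trans e'.symm) hvw
      · subst e; exact h w hw' hvw.symm
    · rcases Finset.mem_insert.1 hw with e' | hw'
      · subst e'; exact hs _ _ (h v hv' hvw)
      · exact hσ.2 v hv' w hw' hvw

theorem Lk_isCx {K : Set (Finset V)} (hK : IsCx K) {ρ : Finset V} (hρ : ρ ∈ K) : IsCx (Lk K ρ) :=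
  ⟨⟨by simp, by simpa using hρ⟩, fun _ hσ _ hτ =>
    ⟨Finset.disjoint_of_subset_left hτ hσ.1,
      hK.2 _ hσ.2 _ (Finset.union_subset_union hτ subset_rfl)⟩⟩

theorem Lk_empty (K : Set (Finset V)) : Lk K ∅ = K := by
  ext σ; simp [Lk]

theorem Lk_subset {K : Set (Finset V)} (hK : IsCx K) (ρ : Finset V) : Lk K ρ ⊆ K :=
  fun _ hσ => hK.2 _ hσ.2 _ Finset.subset_union_left

theorem dl_add (f g : Finset V → ZMod 2) : dl (f + g) = dl f + dl g := by
  funext τ; simp [dl, Finset.sum_add_distrib]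

theorem dl_sub (f g : Finset V → ZMod 2) : dl (f - g) = dl f - dl g := by
  funext τ; simp [dl, Finset.sum_sub_distrib]

theorem dl_dl (f : Finset V → ZMod 2) : dl (dl f) = 0 := by
  funext τ
  exact sum_erase_erase τ f

/-- the pairing of chains and cochains is compatible with `bd` and `dl`. -/
theorem pair_bd (f : Finset V → ZMod 2) (c : Ch V) :
    Finsupp.linearCombination (ZMod 2) f (bd c) = Finsupp.linearCombination (ZMod 2) (dl f) c := by
  refine map_congr_support (Finsupp.linearCombination (ZMod 2) f ∘ₗ bd)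
    (Finsupp.linearCombination (ZMod 2) (dl f)) c fun σ _ => ?_
  simp [dl]

end Crest.Agent.R66
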