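import Crest.Agent.R66.Chain

/-! # Row 66: elementary facts on the subspace complexes `𝒟` -/

set_option linter.unusedSectionVars false

namespace Crest.Agent.R66

variable {F M : Type*} [Field F] [AddCommGroup M] [Module F M]

theorem Cmp_symm (W W' : Submodule F M) (h : Cmp W W') : Cmp W' W := h.symm

/-- Recipe: `Submodule.iUnion_ssubset_of_forall_ne_top_of_card_lt` inside `↥V`
(use `W.comap V.subtype`, indexing by the subtype `↥s`). -/
theorem exists_avoid [Fintype F] (V : Submodule F M) (s : Finset (Submodule F M))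
    (hs : ∀ W ∈ s, ¬ V ≤ W) (hq : s.card < Fintype.card F) : ∃ x ∈ V, ∀ W ∈ s, x ∉ W := by
  classical
  have h := Submodule.iUnion_ssubset_of_forall_ne_top_of_card_lt (K := F) (M := ↥V)
    (Finset.univ : Finset ↥s) (fun W => (W : Submodule F M).comap V.subtype)
    (fun W hW => hs W W.2 (by
      intro x hx
      have : (⟨x, hx⟩ : ↥V) ∈ (W : Submodule F M).comap V.subtype := by rw [hW]; trivial
      exact this))
    (by
      rw [Finset.card_univ, Fintype.card_coe, ENat.card_eq_coe_fintype_card]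
      exact_mod_cast hq)
  obtain ⟨x, -, hx⟩ := Set.exists_of_ssubset h
  refine ⟨x, x.2, fun W hW hxW => hx ?_⟩
  simp only [Set.mem_iUnion]
  exact ⟨⟨W, hW⟩, Finset.mem_univ _, hxW⟩

theorem IsDim.restrict {B V H : Submodule F M} {δ : Submodule F M → ℕ} (h : IsDim B V δ)
    (hH : H ≤ V) : IsDim B H δ :=
  ⟨fun W W' h1 h2 h3 => h.mono W W' h1 h2 (h3.trans hH),
    fun W x h1 h2 h3 => h.step W x h1 (h2.trans hH) (hH h3)⟩

theorem DHyp.lower {B V Ea Eb Es H : Submodule F M} (h : DHyp B V Ea Eb Es) (hH : B ≤ H) :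
    DHyp B H Ea Eb H :=
  ⟨hH, h.ab, le_rfl, fun _ _ hW _ => not_le_of_gt hW⟩

/-- the part of `𝒟` below a vertex `H` is again a `𝒟`. -/
theorem Dset_lower {B V Ea Eb Es H : Submodule F M} (hH : H ∈ Dset B V Ea Eb Es) :
    {W | W ∈ Dset B V Ea Eb Es ∧ W < H} = Dset B H Ea Eb H := by
  obtain ⟨hBH, hHV, hH⟩ := hH
  ext W
  constructor
  · rintro ⟨⟨h1, h2, h3⟩, h4⟩
    refine ⟨h1, h4, ?_⟩
    rcases h3 with h3 | ⟨h3, -⟩
    · exact Or.inl h3
    · exact Or.inr ⟨hHV.le.trans h3, not_le_of_gt h4⟩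
  · rintro ⟨h1, h2, h3⟩
    refine ⟨⟨h1, h2.trans hHV, ?_⟩, h2⟩
    rcases h3 with h3 | ⟨h3, -⟩
    · exact Or.inl h3
    · rcases hH with hH | ⟨hH, hH'⟩
      · exact Or.inl ((inf_le_inf_right _ h2.le).trans hH)
      · exact Or.inr ⟨hH.trans (sup_le h3 le_sup_right), fun h => hH' (h.trans h2.le)⟩

/-- exchange: `e ∈ W ⊔ span {x}`, `e ∉ W` forces `x ∈ W ⊔ span {e}`. -/
theorem mem_sup_span_exch {W : Submodule F M} {x e : M} (he : e ∈ W ⊔ Submodule.span F {x})
    (hW : e ∉ W) : x ∈ W ⊔ Submodule.span F {e} := by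
  obtain ⟨w, hw, y, hy, rfl⟩ := Submodule.mem_sup.1 he
  obtain ⟨c, rfl⟩ := Submodule.mem_span_singleton.1 hy
  have hc : c ≠ 0 := by
    rintro rfl
    exact hW (by simpa using hw)
  have : x = c⁻¹ • ((w + c • x) - w) := by
    rw [add_sub_cancel_left, smul_smul, inv_mul_cancel₀ hc, one_smul]
  have h2 : c⁻¹ • ((w + c • x) - w) ∈ W ⊔ Submodule.span F {w + c • x} :=
    Submodule.smul_mem _ _ (Submodule.sub_mem _
      (Submodule.mem_sup_right (Submodule.mem_span_singleton_self _))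
      (Submodule.mem_sup_left hw))
  rwa [← this] at h2

theorem IsDim.mono_le {B V : Submodule F M} {δ : Submodule F M → ℕ} (h : IsDim B V δ)
    {W W' : Submodule F M} (h1 : B ≤ W) (h2 : W ≤ W') (h3 : W' ≤ V) : δ W ≤ δ W' := by
  rcases h2.eq_or_lt with rfl | h2
  · exact le_rfl
  · exact (h.mono W W' h1 h2 h3).le

theorem IsDim.eq_of_le {B V : Submodule F M} {δ : Submodule F M → ℕ} (h : IsDim B V δ)
    {W W' : Submodule F M} (h1 : B ≤ W) (h2 : W ≤ W') (h3 : W' ≤ V) (h4 : δ W' ≤ δ W) :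
    W = W' := by
  rcases h2.eq_or_lt with rfl | h2
  · rfl
  · exact absurd (h.mono W W' h1 h2 h3) (not_lt.2 h4)

theorem lt_sup_span {W : Submodule F M} {x : M} (hx : x ∉ W) :
    W < W ⊔ Submodule.span F {x} :=
  lt_of_le_of_ne le_sup_left fun h => hx (by
    rw [h]; exact Submodule.mem_sup_right (Submodule.mem_span_singleton_self x))

theorem sup_span_le {W V : Submodule F M} {x : M} (hW : W ≤ V) (hx : x ∈ V) :
    W ⊔ Submodule.span F {x} ≤ V :=
  sup_le hW ((Submodule.span_singleton_le_iff_mem x V).2 hx)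

theorem IsDim.step_eq {B V : Submodule F M} {δ : Submodule F M → ℕ} (h : IsDim B V δ)
    {W : Submodule F M} {x : M} (h1 : B ≤ W) (h2 : W ≤ V) (hx : x ∈ V) (hxW : x ∉ W) :
    δ (W ⊔ Submodule.span F {x}) = δ W + 1 :=
  le_antisymm (h.step W x h1 h2 hx) (h.mono _ _ h1 (lt_sup_span hxW) (sup_span_le h2 hx))

/-- one bad subspace per vertex.  Recipe: if `W` is of type II (`V ≤ W ⊔ Eb`, `¬ Es ≤ W`) take
`e ∈ Es \ W`, `Z = W ⊔ span {e}` (`¬ V ≤ Z` by `step`/`mono`, as `Z ≤ V`; if `Es ≤ W ⊔ span {x}`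
then `e = w + c x`, `c ≠ 0`, so `x ∈ Z`).  Otherwise `W ⊓ Ea ≤ B` (true for `W = B`); if
`V ≤ W ⊔ Ea` then `W` is of type II by `ab` and `star`; else `Z = W ⊔ Ea` and
`(W ⊔ span {x}) ⊓ Ea ≤ B`.  `W ⊔ span {x} < V` since `δ` is `≤ δ W + 1 < δ V`. -/
theorem exists_bad {B V Ea Eb Es : Submodule F M} {δ : Submodule F M → ℕ}
    (hD : DHyp B V Ea Eb Es) (hδ : IsDim B V δ) {W : Submodule F M}
    (hW : W = B ∨ W ∈ Dset B V Ea Eb Es) (h2 : δ W + 2 ≤ δ V) :
    ∃ Z : Submodule F M, ¬ V ≤ Z ∧ W ≤ Z ∧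
      ∀ x ∈ V, x ∉ Z → W ⊔ Submodule.span F {x} ∈ Dset B V Ea Eb Es := by
  have hBW : B ≤ W := by
    rcases hW with rfl | hW
    · exact le_rfl
    · exact hW.1.le
  have hWV : W ≤ V := by
    rcases hW with rfl | hW
    · exact hD.BV
    · exact hW.2.1.le
  have hWV' : W < V := lt_of_le_of_ne hWV (by rintro rfl; omega)
  have hlt : ∀ x ∈ V, W ⊔ Submodule.span F {x} < V := fun x hx =>
    lt_of_le_of_ne (sup_span_le hWV hx) fun h => by
      have := hδ.step W x hBW hWV hx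
      rw [h] at this; omega
  have hII : V ≤ W ⊔ Eb → ¬ Es ≤ W → ∃ Z : Submodule F M, ¬ V ≤ Z ∧ W ≤ Z ∧
      ∀ x ∈ V, x ∉ Z → W ⊔ Submodule.span F {x} ∈ Dset B V Ea Eb Es := by
    intro h1 h2
    obtain ⟨e, he, heW⟩ := SetLike.not_le_iff_exists.1 h2
    refine ⟨W ⊔ Submodule.span F {e}, not_le_of_gt (hlt e (hD.sV he)), le_sup_left, ?_⟩
    intro x hx hxZ
    have hxW : x ∉ W := fun h => hxZ (Submodule.mem_sup_left h)
    refine ⟨hBW.trans_lt (lt_sup_span hxW), hlt x hx, Or.inr ⟨?_, fun h => ?_⟩⟩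
    · exact h1.trans (sup_le_sup_right le_sup_left _)
    · exact hxZ (mem_sup_span_exch (h he) heW)
  have hI : W ⊓ Ea ≤ B → ∃ Z : Submodule F M, ¬ V ≤ Z ∧ W ≤ Z ∧
      ∀ x ∈ V, x ∉ Z → W ⊔ Submodule.span F {x} ∈ Dset B V Ea Eb Es := by
    intro h1
    by_cases h : V ≤ W ⊔ Ea
    · exact hII (h.trans (sup_le_sup_left hD.ab _)) (hD.star W hBW hWV' h1)
    · refine ⟨W ⊔ Ea, h, le_sup_left, fun x hx hxZ => ?_⟩
      have hxW : x ∉ W := fun h => hxZ (Submodule.mem_sup_left h)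
      refine ⟨hBW.trans_lt (lt_sup_span hxW), hlt x hx, Or.inl fun y hy => ?_⟩
      by_cases hyW : y ∈ W
      · exact h1 ⟨hyW, hy.2⟩
      · exact absurd ((sup_le_sup_left ((Submodule.span_singleton_le_iff_mem y Ea).2 hy.2) W)
          (mem_sup_span_exch hy.1 hyW)) hxZ
  rcases hW with rfl | hW
  · exact hI inf_le_left
  · rcases hW.2.2 with h | ⟨h, h'⟩
    · exact hI h
    · exact hII h h'

/-- thickness.  Recipe: induction on `b`; avoid the bad subspace of `B` and the `b` previous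
vertices (each `< V`), take `B ⊔ span {x}`. -/
theorem D_many [Fintype F] {B V Ea Eb Es : Submodule F M} {δ : Submodule F M → ℕ}
    (hD : DHyp B V Ea Eb Es) (hδ : IsDim B V δ) (h2 : δ B + 2 ≤ δ V) (b : ℕ)
    (hq : b + 1 < Fintype.card F) :
    ∃ s : Finset (Submodule F M), b ≤ s.card ∧ ∀ W ∈ s, W ∈ Dset B V Ea Eb Es := by
  classical
  obtain ⟨Z, hZ, -, hZ'⟩ := exists_bad hD hδ (W := B) (Or.inl rfl) h2
  suffices h : ∃ s : Finset (Submodule F M), s.card = b ∧ ∀ W ∈ s, W ∈ Dset B V Ea Eb Es by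
    obtain ⟨s, hs, hs'⟩ := h
    exact ⟨s, hs.ge, hs'⟩
  induction b with
  | zero => exact ⟨∅, rfl, by simp⟩
  | succ b ih =>
    obtain ⟨s, hs, hs'⟩ := ih (by omega)
    obtain ⟨x, hx, hx'⟩ := exists_avoid V (insert Z s) (by
      intro W hW
      rcases Finset.mem_insert.1 hW with rfl | hW
      · exact hZ
      · exact not_le_of_gt (hs' W hW).2.1)
      (lt_of_le_of_lt (Finset.card_insert_le _ _) (by omega))
    have hn : B ⊔ Submodule.span F {x} ∉ s := fun h =>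
      hx' _ (Finset.mem_insert_of_mem h)
        (Submodule.mem_sup_right (Submodule.mem_span_singleton_self x))
    refine ⟨insert (B ⊔ Submodule.span F {x}) s, by rw [Finset.card_insert_of_notMem hn, hs], ?_⟩
    intro W hW
    rcases Finset.mem_insert.1 hW with rfl | hW
    · exact hZ' x hx (hx' Z (Finset.mem_insert_self _ _))
    · exact hs' W hW

/-- two distinct lines of a rank three interval meet in a point. -/
theorem IsDim.inf_lines {B V : Submodule F M} {δ : Submodule F M → ℕ} (hδ : IsDim B V δ)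
    (h3 : δ V = δ B + 3) {W W' : Submodule F M} (h1 : B ≤ W) (h2 : W ≤ V) (h1' : B ≤ W')
    (h2' : W' ≤ V) (hW : δ W = δ B + 2) (hW' : δ W' = δ B + 2) (hne : W ≠ W') :
    δ (W ⊓ W') = δ B + 1 := by
  have hn : ¬ W' ≤ W := fun h => hne (hδ.eq_of_le h1' h h2 (by omega)).symm
  obtain ⟨x, hx, hxW⟩ := SetLike.not_le_iff_exists.1 hn
  have hV : W ⊔ Submodule.span F {x} = V :=
    hδ.eq_of_le (h1.trans le_sup_left) (sup_span_le h2 (h2' hx)) le_rfl
      (by rw [hδ.step_eq h1 h2 (h2' hx) hxW]; omega)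
  have hB : B ≤ W ⊓ W' := le_inf h1 h1'
  have hlt : δ (W ⊓ W') < δ W' :=
    hδ.mono _ _ hB (lt_of_le_of_ne inf_le_right fun h => hn (by rw [← h]; exact inf_le_left)) h2'
  have hle : W' ≤ (W ⊓ W') ⊔ Submodule.span F {x} := by
    intro y hy
    have hyV : y ∈ W ⊔ Submodule.span F {x} := by rw [hV]; exact h2' hy
    obtain ⟨w, hw, z, hz, rfl⟩ := Submodule.mem_sup.1 hyV
    have hz' : z ∈ W' := (Submodule.span_singleton_le_iff_mem x W').2 hx hz
    have hw' : w ∈ W' := by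
      have := W'.sub_mem hy hz'
      rwa [add_sub_cancel_right] at this
    exact Submodule.add_mem_sup ⟨hw, hw'⟩ hz
  have h5 := hδ.mono_le h1' hle (sup_span_le (inf_le_left.trans h2) (h2' hx))
  have h6 := hδ.step (W ⊓ W') x hB (inf_le_left.trans h2) (h2' hx)
  omega

/-- two distinct points span a line. -/
theorem IsDim.sup_points {B V : Submodule F M} {δ : Submodule F M → ℕ} (hδ : IsDim B V δ)
    {W W' : Submodule F M} (h1 : B ≤ W) (h2 : W ≤ V) (h1' : B ≤ W')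
    (h2' : W' ≤ V) (hW : δ W = δ B + 1) (hW' : δ W' = δ B + 1) (hne : W ≠ W') :
    δ (W ⊔ W') = δ B + 2 := by
  have hn : ¬ W' ≤ W := fun h => hne (hδ.eq_of_le h1' h h2 (by omega)).symm
  obtain ⟨x, hx, hxW⟩ := SetLike.not_le_iff_exists.1 hn
  have hxB : x ∉ B := fun h => hxW (h1 h)
  have hW'' : B ⊔ Submodule.span F {x} = W' :=
    hδ.eq_of_le le_sup_left (sup_span_le h1' hx) h2'
      (by rw [hδ.step_eq le_rfl (h1.trans h2) (h2' hx) hxB]; omega)
  have : W ⊔ W' = W ⊔ Submodule.span F {x} := by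
    rw [← hW'', ← sup_assoc, sup_eq_left.2 h1]
  rw [this, hδ.step_eq h1 h2 (h2' hx) hxW]; omega

theorem mem_Dset_bar {B V E W : Submodule F M} :
    W ∈ Dset B V E E V ↔
      B < W ∧ W < V ∧ (W ⊓ ((E ⊓ V) ⊔ B) ≤ B ∨ V ≤ W ⊔ ((E ⊓ V) ⊔ B)) := by
  constructor
  · rintro ⟨h1, h2, h3⟩
    refine ⟨h1, h2, ?_⟩
    rcases h3 with h3 | ⟨h3, -⟩
    · left
      rw [inf_comm, sup_comm, sup_inf_assoc_of_le _ h1.le]
      refine sup_le le_rfl (le_trans ?_ h3)
      exact le_inf inf_le_right (inf_le_left.trans inf_le_left)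
    · right
      have : V ≤ (W ⊔ E) ⊓ V := le_inf h3 le_rfl
      rw [sup_inf_assoc_of_le _ h2.le] at this
      exact this.trans (sup_le_sup_left le_sup_left _)
  · rintro ⟨h1, h2, h3⟩
    refine ⟨h1, h2, ?_⟩
    rcases h3 with h3 | h3
    · left
      refine le_trans ?_ h3
      exact le_inf inf_le_left
        ((le_inf inf_le_right (inf_le_left.trans h2.le)).trans le_sup_left)
    · right
      refine ⟨h3.trans (sup_le le_sup_left (sup_le (inf_le_left.trans le_sup_right)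
        (h1.le.trans le_sup_left))), not_le_of_gt h2⟩

/-- rank three intervals.  Recipe: `Ē = (E ⊓ V) ⊔ B`, so `B ≤ Ē ≤ V`.  Facts from `IsDim`:
(a) `δ W = δ W' + 1`, `W' ≤ U ≤ W` forces `U = W'` or `U = W`; (b) two distinct lines meet in a
point (`ℓ' ∋ x ∉ ℓ`, `ℓ ⊔ span x = V`; if `ℓ ⊓ ℓ' = B` then `ℓ' ≤ B ⊔ span x`, contradiction);
(c) two distinct points span a line.  If `δ Ē = δ B + 2` the second alternative holds
(`u = W ⊔ W'`; if `¬ V ≤ u ⊔ E` then `u = Ē` and `W ≤ Ē` contradicts `W ∈ 𝒟` by the modular law),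
otherwise the first (`u = W ⊓ W'`; cases `Ē = B`, `Ē = V`, `δ Ē = δ B + 1`). -/
theorem D_rank3 {B V E : Submodule F M} {δ : Submodule F M → ℕ} (hBV : B ≤ V)
    (hδ : IsDim B V δ) (h3 : δ V = δ B + 3) :
    (∀ W ∈ Dset B V E E V, ∀ W' ∈ Dset B V E E V, δ W = δ B + 2 → δ W' = δ B + 2 → W ≠ W' →
      ∃! u, u ∈ Dset B V E E V ∧ δ u = δ B + 1 ∧ u ≤ W ∧ u ≤ W') ∨
    (∀ W ∈ Dset B V E E V, ∀ W' ∈ Dset B V E E V, δ W = δ B + 1 → δ W' = δ B + 1 → W ≠ W' →
      ∃! u, u ∈ Dset B V E E V ∧ δ u = δ B + 2 ∧ W ≤ u ∧ W' ≤ u) := by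
  simp only [mem_Dset_bar]
  set Eb : Submodule F M := (E ⊓ V) ⊔ B with hEb
  have hBE : B ≤ Eb := le_sup_right
  have hEV : Eb ≤ V := sup_le inf_le_right hBV
  clear_value Eb
  by_cases hE : δ Eb = δ B + 2
  · right
    rintro W ⟨h1, h2, hW⟩ W' ⟨h1', h2', hW'⟩ d1 d2 hne
    have hu := hδ.sup_points h1.le h2.le h1'.le h2'.le d1 d2 hne
    have hBu : B ≤ W ⊔ W' := h1.le.trans le_sup_left
    have huV : W ⊔ W' ≤ V := sup_le h2.le h2'.le
    refine ⟨W ⊔ W', ⟨⟨h1.trans_le le_sup_left, lt_of_le_of_ne huV fun h => ?_, Or.inr ?_⟩, hu,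
      le_sup_left, le_sup_right⟩, ?_⟩
    · rw [h] at hu; omega
    · by_cases hle : Eb ≤ W ⊔ W'
      · exfalso
        have he : Eb = W ⊔ W' := hδ.eq_of_le hBE hle huV (by omega)
        have hWE : W ≤ Eb := by rw [he]; exact le_sup_left
        rcases hW with hW | hW
        · rw [inf_eq_left.2 hWE] at hW
          exact not_le_of_gt h1 hW
        · rw [sup_eq_right.2 hWE] at hW
          have := hδ.mono_le hBV hW hEV
          omega
      · have hlt : W ⊔ W' < W ⊔ W' ⊔ Eb :=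
          lt_of_le_of_ne le_sup_left fun h => hle (by rw [h]; exact le_sup_right)
        have := hδ.mono _ _ hBu hlt (sup_le huV hEV)
        exact (hδ.eq_of_le (hBu.trans le_sup_left) (sup_le huV hEV) le_rfl (by omega)).ge
    · rintro u ⟨⟨hu1, hu2, -⟩, hu3, hu4, hu5⟩
      exact (hδ.eq_of_le hBu (sup_le hu4 hu5) hu2.le (by omega)).symm
  · left
    rintro W ⟨h1, h2, hW⟩ W' ⟨h1', h2', hW'⟩ d1 d2 hne
    have hu := hδ.inf_lines h3 h1.le h2.le h1'.le h2'.le d1 d2 hne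
    have hBu : B ≤ W ⊓ W' := le_inf h1.le h1'.le
    have huV : W ⊓ W' ≤ V := inf_le_left.trans h2.le
    refine ⟨W ⊓ W', ⟨⟨lt_of_le_of_ne hBu fun h => ?_, inf_le_left.trans_lt h2, ?_⟩, hu,
      inf_le_left, inf_le_right⟩, ?_⟩
    · rw [← h] at hu; omega
    · by_cases hle : W ⊓ W' ≤ Eb
      · right
        have hm := hδ.mono_le hBu hle hEV
        have hm' := hδ.mono_le hBE hEV le_rfl
        by_cases h1E : δ Eb = δ B + 1
        · exfalso
          have he : W ⊓ W' = Eb := hδ.eq_of_le hBu hle hEV (by omega)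
          have hEW : Eb ≤ W := by rw [← he]; exact inf_le_left
          rcases hW with hW | hW
          · rw [inf_eq_right.2 hEW] at hW
            have := hδ.mono_le hBE hW hBV
            omega
          · rw [sup_eq_left.2 hEW] at hW
            exact not_le_of_gt h2 hW
        · have he : Eb = V := hδ.eq_of_le hBE hEV le_rfl (by omega)
          rw [he]; exact le_sup_right
      · left
        have hlt : W ⊓ W' ⊓ Eb < W ⊓ W' :=
          lt_of_le_of_ne inf_le_left fun h => hle (by rw [← h]; exact inf_le_right)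
        have hB' : B ≤ W ⊓ W' ⊓ Eb := le_inf hBu hBE
        have := hδ.mono _ _ hB' hlt huV
        exact (hδ.eq_of_le le_rfl hB' (inf_le_left.trans huV) (by omega)).ge
    · rintro u ⟨⟨hu1, hu2, -⟩, hu3, hu4, hu5⟩
      exact hδ.eq_of_le hu1.le (le_inf hu4 hu5) huV (by omega)

end Crest.Agent.R66
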