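import Crest.Agent.R66.Chain

/-! # Row 66: vertex replacement, pushing, Morse lemma -/

set_option linter.unusedSectionVars false

namespace Crest.Agent.R66

variable {V : Type*} [DecidableEq V]

theorem cone_lk_eq_filter (v : V) (c : Ch V) :
    cone v (lk v c) = c.filter (fun σ => v ∈ σ) := by
  have h1 := map_eq_sum_support (cone v ∘ₗ lk v) c
  simp only [LinearMap.comp_apply, cone_lk_single] at h1
  rw [h1]
  conv_rhs => rw [eq_sum_support c, Finsupp.filter_sum]
  refine Finset.sum_congr rfl fun σ _ => ?_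
  by_cases hv : v ∈ σ
  · rw [if_pos hv, Finsupp.filter_single_of_pos (fun σ => v ∈ σ) hv]
  · rw [if_neg hv, Finsupp.filter_single_of_neg (fun σ => v ∈ σ) hv]

theorem card_support_lk_le_filter (v : V) (c : Ch V) :
    (lk v c).support.card ≤ (c.support.filter (fun σ => v ∈ σ)).card := by
  rw [map_eq_sum_support (lk v) c]
  refine (card_support_sum_le _ _).trans ?_
  rw [Finset.card_filter]
  refine Finset.sum_le_sum fun σ _ => ?_
  rw [lk_single]
  split_ifs
  · exact card_support_single_le _ _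
  · simp

omit [DecidableEq V] in
theorem mem_Cs_Flag_of_verts {adj : V → V → Prop} {U U' : Set V} {j : ℕ} {c : Ch V}
    (hc : c ∈ Cs (Flag adj U) j) (h : ∀ σ ∈ c.support, ∀ v ∈ σ, v ∈ U') :
    c ∈ Cs (Flag adj U') j :=
  mem_Cs.2 fun σ hσ => ⟨⟨h σ hσ, (mem_Cs.1 hc σ hσ).1.2⟩, (mem_Cs.1 hc σ hσ).2⟩

omit [DecidableEq V] in
theorem filter_mem_Cs_Flag {adj : V → V → Prop} {U U' : Set V} {j : ℕ} {c : Ch V}
    (p : Finset V → Prop) [DecidablePred p] (hc : c ∈ Cs (Flag adj U) j)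
    (h : ∀ σ ∈ c.support, p σ → ∀ v ∈ σ, v ∈ U') : c.filter p ∈ Cs (Flag adj U') j := by
  refine mem_Cs.2 fun σ hσ => ?_
  rw [Finsupp.support_filter, Finset.mem_filter] at hσ
  exact ⟨⟨h σ hσ.1 hσ.2, (mem_Cs.1 hc σ hσ.1).1.2⟩, (mem_Cs.1 hc σ hσ.1).2⟩

theorem cone_mem_Cs_Flag (adj : V → V → Prop) (hs : ∀ v w, adj v w → adj w v) {U U' : Set V}
    (hU : U' ⊆ U) (a : V) (ha : a ∈ U) (hadj : ∀ w ∈ U', w ≠ a → adj a w) {j : ℕ} {z : Ch V}
    (hz : z ∈ Cs (Flag adj U') j) : cone a z ∈ Cs (Flag adj U) (j + 1) :=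
  cone_mem_Cs a hz fun σ hσ _ =>
    insert_mem_Flag hs (Flag_mono adj hU (mem_Cs.1 hz σ hσ).1) ha
      fun w hw hwa => hadj w ((mem_Cs.1 hz σ hσ).1.1 w hw) hwa

theorem lk_mem_Cs_Flag {adj : V → V → Prop} {U U' : Set V} {j : ℕ} {c : Ch V} (v : V)
    (hc : c ∈ Cs (Flag adj U) (j + 1))
    (h : ∀ σ ∈ c.support, v ∈ σ → ∀ w ∈ σ, w ≠ v → w ∈ U') : lk v c ∈ Cs (Flag adj U') j :=
  lk_mem_Cs v hc fun σ hσ hv =>
    ⟨fun w hw => h σ hσ hv w (Finset.mem_of_mem_erase hw) (Finset.ne_of_mem_erase hw),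
      fun x hx y hy hxy => (mem_Cs.1 hc σ hσ).1.2 x (Finset.mem_of_mem_erase hx) y
        (Finset.mem_of_mem_erase hy) hxy⟩

/-- REPLACE-ALL.  If no face of `c` contains two vertices of `S` and `bd (w v) = lk v c`, then
adding `bd (∑ cone v (w v))` removes the faces meeting `S` and adds `∑ w v`, provided the faces of
`w v` do not contain `v`.  Recipe: `bd (cone v (w v)) = w v + cone v (lk v c)` (`bd_cone`),
and `∑ v ∈ S, cone v (lk v c) = c.filter (meets S)` (`cone_lk_single`, `map_congr_support`). -/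
theorem replace_all (S : Finset V) (c : Ch V) (w : V → Ch V)
    (hS : ∀ σ ∈ c.support, ∀ v ∈ S, ∀ v' ∈ S, v ∈ σ → v' ∈ σ → v = v')
    (hw : ∀ v ∈ S, bd (w v) = lk v c) :
    c + bd (∑ v ∈ S, cone v (w v)) = c.filter (fun σ => Disjoint σ S) + ∑ v ∈ S, w v := by
  have h1 : bd (∑ v ∈ S, cone v (w v)) =
      ∑ v ∈ S, w v + ∑ v ∈ S, c.filter (fun σ => v ∈ σ) := by
    rw [map_sum, ← Finset.sum_add_distrib]
    refine Finset.sum_congr rfl fun v hv => ?_
    have := bd_cone v (w v)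
    rw [hw v hv, cone_lk_eq_filter] at this
    rw [← sub_eq2]
    exact eq_sub_of_add_eq this
  have h2 : c + ∑ v ∈ S, c.filter (fun σ => v ∈ σ) = c.filter (fun σ => Disjoint σ S) := by
    ext σ
    rw [Finsupp.add_apply, Finsupp.finsetSum_apply]
    simp only [Finsupp.filter_apply]
    by_cases h0 : c σ = 0
    · simp [h0]
    have hσ : σ ∈ c.support := Finsupp.mem_support_iff.2 h0
    by_cases hd : Disjoint σ S
    · rw [if_pos hd, Finset.sum_eq_zero, add_zero]
      intro v hv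
      rw [if_neg fun h => Finset.disjoint_left.1 hd h hv]
    · rw [if_neg hd]
      obtain ⟨v, hvσ, hvS⟩ := Finset.not_disjoint_iff.1 hd
      rw [Finset.sum_eq_single v, if_pos hvσ]
      · exact add_self2 _
      · intro b hb hbv
        rw [if_neg fun h => hbv (hS σ hσ b hb v hvS h hvσ)]
      · intro h; exact absurd hvS h
  rw [h1, ← h2]
  abel

open Classical in
theorem push_aux [PartialOrder V] (adj : V → V → Prop) (hs : ∀ v w, adj v w → adj w v)
    (U Bad : Set V) (φ : V → V)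
    (hφ : ∀ v ∈ U, v ∈ Bad → φ v ∈ U ∧ φ v ∉ Bad ∧ adj v (φ v) ∧
      ∀ w ∈ U, w ≠ v → adj v w → (w ∉ Bad ∨ ¬ v < w) → w = φ v ∨ adj (φ v) w)
    {j : ℕ} (k : ℕ) : ∀ {c : Ch V}, c ∈ Cs (Flag adj U) j → bd c = 0 →
      ((c.support.biUnion id).filter (fun v => v ∈ Bad)).card ≤ k →
    ∃ u ∈ Cs (Flag adj U) (j + 1), c + bd u ∈ Cs (Flag adj (U \ Bad)) j ∧
      (c + bd u).support.card ≤ c.support.card ∧ u.support.card ≤ k * c.support.card := by
  have base : ∀ (k : ℕ) {c : Ch V}, c ∈ Cs (Flag adj U) j →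
      ¬ ((c.support.biUnion id).filter (fun v => v ∈ Bad)).Nonempty →
      ∃ u ∈ Cs (Flag adj U) (j + 1), c + bd u ∈ Cs (Flag adj (U \ Bad)) j ∧
      (c + bd u).support.card ≤ c.support.card ∧ u.support.card ≤ k * c.support.card := by
    intro k c hc hne
    refine ⟨0, Submodule.zero_mem _, ?_, by simp, by simp⟩
    rw [map_zero, add_zero]
    refine mem_Cs_Flag_of_verts hc fun σ hσ v hv => ⟨(mem_Cs.1 hc σ hσ).1.1 v hv, fun hb => ?_⟩
    exact hne ⟨v, Finset.mem_filter.2 ⟨Finset.mem_biUnion.2 ⟨σ, hσ, hv⟩, hb⟩⟩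
  induction k with
  | zero =>
    intro c hc _ hk
    refine base 0 hc ?_
    rw [Finset.not_nonempty_iff_eq_empty, ← Finset.card_eq_zero]
    omega
  | succ k ih =>
    intro c hc hbd hk
    by_cases hne : ((c.support.biUnion id).filter (fun v => v ∈ Bad)).Nonempty
    swap
    · exact base _ hc hne
    obtain ⟨v, hv⟩ := Finset.exists_maximal hne
    have hvm := hv.prop
    rw [Finset.mem_filter, Finset.mem_biUnion] at hvm
    obtain ⟨⟨σ₀, hσ₀, hvσ₀⟩, hvB⟩ := hvm
    have hvU : v ∈ U := (mem_Cs.1 hc σ₀ hσ₀).1.1 v hvσ₀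
    obtain ⟨haU, haB, hva, hφv⟩ := hφ v hvU hvB
    have hav : φ v ≠ v := fun h => haB (h.symm ▸ hvB)
    obtain ⟨j', rfl⟩ : ∃ j', j = j' + 1 := by
      have h1 := (mem_Cs.1 hc σ₀ hσ₀).2
      have h2 : 0 < σ₀.card := Finset.card_pos.2 ⟨v, hvσ₀⟩
      exact ⟨j - 1, by omega⟩
    set U' : Set V := {w | w ∈ U ∧ w ≠ v ∧ adj v w ∧ w ∈ c.support.biUnion id} with hU'
    have hlk : lk v c ∈ Cs (Flag adj U') j' :=
      lk_mem_Cs_Flag v hc fun σ hσ hvσ w hw hwv =>
        ⟨(mem_Cs.1 hc σ hσ).1.1 w hw, hwv, (mem_Cs.1 hc σ hσ).1.2 v hvσ w hw hwv.symm,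
          Finset.mem_biUnion.2 ⟨σ, hσ, hw⟩⟩
    have hlkbd : bd (lk v c) = 0 := by rw [← lk_bd, hbd, map_zero]
    have hw₀ : cone (φ v) (lk v c) ∈ Cs (Flag adj (insert (φ v) U')) (j' + 1) := by
      refine cone_mem_Cs_Flag adj hs (Set.subset_insert _ _) _ (Set.mem_insert _ _) ?_ hlk
      rintro w ⟨hwU, hwv, hvw, hwc⟩ hwa
      refine (hφv w hwU hwv hvw ?_).resolve_left hwa
      by_cases hwB : w ∈ Bad
      · exact Or.inr fun hlt => (hv.not_gt (Finset.mem_filter.2 ⟨hwc, hwB⟩)) hlt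
      · exact Or.inl hwB
    have hsub : insert (φ v) U' ⊆ U := by
      rintro w (rfl | hw)
      · exact haU
      · exact hw.1
    have hu₀ : cone v (cone (φ v) (lk v c)) ∈ Cs (Flag adj U) (j' + 1 + 1) := by
      refine cone_mem_Cs_Flag adj hs hsub v hvU ?_ hw₀
      rintro w (rfl | hw) _
      · exact hva
      · exact hw.2.2.1
    have hrep := replace_all {v} c (fun _ => cone (φ v) (lk v c))
      (fun σ _ x hx y hy _ _ => by rw [Finset.mem_singleton.1 hx, Finset.mem_singleton.1 hy])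
      (fun x hx => by rw [Finset.mem_singleton.1 hx]; exact bd_cone_of_cycle _ hlkbd)
    rw [Finset.sum_singleton, Finset.sum_singleton] at hrep
    set c₁ := c + bd (cone v (cone (φ v) (lk v c))) with hc₁
    set U₁ : Set V := {w | w ∈ U ∧ w ≠ v ∧ (w = φ v ∨ w ∈ c.support.biUnion id)} with hU₁
    have hc₁U : c₁ ∈ Cs (Flag adj U₁) (j' + 1) := by
      rw [hrep]
      refine Submodule.add_mem _ ?_ ?_
      · refine filter_mem_Cs_Flag _ hc fun σ hσ hd w hw => ⟨(mem_Cs.1 hc σ hσ).1.1 w hw, ?_,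
          Or.inr (Finset.mem_biUnion.2 ⟨σ, hσ, hw⟩)⟩
        rintro rfl
        exact Finset.disjoint_singleton_right.1 hd hw
      · refine Cs_mono (Flag_mono adj ?_) _ hw₀
        rintro w (rfl | hw)
        · exact ⟨haU, hav, Or.inl rfl⟩
        · exact ⟨hw.1, hw.2.1, Or.inr hw.2.2.2⟩
    have hcard : c₁.support.card ≤ c.support.card := by
      rw [hrep]
      refine (card_support_add_le _ _).trans ?_
      have h1 := (card_support_cone_le (φ v) (lk v c)).trans (card_support_lk_le_filter v c)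
      have h2 := Finset.card_filter_add_card_filter_not (s := c.support) (fun σ => v ∈ σ)
      have h3 : (c.filter (fun σ => Disjoint σ {v})).support.card =
          (c.support.filter (fun σ => ¬ v ∈ σ)).card := by
        rw [Finsupp.support_filter]
        congr 1
        exact Finset.filter_congr fun σ _ => Finset.disjoint_singleton_right
      omega
    have hbd₁ : bd c₁ = 0 := by rw [hc₁, map_add, hbd, bd_bd, add_zero]
    have hk₁ : ((c₁.support.biUnion id).filter (fun v => v ∈ Bad)).card ≤ k := by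
      have hss : (c₁.support.biUnion id).filter (fun v => v ∈ Bad) ⊆
          ((c.support.biUnion id).filter (fun v => v ∈ Bad)).erase v := by
        intro w hw
        rw [Finset.mem_filter, Finset.mem_biUnion] at hw
        obtain ⟨⟨σ, hσ, hwσ⟩, hwB⟩ := hw
        obtain ⟨-, hwv, hw'⟩ := (mem_Cs.1 hc₁U σ hσ).1.1 w hwσ
        refine Finset.mem_erase.2 ⟨hwv, Finset.mem_filter.2 ⟨hw'.resolve_left ?_, hwB⟩⟩
        rintro rfl
        exact haB hwB
      have h1 := Finset.card_le_card hss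
      rw [Finset.card_erase_of_mem hv.prop] at h1
      omega
    obtain ⟨u₁, hu₁, hres, hc1, hc2⟩ :=
      ih (Cs_mono (Flag_mono adj fun w hw => hw.1) _ hc₁U) hbd₁ hk₁
    have heq : c + bd (cone v (cone (φ v) (lk v c)) + u₁) = c₁ + bd u₁ := by
      rw [hc₁, map_add, add_assoc]
    refine ⟨cone v (cone (φ v) (lk v c)) + u₁, Submodule.add_mem _ hu₀ hu₁, heq ▸ hres, ?_, ?_⟩
    · rw [heq]; exact hc1.trans hcard
    · refine (card_support_add_le _ _).trans ?_
      have h1 := ((card_support_cone_le v _).trans (card_support_cone_le (φ v) (lk v c))).trans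
        (card_support_lk_le v c)
      have h2 := Nat.mul_le_mul_left k hcard
      rw [Nat.succ_mul]
      omega

/-- PUSH.  Recipe: induction on the number of `Bad` vertices occurring in the faces of `c`
(at most `j * c.support.card`; prove the version with bound `k * c.support.card` when at most `k`
bad vertices occur).  Choose `v` maximal among them (`Finset.exists_maximal`), `a = φ v`,
`w = cone a (lk v c)` (a filling of the cycle `lk v c`, `lk_bd`, `bd_cone_of_cycle`), `u₀ = cone v w`.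
By `replace_all` with `S = {v}`, `c + bd u₀ = c.filter (v ∉ ·) + w`; `w` has at most as many faces as
there are faces of `c` containing `v` (apply `card_support_map_le`/`Finset.card_image_le` to the
filtered chain), its vertices are `a` and old vertices `≠ v`. -/
theorem push [PartialOrder V] (adj : V → V → Prop) (hs : ∀ v w, adj v w → adj w v)
    (U Bad : Set V) (φ : V → V)
    (hφ : ∀ v ∈ U, v ∈ Bad → φ v ∈ U ∧ φ v ∉ Bad ∧ adj v (φ v) ∧
      ∀ w ∈ U, w ≠ v → adj v w → (w ∉ Bad ∨ ¬ v < w) → w = φ v ∨ adj (φ v) w)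
    {j : ℕ} {c : Ch V} (hc : c ∈ Cs (Flag adj U) j) (hbd : bd c = 0) :
    ∃ u ∈ Cs (Flag adj U) (j + 1), c + bd u ∈ Cs (Flag adj (U \ Bad)) j ∧
      (c + bd u).support.card ≤ c.support.card ∧
      u.support.card ≤ j * c.support.card * c.support.card := by
  classical
  refine push_aux adj hs U Bad φ hφ (j * c.support.card) hc hbd ?_
  refine (Finset.card_filter_le _ _).trans (Finset.card_biUnion_le.trans ?_)
  refine (Finset.sum_le_card_nsmul _ _ j fun σ hσ => (mem_Cs.1 hc σ hσ).2.le).trans ?_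
  simp [mul_comm]

/-- MORSE.  Recipe: well-founded induction on `k : κ` for the statement "the claim holds for all
`c` all of whose non-good vertices have `key < k`" plus the case distinction whether non-good
vertices occur.  Let `k'` be the maximal key of a non-good vertex of `c`, `S` the finset of those
vertices with key `k'` (pairwise non-adjacent by `hne`).  `lk v c` is a cycle (`lk_bd`,
`lk_eq_zero`: `v` is not a vertex of `bd c`) in the descending link; fill it by `w v` and use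
`replace_all`: `c₁ = c.filter .. + ∑ w v` has `bd c₁ = bd c` (`bd_bd`) and only keys `< k'`. -/
theorem morse {κ : Type*} [LinearOrder κ] [WellFoundedLT κ] (adj : V → V → Prop)
    (hs : ∀ v w, adj v w → adj w v) (U Gd : Set V) (key : V → κ) (j : ℕ)
    (hne : ∀ v ∈ U, ∀ w ∈ U, v ∉ Gd → w ∉ Gd → v ≠ w → adj v w → key v ≠ key w)
    (hdn : ∀ v ∈ U, v ∉ Gd →
      Exact (Flag adj {w | w ∈ U ∧ w ≠ v ∧ adj v w ∧ (w ∈ Gd ∨ key w < key v)}) j)
    {c : Ch V} (hc : c ∈ Cs (Flag adj U) (j + 1)) (hbd : bd c ∈ Cs (Flag adj (U ∩ Gd)) j) :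
    ∃ c' ∈ Cs (Flag adj (U ∩ Gd)) (j + 1), bd c' = bd c := by
  classical
  have fin : ∀ c : Ch V, c ∈ Cs (Flag adj U) (j + 1) →
      (∀ σ ∈ c.support, ∀ v ∈ σ, v ∉ Gd → (∀ σ' ∈ c.support, ∀ w ∈ σ', w ∉ Gd → key w ≤ key v) →
        ∃ c' ∈ Cs (Flag adj (U ∩ Gd)) (j + 1), bd c' = bd c) →
      ∃ c' ∈ Cs (Flag adj (U ∩ Gd)) (j + 1), bd c' = bd c := by
    intro c hc h
    by_cases hne' : ((c.support.biUnion id).filter (fun v => v ∉ Gd)).Nonempty
    · obtain ⟨v, hv, hmax⟩ := Finset.exists_max_image _ key hne'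
      rw [Finset.mem_filter, Finset.mem_biUnion] at hv
      obtain ⟨⟨σ, hσ, hvσ⟩, hvG⟩ := hv
      exact h σ hσ v hvσ hvG fun σ' hσ' w hw hwG =>
        hmax w (Finset.mem_filter.2 ⟨Finset.mem_biUnion.2 ⟨σ', hσ', hw⟩, hwG⟩)
    · refine ⟨c, mem_Cs_Flag_of_verts hc fun σ hσ v hv =>
        ⟨(mem_Cs.1 hc σ hσ).1.1 v hv, ?_⟩, rfl⟩
      by_contra hvG
      exact hne' ⟨v, Finset.mem_filter.2 ⟨Finset.mem_biUnion.2 ⟨σ, hσ, hv⟩, hvG⟩⟩
  have main : ∀ k : κ, ∀ c : Ch V, c ∈ Cs (Flag adj U) (j + 1) →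
      bd c ∈ Cs (Flag adj (U ∩ Gd)) j → (∀ σ ∈ c.support, ∀ w ∈ σ, w ∉ Gd → key w ≤ k) →
      ∃ c' ∈ Cs (Flag adj (U ∩ Gd)) (j + 1), bd c' = bd c := by
    intro k
    induction k using WellFoundedLT.induction with
    | ind k ih =>
    intro c hc hbd hk
    set S : Finset V := (c.support.biUnion id).filter (fun v => v ∉ Gd ∧ key v = k) with hSdef
    have hSm : ∀ v ∈ S, v ∈ U ∧ v ∉ Gd ∧ key v = k := by
      intro v hv
      rw [hSdef, Finset.mem_filter, Finset.mem_biUnion] at hv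
      obtain ⟨⟨σ, hσ, hvσ⟩, hv'⟩ := hv
      exact ⟨(mem_Cs.1 hc σ hσ).1.1 v hvσ, hv'⟩
    have hex : ∀ v : V, ∃ y : Ch V, v ∈ S →
        y ∈ Cs (Flag adj {w | w ∈ U ∧ w ≠ v ∧ adj v w ∧ (w ∈ Gd ∨ key w < key v)}) (j + 1) ∧
          bd y = lk v c := by
      intro v
      by_cases hv : v ∈ S
      swap
      · exact ⟨0, fun h => absurd h hv⟩
      obtain ⟨hvU, hvG, hvk⟩ := hSm v hv
      have hlk : lk v c ∈
          Cs (Flag adj {w | w ∈ U ∧ w ≠ v ∧ adj v w ∧ (w ∈ Gd ∨ key w < key v)}) j := by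
        refine lk_mem_Cs_Flag v hc fun σ hσ hvσ w hw hwv => ?_
        have hwU := (mem_Cs.1 hc σ hσ).1.1 w hw
        have hvw := (mem_Cs.1 hc σ hσ).1.2 v hvσ w hw hwv.symm
        refine ⟨hwU, hwv, hvw, ?_⟩
        by_cases hwG : w ∈ Gd
        · exact Or.inl hwG
        · exact Or.inr (lt_of_le_of_ne (hvk ▸ hk σ hσ w hw hwG)
            (hne v hvU w hwU hvG hwG hwv.symm hvw).symm)
      have hcyc : bd (lk v c) = 0 := by
        rw [← lk_bd]
        exact lk_eq_zero fun σ hσ hvσ => hvG ((mem_Cs.1 hbd σ hσ).1.1 v hvσ).2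
      obtain ⟨y, hy, hy'⟩ := hdn v hvU hvG _ hlk hcyc
      exact ⟨y, fun _ => ⟨hy, hy'⟩⟩
    choose w hw using hex
    have hrep := replace_all S c w (fun σ hσ x hx y hy hxσ hyσ => by
      by_contra hxy
      obtain ⟨hxU, hxG, hxk⟩ := hSm x hx
      obtain ⟨hyU, hyG, hyk⟩ := hSm y hy
      exact hne x hxU y hyU hxG hyG hxy ((mem_Cs.1 hc σ hσ).1.2 x hxσ y hyσ hxy)
        (hxk.trans hyk.symm)) (fun v hv => (hw v hv).2)
    set c₁ := c + bd (∑ v ∈ S, cone v (w v)) with hc₁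
    have hc₁U : c₁ ∈ Cs (Flag adj {x | x ∈ U ∧ (x ∈ Gd ∨ key x < k)}) (j + 1) := by
      rw [hrep]
      refine Submodule.add_mem _ ?_ (Submodule.sum_mem _ fun v hv => ?_)
      · refine filter_mem_Cs_Flag _ hc fun σ hσ hd x hx => ⟨(mem_Cs.1 hc σ hσ).1.1 x hx, ?_⟩
        by_cases hxG : x ∈ Gd
        · exact Or.inl hxG
        · refine Or.inr (lt_of_le_of_ne (hk σ hσ x hx hxG) fun hxk => ?_)
          exact Finset.disjoint_left.1 hd hx
            (Finset.mem_filter.2 ⟨Finset.mem_biUnion.2 ⟨σ, hσ, hx⟩, hxG, hxk⟩)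
      · refine Cs_mono (Flag_mono adj ?_) _ (hw v hv).1
        rintro x ⟨hxU, -, -, hx⟩
        exact ⟨hxU, (hSm v hv).2.2 ▸ hx⟩
    have hbd₁ : bd c₁ = bd c := by rw [hc₁, map_add, bd_bd, add_zero]
    have hc₁' : c₁ ∈ Cs (Flag adj U) (j + 1) := Cs_mono (Flag_mono adj fun x hx => hx.1) _ hc₁U
    rw [← hbd₁]
    refine fin c₁ hc₁' fun σ hσ v hv hvG hmax => ?_
    exact ih (key v) (((mem_Cs.1 hc₁U σ hσ).1.1 v hv).2.resolve_left hvG) c₁ hc₁'
      (hbd₁ ▸ hbd) hmax
  exact fin c hc fun σ _ v _ _ hmax => main (key v) c hc hbd hmax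

/-- a flag complex with a cone point is exact (with size control). -/
theorem fill_of_apex (adj : V → V → Prop) (hs : ∀ v w, adj v w → adj w v) {U U' : Set V}
    (hU : U' ⊆ U) (a : V) (ha : a ∈ U) (hadj : ∀ w ∈ U', w ≠ a → adj a w) {j : ℕ} {z : Ch V}
    (hz : z ∈ Cs (Flag adj U') j) (hbd : bd z = 0) :
    cone a z ∈ Cs (Flag adj U) (j + 1) ∧ bd (cone a z) = z := by
  exact ⟨cone_mem_Cs_Flag adj hs hU a ha hadj hz, bd_cone_of_cycle a hbd⟩

end Crest.Agent.R66
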