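import Crest.Agent.R66.Tools1
import Crest.Agent.R66.Tools2
import Crest.Agent.R66.DBasic

/-! # Row 66: bounded fillings in `𝒟` -/

set_option linter.unusedSectionVars false

namespace Crest.Agent.R66

/-- step 2 of FILL: cycles without hyperplanes.  Recipe: let `s` be the finset of vertices of `z`
together with `B` (at most `j * r + 1` subspaces); take the bad subspaces `Z W` (`exists_bad`) and
`x ∈ V` avoiding them (`exists_avoid`).  Apply `push` with
`U = verts z ∪ {W ⊔ span {x} | W ∈ verts z}` (`⊆ Dset`), `Bad = {W | x ∉ W}`,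
`φ W = W ⊔ span {x}`; afterwards every vertex contains `B ⊔ span {x} ∈ Dset`, cone off with
`fill_of_apex`. -/
theorem fill_nohyper {F M : Type*} [Field F] [Fintype F] [AddCommGroup M] [Module F M]
    {B V Ea Eb Es : Submodule F M} {δ : Submodule F M → ℕ}
    (hD : DHyp B V Ea Eb Es) (hδ : IsDim B V δ) (h2 : δ B + 2 ≤ δ V) {j r : ℕ}
    (hq : j * r + 1 < Fintype.card F) {z : Ch (Submodule F M)}
    (hz : z ∈ Cs (Dcx B V Ea Eb Es) j) (hbd : bd z = 0) (hr : z.support.card ≤ r)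
    (hnh : ∀ σ ∈ z.support, ∀ W ∈ σ, δ W + 2 ≤ δ V) :
    ∃ y ∈ Cs (Dcx B V Ea Eb Es) (j + 1), bd y = z ∧ y.support.card ≤ j * r * r + r := by
  classical
  let verts : Finset (Submodule F M) := z.support.biUnion id
  have hz' := mem_Cs.1 hz
  have hverts : ∀ W, W ∈ verts ↔ ∃ σ ∈ z.support, W ∈ σ := fun W => by
    simp only [verts, Finset.mem_biUnion, id]
  have hvD : ∀ W ∈ verts, W ∈ Dset B V Ea Eb Es ∧ δ W + 2 ≤ δ V := by
    intro W hW
    obtain ⟨σ, hσ, hWσ⟩ := (hverts W).1 hW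
    exact ⟨(hz' σ hσ).1.1 W hWσ, hnh σ hσ W hWσ⟩
  have hvc : verts.card ≤ j * r := by
    refine Finset.card_biUnion_le.trans ?_
    refine (Finset.sum_le_card_nsmul _ _ j fun σ hσ => (hz' σ hσ).2.le).trans ?_
    rw [smul_eq_mul, mul_comm]
    exact Nat.mul_le_mul_left j hr
  have hbad : ∀ W ∈ insert B verts, ∃ Z : Submodule F M, ¬ V ≤ Z ∧ W ≤ Z ∧
      ∀ x ∈ V, x ∉ Z → W ⊔ Submodule.span F {x} ∈ Dset B V Ea Eb Es := by
    intro W hW
    rcases Finset.mem_insert.1 hW with h | h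
    · exact exists_bad hD hδ (Or.inl h) (h ▸ h2)
    · exact exists_bad hD hδ (Or.inr (hvD W h).1) (hvD W h).2
  choose! Z hZ1 hZ2 hZ3 using hbad
  obtain ⟨x, hxV, hx⟩ := exists_avoid V ((insert B verts).image Z) (by
      intro W hW
      obtain ⟨W', hW', rfl⟩ := Finset.mem_image.1 hW
      exact hZ1 W' hW') (by
      have h1 : ((insert B verts).image Z).card ≤ (insert B verts).card := Finset.card_image_le
      have h3 := Finset.card_insert_le B verts
      omega)
  have hgood : ∀ W ∈ insert B verts, W ⊔ Submodule.span F {x} ∈ Dset B V Ea Eb Es :=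
    fun W hW => hZ3 W hW x hxV (hx _ (Finset.mem_image_of_mem Z hW))
  have hxs : ∀ W : Submodule F M, x ∈ W ⊔ Submodule.span F {x} := fun W =>
    Submodule.mem_sup_right (Submodule.mem_span_singleton_self x)
  let U : Set (Submodule F M) := {W | W ∈ verts ∨ ∃ W' ∈ verts, W = W' ⊔ Submodule.span F {x}}
  have hU : U ⊆ Dset B V Ea Eb Es := by
    rintro W (h | ⟨W', h, rfl⟩)
    · exact (hvD W h).1
    · exact hgood W' (Finset.mem_insert_of_mem h)
  have hzU : z ∈ Cs (Flag Cmp U) j := by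
    refine mem_Cs.2 fun σ hσ => ⟨⟨fun W hW => Or.inl ((hverts W).2 ⟨σ, hσ, hW⟩),
      (hz' σ hσ).1.2⟩, (hz' σ hσ).2⟩
  obtain ⟨u, hu1, hu2, hu3, hu4⟩ := push Cmp Cmp_symm U {W | x ∉ W}
    (fun W => W ⊔ Submodule.span F {x}) (by
      intro v hv hvB
      have hv' : v ∈ verts := by
        rcases hv with h | ⟨W', -, rfl⟩
        · exact h
        · exact absurd (hxs W') hvB
      refine ⟨Or.inr ⟨v, hv', rfl⟩, fun h => h (hxs v), Or.inl le_sup_left, ?_⟩
      intro w _ hwv hc hw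
      right
      rcases hc with hc | hc
      · have hxw : x ∈ w := by
          rcases hw with hw | hw
          · exact not_not.1 hw
          · exact absurd (lt_of_le_of_ne hc hwv.symm) hw
        exact Or.inl (sup_le hc ((Submodule.span_singleton_le_iff_mem x w).2 hxw))
      · exact Or.inr (hc.trans le_sup_left)) hzU hbd
  have hcyc : bd (z + bd u) = 0 := by rw [map_add, hbd, bd_bd, add_zero]
  obtain ⟨h1, h3⟩ := fill_of_apex Cmp Cmp_symm (U := Dset B V Ea Eb Es) (U' := U \ {W | x ∉ W})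
    (fun W hW => hU hW.1) (B ⊔ Submodule.span F {x}) (hgood B (Finset.mem_insert_self _ _))
    (fun w hw _ => Or.inl (sup_le (hU hw.1).1.le
      ((Submodule.span_singleton_le_iff_mem x w).2 (not_not.1 hw.2)))) hu2 hcyc
  refine ⟨u + cone (B ⊔ Submodule.span F {x}) (z + bd u),
    Submodule.add_mem _ (Cs_mono (Flag_mono _ hU) _ hu1) h1, ?_, ?_⟩
  · rw [map_add, h3, add_comm z, ← add_assoc, add_self2, zero_add]
  · refine (card_support_add_le _ _).trans (Nat.add_le_add (hu4.trans ?_) ?_)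
    · exact Nat.mul_le_mul (Nat.mul_le_mul_left j hr) hr
    · exact (card_support_cone_le _ _).trans (hu3.trans hr)

theorem exists_fill_aux (j : ℕ) : ∃ f q : ℕ → ℕ, ∀ (r : ℕ) (F M : Type) [Field F] [Fintype F]
    [AddCommGroup M] [Module F M] (B V Ea Eb Es : Submodule F M) (δ : Submodule F M → ℕ),
    DHyp B V Ea Eb Es → IsDim B V δ → q r ≤ Fintype.card F → δ B + j + 2 ≤ δ V →
    Fill (Dcx B V Ea Eb Es) j r (f r) := by
  classical
  induction j with
  | zero =>
    refine ⟨fun r => 0 * r * r + r, fun _ => 2, ?_⟩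
    intro r F M _ _ _ _ B V Ea Eb Es δ hD hδ hq h2 z hz hbd hr
    refine fill_nohyper hD hδ h2 (by simp only [zero_mul]; exact hq) hz hbd hr fun σ hσ W hW => ?_
    rw [Finset.card_eq_zero.1 (mem_Cs.1 hz σ hσ).2] at hW
    simp at hW
  | succ j ih =>
    obtain ⟨f, q, ih⟩ := ih
    refine ⟨fun r => r * f r + ((j + 1) * (r + r * f r) * (r + r * f r) + (r + r * f r)),
      fun r => max (q r) ((j + 1) * (r + r * f r) + 2), ?_⟩
    intro r F M _ _ _ _ B V Ea Eb Es δ hD hδ hq h2 z hz hbd hr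
    have hq1 : q r ≤ Fintype.card F := (le_max_left _ _).trans hq
    have hq2 : (j + 1) * (r + r * f r) + 2 ≤ Fintype.card F := (le_max_right _ _).trans hq
    have hz' := mem_Cs.1 hz
    have hlt : ∀ W ∈ Dset B V Ea Eb Es, ∀ W' ∈ Dset B V Ea Eb Es, W < W' → δ W + 2 ≤ δ V := by
      intro W hW W' hW' h
      have h1 := hδ.mono W W' hW.1.le h hW'.2.1.le
      have h3 := hδ.mono W' V hW'.1.le hW'.2.1 le_rfl
      omega
    let S : Finset (Submodule F M) :=
      z.support.biUnion fun σ => σ.filter fun H => δ V ≤ δ H + 1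
    have hS : ∀ H, H ∈ S ↔ (∃ σ ∈ z.support, H ∈ σ) ∧ δ V ≤ δ H + 1 := by
      intro H
      simp only [S, Finset.mem_biUnion, Finset.mem_filter]
      constructor
      · rintro ⟨σ, h1, h3, h4⟩
        exact ⟨⟨σ, h1, h3⟩, h4⟩
      · rintro ⟨⟨σ, h1, h3⟩, h4⟩
        exact ⟨σ, h1, h3, h4⟩
    have hSD : ∀ H ∈ S, H ∈ Dset B V Ea Eb Es := by
      intro H hH
      obtain ⟨⟨σ, h1, h3⟩, -⟩ := (hS H).1 hH
      exact (hz' σ h1).1.1 H h3
    have hbelow : ∀ σ ∈ z.support, ∀ H ∈ σ, δ V ≤ δ H + 1 → ∀ W ∈ σ, W ≠ H → W < H := by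
      intro σ hσ H hH hδH W hW hne
      rcases (hz' σ hσ).1.2 W hW H hH hne with h | h
      · exact lt_of_le_of_ne h hne
      · have := hlt H ((hz' σ hσ).1.1 H hH) W ((hz' σ hσ).1.1 W hW) (lt_of_le_of_ne h hne.symm)
        omega
    have huniq : ∀ σ ∈ z.support, ∀ H ∈ σ, ∀ H' ∈ σ, δ V ≤ δ H + 1 → δ V ≤ δ H' + 1 →
        H = H' := by
      intro σ hσ H hH H' hH' h1 h3
      by_contra hne
      exact lt_asymm (hbelow σ hσ H' hH' h3 H hH hne) (hbelow σ hσ H hH h1 H' hH' (Ne.symm hne))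
    have hSc : S.card ≤ r := by
      refine Finset.card_biUnion_le.trans ?_
      refine (Finset.sum_le_card_nsmul _ _ 1 fun σ hσ => ?_).trans (by simpa using hr)
      refine Finset.card_le_one.2 fun H hH H' hH' => ?_
      rw [Finset.mem_filter] at hH hH'
      exact huniq σ hσ H hH.1 H' hH'.1 hH.2 hH'.2
    have hlow : ∀ H ∈ S, ∀ W, W ∈ Dset B H Ea Eb H ↔ W ∈ Dset B V Ea Eb Es ∧ W < H := by
      intro H hH W
      rw [← Dset_lower (hSD H hH)]
      rfl
    have hfill : ∀ H ∈ S, ∃ y ∈ Cs (Dcx B H Ea Eb H) (j + 1), bd y = lk H z ∧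
        y.support.card ≤ f r := by
      intro H hH
      have hH' := ((hS H).1 hH).2
      refine ih r F M B H Ea Eb H δ (hD.lower (hSD H hH).1.le) (hδ.restrict (hSD H hH).2.1.le)
        hq1 (by omega) (lk H z) ?_ ?_ ((card_support_lk_le _ _).trans hr)
      · refine lk_mem_Cs H hz fun σ hσ hHσ => ⟨fun W hW => ?_, fun W hW W' hW' hne => ?_⟩
        · obtain ⟨h1, h3⟩ := Finset.mem_erase.1 hW
          exact (hlow H hH W).2 ⟨(hz' σ hσ).1.1 W h3, hbelow σ hσ H hHσ hH' W h3 h1⟩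
        · exact (hz' σ hσ).1.2 W (Finset.mem_of_mem_erase hW) W' (Finset.mem_of_mem_erase hW') hne
      · rw [← lk_bd, hbd, map_zero]
    choose! w hw1 hw2 hw3 using hfill
    have hwv : ∀ H ∈ S, ∀ σ ∈ (w H).support, ∀ W ∈ σ, W ∈ Dset B V Ea Eb Es ∧ W < H :=
      fun H hH σ hσ W hW => (hlow H hH W).1 ((mem_Cs.1 (hw1 H hH) σ hσ).1.1 W hW)
    have hu : (∑ H ∈ S, cone H (w H)) ∈ Cs (Dcx B V Ea Eb Es) (j + 1 + 1) := by
      refine Submodule.sum_mem _ fun H hH => cone_mem_Cs H (hw1 H hH) fun σ hσ _ => ?_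
      exact insert_mem_Flag Cmp_symm
        ⟨fun W hW => (hwv H hH σ hσ W hW).1, (mem_Cs.1 (hw1 H hH) σ hσ).1.2⟩ (hSD H hH)
        fun W hW _ => Or.inr (hwv H hH σ hσ W hW).2.le
    have hsum : ∀ g : Submodule F M → Ch (Submodule F M),
        (∀ H ∈ S, (g H).support.card ≤ f r) → (∑ H ∈ S, g H).support.card ≤ r * f r := by
      intro g hg
      refine (card_support_sum_le _ _).trans ?_
      refine (Finset.sum_le_card_nsmul _ _ _ hg).trans ?_
      rw [smul_eq_mul]
      exact Nat.mul_le_mul_right _ hSc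
    have hrep := replace_all S z w (fun σ hσ H hH H' hH' h1 h3 =>
      huniq σ hσ H h1 H' h3 ((hS H).1 hH).2 ((hS H').1 hH').2) hw2
    have hfs : ∀ σ ∈ (z.filter fun σ => Disjoint σ S).support, σ ∈ z.support ∧ Disjoint σ S := by
      intro σ hσ
      rw [Finsupp.support_filter, Finset.mem_filter] at hσ
      exact hσ
    obtain ⟨y, hy1, hy2, hy3⟩ := fill_nohyper hD hδ (by omega) (j := j + 1) (r := r + r * f r)
      (by omega) (z := z + bd (∑ H ∈ S, cone H (w H)))
      (Submodule.add_mem _ hz (bd_mem_Cs (Flag_isCx _ _) hu))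
      (by rw [map_add, hbd, bd_bd, add_zero]) (by
        rw [hrep]
        refine (card_support_add_le _ _).trans (Nat.add_le_add ?_ (hsum w hw3))
        exact (Finset.card_le_card fun σ hσ => (hfs σ hσ).1).trans hr) (by
        rw [hrep]
        intro σ hσ W hW
        rcases Finset.mem_union.1 (Finsupp.support_add hσ) with h | h
        · obtain ⟨h1, h3⟩ := hfs σ h
          by_contra h4
          exact Finset.disjoint_left.1 h3 hW ((hS W).2 ⟨⟨σ, h1, hW⟩, by omega⟩)
        · obtain ⟨H, hH, h1⟩ := Finset.mem_biUnion.1 (Finsupp.support_finsetSum h)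
          exact hlt W (hwv H hH σ h1 W hW).1 H (hSD H hH) (hwv H hH σ h1 W hW).2)
    refine ⟨∑ H ∈ S, cone H (w H) + y, Submodule.add_mem _ hu hy1, ?_, ?_⟩
    · rw [map_add, hy2, add_comm z, ← add_assoc, add_self2, zero_add]
    · exact (card_support_add_le _ _).trans (Nat.add_le_add
        (hsum _ fun H hH => (card_support_cone_le _ _).trans (hw3 H hH)) hy3)

/-- FILL.  Recipe: it suffices to prove `∀ j, ∃ f q : ℕ → ℕ, ∀ r, …` by induction on `j` (then
`choose`).  `j = 0`: `fill_nohyper` (no vertices).  Step `j+1`: `S` = vertices `H` of `z` with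
`δ V ≤ δ H + 1` (hyperplanes; two of them are never comparable, so at most one per face and
`S.card ≤ r`).  `lk H z` is a cycle of cardinality `j` with `≤ r` faces in `Dcx B H Ea Eb H`
(`Dset_lower`, `DHyp.lower`, `IsDim.restrict`; other vertices of a face through `H` are `< H`), fill it
by `w H`; `replace_all` gives `z' = z + bd (∑ cone H (w H))` without hyperplanes and with at most
`r' = r + r * f r` faces; finish with `fill_nohyper`. -/
theorem exists_fill : ∃ f q : ℕ → ℕ → ℕ, ∀ (j r : ℕ) (F M : Type) [Field F] [Fintype F]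
    [AddCommGroup M] [Module F M] (B V Ea Eb Es : Submodule F M) (δ : Submodule F M → ℕ),
    DHyp B V Ea Eb Es → IsDim B V δ → q j r ≤ Fintype.card F → δ B + j + 2 ≤ δ V →
    Fill (Dcx B V Ea Eb Es) j r (f j r) := by
  choose f q h using exists_fill_aux
  exact ⟨f, q, fun j r => h j r⟩

/-- Recipe: `exists_fill` + `hasContr_of_fill`, with `R = sup_{j ≤ m} rho f (j+1)` and
`q₀ = sup_{j ≤ m} q j (1 + j * rho f j)`. -/
theorem D_contr (m : ℕ) : ∃ R q₀ : ℕ, ∀ (F M : Type) [Field F] [Fintype F]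
    [AddCommGroup M] [Module F M] (B V Ea Eb Es : Submodule F M) (δ : Submodule F M → ℕ),
    DHyp B V Ea Eb Es → IsDim B V δ → q₀ ≤ Fintype.card F → δ B + m + 2 ≤ δ V →
    HasContr (Dcx B V Ea Eb Es) m R := by
  obtain ⟨f, q, h⟩ := exists_fill
  refine ⟨(Finset.range (m + 1)).sup fun j => rho f (j + 1),
    (Finset.range (m + 1)).sup fun j => q j (1 + j * rho f j), ?_⟩
  intro F M _ _ _ _ B V Ea Eb Es δ hD hδ hq h2
  refine hasContr_of_fill (Flag_isCx _ _) f m _ (fun j hj => ?_) fun j hj => ?_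
  · refine h j _ F M B V Ea Eb Es δ hD hδ (le_trans ?_ hq) (by omega)
    exact Finset.le_sup (f := fun j => q j (1 + j * rho f j)) (Finset.mem_range.2 (by omega))
  · exact Finset.le_sup (f := fun j => rho f (j + 1)) (Finset.mem_range.2 (by omega))

end Crest.Agent.R66
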