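import Mathlib

/-!
# Row 66 (S0088): definitions

All chains are `ZMod 2`-chains on *unoriented* finite vertex sets; faces are indexed by their
cardinality (so the empty face is the augmentation).
-/

namespace Crest.Agent.R66

open Polynomial

/-- `F₂`-chains on all finite subsets of `V`. -/
abbrev Ch (V : Type*) := Finset V →₀ ZMod 2

section chains
variable {V V' : Type*} [DecidableEq V] [DecidableEq V']

/-- boundary `σ ↦ ∑_{v ∈ σ} (σ \ v)`. -/
noncomputable def bd : Ch V →ₗ[ZMod 2] Ch V :=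
  Finsupp.linearCombination (ZMod 2)
    (fun σ : Finset V => ∑ v ∈ σ, Finsupp.single (σ.erase v) (1 : ZMod 2))

/-- cone with apex `a` (zero on sets containing `a`). -/
noncomputable def cone (a : V) : Ch V →ₗ[ZMod 2] Ch V :=
  Finsupp.linearCombination (ZMod 2)
    (fun σ : Finset V => if a ∈ σ then 0 else Finsupp.single (insert a σ) (1 : ZMod 2))

/-- link part at `v` (zero on sets not containing `v`). -/
noncomputable def lk (v : V) : Ch V →ₗ[ZMod 2] Ch V :=
  Finsupp.linearCombination (ZMod 2)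
    (fun σ : Finset V => if v ∈ σ then Finsupp.single (σ.erase v) (1 : ZMod 2) else 0)

/-- push-forward along a vertex map. -/
noncomputable def mapC (φ : V → V') : Ch V →ₗ[ZMod 2] Ch V' :=
  Finsupp.lmapDomain (ZMod 2) (ZMod 2) (Finset.image φ)

/-- chains supported on faces of `K` of cardinality `j`. -/
noncomputable def Cs (K : Set (Finset V)) (j : ℕ) : Submodule (ZMod 2) (Ch V) :=
  Finsupp.supported (ZMod 2) (ZMod 2) {σ | σ ∈ K ∧ σ.card = j}

/-- `K` is a simplicial complex (contains `∅`, closed under subsets). -/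
def IsCx (K : Set (Finset V)) : Prop := ∅ ∈ K ∧ ∀ σ ∈ K, ∀ τ, τ ⊆ σ → τ ∈ K

/-- flag (clique) complex of the relation `adj` on the vertex set `U`. -/
def Flag (adj : V → V → Prop) (U : Set V) : Set (Finset V) :=
  {σ | (∀ v ∈ σ, v ∈ U) ∧ ∀ v ∈ σ, ∀ w ∈ σ, v ≠ w → adj v w}

/-- link of the face `ρ`. -/
def Lk (K : Set (Finset V)) (ρ : Finset V) : Set (Finset V) := {σ | Disjoint σ ρ ∧ σ ∪ ρ ∈ K}

/-- reduced homology vanishes at cardinality `j`. -/
def Exact (K : Set (Finset V)) (j : ℕ) : Prop :=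
  ∀ z ∈ Cs K j, bd z = 0 → ∃ y ∈ Cs K (j + 1), bd y = z

/-- cycles of cardinality `j` with at most `r` faces have fillings with at most `f` faces. -/
def Fill (K : Set (Finset V)) (j r f : ℕ) : Prop :=
  ∀ z ∈ Cs K j, bd z = 0 → z.support.card ≤ r →
    ∃ y ∈ Cs K (j + 1), bd y = z ∧ y.support.card ≤ f

/-- a chain contraction on faces of cardinality `≤ m`, of size at most `R`. -/
def HasContr (K : Set (Finset V)) (m R : ℕ) : Prop :=
  ∃ h : Finset V → Ch V, ∀ σ ∈ K, σ.card ≤ m →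
    h σ ∈ Cs K (σ.card + 1) ∧ (h σ).support.card ≤ R ∧
      bd (h σ) + ∑ v ∈ σ, h (σ.erase v) = Finsupp.single σ 1

/-- connectivity of the 1-skeleton. -/
def Conn (K : Set (Finset V)) : Prop :=
  ∀ v w : V, ({v} : Finset V) ∈ K → ({w} : Finset V) ∈ K →
    Relation.ReflTransGen (fun a b => ({a, b} : Finset V) ∈ K) v w

/-- coboundary of a cochain. -/
def dl (f : Finset V → ZMod 2) : Finset V → ZMod 2 := fun τ => ∑ v ∈ τ, f (τ.erase v)

/-- size recursion for contractions built from bounded fillings. -/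
def rho (f : ℕ → ℕ → ℕ) : ℕ → ℕ
  | 0 => 0
  | j + 1 => f j (1 + j * rho f j)

/-- pure `N`-partite complex with colours `0,…,N-1`. -/
structure Partite (K : Set (Finset V)) (col : V → ℕ) (N : ℕ) : Prop where
  cx : IsCx K
  lt : ∀ v : V, ({v} : Finset V) ∈ K → col v < N
  inj : ∀ σ ∈ K, Set.InjOn col (σ : Set V)
  pure : ∀ σ ∈ K, ∃ τ ∈ K, σ ⊆ τ ∧ τ.card = N

/-- every panel lies in at least `b` chambers. -/
def Thick (K : Set (Finset V)) (N b : ℕ) : Prop :=
  ∀ ρ ∈ K, ρ.card + 1 = N → ∃ s : Finset V, b ≤ s.card ∧ ∀ v ∈ s, ({v} : Finset V) ∈ Lk K ρ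

/-- rank two links: complete bipartite, or any two vertices of one colour have exactly one common
neighbour. -/
def Rank2 (K : Set (Finset V)) (col : V → ℕ) (N : ℕ) : Prop :=
  ∀ ρ ∈ K, ρ.card + 2 = N →
    (∀ v w : V, ({v} : Finset V) ∈ Lk K ρ → ({w} : Finset V) ∈ Lk K ρ → col v ≠ col w →
      ({v, w} : Finset V) ∈ Lk K ρ) ∨
    ∃ v₀ : V, ({v₀} : Finset V) ∈ Lk K ρ ∧
      ∀ v v' : V, ({v} : Finset V) ∈ Lk K ρ → ({v'} : Finset V) ∈ Lk K ρ → col v = col v₀ →
        col v' = col v₀ → v ≠ v' →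
        ∃! u : V, col u ≠ col v₀ ∧ ({u, v} : Finset V) ∈ Lk K ρ ∧ ({u, v'} : Finset V) ∈ Lk K ρ

/-- every vertex lies in at most `D` chambers. -/
def Deg (K : Set (Finset V)) (N D : ℕ) : Prop :=
  ∀ (v : V) (s : Finset (Finset V)), (∀ c ∈ s, c ∈ K ∧ c.card = N ∧ v ∈ c) → s.card ≤ D

/-- the local properties (links of non-empty faces). -/
structure Local (K : Set (Finset V)) (col : V → ℕ) (N m R b : ℕ) : Prop where
  conn : ∀ ρ ∈ K, ρ.Nonempty → ρ.card + 2 ≤ N → Conn (Lk K ρ)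
  thick : Thick K N b
  rank2 : Rank2 K col N
  contr : ∀ ρ ∈ K, ρ.Nonempty → ρ.card ≤ m → HasContr (Lk K ρ) m R

/-- colour preserving automorphisms act transitively on chambers. -/
def Homog (K : Set (Finset V)) (col : V → ℕ) (N : ℕ) : Prop :=
  ∀ c ∈ K, ∀ c' ∈ K, c.card = N → c'.card = N → ∃ φ : Equiv.Perm V,
    (∀ σ : Finset V, σ.image φ ∈ K ↔ σ ∈ K) ∧
    (∀ v : V, ({v} : Finset V) ∈ K → col (φ v) = col v) ∧ c.image φ = c'

end chains

/-! ### finite complexes: counting and averaging -/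

section counting
variable {V : Type*} [Fintype V] [DecidableEq V]

open Classical in
/-- number of faces of cardinality `a` where `f ≠ 0`. -/
noncomputable def ham (K : Set (Finset V)) (a : ℕ) (f : Finset V → ZMod 2) : ℕ :=
  ((Finset.univ : Finset (Finset V)).filter (fun σ => σ ∈ K ∧ σ.card = a ∧ f σ ≠ 0)).card

open Classical in
/-- chambers containing `ρ`. -/
noncomputable def Cham (K : Set (Finset V)) (N : ℕ) (ρ : Finset V) : Finset (Finset V) :=
  (Finset.univ : Finset (Finset V)).filter (fun c => c ∈ K ∧ c.card = N ∧ ρ ⊆ c)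

/-- average over the chambers containing `ρ`. -/
noncomputable def Ex (K : Set (Finset V)) (N : ℕ) (ρ : Finset V) (f : Finset V → ℝ) : ℝ :=
  (∑ c ∈ Cham K N ρ, f c) / ((Cham K N ρ).card : ℝ)

/-- covariance over the chambers containing `ρ`. -/
noncomputable def Cov (K : Set (Finset V)) (N : ℕ) (ρ : Finset V) (f g : Finset V → ℝ) : ℝ :=
  Ex K N ρ (fun c => f c * g c) - Ex K N ρ f * Ex K N ρ g

/-- the face of `c` with colours in `J`. -/
def face (col : V → ℕ) (J : Finset ℕ) (c : Finset V) : Finset V := c.filter (fun v => col v ∈ J)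

/-- `x` is a colour not used by `ρ`. -/
def Free (col : V → ℕ) (N : ℕ) (ρ : Finset V) (x : ℕ) : Prop := x < N ∧ ∀ v ∈ ρ, col v ≠ x

/-- spectral bound for the bipartite graph between colours `x` and `y` in the link of `ρ`. -/
def Spec (K : Set (Finset V)) (col : V → ℕ) (N : ℕ) (ρ : Finset V) (x y : ℕ) (μ : ℝ) : Prop :=
  ∀ φ ψ : Finset V → ℝ,
    2 * Cov K N ρ (fun c => φ (face col {x} c)) (fun c => ψ (face col {y} c)) ≤
      μ * (Cov K N ρ (fun c => φ (face col {x} c)) (fun c => φ (face col {x} c)) +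
        Cov K N ρ (fun c => ψ (face col {y} c)) (fun c => ψ (face col {y} c)))

/-- chamber-weighted count, in the link of `ρ`, of faces of cardinality `a` where `f ≠ 0`. -/
noncomputable def cnt (K : Set (Finset V)) (N : ℕ) (ρ : Finset V) (a : ℕ)
    (f : Finset V → ZMod 2) : ℕ :=
  ∑ c ∈ Cham K N ρ, (((c \ ρ).powersetCard a).filter (fun σ => f σ ≠ 0)).card

/-- coboundary expansion of the link of `ρ` at cardinality `a`, with loss `C`. -/
def LinkExp (K : Set (Finset V)) (N : ℕ) (ρ : Finset V) (a C : ℕ) : Prop :=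
  ∀ f : Finset V → ZMod 2, ∃ g : Finset V → ZMod 2,
    cnt K N ρ a (f - dl g) ≤ C * cnt K N ρ (a + 1) (dl f)

/-- `h` (cardinality `j`) is locally minimal. -/
def LocMin (K : Set (Finset V)) (N j : ℕ) (h : Finset V → ZMod 2) : Prop :=
  ∀ r ∈ K, r.Nonempty → r.card ≤ j → ∀ g : Finset V → ZMod 2,
    cnt K N r (j - r.card) (fun σ => h (σ ∪ r)) ≤
      cnt K N r (j - r.card) ((fun σ => h (σ ∪ r)) - dl g)

end counting

/-! ### the complexes `𝒟` of subspaces -/

section dcx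
variable {F M : Type*} [Field F] [AddCommGroup M] [Module F M]

/-- vertex set of `𝒟(B,V;Ea,Eb,Es)`. -/
def Dset (B V Ea Eb Es : Submodule F M) : Set (Submodule F M) :=
  {W | B < W ∧ W < V ∧ (W ⊓ Ea ≤ B ∨ (V ≤ W ⊔ Eb ∧ ¬ Es ≤ W))}

/-- comparability. -/
def Cmp (W W' : Submodule F M) : Prop := W ≤ W' ∨ W' ≤ W

/-- the order complex of `Dset`. -/
def Dcx (B V Ea Eb Es : Submodule F M) : Set (Finset (Submodule F M)) :=
  Flag Cmp (Dset B V Ea Eb Es)

/-- `δ` behaves like a dimension function on the interval `[B,V]`. -/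
structure IsDim (B V : Submodule F M) (δ : Submodule F M → ℕ) : Prop where
  mono : ∀ W W', B ≤ W → W < W' → W' ≤ V → δ W < δ W'
  step : ∀ W x, B ≤ W → W ≤ V → x ∈ V → δ (W ⊔ Submodule.span F {x}) ≤ δ W + 1

/-- standing hypotheses on the data of `𝒟`. -/
structure DHyp (B V Ea Eb Es : Submodule F M) : Prop where
  BV : B ≤ V
  ab : Ea ≤ Eb
  sV : Es ≤ V
  star : ∀ W, B ≤ W → W < V → W ⊓ Ea ≤ B → ¬ Es ≤ W

end dcx

/-! ### lattices -/

/-- Abstract form of `M = F[t,t⁻¹]^N`, `t` = multiplication by `t`, `P = F[t]^N`,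
`Λ = F[t⁻¹]^N`. -/
structure Amb (F M : Type*) [Field F] [AddCommGroup M] [Module F M] where
  t : M ≃ₗ[F] M
  P : Submodule F M
  Λ : Submodule F M
  N : ℕ
  P_le : Submodule.orderIsoMapComap t P ≤ P
  Λ_le : Λ ≤ Submodule.orderIsoMapComap t Λ
  inf_eq : Λ ⊓ Submodule.orderIsoMapComap t P = ⊥
  sup_eq : Λ ⊔ Submodule.orderIsoMapComap t P = ⊤
  fin : FiniteDimensional F ↥(Λ ⊓ P)
  rank : Module.finrank F ↥(Λ ⊓ P) = N

namespace Amb
variable {F M : Type*} [Field F] [AddCommGroup M] [Module F M] (𝒜 : Amb F M)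

/-- multiplication of a subspace by `t^m`. -/
noncomputable def sh (m : ℤ) : Submodule F M ≃o Submodule F M :=
  (Submodule.orderIsoMapComap 𝒜.t : Submodule F M ≃o Submodule F M) ^ m

/-- `t^a P`. -/
noncomputable def Q (a : ℤ) : Submodule F M := 𝒜.sh a 𝒜.P

/-- lattices: `t⁻¹ L ≤ L`, and `L` is sandwiched between multiples of `Λ`. -/
def Lat (L : Submodule F M) : Prop :=
  L ≤ 𝒜.sh 1 L ∧ ∃ m : ℕ, 𝒜.sh (-(m : ℤ)) 𝒜.Λ ≤ L ∧ L ≤ 𝒜.sh m 𝒜.Λ

/-- normalised lattices (one in each homothety class). -/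
def Norm (L : Submodule F M) : Prop := 𝒜.Lat L ∧ L ⊔ 𝒜.Q 1 = ⊤ ∧ L ⊔ 𝒜.Q 2 ≠ ⊤

/-- vertices of `Δ₀`. -/
def Good (L : Submodule F M) : Prop := 𝒜.Norm L ∧ L ⊓ 𝒜.Q 2 = ⊥

/-- adjacency of lattices. -/
def adj (L L' : Submodule F M) : Prop :=
  (L ≤ L' ∧ 𝒜.sh (-1) L' ≤ L) ∨ (L' ≤ L ∧ 𝒜.sh (-1) L ≤ L')

/-- the dimension function. -/
noncomputable def del (L : Submodule F M) : ℕ := Module.finrank F ↥(L ⊓ 𝒜.Q 0)

/-- the type (colour). -/
noncomputable def typ (L : Submodule F M) : ℕ := Module.finrank F ↥(L ⊓ 𝒜.Q 1)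

/-- the complex `Δ₀`. -/
def Δ : Set (Finset (Submodule F M)) := Flag 𝒜.adj {L | 𝒜.Good L}

open Classical in
/-- normalisation of a subspace lying between `t⁻¹ L` and `L`. -/
noncomputable def nrm (W : Submodule F M) : Submodule F M :=
  if W ⊔ 𝒜.Q 1 = ⊤ then W else 𝒜.sh 1 W

/-- `(B,V)` is a gap of the simplex `ρ`. -/
structure IsGap (ρ : Finset (Submodule F M)) (B V : Submodule F M) : Prop where
  memV : V ∈ ρ
  memB : B ∈ ρ ∨ 𝒜.sh 1 B ∈ ρ
  lt : B < V
  shle : 𝒜.sh (-1) V ≤ B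
  out : ∀ L ∈ ρ, (V ≤ L ∧ 𝒜.sh (-1) L ≤ B) ∨ (L ≤ B ∧ 𝒜.sh (-1) V ≤ L)

/-- vertices of the link lying inside the gap `(B,V)`. -/
def gapIn (B V : Submodule F M) : Set (Submodule F M) :=
  𝒜.nrm '' Dset B V (𝒜.Q 1) (𝒜.Q 1) V

/-- linear automorphisms preserving the structure. -/
structure IsSym (g : M ≃ₗ[F] M) : Prop where
  comm : ∀ x, g (𝒜.t x) = 𝒜.t (g x)
  mapP : Submodule.orderIsoMapComap g 𝒜.P = 𝒜.P
  bdd : ∃ m : ℕ, Submodule.orderIsoMapComap g 𝒜.Λ ≤ 𝒜.sh m 𝒜.Λ ∧
    𝒜.sh (-(m : ℤ)) 𝒜.Λ ≤ Submodule.orderIsoMapComap g 𝒜.Λ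

end Amb

/-! ### group actions and coinvariants -/

section groups
variable {H : Type*} [Group H] {V : Type*} [DecidableEq V]

/-- the induced linear action on chains. -/
noncomputable def act (a : H →* Equiv.Perm V) : Representation (ZMod 2) H (Ch V) where
  toFun h := mapC (a h)
  map_one' := by
    apply Finsupp.lhom_ext
    intro σ r
    simp [mapC]
  map_mul' g h := by
    apply Finsupp.lhom_ext
    intro σ r
    simp [mapC, Finset.image_image]

/-- augmentation submodule `I_S · M`. -/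
def Aug {M : Type*} [AddCommGroup M] [Module (ZMod 2) M] (ρ : Representation (ZMod 2) H M)
    (S : Subgroup H) : Submodule (ZMod 2) M :=
  Submodule.span (ZMod 2) {y | ∃ h ∈ S, ∃ x, y = ρ h x - x}

/-- vanishing of the (reduced) homology of the `S`-coinvariants of the chains of `K`. -/
def Van (a : H →* Equiv.Perm V) (S : Subgroup H) (K : Set (Finset V)) (j : ℕ) : Prop :=
  ∀ x ∈ Cs K j, bd x ∈ Aug (act a) S → ∃ y ∈ Cs K (j + 1), x - bd y ∈ Aug (act a) S

/-- `K` is `S`-invariant. -/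
def Inv (a : H →* Equiv.Perm V) (S : Subgroup H) (K : Set (Finset V)) : Prop :=
  ∀ h ∈ S, ∀ σ ∈ K, σ.image (a h) ∈ K

/-- setwise stabiliser of `σ` in `S`. -/
def stab (a : H →* Equiv.Perm V) (S : Subgroup H) (σ : Finset V) : Subgroup H where
  carrier := {h | h ∈ S ∧ σ.image (a h) = σ}
  one_mem' := ⟨S.one_mem, by simp⟩
  mul_mem' := by
    rintro g h ⟨hg, hg'⟩ ⟨hh, hh'⟩
    refine ⟨S.mul_mem hg hh, ?_⟩
    rw [map_mul, Equiv.Perm.coe_mul, ← Finset.image_image, hh', hg']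
  inv_mem' := by
    rintro g ⟨hg, hg'⟩
    refine ⟨S.inv_mem hg, ?_⟩
    conv_lhs => rw [← hg']
    rw [Finset.image_image, ← Equiv.Perm.coe_mul, ← map_mul, inv_mul_cancel, map_one]
    simp

/-- stabilisers of non-empty faces are finite of odd order. -/
def OddStab (a : H →* Equiv.Perm V) (S : Subgroup H) (K : Set (Finset V)) : Prop :=
  ∀ σ ∈ K, σ.Nonempty → Odd (Nat.card (stab a S σ))

/-- `S` is locally (finite of odd order). -/
def LocOdd (S : Subgroup H) : Prop :=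
  ∀ s : Finset H, (∀ h ∈ s, h ∈ S) → ∃ S' : Subgroup H, S' ≤ S ∧ (∀ h ∈ s, h ∈ S') ∧
    Odd (Nat.card S')

/-- an abstract target complex of `H`-modules: total space `M`, differential `D`,
graded pieces `G j`. -/
structure Target {M : Type*} [AddCommGroup M] [Module (ZMod 2) M]
    (ρ : Representation (ZMod 2) H M) (D : M →ₗ[ZMod 2] M) (G : ℕ → Submodule (ZMod 2) M) :
    Prop where
  inv : ∀ h j, ∀ x ∈ G j, ρ h x ∈ G j
  comm : ∀ h x, D (ρ h x) = ρ h (D x)
  sq : ∀ x, D (D x) = 0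
  deg : ∀ j, ∀ x ∈ G (j + 1), D x ∈ G j

/-- data for passing to the finite quotient by `Γ`. -/
structure QData (a : H →* Equiv.Perm V) (Γ : Subgroup H) (K : Set (Finset V)) (col : V → ℕ)
    (N : ℕ) : Prop where
  normal : Γ.Normal
  fin : Γ.FiniteIndex
  part : Partite K col N
  inv : Inv a ⊤ K
  colinv : ∀ (g : H) (v : V), ({v} : Finset V) ∈ K → col (a g v) = col v
  trans : ∀ c ∈ K, ∀ c' ∈ K, c.card = N → c'.card = N → ∃ g : H, c.image (a g) = c'
  sep : ∀ γ ∈ Γ, ∀ v w : V, ({v, w} : Finset V) ∈ K → ({v, a γ w} : Finset V) ∈ K → a γ w = w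

end groups

/-! ### matrix groups over `F[X]` -/

section matrices
variable {ι : Type*} [Fintype ι] [DecidableEq ι] {F : Type*} [Field F]

/-- principal congruence subgroup of level `X^n`. -/
noncomputable def Gam (ι : Type*) [Fintype ι] [DecidableEq ι] (F : Type*) [Field F] (n : ℕ) :
    Subgroup (GL ι F[X]) :=
  (Matrix.GeneralLinearGroup.map (Ideal.Quotient.mk (Ideal.span {(X : F[X]) ^ n}))).ker

noncomputable instance (priority := high) vecDecEq : DecidableEq (ι → F[X]) := Classical.decEq _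

/-- action on column vectors. -/
noncomputable def vecAct (ι : Type*) [Fintype ι] [DecidableEq ι] (F : Type*) [Field F] :
    GL ι F[X] →* Equiv.Perm (ι → F[X]) where
  toFun g :=
    { toFun := fun v => (g : Matrix ι ι F[X]).mulVec v
      invFun := fun v => ((g⁻¹ : GL ι F[X]) : Matrix ι ι F[X]).mulVec v
      left_inv := fun v => by simp [Matrix.mulVec_mulVec]
      right_inv := fun v => by simp [Matrix.mulVec_mulVec] }
  map_one' := by ext v i; simp
  map_mul' g h := by ext v i; simp [Matrix.mulVec_mulVec]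

/-- the standard basis vectors indexed by `T`. -/
noncomputable def stdU (F : Type*) [Field F] (T : Finset ι) : Finset (ι → F[X]) :=
  T.image (fun i => Pi.single i (1 : F[X]))

/-- the complex `𝒰` of `Γ_n`-translates of sets of standard basis vectors. -/
def UU (ι : Type*) [Fintype ι] [DecidableEq ι] (F : Type*) [Field F] (n : ℕ) :
    Set (Finset (ι → F[X])) :=
  {τ | ∃ γ ∈ Gam ι F n, ∃ T : Finset ι, τ = (stdU F T).image (vecAct ι F γ)}

/-- the elementary matrix `1 + r E_{ij}` (junk value `1` if `i = j`). -/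
noncomputable def elem (i j : ι) (r : F[X]) : GL ι F[X] :=
  if h : i = j then 1 else
    { val := 1 + Matrix.single i j r
      inv := 1 - Matrix.single i j r
      val_inv := by
        have : Matrix.single i j r * Matrix.single i j r = 0 :=
          Matrix.single_mul_single_of_ne _ _ _ _ (Ne.symm h) _
        rw [add_mul, mul_sub, mul_sub, this]; simp
      inv_val := by
        have : Matrix.single i j r * Matrix.single i j r = 0 :=
          Matrix.single_mul_single_of_ne _ _ _ _ (Ne.symm h) _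
        rw [sub_mul, mul_add, mul_add, this]; simp }

/-- a complex with a `GL_ι(F[X])`-action computing the `F₂`-homology of subgroups of `Γ₁` in
cardinalities `≤ m`, for which the `Γ₁`-quotient is acyclic. -/
structure IsModel {V : Type*} [DecidableEq V] (a : GL ι F[X] →* Equiv.Perm V)
    (K : Set (Finset V)) (m : ℕ) : Prop where
  cx : IsCx K
  inv : Inv a ⊤ K
  exact : ∀ i ≤ m, Exact K i
  odd : OddStab a (Gam ι F 1) K
  van : ∀ i ≤ m, Van a (Gam ι F 1) K i

/-- block structure of the stabiliser `Aff_T` of the basis vectors indexed by `T`: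
`Aff_T = L_T ⋉ N_T`, with `L_T` the image of the smaller congruence subgroup under `θ`, and the
transposed radical `N'_T`. -/
structure Blocks (T : Finset ι) (n : ℕ) (θ : GL {i // i ∉ T} F[X] →* GL ι F[X])
    (N N' : Subgroup (GL ι F[X]))
    (π : ↥(stab (vecAct ι F) (Gam ι F n) (stdU F T)) →* GL ι F[X]) : Prop where
  inj : Function.Injective θ
  le_one : (Gam {i // i ∉ T} F 1).map θ ≤ Gam ι F 1
  L_le : (Gam {i // i ∉ T} F n).map θ ≤ stab (vecAct ι F) (Gam ι F n) (stdU F T)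
  N_le : N ≤ stab (vecAct ι F) (Gam ι F n) (stdU F T)
  N'_le : N' ≤ Gam ι F n
  odd : LocOdd N
  odd' : LocOdd N'
  norm : ∀ s ∈ stab (vecAct ι F) (Gam ι F n) (stdU F T), ∀ x ∈ N, s * x * s⁻¹ ∈ N
  norm' : ∀ s ∈ (Gam {i // i ∉ T} F n).map θ, ∀ x ∈ N', s * x * s⁻¹ ∈ N'
  π_mem : ∀ s, π s ∈ (Gam {i // i ∉ T} F n).map θ
  π_N : ∀ s : ↥(stab (vecAct ι F) (Gam ι F n) (stdU F T)), (s : GL ι F[X]) * (π s)⁻¹ ∈ N
  comm : ∀ l ∈ T, ∀ i, i ∉ T → ∀ r : F[X], ∀ s ∈ (Gam {i // i ∉ T} F n).map θ,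
    elem l i r * s * (elem l i r)⁻¹ * s⁻¹ ∈ N
  comm' : ∀ l ∈ T, ∀ i, i ∉ T → ∀ r : F[X], ∀ s ∈ (Gam {i // i ∉ T} F n).map θ,
    elem i l r * s * (elem i l r)⁻¹ * s⁻¹ ∈ N'

end matrices

end Crest.Agent.R66
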