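import Crest.Agent.R66.Chain

/-! # Row 66: averaging over chambers -/

set_option linter.unusedSectionVars false

namespace Crest.Agent.R66

variable {V : Type*} [Fintype V] [DecidableEq V] {K : Set (Finset V)} {col : V → ℕ} {N : ℕ}

theorem mem_Cham {ρ c : Finset V} : c ∈ Cham K N ρ ↔ c ∈ K ∧ c.card = N ∧ ρ ⊆ c := by
  simp [Cham]

theorem Cham_nonempty (hP : Partite K col N) {ρ : Finset V} (hρ : ρ ∈ K) :
    (Cham K N ρ).Nonempty := by
  obtain ⟨τ, h1, h2, h3⟩ := hP.pure ρ hρ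
  exact ⟨τ, mem_Cham.2 ⟨h1, h3, h2⟩⟩

omit [Fintype V] in
theorem Partite.single_mem_e1 (hP : Partite K col N) {c : Finset V} (hc : c ∈ K) {v : V}
    (hv : v ∈ c) : ({v} : Finset V) ∈ K :=
  hP.cx.2 c hc _ (Finset.singleton_subset_iff.2 hv)

omit [Fintype V] in
theorem Partite.exists_col_e1 (hP : Partite K col N) {c : Finset V} (hc : c ∈ K) (hN : c.card = N)
    {x : ℕ} (hx : x < N) : ∃ v ∈ c, col v = x := by
  have h1 : c.image col ⊆ Finset.range N := by
    intro y hy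
    obtain ⟨v, hv, rfl⟩ := Finset.mem_image.1 hy
    exact Finset.mem_range.2 (hP.lt v (hP.single_mem_e1 hc hv))
  have h2 : c.image col = Finset.range N :=
    Finset.eq_of_subset_of_card_le h1
      (by rw [Finset.card_range, Finset.card_image_of_injOn (hP.inj c hc), hN])
  exact Finset.mem_image.1 (h2 ▸ Finset.mem_range.2 hx)

/-- a chamber has exactly one vertex of each colour `x < N`. -/
theorem face_singleton (hP : Partite K col N) {c : Finset V} (hc : c ∈ K) (hN : c.card = N)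
    {x : ℕ} (hx : x < N) : ∃ v, face col {x} c = {v} ∧ v ∈ c ∧ col v = x := by
  obtain ⟨v, hv, hvx⟩ := hP.exists_col_e1 hc hN hx
  refine ⟨v, ?_, hv, hvx⟩
  ext w
  simp only [face, Finset.mem_filter, Finset.mem_singleton]
  constructor
  · rintro ⟨hw, hwx⟩
    exact hP.inj c hc hw hv (hwx.trans hvx.symm)
  · rintro rfl
    exact ⟨hv, hvx⟩

/-- fibres of `c ↦ face J c`. -/
theorem mem_Cham_union (hP : Partite K col N) {ρ c c' : Finset V} (J : Finset ℕ)
    (hc : c ∈ Cham K N ρ) :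
    c' ∈ Cham K N (ρ ∪ face col J c) ↔ c' ∈ Cham K N ρ ∧ face col J c' = face col J c := by
  obtain ⟨hcK, hcN, -⟩ := mem_Cham.1 hc
  rw [mem_Cham, mem_Cham]
  constructor
  · rintro ⟨h1, h2, h3⟩
    refine ⟨⟨h1, h2, Finset.subset_union_left.trans h3⟩, ?_⟩
    have h4 : face col J c ⊆ c' := Finset.subset_union_right.trans h3
    ext v
    simp only [face, Finset.mem_filter]
    constructor
    · rintro ⟨hv, hvJ⟩
      obtain ⟨w, hw, hwv⟩ := hP.exists_col_e1 hcK hcN (hP.lt v (hP.single_mem_e1 h1 hv))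
      have hw' : w ∈ c' := h4 (Finset.mem_filter.2 ⟨hw, hwv ▸ hvJ⟩)
      exact ⟨hP.inj c' h1 hw' hv hwv ▸ hw, hvJ⟩
    · rintro ⟨hv, hvJ⟩
      exact ⟨h4 (Finset.mem_filter.2 ⟨hv, hvJ⟩), hvJ⟩
  · rintro ⟨⟨h1, h2, h3⟩, h4⟩
    exact ⟨h1, h2, Finset.union_subset h3 (h4 ▸ Finset.filter_subset _ _)⟩

theorem Ex_congr {ρ : Finset V} {f g : Finset V → ℝ} (h : ∀ c ∈ Cham K N ρ, f c = g c) :
    Ex K N ρ f = Ex K N ρ g := by
  simp only [Ex, Finset.sum_congr rfl h]

theorem Ex_mono {ρ : Finset V} {f g : Finset V → ℝ} (h : ∀ c ∈ Cham K N ρ, f c ≤ g c) :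
    Ex K N ρ f ≤ Ex K N ρ g :=
  div_le_div_of_nonneg_right (Finset.sum_le_sum h) (Nat.cast_nonneg _)

theorem Ex_nonneg {ρ : Finset V} {f : Finset V → ℝ} (h : ∀ c ∈ Cham K N ρ, 0 ≤ f c) :
    0 ≤ Ex K N ρ f :=
  div_nonneg (Finset.sum_nonneg h) (Nat.cast_nonneg _)

theorem Ex_add (ρ : Finset V) (f g : Finset V → ℝ) :
    Ex K N ρ (fun c => f c + g c) = Ex K N ρ f + Ex K N ρ g := by
  simp only [Ex, Finset.sum_add_distrib, add_div]

theorem Ex_sub (ρ : Finset V) (f g : Finset V → ℝ) :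
    Ex K N ρ (fun c => f c - g c) = Ex K N ρ f - Ex K N ρ g := by
  simp only [Ex, Finset.sum_sub_distrib, sub_div]

theorem Ex_mul_left (ρ : Finset V) (r : ℝ) (f : Finset V → ℝ) :
    Ex K N ρ (fun c => r * f c) = r * Ex K N ρ f := by
  simp only [Ex, ← Finset.mul_sum, mul_div_assoc]

theorem Ex_sum {ι : Type*} (ρ : Finset V) (s : Finset ι) (f : ι → Finset V → ℝ) :
    Ex K N ρ (fun c => ∑ i ∈ s, f i c) = ∑ i ∈ s, Ex K N ρ (f i) := by
  simp only [Ex, ← Finset.sum_div]; rw [Finset.sum_comm]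

theorem Ex_const (hP : Partite K col N) {ρ : Finset V} (hρ : ρ ∈ K) (r : ℝ) :
    Ex K N ρ (fun _ => r) = r := by
  have : ((Cham K N ρ).card : ℝ) ≠ 0 := by
    exact_mod_cast (Cham_nonempty hP hρ).card_pos.ne'
  simp only [Ex, Finset.sum_const, nsmul_eq_mul]; field_simp

/-- variance is non-negative and at most the mean square deviation from any constant. -/
theorem Var_nonneg (ρ : Finset V) (f : Finset V → ℝ) : 0 ≤ Cov K N ρ f f := by
  simp only [Cov, Ex]
  rcases Nat.eq_zero_or_pos (Cham K N ρ).card with h | h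
  · simp [h]
  have hn : (0 : ℝ) < (Cham K N ρ).card := by exact_mod_cast h
  have := sq_sum_le_card_mul_sum_sq (s := Cham K N ρ) (f := f)
  rw [sub_nonneg, div_mul_div_comm, div_le_div_iff₀ (by positivity) hn]
  simp only [← sq]
  nlinarith [mul_le_mul_of_nonneg_right this hn.le]

theorem Var_le (hP : Partite K col N) {ρ : Finset V} (hρ : ρ ∈ K) (f : Finset V → ℝ) (r : ℝ) :
    Cov K N ρ f f ≤ Ex K N ρ (fun c => (f c - r) ^ 2) := by
  have h : Ex K N ρ (fun c => (f c - r) ^ 2) =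
      Ex K N ρ (fun c => f c * f c) - (2 * r) * Ex K N ρ f + r ^ 2 := by
    rw [← Ex_mul_left, ← Ex_sub, ← Ex_const hP hρ (r ^ 2), ← Ex_add]
    exact Ex_congr fun c _ => by ring
  rw [h, Cov]
  nlinarith [sq_nonneg (Ex K N ρ f - r)]

/-- `2 Cov(f,g) ≤ s Var f + s⁻¹ Var g`. -/
theorem two_Cov_le (ρ : Finset V) (f g : Finset V → ℝ) {s : ℝ} (hs : 0 < s) :
    2 * Cov K N ρ f g ≤ s * Cov K N ρ f f + s⁻¹ * Cov K N ρ g g := by
  have h0 := Var_nonneg (K := K) (N := N) ρ (fun c => s * f c - g c)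
  have h1 : Ex K N ρ (fun c => (s * f c - g c) * (s * f c - g c)) =
      s ^ 2 * Ex K N ρ (fun c => f c * f c) - (2 * s) * Ex K N ρ (fun c => f c * g c) +
        Ex K N ρ (fun c => g c * g c) := by
    rw [← Ex_mul_left, ← Ex_mul_left, ← Ex_sub, ← Ex_add]
    exact Ex_congr fun c _ => by ring
  have h2 : Ex K N ρ (fun c => s * f c - g c) = s * Ex K N ρ f - Ex K N ρ g := by
    rw [← Ex_mul_left, ← Ex_sub]
  rw [Cov, h1, h2] at h0
  have h3 : s * Cov K N ρ f f + s⁻¹ * Cov K N ρ g g - 2 * Cov K N ρ f g =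
      s⁻¹ * (s ^ 2 * Ex K N ρ (fun c => f c * f c) - (2 * s) * Ex K N ρ (fun c => f c * g c) +
        Ex K N ρ (fun c => g c * g c) -
        (s * Ex K N ρ f - Ex K N ρ g) * (s * Ex K N ρ f - Ex K N ρ g)) := by
    simp only [Cov]
    field_simp
    ring
  have h4 := mul_nonneg (inv_pos.2 hs).le h0
  linarith

theorem sum_fiber_avg_e1 {α β : Type*} [DecidableEq β] (A : Finset α) (F : α → β) (h : β → α → ℝ) :
    ∑ c ∈ A, (∑ c' ∈ A.filter (fun c' => F c' = F c), h (F c) c') /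
      ((A.filter (fun c' => F c' = F c)).card : ℝ) = ∑ c ∈ A, h (F c) c := by
  have h1 : ∀ c ∈ A, (∑ c' ∈ A.filter (fun c' => F c' = F c), h (F c) c') /
      ((A.filter (fun c' => F c' = F c)).card : ℝ) =
      ∑ c' ∈ A, if F c = F c' then h (F c') c' / ((A.filter (fun d => F d = F c')).card : ℝ)
        else 0 := by
    intro c _
    rw [Finset.sum_div, Finset.sum_filter]
    refine Finset.sum_congr rfl fun c' _ => ?_
    by_cases e : F c' = F c
    · rw [if_pos e, if_pos e.symm, e]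
    · rw [if_neg e, if_neg fun e' => e e'.symm]
  rw [Finset.sum_congr rfl h1, Finset.sum_comm]
  refine Finset.sum_congr rfl fun c' hc' => ?_
  rw [← Finset.sum_filter, Finset.sum_const, nsmul_eq_mul]
  have : ((A.filter (fun d => F d = F c')).card : ℝ) ≠ 0 := by
    have hm : c' ∈ A.filter (fun d => F d = F c') := Finset.mem_filter.2 ⟨hc', rfl⟩
    exact_mod_cast (Finset.card_pos.2 ⟨c', hm⟩).ne'
  field_simp

/-- tower property (double counting over the fibres, `mem_Cham_union`). -/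
theorem Ex_tower (hP : Partite K col N) (ρ : Finset V) (J : Finset ℕ) (g : Finset V → ℝ)
    (f : Finset V → Finset V → ℝ) :
    Ex K N ρ (fun c => g (face col J c) * Ex K N (ρ ∪ face col J c) (f (face col J c))) =
      Ex K N ρ (fun c => g (face col J c) * f (face col J c) c) := by
  have h := sum_fiber_avg_e1 (Cham K N ρ) (face col J) (fun r c => g r * f r c)
  rw [Ex, Ex, ← h]
  congr 1
  refine Finset.sum_congr rfl fun c hc => ?_
  have e : Cham K N (ρ ∪ face col J c) =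
      (Cham K N ρ).filter (fun c' => face col J c' = face col J c) := by
    ext c'
    rw [mem_Cham_union hP J hc, Finset.mem_filter]
  rw [Ex, e, ← Finset.mul_sum, mul_div_assoc]

/-- law of total covariance. -/
theorem Cov_total (hP : Partite K col N) (ρ : Finset V) (J : Finset ℕ) (f g : Finset V → ℝ) :
    Cov K N ρ f g = Ex K N ρ (fun c => Cov K N (ρ ∪ face col J c) f g) +
      Cov K N ρ (fun c => Ex K N (ρ ∪ face col J c) f) (fun c => Ex K N (ρ ∪ face col J c) g) := by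
  have tw : ∀ h : Finset V → ℝ, Ex K N ρ (fun c => Ex K N (ρ ∪ face col J c) h) = Ex K N ρ h := by
    intro h
    simpa using Ex_tower hP ρ J (fun _ => 1) (fun _ => h)
  simp only [Cov]
  rw [Ex_sub, tw, tw, tw]
  ring

/-- colour-free tower property. -/
theorem sum_tower (ℓ : ℕ) (g : Finset V → Finset V → ℝ) :
    ∑ c ∈ Cham K N ∅, ∑ r ∈ c.powersetCard ℓ, Ex K N r (g r) =
      ∑ c ∈ Cham K N ∅, ∑ r ∈ c.powersetCard ℓ, g r c := by
  have key : ∀ G : Finset V → Finset V → ℝ,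
      ∑ c ∈ Cham K N ∅, ∑ r ∈ c.powersetCard ℓ, G r c =
        ∑ r ∈ (Finset.univ : Finset V).powersetCard ℓ, ∑ c ∈ Cham K N r, G r c := by
    intro G
    refine Finset.sum_comm' fun c r => ?_
    simp only [mem_Cham, Finset.mem_powersetCard, Finset.empty_subset, Finset.subset_univ]
    tauto
  rw [key (fun r _ => Ex K N r (g r)), key g]
  refine Finset.sum_congr rfl fun r _ => ?_
  rw [Finset.sum_const, nsmul_eq_mul, Ex]
  rcases Nat.eq_zero_or_pos (Cham K N r).card with h | h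
  · rw [Finset.card_eq_zero.1 h]; simp
  have hn : ((Cham K N r).card : ℝ) ≠ 0 := by exact_mod_cast h.ne'
  field_simp

theorem Spec.mono {ρ : Finset V} {x y : ℕ} {μ μ' : ℝ} (h : Spec K col N ρ x y μ) (hμ : μ ≤ μ') :
    Spec K col N ρ x y μ' := by
  intro φ ψ
  exact (h φ ψ).trans
    (mul_le_mul_of_nonneg_right hμ (add_nonneg (Var_nonneg _ _) (Var_nonneg _ _)))

/-- homogeneity: chambers through `ρ` are permuted transitively by automorphisms fixing `ρ`. -/
theorem Homog.fix (hP : Partite K col N) (hH : Homog K col N) {ρ c c' : Finset V}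
    (hc : c ∈ Cham K N ρ) (hc' : c' ∈ Cham K N ρ) : ∃ φ : Equiv.Perm V,
      (∀ σ : Finset V, σ.image φ ∈ K ↔ σ ∈ K) ∧
      (∀ v : V, ({v} : Finset V) ∈ K → col (φ v) = col v) ∧ (∀ v ∈ ρ, φ v = v) ∧
      c.image φ = c' := by
  obtain ⟨h1, h2, h3⟩ := mem_Cham.1 hc
  obtain ⟨h1', h2', h3'⟩ := mem_Cham.1 hc'
  obtain ⟨φ, hφ1, hφ2, hφ3⟩ := hH c h1 c' h1' h2 h2'
  refine ⟨φ, hφ1, hφ2, fun v hv => ?_, hφ3⟩
  exact hP.inj c' h1' (hφ3 ▸ Finset.mem_image_of_mem φ (h3 hv)) (h3' hv)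
    (hφ2 v (hP.single_mem_e1 h1 (h3 hv)))

theorem card_Cham_image_e1 (φ : Equiv.Perm V) (hφ : ∀ σ : Finset V, σ.image φ ∈ K ↔ σ ∈ K)
    (τ : Finset V) : (Cham K N (τ.image φ)).card = (Cham K N τ).card := by
  symm
  refine Finset.card_bij (fun d _ => d.image φ) (fun d hd => ?_) (fun d _ d' _ h => ?_)
    (fun d hd => ?_)
  · obtain ⟨h1, h2, h3⟩ := mem_Cham.1 hd
    exact mem_Cham.2 ⟨(hφ d).2 h1, by rw [Finset.card_image_of_injective _ φ.injective, h2],
      Finset.image_subset_image h3⟩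
  · exact Finset.image_injective φ.injective h
  · obtain ⟨h1, h2, h3⟩ := mem_Cham.1 hd
    have e : (d.image φ.symm).image φ = d := by
      rw [Finset.image_image]; simp
    refine ⟨d.image φ.symm, mem_Cham.2 ⟨(hφ _).1 (e.symm ▸ h1), ?_, ?_⟩, e⟩
    · rw [Finset.card_image_of_injective _ φ.symm.injective, h2]
    · intro v hv
      exact Finset.mem_image.2 ⟨φ v, h3 (Finset.mem_image_of_mem φ hv), by simp⟩

/-- faces of the same type through `ρ` have the same number of chambers. -/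
theorem Homog.card_Cham (hP : Partite K col N) (hH : Homog K col N) {ρ c c' : Finset V}
    (hc : c ∈ Cham K N ρ) (hc' : c' ∈ Cham K N ρ) (J : Finset ℕ) :
    (Cham K N (ρ ∪ face col J c)).card = (Cham K N (ρ ∪ face col J c')).card := by
  obtain ⟨φ, hφ1, hφ2, hφ3, hφ4⟩ := hH.fix hP hc hc'
  obtain ⟨h1, -, -⟩ := mem_Cham.1 hc
  rw [← card_Cham_image_e1 φ hφ1 (ρ ∪ face col J c)]
  congr 2
  rw [Finset.image_union]
  congr 1
  · rw [Finset.image_congr (g := id) fun v hv => hφ3 v hv, Finset.image_id]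
  · rw [← hφ4, face, face, Finset.filter_image]
    congr 1
    exact Finset.filter_congr fun v hv => by rw [hφ2 v (hP.single_mem_e1 h1 hv)]

end Crest.Agent.R66
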