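import Crest.Agent.R66.Exp1

/-! # Row 66: spectral bound for rank two links -/

set_option linter.unusedSectionVars false

namespace Crest.Agent.R66

variable {V : Type*} [Fintype V] [DecidableEq V] {K : Set (Finset V)} {col : V → ℕ} {N : ℕ}

open Finset in
/-- spectral bound for a bipartite graph with unique common neighbours -/
theorem exp2_graph {α : Type*} [DecidableEq α] (A B : Finset α) (adj : α → α → Prop)
    [DecidableRel adj] {a : ℝ} {μ : ℝ} (hμ : 0 < μ)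
    (hA : ∀ v ∈ A, ∑ u ∈ B, (if adj v u then (1 : ℝ) else 0) = a)
    (hB : ∀ u ∈ B, 1 ≤ μ ^ 2 * ∑ v ∈ A, (if adj v u then (1 : ℝ) else 0))
    (hco : ∀ v ∈ A, ∀ v' ∈ A, v ≠ v' → ∑ u ∈ B, (if adj v u ∧ adj v' u then (1 : ℝ) else 0) = 1)
    (f g : α → ℝ) (hf : ∑ v ∈ A, f v = 0) :
    2 * ∑ v ∈ A, ∑ u ∈ B, (if adj v u then f v * g u else 0) ≤
      μ * (∑ v ∈ A, ∑ u ∈ B, (if adj v u then f v * f v else 0) +
        ∑ v ∈ A, ∑ u ∈ B, (if adj v u then g u * g u else 0)) := by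
  let S : α → ℝ := fun u => ∑ v ∈ A, if adj v u then f v else 0
  have h1 : ∑ v ∈ A, ∑ u ∈ B, (if adj v u then f v * g u else 0) = ∑ u ∈ B, g u * S u := by
    rw [sum_comm]
    refine sum_congr rfl fun u _ => ?_
    rw [mul_sum]
    exact sum_congr rfl fun v _ => by split_ifs <;> ring
  have h2 : ∑ v ∈ A, ∑ u ∈ B, (if adj v u then g u * g u else 0) =
      ∑ u ∈ B, (∑ v ∈ A, (if adj v u then (1 : ℝ) else 0)) * (g u * g u) := by
    rw [sum_comm]
    refine sum_congr rfl fun u _ => ?_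
    rw [sum_mul]
    exact sum_congr rfl fun v _ => by split_ifs <;> ring
  have h3 : ∑ v ∈ A, ∑ u ∈ B, (if adj v u then f v * f v else 0) = ∑ v ∈ A, a * (f v * f v) := by
    refine sum_congr rfl fun v hv => ?_
    rw [← hA v hv, sum_mul]
    exact sum_congr rfl fun u _ => by split_ifs <;> ring
  have h4 : ∑ u ∈ B, S u * S u = ∑ v ∈ A, ∑ v' ∈ A,
      f v * f v' * ∑ u ∈ B, (if adj v u ∧ adj v' u then (1 : ℝ) else 0) := by
    simp only [S, sum_mul_sum]
    rw [sum_comm]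
    refine sum_congr rfl fun v _ => ?_
    rw [sum_comm]
    refine sum_congr rfl fun v' _ => ?_
    rw [mul_sum]
    refine sum_congr rfl fun u _ => ?_
    by_cases h : adj v u <;> by_cases h' : adj v' u <;> simp [h, h']
  have h5 : ∀ v ∈ A, ∑ v' ∈ A, f v * f v' * ∑ u ∈ B, (if adj v u ∧ adj v' u then (1 : ℝ) else 0)
      ≤ a * (f v * f v) := by
    intro v hv
    have h6 : ∀ v' ∈ A, f v * f v' * ∑ u ∈ B, (if adj v u ∧ adj v' u then (1 : ℝ) else 0) =
        f v * f v' + if v' = v then (a - 1) * (f v * f v) else 0 := by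
      intro v' hv'
      split_ifs with h
      · subst h
        simp only [and_self, hA v' hv']
        ring
      · rw [hco v hv v' hv' (Ne.symm h)]
        ring
    rw [sum_congr rfl h6, sum_add_distrib, ← mul_sum, hf, sum_ite_eq', if_pos hv]
    nlinarith [mul_self_nonneg (f v)]
  have h6 : ∑ u ∈ B, S u * S u ≤ ∑ v ∈ A, a * (f v * f v) := h4 ▸ sum_le_sum h5
  have h7 : ∀ u ∈ B, 2 * (g u * S u) ≤
      μ * (S u * S u + (∑ v ∈ A, (if adj v u then (1 : ℝ) else 0)) * (g u * g u)) := by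
    intro u hu
    refine le_of_mul_le_mul_left ?_ hμ
    have h8 := mul_le_mul_of_nonneg_right (hB u hu) (mul_self_nonneg (g u))
    nlinarith [sq_nonneg (g u - μ * S u)]
  have h8 := sum_le_sum h7
  rw [← mul_sum, ← mul_sum, sum_add_distrib] at h8
  rw [h1, h2, h3]
  exact h8.trans (mul_le_mul_of_nonneg_left (by linarith) hμ.le)

theorem exp2_cov (hP : Partite K col N) {ρ : Finset V} (hρ : ρ ∈ K) (f g : Finset V → ℝ) :
    Cov K N ρ f g = Ex K N ρ (fun c => (f c - Ex K N ρ f) * (g c - Ex K N ρ g)) := by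
  have h : ∀ c, (f c - Ex K N ρ f) * (g c - Ex K N ρ g) =
      f c * g c - Ex K N ρ g * f c - Ex K N ρ f * g c + Ex K N ρ f * Ex K N ρ g := fun c => by ring
  simp only [h]
  rw [Ex_add, Ex_sub, Ex_sub, Ex_mul_left, Ex_mul_left, Ex_const hP hρ, Cov]
  ring

theorem exp2_symm {ρ : Finset V} {x y : ℕ} {μ : ℝ} (h : Spec K col N ρ x y μ) :
    Spec K col N ρ y x μ := by
  intro φ ψ
  have h1 := h ψ φ
  have h2 : ∀ f g : Finset V → ℝ, Cov K N ρ f g = Cov K N ρ g f := fun f g => by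
    simp only [Cov, mul_comm]
  rw [h2, add_comm]
  exact h1

theorem exp2_lk_sub (hP : Partite K col N) {ρ σ τ : Finset V} (h : σ ∈ Lk K ρ) (hτ : τ ⊆ σ) :
    τ ∈ Lk K ρ :=
  ⟨h.1.mono_left hτ, hP.cx.2 _ h.2 _ (Finset.union_subset_union_left hτ)⟩

theorem exp2_cham (hP : Partite K col N) {ρ : Finset V} (hc : ρ.card + 2 = N) {x y : ℕ}
    (hx : Free col N ρ x) (hy : Free col N ρ y) (hxy : x ≠ y) {c : Finset V}
    (h : c ∈ Cham K N ρ) : ∃ v u, col v = x ∧ col u = y ∧ ({v, u} : Finset V) ∈ Lk K ρ ∧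
      c = {v, u} ∪ ρ := by
  obtain ⟨h1, h2, h3⟩ := mem_Cham.1 h
  obtain ⟨v, -, hv, hv'⟩ := face_singleton hP h1 h2 hx.1
  obtain ⟨u, -, hu, hu'⟩ := face_singleton hP h1 h2 hy.1
  have hd : Disjoint ({v, u} : Finset V) ρ := by
    rw [Finset.disjoint_insert_left, Finset.disjoint_singleton_left]
    exact ⟨fun h => hx.2 v h hv', fun h => hy.2 u h hu'⟩
  have hvu : v ≠ u := fun h => hxy (by rw [← hv', ← hu', h])
  have he : c = {v, u} ∪ ρ := by
    refine (Finset.eq_of_subset_of_card_le (Finset.union_subset ?_ h3) ?_).symm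
    · exact Finset.insert_subset hv (Finset.singleton_subset_iff.2 hu)
    · rw [Finset.card_union_of_disjoint hd, Finset.card_pair hvu]
      omega
  exact ⟨v, u, hv', hu', ⟨hd, he ▸ h1⟩, he⟩

theorem exp2_face {ρ : Finset V} {x : ℕ} (hx : Free col N ρ x) {v u : V} (hv : col v = x)
    (hu : col u ≠ x) : face col {x} ({v, u} ∪ ρ) = {v} := by
  ext w
  simp only [face, Finset.mem_filter, Finset.mem_union, Finset.mem_insert, Finset.mem_singleton]
  constructor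
  · rintro ⟨(rfl | rfl) | h, h'⟩
    · rfl
    · exact absurd h' hu
    · exact absurd h' (hx.2 w h)
  · rintro rfl
    exact ⟨Or.inl (Or.inl rfl), hv⟩

theorem exp2_vertex (hP : Partite K col N) {ρ : Finset V} (hc : ρ.card + 2 = N) {x y : ℕ}
    (hx : Free col N ρ x) (hy : Free col N ρ y) (hxy : x ≠ y) {w : V}
    (h : ({w} : Finset V) ∈ Lk K ρ) : ∃ v u, col v = x ∧ col u = y ∧
      ({v, u} : Finset V) ∪ ρ ∈ Cham K N ρ ∧ (w = v ∨ w = u) := by
  obtain ⟨c, h1, h2, h3⟩ := hP.pure _ h.2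
  have hcc : c ∈ Cham K N ρ := mem_Cham.2 ⟨h1, h3, Finset.subset_union_right.trans h2⟩
  obtain ⟨v, u, hv, hu, -, rfl⟩ := exp2_cham hP hc hx hy hxy hcc
  refine ⟨v, u, hv, hu, hcc, ?_⟩
  have h4 := h2 (Finset.mem_union_left _ (Finset.mem_singleton_self w))
  rw [Finset.mem_union, Finset.mem_insert, Finset.mem_singleton] at h4
  exact h4.resolve_right (Finset.disjoint_singleton_left.1 h.1)

open Classical in
/-- vertices of the link with a given colour -/
noncomputable def exp2V (K : Set (Finset V)) (col : V → ℕ) (ρ : Finset V) (x : ℕ) : Finset V :=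
  Finset.univ.filter (fun v => ({v} : Finset V) ∈ Lk K ρ ∧ col v = x)

theorem mem_exp2V {ρ : Finset V} {x : ℕ} {v : V} :
    v ∈ exp2V K col ρ x ↔ ({v} : Finset V) ∈ Lk K ρ ∧ col v = x := by
  simp [exp2V]

open Classical in
theorem exp2_sum (hP : Partite K col N) {ρ : Finset V} (hc : ρ.card + 2 = N) {x y : ℕ}
    (hx : Free col N ρ x) (hy : Free col N ρ y) (hxy : x ≠ y) (F : Finset V → Finset V → ℝ) :
    ∑ c ∈ Cham K N ρ, F (face col {x} c) (face col {y} c) =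
      ∑ v ∈ exp2V K col ρ x, ∑ u ∈ exp2V K col ρ y,
        if ({v, u} : Finset V) ∈ Lk K ρ then F {v} {u} else 0 := by
  rw [← Finset.sum_product', ← Finset.sum_filter]
  have hf : ∀ p ∈ (exp2V K col ρ x ×ˢ exp2V K col ρ y).filter
      (fun p => ({p.1, p.2} : Finset V) ∈ Lk K ρ),
      face col {x} ({p.1, p.2} ∪ ρ) = {p.1} ∧ face col {y} ({p.1, p.2} ∪ ρ) = {p.2} := by
    intro p hp
    obtain ⟨h1, h2⟩ := Finset.mem_product.1 (Finset.mem_filter.1 hp).1
    have h3 := (mem_exp2V.1 h1).2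
    have h4 := (mem_exp2V.1 h2).2
    refine ⟨exp2_face hx h3 (by rw [h4]; exact hxy.symm), ?_⟩
    rw [Finset.pair_comm]
    exact exp2_face hy h4 (by rw [h3]; exact hxy)
  refine (Finset.sum_nbij (fun p : V × V => ({p.1, p.2} : Finset V) ∪ ρ) ?_ ?_ ?_ ?_).symm
  · intro p hp
    obtain ⟨h0, h5⟩ := Finset.mem_filter.1 hp
    obtain ⟨h1, h2⟩ := Finset.mem_product.1 h0
    have hvu : p.1 ≠ p.2 := fun h => hxy (by
      rw [← (mem_exp2V.1 h1).2, ← (mem_exp2V.1 h2).2, h])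
    refine mem_Cham.2 ⟨h5.2, ?_, Finset.subset_union_right⟩
    rw [Finset.card_union_of_disjoint h5.1, Finset.card_pair hvu]
    omega
  · intro p hp q hq h
    have h1 := hf p hp
    have h2 := hf q hq
    have h' : ({p.1, p.2} : Finset V) ∪ ρ = {q.1, q.2} ∪ ρ := h
    rw [h', h2.1, h2.2] at h1
    exact Prod.ext (Finset.singleton_injective h1.1.symm) (Finset.singleton_injective h1.2.symm)
  · intro c hc'
    obtain ⟨v, u, hv, hu, h, rfl⟩ := exp2_cham hP hc hx hy hxy hc'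
    refine ⟨(v, u), Finset.mem_coe.2 (Finset.mem_filter.2 ⟨Finset.mem_product.2
      ⟨mem_exp2V.2 ⟨exp2_lk_sub hP h (by simp), hv⟩,
        mem_exp2V.2 ⟨exp2_lk_sub hP h (by simp), hu⟩⟩, h⟩), rfl⟩
  · intro p hp
    rw [(hf p hp).1, (hf p hp).2]

theorem exp2_complete (hP : Partite K col N) {μ : ℝ} (hμ : 0 < μ) {ρ : Finset V} (hρ : ρ ∈ K)
    (hc : ρ.card + 2 = N) {x y : ℕ} (hx : Free col N ρ x) (hy : Free col N ρ y) (hxy : x ≠ y)
    (h : ∀ v w : V, ({v} : Finset V) ∈ Lk K ρ → ({w} : Finset V) ∈ Lk K ρ → col v ≠ col w →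
      ({v, w} : Finset V) ∈ Lk K ρ) : Spec K col N ρ x y μ := by
  classical
  intro φ ψ
  have hs : ∀ F : Finset V → Finset V → ℝ,
      ∑ c ∈ Cham K N ρ, F (face col {x} c) (face col {y} c) =
        ∑ v ∈ exp2V K col ρ x, ∑ u ∈ exp2V K col ρ y, F {v} {u} := by
    intro F
    rw [exp2_sum hP hc hx hy hxy]
    refine Finset.sum_congr rfl fun v hv => Finset.sum_congr rfl fun u hu => if_pos ?_
    refine h v u (mem_exp2V.1 hv).1 (mem_exp2V.1 hu).1 ?_
    rw [(mem_exp2V.1 hv).2, (mem_exp2V.1 hu).2]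
    exact hxy
  have hn : ((Cham K N ρ).card : ℝ) ≠ 0 := by
    exact_mod_cast (Cham_nonempty hP hρ).card_pos.ne'
  have h0 := hs fun _ _ => 1
  have h1 := hs fun s t => φ s * ψ t
  have h2 := hs fun s _ => φ s
  have h3 := hs fun _ t => ψ t
  simp only [Finset.sum_const, nsmul_eq_mul, mul_one, ← Finset.mul_sum, ← Finset.sum_mul]
    at h0 h1 h2 h3
  have h4 : Cov K N ρ (fun c => φ (face col {x} c)) (fun c => ψ (face col {y} c)) = 0 := by
    simp only [Cov, Ex]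
    rw [h1, h2, h3]
    rw [h0] at hn ⊢
    have h5 := left_ne_zero_of_mul hn
    have h6 := right_ne_zero_of_mul hn
    field_simp
    ring
  rw [h4, mul_zero]
  exact mul_nonneg hμ.le (add_nonneg (Var_nonneg _ _) (Var_nonneg _ _))

theorem exp2_plane (hP : Partite K col N) (hH : Homog K col N) {b : ℕ} (hT : Thick K N b)
    {μ : ℝ} (hμ : 0 < μ) (hb : 1 ≤ μ ^ 2 * b) {ρ : Finset V} (hρ : ρ ∈ K)
    (hc : ρ.card + 2 = N) {x y : ℕ} (hx : Free col N ρ x) (hy : Free col N ρ y) (hxy : x ≠ y)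
    (h : ∀ v v' : V, ({v} : Finset V) ∈ Lk K ρ → ({v'} : Finset V) ∈ Lk K ρ → col v = x →
        col v' = x → v ≠ v' →
        ∃! u : V, col u ≠ x ∧ ({u, v} : Finset V) ∈ Lk K ρ ∧ ({u, v'} : Finset V) ∈ Lk K ρ) :
    Spec K col N ρ x y μ := by
  classical
  intro φ ψ
  have hs := exp2_sum hP hc hx hy hxy
  obtain ⟨c₀, hc₀⟩ := Cham_nonempty hP hρ
  have hcol : ∀ w, ({w} : Finset V) ∈ Lk K ρ → col w = x ∨ col w = y := by
    intro w hw
    obtain ⟨v, u, hv, hu, -, rfl | rfl⟩ := exp2_vertex hP hc hx hy hxy hw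
    · exact Or.inl hv
    · exact Or.inr hu
  have hA : ∀ v ∈ exp2V K col ρ x, ∑ u ∈ exp2V K col ρ y,
      (if ({v, u} : Finset V) ∈ Lk K ρ then (1 : ℝ) else 0) =
        (Cham K N (ρ ∪ face col {x} c₀)).card := by
    intro v hv
    obtain ⟨v', u', hv', hu', hcc, h1⟩ := exp2_vertex hP hc hx hy hxy (mem_exp2V.1 hv).1
    obtain rfl : v = v' := h1.resolve_right fun h2 => hxy (by rw [← (mem_exp2V.1 hv).2, h2, hu'])
    have h2 := exp2_face (ρ := ρ) hx hv' (by rw [hu']; exact hxy.symm : col u' ≠ x)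
    rw [← hH.card_Cham hP hcc hc₀]
    have h3 := hs fun s _ => if s = {v} then 1 else 0
    rw [Finset.sum_eq_single_of_mem v hv fun w _ hw => by simp [hw], Finset.sum_boole] at h3
    simp only [if_true] at h3
    rw [← h3]
    congr 2
    ext c
    rw [Finset.mem_filter, mem_Cham_union hP _ hcc, h2]
  have hB : ∀ u ∈ exp2V K col ρ y, 1 ≤ μ ^ 2 * ∑ v ∈ exp2V K col ρ x,
      (if ({v, u} : Finset V) ∈ Lk K ρ then (1 : ℝ) else 0) := by
    intro u hu
    obtain ⟨hu1, hu2⟩ := mem_exp2V.1 hu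
    obtain ⟨s, hs1, hs2⟩ := hT _ hu1.2 (by
      rw [Finset.card_union_of_disjoint hu1.1, Finset.card_singleton]; omega)
    refine hb.trans (mul_le_mul_of_nonneg_left ?_ (sq_nonneg μ))
    rw [Finset.sum_boole]
    refine Nat.cast_le.2 (hs1.trans (Finset.card_le_card fun v hv => ?_))
    obtain ⟨h1, h2⟩ := hs2 v hv
    rw [Finset.disjoint_singleton_left, Finset.mem_union, Finset.mem_singleton, not_or] at h1
    have h3 : ({v, u} : Finset V) ∈ Lk K ρ := by
      refine ⟨?_, by rwa [Finset.insert_eq, Finset.union_assoc]⟩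
      rw [Finset.disjoint_insert_left]
      exact ⟨h1.2, hu1.1⟩
    have h4 := exp2_lk_sub hP h3 (τ := {v}) (by simp)
    refine Finset.mem_filter.2 ⟨mem_exp2V.2 ⟨h4, (hcol v h4).resolve_right fun h5 => h1.1 ?_⟩, h3⟩
    exact hP.inj _ h2 (by simp) (by simp) (h5.trans hu2.symm)
  have hco : ∀ v ∈ exp2V K col ρ x, ∀ v' ∈ exp2V K col ρ x, v ≠ v' → ∑ u ∈ exp2V K col ρ y,
      (if ({v, u} : Finset V) ∈ Lk K ρ ∧ ({v', u} : Finset V) ∈ Lk K ρ then (1 : ℝ) else 0) = 1 := by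
    intro v hv v' hv' hne
    obtain ⟨u, ⟨h1, h2, h3⟩, h4⟩ := h v v' (mem_exp2V.1 hv).1 (mem_exp2V.1 hv').1
      (mem_exp2V.1 hv).2 (mem_exp2V.1 hv').2 hne
    have h5 := exp2_lk_sub hP h2 (τ := {u}) (by simp)
    rw [Finset.sum_eq_single_of_mem u (mem_exp2V.2 ⟨h5, (hcol u h5).resolve_left h1⟩), if_pos]
    · exact ⟨by rwa [Finset.pair_comm], by rwa [Finset.pair_comm]⟩
    · intro w hw hwu
      refine if_neg fun h6 => hwu (h4 w ⟨?_, by rw [Finset.pair_comm]; exact h6.1,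
        by rw [Finset.pair_comm]; exact h6.2⟩)
      rw [(mem_exp2V.1 hw).2]
      exact hxy.symm
  set r := Ex K N ρ (fun c => φ (face col {x} c)) with hr
  set t := Ex K N ρ (fun c => ψ (face col {y} c)) with ht
  have hn : (0 : ℝ) < (Cham K N ρ).card := by
    exact_mod_cast Finset.card_pos.2 ⟨c₀, hc₀⟩
  have hf : ∑ v ∈ exp2V K col ρ x, (φ {v} - r) = 0 := by
    have h1 : Ex K N ρ (fun c => φ (face col {x} c) - r) = 0 := by
      rw [Ex_sub, Ex_const hP hρ, sub_self]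
    rw [Ex, div_eq_zero_iff, or_iff_left hn.ne', hs fun s _ => φ s - r] at h1
    have h2 : ∀ v ∈ exp2V K col ρ x, ∑ u ∈ exp2V K col ρ y,
        (if ({v, u} : Finset V) ∈ Lk K ρ then φ {v} - r else 0) =
          (Cham K N (ρ ∪ face col {x} c₀)).card * (φ {v} - r) := by
      intro v hv
      rw [← hA v hv, Finset.sum_mul]
      exact Finset.sum_congr rfl fun u _ => by split_ifs <;> ring
    rw [Finset.sum_congr rfl h2, ← Finset.mul_sum] at h1
    refine (mul_eq_zero.1 h1).resolve_left (Nat.cast_ne_zero.2 (Finset.card_pos.2 ⟨c₀, ?_⟩).ne')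
    exact (mem_Cham_union hP _ hc₀).2 ⟨hc₀, rfl⟩
  have key := exp2_graph _ _ (fun v u => ({v, u} : Finset V) ∈ Lk K ρ) hμ hA hB hco
    (fun v => φ {v} - r) (fun u => ψ {u} - t) hf
  rw [exp2_cov hP hρ, exp2_cov hP hρ, exp2_cov hP hρ, ← hr, ← ht]
  simp only [Ex]
  rw [hs fun s s' => (φ s - r) * (ψ s' - t), hs fun s _ => (φ s - r) * (φ s - r),
    hs fun _ s' => (ψ s' - t) * (ψ s' - t), ← add_div, ← mul_div_assoc, ← mul_div_assoc]
  exact div_le_div_of_nonneg_right key hn.le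

/-- Recipe: chambers through `ρ` are `ρ ∪ {v, u}` with `col v = x`, `col u = y` (edges of the link).
Complete bipartite case: `Cham ρ ≃ A × B`, so the covariance is `0`.  Otherwise (wlog, `Spec` is
symmetric, the special colour is `x`): with `Sφ (c) = Ex (ρ ∪ face {y} c) φ`,
`Cov(φ,ψ) = Cov(Sφ,ψ)` (`Ex_tower`), `2 Cov(Sφ,ψ) ≤ μ⁻¹ Var(Sφ) + μ Var ψ` (`two_Cov_le`) and
`Var(Sφ) ≤ μ² Var φ`: subtract the mean `r` of `φ` (by `Homog.card_Cham` all `v` have the same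
degree `a`, so `∑_v (φ v - r) = 0`); `|E| · Ex (S(φ-r))² = ∑_u deg(u)⁻¹ (∑_{v ∼ u} (φ v - r))²
≤ b⁻¹ ∑_u ∑_{v,v' ∼ u} … = b⁻¹ (∑_v (a - 1)(φ v - r)² + (∑_v (φ v - r))²) ≤ b⁻¹ |E| Var φ`,
using `deg u ≥ b` (`Thick` for `ρ ∪ {u}`) and unique common neighbours. -/
theorem spec_rank2 (hP : Partite K col N) (hH : Homog K col N) {b : ℕ} (hT : Thick K N b)
    (hR : Rank2 K col N) {μ : ℝ} (hμ : 0 < μ) (hb : 1 ≤ μ ^ 2 * b) {ρ : Finset V} (hρ : ρ ∈ K)
    (hc : ρ.card + 2 = N) {x y : ℕ} (hx : Free col N ρ x) (hy : Free col N ρ y) (hxy : x ≠ y) :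
    Spec K col N ρ x y μ := by
  rcases hR ρ hρ hc with h | ⟨v₀, h0, h⟩
  · exact exp2_complete hP hμ hρ hc hx hy hxy h
  obtain ⟨v, u, hv, hu, -, rfl | rfl⟩ := exp2_vertex hP hc hx hy hxy h0
  · exact exp2_plane hP hH hT hμ hb hρ hc hx hy hxy (hv ▸ h)
  · exact exp2_symm (exp2_plane hP hH hT hμ hb hρ hc hy hx hxy.symm (hu ▸ h))

end Crest.Agent.R66
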