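import Crest.Agent.R66.Exp2

/-! # Row 66: trickling down -/

set_option linter.unusedSectionVars false

namespace Crest.Agent.R66

variable {V : Type*} [Fintype V] [DecidableEq V] {K : Set (Finset V)} {col : V → ℕ} {N : ℕ}

/-- a set of `k` free colours leaves room for at most `N - k` vertices. -/
theorem exp3_card_add_le (hP : Partite K col N) {ρ : Finset V} (hρ : ρ ∈ K) (J : Finset ℕ)
    (hJ : ∀ x ∈ J, Free col N ρ x) : ρ.card + J.card ≤ N := by
  have h1 : (ρ.image col).card = ρ.card := Finset.card_image_of_injOn (hP.inj ρ hρ)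
  have h2 : Disjoint (ρ.image col) J := by
    rw [Finset.disjoint_left]
    intro x hx hxJ
    obtain ⟨v, hv, rfl⟩ := Finset.mem_image.1 hx
    exact (hJ _ hxJ).2 v hv rfl
  have h3 : ρ.image col ∪ J ⊆ Finset.range N := by
    intro x hx
    rcases Finset.mem_union.1 hx with hx | hx
    · obtain ⟨v, hv, rfl⟩ := Finset.mem_image.1 hx
      exact Finset.mem_range.2 (hP.lt v (hP.cx.2 ρ hρ _ (Finset.singleton_subset_iff.2 hv)))
    · exact Finset.mem_range.2 (hJ x hx).1
  have h4 := Finset.card_le_card h3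
  rw [Finset.card_union_of_disjoint h2, h1, Finset.card_range] at h4
  exact h4

theorem exp3_card_two_le (hP : Partite K col N) {ρ : Finset V} (hρ : ρ ∈ K) {x y : ℕ}
    (hx : Free col N ρ x) (hy : Free col N ρ y) (hxy : x ≠ y) : ρ.card + 2 ≤ N := by
  have := exp3_card_add_le hP hρ {x, y} (by
    intro z hz
    rcases Finset.mem_insert.1 hz with rfl | hz
    · exact hx
    · rw [Finset.mem_singleton.1 hz]; exact hy)
  rwa [Finset.card_pair hxy] at this

/-- a third free colour. -/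
theorem exp3_exists_free {ρ : Finset V} (hc : ρ.card + 3 ≤ N) (x y : ℕ) :
    ∃ z, Free col N ρ z ∧ x ≠ z ∧ y ≠ z := by
  have h1 : (ρ.image col ∪ {x, y}).card < (Finset.range N).card := by
    have a1 := Finset.card_union_le (ρ.image col) {x, y}
    have a2 : (ρ.image col).card ≤ ρ.card := Finset.card_image_le
    have a3 : ({x, y} : Finset ℕ).card ≤ 2 := Finset.card_le_two
    rw [Finset.card_range]
    omega
  obtain ⟨z, hz1, hz2⟩ := Finset.exists_mem_notMem_of_card_lt_card h1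
  simp only [Finset.mem_union, Finset.mem_image, Finset.mem_insert, Finset.mem_singleton,
    not_or, not_exists, not_and] at hz2
  exact ⟨z, ⟨Finset.mem_range.1 hz1, fun v hv => hz2.1 v hv⟩, fun h => hz2.2.1 h.symm,
    fun h => hz2.2.2 h.symm⟩

theorem exp3_face_eq (hP : Partite K col N) {c : Finset V} (hc : c ∈ K) {v : V} (hv : v ∈ c) :
    face col {col v} c = {v} := by
  ext w
  simp only [face, Finset.mem_filter, Finset.mem_singleton]
  constructor
  · rintro ⟨h1, h2⟩
    exact hP.inj c hc h1 hv h2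
  · rintro rfl
    exact ⟨hv, rfl⟩

/-- two-colour connectivity.  Recipe: downward induction on `ρ.card`.  Define for link vertices
`v`: all chambers through `ρ ∪ {v}` are equivalent (colour `x` or `y`: hypotheses; other colour:
induction hypothesis for `insert v ρ`); along an edge `{a,b}` of the link pick a chamber containing
both; `Conn (Lk K ρ)` applied to the colour-`x` vertices of `c`, `c'`. -/
theorem conn_two (hP : Partite K col N) (hC : ∀ ρ ∈ K, ρ.card + 2 ≤ N → Conn (Lk K ρ))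
    {x y : ℕ} (hxy : x ≠ y) (r : Finset V → Finset V → Prop) (hr : Equivalence r) :
    ∀ ρ ∈ K, Free col N ρ x → Free col N ρ y →
      (∀ c ∈ Cham K N ρ, ∀ c' ∈ Cham K N ρ, face col {x} c = face col {x} c' → r c c') →
      (∀ c ∈ Cham K N ρ, ∀ c' ∈ Cham K N ρ, face col {y} c = face col {y} c' → r c c') →
      ∀ c ∈ Cham K N ρ, ∀ c' ∈ Cham K N ρ, r c c' := by
  suffices H : ∀ k : ℕ, ∀ ρ ∈ K, N ≤ ρ.card + k → Free col N ρ x → Free col N ρ y →
      (∀ c ∈ Cham K N ρ, ∀ c' ∈ Cham K N ρ, face col {x} c = face col {x} c' → r c c') →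
      (∀ c ∈ Cham K N ρ, ∀ c' ∈ Cham K N ρ, face col {y} c = face col {y} c' → r c c') →
      ∀ c ∈ Cham K N ρ, ∀ c' ∈ Cham K N ρ, r c c' from
    fun ρ hρ => H N ρ hρ (Nat.le_add_left _ _)
  intro k
  induction k with
  | zero =>
    intro ρ hρ hk hx hy
    have := exp3_card_two_le hP hρ hx hy hxy
    omega
  | succ k ih =>
    intro ρ hρ hk hx hy h1 h2
    have hcard := exp3_card_two_le hP hρ hx hy hxy
    -- chambers through a common link vertex are equivalent
    have A : ∀ v : V, v ∉ ρ → ∀ c ∈ Cham K N ρ, ∀ c' ∈ Cham K N ρ, v ∈ c → v ∈ c' → r c c' := by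
      intro v hv c hc c' hc' hvc hvc'
      have hcK := (mem_Cham.1 hc)
      have hcK' := (mem_Cham.1 hc')
      by_cases e1 : col v = x
      · refine h1 c hc c' hc' ?_
        rw [← e1, exp3_face_eq hP hcK.1 hvc, exp3_face_eq hP hcK'.1 hvc']
      by_cases e2 : col v = y
      · refine h2 c hc c' hc' ?_
        rw [← e2, exp3_face_eq hP hcK.1 hvc, exp3_face_eq hP hcK'.1 hvc']
      have hsub : ∀ d ∈ Cham K N (insert v ρ), d ∈ Cham K N ρ := fun d hd =>
        mem_Cham.2 ⟨(mem_Cham.1 hd).1, (mem_Cham.1 hd).2.1,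
          (Finset.subset_insert _ _).trans (mem_Cham.1 hd).2.2⟩
      refine ih (insert v ρ) (hP.cx.2 c hcK.1 _ (Finset.insert_subset hvc hcK.2.2)) ?_
        ⟨hx.1, ?_⟩ ⟨hy.1, ?_⟩ (fun d hd d' hd' => h1 d (hsub d hd) d' (hsub d' hd'))
        (fun d hd d' hd' => h2 d (hsub d hd) d' (hsub d' hd')) c
        (mem_Cham.2 ⟨hcK.1, hcK.2.1, Finset.insert_subset hvc hcK.2.2⟩) c'
        (mem_Cham.2 ⟨hcK'.1, hcK'.2.1, Finset.insert_subset hvc' hcK'.2.2⟩)
      · rw [Finset.card_insert_of_notMem hv]; omega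
      · intro w hw
        rcases Finset.mem_insert.1 hw with rfl | hw
        · exact e1
        · exact hx.2 w hw
      · intro w hw
        rcases Finset.mem_insert.1 hw with rfl | hw
        · exact e2
        · exact hy.2 w hw
    have B : ∀ a b : V, a ∉ ρ →
        Relation.ReflTransGen (fun a b => ({a, b} : Finset V) ∈ Lk K ρ) a b →
        ∀ c ∈ Cham K N ρ, ∀ c' ∈ Cham K N ρ, a ∈ c → b ∈ c' → r c c' := by
      intro a b ha hab
      induction hab with
      | refl => exact A a ha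
      | @tail b d _ hbd ih' =>
        intro c hc c' hc' hac hdc'
        obtain ⟨c'', hc''⟩ := Cham_nonempty hP hbd.2
        have hm := mem_Cham.1 hc''
        have hc2 : c'' ∈ Cham K N ρ :=
          mem_Cham.2 ⟨hm.1, hm.2.1, Finset.subset_union_right.trans hm.2.2⟩
        have hb : b ∈ c'' := hm.2.2 (Finset.mem_union_left _ (by simp))
        have hd : d ∈ c'' := hm.2.2 (Finset.mem_union_left _ (by simp))
        have hdρ : d ∉ ρ := Finset.disjoint_left.1 hbd.1 (by simp)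
        exact hr.trans (ih' c hc c'' hc2 hac hb) (A d hdρ c'' hc2 c' hc' hd hdc')
    have L : ∀ c ∈ Cham K N ρ, ∃ v ∈ c, v ∉ ρ ∧ ({v} : Finset V) ∈ Lk K ρ := by
      intro c hc
      have hm := mem_Cham.1 hc
      obtain ⟨v, -, hv, hvx⟩ := face_singleton hP hm.1 hm.2.1 hx.1
      have hvρ : v ∉ ρ := fun h => hx.2 v h hvx
      exact ⟨v, hv, hvρ, Finset.disjoint_singleton_left.2 hvρ,
        hP.cx.2 c hm.1 _ (Finset.union_subset (Finset.singleton_subset_iff.2 hv) hm.2.2)⟩
    intro c hc c' hc'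
    obtain ⟨v, hv, hvρ, hvL⟩ := L c hc
    obtain ⟨w, hw, -, hwL⟩ := L c' hc'
    exact B v w hvρ (hC ρ hρ hcard v w hvL hwL) c hc c' hc' hv hw

/-- `Var F + Var G - 2 Cov(F,G)` as a mean square. -/
theorem exp3_dirichlet (hP : Partite K col N) {ρ : Finset V} (hρ : ρ ∈ K) (F G : Finset V → ℝ) :
    Ex K N ρ (fun c => (F c - G c - (Ex K N ρ F - Ex K N ρ G)) ^ 2) =
      Cov K N ρ F F + Cov K N ρ G G - 2 * Cov K N ρ F G := by
  set r := Ex K N ρ F - Ex K N ρ G with hr
  have : (fun c => (F c - G c - r) ^ 2) = fun c =>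
      ((F c * F c + G c * G c) - 2 * (F c * G c)) + ((-2 * r) * F c + (2 * r) * G c) + r ^ 2 := by
    funext c; ring
  rw [this, Ex_add, Ex_add, Ex_sub, Ex_add, Ex_add, Ex_mul_left, Ex_mul_left, Ex_mul_left,
    Ex_const hP hρ]
  simp only [Cov, hr]
  ring

theorem exp3_single_le {ρ : Finset V} {f : Finset V → ℝ} (hf : ∀ c, 0 ≤ f c) {c : Finset V}
    (hc : c ∈ Cham K N ρ) : f c ≤ (Cham K N ρ).card * Ex K N ρ f := by
  have h0 : ((Cham K N ρ).card : ℝ) ≠ 0 := by
    exact_mod_cast (Finset.card_pos.2 ⟨c, hc⟩).ne'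
  rw [Ex, mul_div_cancel₀ _ h0]
  exact Finset.single_le_sum (fun d _ => hf d) hc

/-- Poincaré inequality.  Recipe: `D(φ,ψ) = Ex (φ(c x) - ψ(c y) - r)²` with `r = Ex φ - Ex ψ`, i.e.
`Var φ + Var ψ - 2 Cov`.  `r c c' := c = c' ∨ ∃ C, ∀ φ ψ, (φ(cx) - φ(c'x))² + (ψ(cy) - ψ(c'y))² ≤ C D`
is an equivalence relation to which `conn_two` applies (each single term of `D` is at most
`|Cham| D`).  With `C` the maximum over pairs, `Var φ + Var ψ ≤ C D`; take `γ = max 0 (1 - 1/(C+1))`. -/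
theorem spec_lt_one (hP : Partite K col N) (hC : ∀ ρ ∈ K, ρ.card + 2 ≤ N → Conn (Lk K ρ))
    {ρ : Finset V} (hρ : ρ ∈ K) {x y : ℕ} (hx : Free col N ρ x) (hy : Free col N ρ y)
    (hxy : x ≠ y) : ∃ γ : ℝ, γ < 1 ∧ Spec K col N ρ x y γ := by
  set D : (Finset V → ℝ) → (Finset V → ℝ) → ℝ := fun φ ψ =>
    Ex K N ρ (fun c => (φ (face col {x} c) - ψ (face col {y} c) -
      (Ex K N ρ (fun c => φ (face col {x} c)) - Ex K N ρ (fun c => ψ (face col {y} c)))) ^ 2)
    with hD
  have hD0 : ∀ φ ψ, 0 ≤ D φ ψ := fun φ ψ => Ex_nonneg fun c _ => sq_nonneg _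
  let r : Finset V → Finset V → Prop := fun c c' => ∃ C : ℝ, ∀ φ ψ : Finset V → ℝ,
    (φ (face col {x} c) - φ (face col {x} c')) ^ 2 +
      (ψ (face col {y} c) - ψ (face col {y} c')) ^ 2 ≤ C * D φ ψ
  have hr : Equivalence r := by
    refine ⟨fun c => ⟨0, fun φ ψ => by simp⟩, ?_, ?_⟩
    · rintro c c' ⟨C, h⟩
      exact ⟨C, fun φ ψ => by have := h φ ψ; nlinarith⟩
    · rintro c c' c'' ⟨C, h⟩ ⟨C', h'⟩
      refine ⟨2 * C + 2 * C', fun φ ψ => ?_⟩
      have a1 := h φ ψ
      have a2 := h' φ ψ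
      nlinarith [sq_nonneg (φ (face col {x} c) - 2 * φ (face col {x} c') + φ (face col {x} c'')),
        sq_nonneg (ψ (face col {y} c) - 2 * ψ (face col {y} c') + ψ (face col {y} c''))]
  have single : ∀ φ ψ : Finset V → ℝ, ∀ c ∈ Cham K N ρ,
      (φ (face col {x} c) - ψ (face col {y} c) -
      (Ex K N ρ (fun c => φ (face col {x} c)) - Ex K N ρ (fun c => ψ (face col {y} c)))) ^ 2 ≤
        (Cham K N ρ).card * D φ ψ := fun φ ψ c hc =>
    exp3_single_le (f := fun c => (φ (face col {x} c) - ψ (face col {y} c) -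
      (Ex K N ρ (fun c => φ (face col {x} c)) - Ex K N ρ (fun c => ψ (face col {y} c)))) ^ 2)
      (fun _ => sq_nonneg _) hc
  have key := conn_two hP hC hxy r hr ρ hρ hx hy
    (fun c hc c' hc' e => ⟨4 * (Cham K N ρ).card, fun φ ψ => by
      have a1 := single φ ψ c hc
      have a2 := single φ ψ c' hc'
      rw [e] at a1 ⊢
      nlinarith [sq_nonneg (2 * φ (face col {x} c') - ψ (face col {y} c) - ψ (face col {y} c') -
        2 * (Ex K N ρ (fun c => φ (face col {x} c)) - Ex K N ρ (fun c => ψ (face col {y} c))))]⟩)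
    (fun c hc c' hc' e => ⟨4 * (Cham K N ρ).card, fun φ ψ => by
      have a1 := single φ ψ c hc
      have a2 := single φ ψ c' hc'
      rw [e] at a1 ⊢
      nlinarith [sq_nonneg (φ (face col {x} c) + φ (face col {x} c') - 2 * ψ (face col {y} c') -
        2 * (Ex K N ρ (fun c => φ (face col {x} c)) - Ex K N ρ (fun c => ψ (face col {y} c))))]⟩)
  obtain ⟨c₀, hc₀⟩ := Cham_nonempty hP hρ
  have key' : ∀ c, ∃ C : ℝ, c ∈ Cham K N ρ → ∀ φ ψ : Finset V → ℝ,
      (φ (face col {x} c) - φ (face col {x} c₀)) ^ 2 +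
        (ψ (face col {y} c) - ψ (face col {y} c₀)) ^ 2 ≤ D φ ψ * C := by
    intro c
    by_cases hc : c ∈ Cham K N ρ
    · obtain ⟨C, h⟩ := key c hc c₀ hc₀
      exact ⟨C, fun _ φ ψ => mul_comm C _ ▸ h φ ψ⟩
    · exact ⟨0, fun h => (hc h).elim⟩
  choose C hCc using key'
  set A := |Ex K N ρ C| + 1 with hA
  have hA0 : 0 < A := by positivity
  refine ⟨1 - A⁻¹, by have := inv_pos.2 hA0; linarith, fun φ ψ => ?_⟩
  have b1 := Var_le hP hρ (fun c => φ (face col {x} c)) (φ (face col {x} c₀))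
  have b2 := Var_le hP hρ (fun c => ψ (face col {y} c)) (ψ (face col {y} c₀))
  have b3 := Ex_mono (K := K) (N := N) (ρ := ρ) (fun c hc => hCc c hc φ ψ)
  rw [Ex_add, Ex_mul_left] at b3
  have b4 : D φ ψ * Ex K N ρ C ≤ D φ ψ * A :=
    mul_le_mul_of_nonneg_left ((le_abs_self _).trans (by linarith)) (hD0 φ ψ)
  have b5 : D φ ψ = _ := exp3_dirichlet hP hρ (fun c => φ (face col {x} c))
    (fun c => ψ (face col {y} c))
  have b6 : A⁻¹ * (Cov K N ρ (fun c => φ (face col {x} c)) (fun c => φ (face col {x} c)) +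
      Cov K N ρ (fun c => ψ (face col {y} c)) (fun c => ψ (face col {y} c))) ≤ D φ ψ := by
    rw [inv_mul_le_iff₀ hA0]
    linarith
  linarith

/-- the averaging operator contracts the variance. -/
theorem exp3_var_avg (hP : Partite K col N) {ρ : Finset V} {x z : ℕ} {γ : ℝ} (h0 : 0 ≤ γ)
    (h : Spec K col N ρ x z γ) (φ : Finset V → ℝ) :
    Cov K N ρ (fun c => Ex K N (ρ ∪ face col {z} c) (fun c => φ (face col {x} c)))
        (fun c => Ex K N (ρ ∪ face col {z} c) (fun c => φ (face col {x} c))) ≤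
      γ ^ 2 * Cov K N ρ (fun c => φ (face col {x} c)) (fun c => φ (face col {x} c)) := by
  set F : Finset V → ℝ := fun c => φ (face col {x} c) with hF
  set s : Finset V → ℝ := fun σ => Ex K N (ρ ∪ σ) F with hs
  have e1 := Ex_tower hP ρ {z} s (fun _ => F)
  have e2 := Ex_tower hP ρ {z} (fun _ => 1) (fun _ => F)
  simp only [one_mul] at e2
  have e3 : ∀ t : ℝ, Cov K N ρ (fun c => t * F c) (fun c => s (face col {z} c)) =
      t * Cov K N ρ (fun c => s (face col {z} c)) (fun c => s (face col {z} c)) := by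
    intro t
    have a1 : (fun c => t * F c * s (face col {z} c)) =
        fun c => t * (s (face col {z} c) * F c) := by
      funext c; ring
    simp only [Cov]
    rw [a1, Ex_mul_left, Ex_mul_left, ← e1]
    have a2 : Ex K N ρ (fun c => s (face col {z} c)) = Ex K N ρ F := e2
    rw [a2]
    ring
  have e4 : ∀ t : ℝ, Cov K N ρ (fun c => t * F c) (fun c => t * F c) = t ^ 2 * Cov K N ρ F F := by
    intro t
    have a1 : (fun c => t * F c * (t * F c)) = fun c => t ^ 2 * (F c * F c) := by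
      funext c; ring
    simp only [Cov]
    rw [a1, Ex_mul_left, Ex_mul_left]
    ring
  have e5 : ∀ t : ℝ, 2 * (t * Cov K N ρ (fun c => s (face col {z} c)) (fun c => s (face col {z} c)))
      ≤ γ * (t ^ 2 * Cov K N ρ F F +
        Cov K N ρ (fun c => s (face col {z} c)) (fun c => s (face col {z} c))) := by
    intro t
    have := h (fun σ => t * φ σ) s
    rw [← e3, ← e4]
    exact this
  change Cov K N ρ (fun c => s (face col {z} c)) (fun c => s (face col {z} c)) ≤ _
  rcases h0.eq_or_lt with rfl | hγ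
  · have := e5 1
    linarith
  · have := e5 γ
    refine le_of_mul_le_mul_left ?_ hγ
    linarith

/-- one application of the trickling-down estimate. -/
theorem exp3_step (hP : Partite K col N) {ρ : Finset V} (hc : ρ.card + 3 ≤ N) {μ : ℝ}
    (h1 : μ < 1)
    (hS : ∀ ρ' ∈ K, ρ'.card = ρ.card + 1 → ∀ x y, Free col N ρ' x → Free col N ρ' y → x ≠ y →
      Spec K col N ρ' x y μ) {γ : ℝ} (hγ : 0 ≤ γ)
    (hG : ∀ x y, Free col N ρ x → Free col N ρ y → x ≠ y → Spec K col N ρ x y γ) :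
    ∀ x y, Free col N ρ x → Free col N ρ y → x ≠ y →
      Spec K col N ρ x y (μ + (1 - μ) * γ ^ 2) := by
  intro x y hx hy hxy φ ψ
  obtain ⟨z, hz, hxz, hyz⟩ := exp3_exists_free (col := col) hc x y
  set F : Finset V → ℝ := fun c => φ (face col {x} c) with hF
  set G : Finset V → ℝ := fun c => ψ (face col {y} c) with hG'
  have a1 := exp3_var_avg hP hγ (hG x z hx hz hxz) φ
  have a2 := exp3_var_avg hP hγ (hG y z hy hz hyz) ψ
  have t1 := Cov_total hP ρ {z} F G
  have t2 := Cov_total hP ρ {z} F F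
  have t3 := Cov_total hP ρ {z} G G
  have a3 := two_Cov_le (K := K) (N := N) ρ (fun c => Ex K N (ρ ∪ face col {z} c) F)
    (fun c => Ex K N (ρ ∪ face col {z} c) G) one_pos
  have a4 : Ex K N ρ (fun c => 2 * Cov K N (ρ ∪ face col {z} c) F G) ≤
      Ex K N ρ (fun c => μ * (Cov K N (ρ ∪ face col {z} c) F F +
        Cov K N (ρ ∪ face col {z} c) G G)) := by
    refine Ex_mono fun c hc => ?_
    have hm := mem_Cham.1 hc
    obtain ⟨v, hv, hvc, hvz⟩ := face_singleton hP hm.1 hm.2.1 hz.1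
    have hvρ : v ∉ ρ := fun h => hz.2 v h hvz
    have fr : ∀ w, Free col N ρ w → w ≠ z → Free col N (ρ ∪ face col {z} c) w := by
      intro w hw hwz
      refine ⟨hw.1, fun u hu => ?_⟩
      rw [hv] at hu
      rcases Finset.mem_union.1 hu with hu | hu
      · exact hw.2 u hu
      · rw [Finset.mem_singleton.1 hu, hvz]; exact hwz.symm
    refine hS (ρ ∪ face col {z} c)
      (hP.cx.2 c hm.1 _ (Finset.union_subset hm.2.2 (Finset.filter_subset _ _))) ?_
      x y (fr x hx hxz) (fr y hy hyz) hxy φ ψ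
    rw [hv, Finset.card_union_of_disjoint (Finset.disjoint_singleton_right.2 hvρ),
      Finset.card_singleton]
  rw [Ex_mul_left, Ex_mul_left, Ex_add] at a4
  simp only [inv_one, one_mul] at a3
  have h1' : 0 ≤ 1 - μ := by linarith
  have a5 := mul_le_mul_of_nonneg_left (add_le_add a1 a2) h1'
  have t2' : Ex K N ρ (fun c => Cov K N (ρ ∪ face col {z} c) F F) = Cov K N ρ F F - _ :=
    eq_sub_of_add_eq t2.symm
  have t3' : Ex K N ρ (fun c => Cov K N (ρ ∪ face col {z} c) G G) = Cov K N ρ G G - _ :=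
    eq_sub_of_add_eq t3.symm
  rw [t2', t3'] at a4
  rw [t1]
  linarith

/-- one step of trickling down.  Recipe: let `γ` be the infimum of the set of `g ≥ 0` such that
`Spec ρ x y g` holds for all free `x ≠ y` (closed under limits, so `γ` itself works; `γ < 1` by
`spec_lt_one`, finitely many pairs).  For free `x ≠ y` choose a third free colour `z`;
`Cov_total` with `J = {z}`, `hS` in each link, `Var (Sφ) ≤ γ² Var φ` (from `Spec ρ x z γ` applied to
`γ φ` and `Sφ`, as `Var (Sφ) = Cov(φ, Sφ)`), `two_Cov_le` with `s = 1` give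
`Spec ρ x y (μ + (1-μ) γ²)`.  Hence `γ ≤ μ + (1-μ) γ²`, i.e. `(1-γ)(μ - (1-μ)γ) ≥ 0`. -/
theorem spec_trickle (hP : Partite K col N) (hC : ∀ ρ ∈ K, ρ.card + 2 ≤ N → Conn (Lk K ρ))
    {ρ : Finset V} (hρ : ρ ∈ K) (hc : ρ.card + 3 ≤ N) {μ : ℝ} (h0 : 0 ≤ μ) (h1 : μ < 1)
    (hS : ∀ ρ' ∈ K, ρ'.card = ρ.card + 1 → ∀ x y, Free col N ρ' x → Free col N ρ' y → x ≠ y →
      Spec K col N ρ' x y μ) :
    ∀ x y, Free col N ρ x → Free col N ρ y → x ≠ y → Spec K col N ρ x y (μ / (1 - μ)) := by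
  set S : Set ℝ := {g | 0 ≤ g ∧ ∀ x y, Free col N ρ x → Free col N ρ y → x ≠ y →
    Spec K col N ρ x y g} with hSdef
  have hbdd : BddBelow S := ⟨0, fun g hg => hg.1⟩
  -- an element of `S` below one
  obtain ⟨g₀, hg₀, hg₀1⟩ : ∃ g₀ ∈ S, g₀ < 1 := by
    have h2 : ∀ p : ℕ × ℕ, ∃ γ : ℝ, γ < 1 ∧ (Free col N ρ p.1 → Free col N ρ p.2 → p.1 ≠ p.2 →
        Spec K col N ρ p.1 p.2 γ) := by
      intro p
      by_cases hp : Free col N ρ p.1 ∧ Free col N ρ p.2 ∧ p.1 ≠ p.2
      · obtain ⟨γ, h3, h4⟩ := spec_lt_one hP hC hρ hp.1 hp.2.1 hp.2.2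
        exact ⟨γ, h3, fun _ _ _ => h4⟩
      · exact ⟨0, one_pos, fun a b c => (hp ⟨a, b, c⟩).elim⟩
    choose γ hγ1 hγ2 using h2
    have hne : (Finset.range N ×ˢ Finset.range N).Nonempty :=
      ⟨(0, 0), by simp; omega⟩
    obtain ⟨p, -, hp⟩ := Finset.exists_max_image _ γ hne
    refine ⟨max 0 (γ p), ⟨le_max_left _ _, fun x y hx hy hxy => ?_⟩, max_lt one_pos (hγ1 p)⟩
    refine (hγ2 (x, y) hx hy hxy).mono ((hp (x, y) ?_).trans (le_max_right _ _))
    exact Finset.mem_product.2 ⟨Finset.mem_range.2 hx.1, Finset.mem_range.2 hy.1⟩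
  have hne : S.Nonempty := ⟨g₀, hg₀⟩
  have hγ0 : 0 ≤ sInf S := le_csInf hne fun g hg => hg.1
  have hγ1 : sInf S < 1 := (csInf_le hbdd hg₀).trans_lt hg₀1
  have hγS : ∀ x y, Free col N ρ x → Free col N ρ y → x ≠ y → Spec K col N ρ x y (sInf S) := by
    intro x y hx hy hxy φ ψ
    have v1 := Var_nonneg (K := K) (N := N) ρ (fun c => φ (face col {x} c))
    have v2 := Var_nonneg (K := K) (N := N) ρ (fun c => ψ (face col {y} c))
    rcases (add_nonneg v1 v2).eq_or_lt with e | e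
    · have := hg₀.2 x y hx hy hxy φ ψ
      rw [← e, mul_zero] at this ⊢
      exact this
    · rw [← div_le_iff₀ e]
      refine le_csInf hne fun g hg => ?_
      rw [div_le_iff₀ e]
      exact hg.2 x y hx hy hxy φ ψ
  have h1' : 0 < 1 - μ := by linarith
  have hstep : μ + (1 - μ) * sInf S ^ 2 ∈ S :=
    ⟨by positivity, exp3_step hP hc h1 hS hγ0 hγS⟩
  have h3 := csInf_le hbdd hstep
  have h4 : sInf S ≤ μ / (1 - μ) := by
    rw [le_div_iff₀ h1']
    by_contra hcon
    have := mul_pos (sub_pos.2 hγ1) (sub_pos.2 (not_le.1 hcon))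
    nlinarith
  exact fun x y hx hy hxy => (hγS x y hx hy hxy).mono h4

/-- Recipe: induction on `k` with `ρ.card + 2 + k = N`: `Spec` with `lam / (1 - k lam)`. -/
theorem spec_all (hP : Partite K col N) (hH : Homog K col N) {m R b : ℕ}
    (hL : Local K col N m R b) (hC : Conn K) {lam : ℝ} (h0 : 0 < lam) (hN : lam * N ≤ 1 / 2)
    (hb : 1 ≤ lam ^ 2 * b) :
    ∀ ρ ∈ K, ∀ x y, Free col N ρ x → Free col N ρ y → x ≠ y → Spec K col N ρ x y (2 * lam) := by
  have hC' : ∀ ρ ∈ K, ρ.card + 2 ≤ N → Conn (Lk K ρ) := by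
    intro ρ hρ hc
    rcases ρ.eq_empty_or_nonempty with rfl | hne
    · rw [Lk_empty]; exact hC
    · exact hL.conn ρ hρ hne hc
  have bound : ∀ k : ℕ, k ≤ N → (k : ℝ) * lam ≤ 1 / 2 := by
    intro k hk
    have : (k : ℝ) ≤ N := by exact_mod_cast hk
    nlinarith
  have H : ∀ k : ℕ, ∀ ρ ∈ K, ρ.card + 2 + k = N → ∀ x y, Free col N ρ x → Free col N ρ y →
      x ≠ y → Spec K col N ρ x y (lam / (1 - k * lam)) := by
    intro k
    induction k with
    | zero =>
      intro ρ hρ hc x y hx hy hxy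
      simpa using spec_rank2 hP hH hL.thick hL.rank2 h0 hb hρ hc hx hy hxy
    | succ k ih =>
      intro ρ hρ hc
      have b1 := bound k (by omega)
      have b2 := bound (k + 1) (by omega)
      push_cast at b2 ⊢
      have p1 : 0 < 1 - k * lam := by linarith
      have p2 : 0 < 1 - (k + 1) * lam := by linarith
      have := spec_trickle hP hC' hρ (by omega) (μ := lam / (1 - k * lam)) (by positivity)
        (by rw [div_lt_one p1]; linarith) (fun ρ' hρ' hc' => ih ρ' hρ' (by omega))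
      have e : lam / (1 - k * lam) / (1 - lam / (1 - k * lam)) = lam / (1 - (k + 1) * lam) := by
        have p3 : 1 - lam / (1 - k * lam) = (1 - (k + 1) * lam) / (1 - k * lam) := by
          rw [eq_div_iff p1.ne', sub_mul, div_mul_cancel₀ _ p1.ne']; ring
        rw [p3, div_div_div_cancel_right₀ p1.ne']
      rwa [e] at this
  intro ρ hρ x y hx hy hxy
  have hc := exp3_card_two_le hP hρ hx hy hxy
  refine (H (N - (ρ.card + 2)) ρ hρ (by omega) x y hx hy hxy).mono ?_
  have b1 := bound (N - (ρ.card + 2)) (by omega)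
  rw [div_le_iff₀ (by linarith)]
  nlinarith

end Crest.Agent.R66
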