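import Crest.Agent.R66.Exp1

/-! # Row 66: swap walks and small locally minimal cocycles -/

set_option linter.unusedSectionVars false

namespace Crest.Agent.R66

section
variable {V : Type*} [Fintype V] [DecidableEq V] {K : Set (Finset V)} {col : V → ℕ} {N : ℕ}

theorem face_subset (col : V → ℕ) (J : Finset ℕ) (c : Finset V) : face col J c ⊆ c :=
  Finset.filter_subset _ _

theorem face_empty (col : V → ℕ) (c : Finset V) : face col ∅ c = ∅ := by
  simp [face]

theorem face_insert (col : V → ℕ) (y : ℕ) (J : Finset ℕ) (c : Finset V) :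
    face col (insert y J) c = face col J c ∪ face col {y} c := by
  ext v
  simp only [face, Finset.mem_filter, Finset.mem_insert, Finset.mem_union, Finset.mem_singleton]
  tauto

theorem union_face_mem (hP : Partite K col N) {ρ c : Finset V} (hc : c ∈ Cham K N ρ)
    (J : Finset ℕ) : ρ ∪ face col J c ∈ K :=
  hP.cx.2 c (mem_Cham.1 hc).1 _ (Finset.union_subset (mem_Cham.1 hc).2.2 (face_subset _ _ _))

theorem Free.union_face {ρ : Finset V} {x : ℕ} (hx : Free col N ρ x) {J : Finset ℕ} (hxJ : x ∉ J)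
    (c : Finset V) : Free col N (ρ ∪ face col J c) x := by
  refine ⟨hx.1, fun v hv => ?_⟩
  rcases Finset.mem_union.1 hv with hv | hv
  · exact hx.2 v hv
  · intro h
    exact hxJ (h ▸ (Finset.mem_filter.1 hv).2)

/-- the tower property without weight. -/
theorem Ex_tower' (hP : Partite K col N) (ρ : Finset V) (J : Finset ℕ) (f : Finset V → ℝ) :
    Ex K N ρ (fun c => Ex K N (ρ ∪ face col J c) f) = Ex K N ρ f := by
  have := Ex_tower hP ρ J (fun _ => 1) (fun _ => f)
  simpa only [one_mul] using this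

theorem sq_Ex_le (ρ : Finset V) (f : Finset V → ℝ) :
    Ex K N ρ f ^ 2 ≤ Ex K N ρ (fun c => f c ^ 2) := by
  have := Var_nonneg (K := K) (N := N) ρ f
  simp only [Cov] at this
  simp only [sq]
  linarith

theorem Var_le_sq (ρ : Finset V) (f : Finset V → ℝ) :
    Cov K N ρ f f ≤ Ex K N ρ (fun c => f c ^ 2) := by
  simp only [Cov, sq]
  nlinarith [mul_self_nonneg (Ex K N ρ f)]

/-- Recipe: induction on `J` (generalising `ψ`).  For `J = insert y J'` condition on
`σ' = face J' c` (`Ex_tower`): in the link of `ρ ∪ σ'`, `face J c = σ' ∪ face {y} c`, so `Spec`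
bounds the conditional covariance by `μ/2` times conditional second moments; the main term is the
`J'`-statement for `ψ' σ' = Ex (ρ ∪ σ') (ψ (face J ·))`, with `Ex ψ' = Ex ψ`, `Ex ψ'² ≤ Ex ψ²`. -/
theorem swap (hP : Partite K col N) {μ : ℝ} (h0 : 0 ≤ μ)
    (hS : ∀ ρ ∈ K, ∀ x y, Free col N ρ x → Free col N ρ y → x ≠ y → Spec K col N ρ x y μ)
    {ρ : Finset V} (hρ : ρ ∈ K) {x : ℕ} (hx : Free col N ρ x) (J : Finset ℕ)
    (hJ : ∀ y ∈ J, Free col N ρ y) (hxJ : x ∉ J) (φ ψ : Finset V → ℝ) :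
    Ex K N ρ (fun c => φ (face col {x} c) * ψ (face col J c)) ≤
      Ex K N ρ (fun c => φ (face col {x} c)) * Ex K N ρ (fun c => ψ (face col J c)) +
      J.card * μ / 2 * (Ex K N ρ (fun c => φ (face col {x} c) ^ 2) +
        Ex K N ρ (fun c => ψ (face col J c) ^ 2)) := by
  induction J using Finset.induction_on generalizing ψ with
  | empty =>
    simp only [face_empty, Finset.card_empty, Nat.cast_zero, zero_mul, zero_div, add_zero]
    rw [Ex_const hP hρ, mul_comm _ (ψ ∅), ← Ex_mul_left]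
    exact le_of_eq (Ex_congr fun c _ => mul_comm _ _)
  | insert y J' hy ih =>
    have hxy : x ≠ y := fun h => hxJ (h ▸ Finset.mem_insert_self _ _)
    have hxJ' : x ∉ J' := fun h => hxJ (Finset.mem_insert_of_mem h)
    have hyF : Free col N ρ y := hJ y (Finset.mem_insert_self _ _)
    set Φ : Finset V → ℝ := fun c => φ (face col {x} c) with hΦ
    set Ψ : Finset V → ℝ := fun c => ψ (face col (insert y J') c) with hΨ
    set ψ' : Finset V → ℝ := fun σ => Ex K N (ρ ∪ σ) Ψ with hψ'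
    have ih' := ih (fun y hy => hJ y (Finset.mem_insert_of_mem hy)) hxJ' ψ'
    -- the conditional bound
    have hcond : ∀ c ∈ Cham K N ρ, Ex K N (ρ ∪ face col J' c) (fun c' => Φ c' * Ψ c') ≤
        ψ' (face col J' c) * Ex K N (ρ ∪ face col J' c) Φ +
          μ / 2 * (Ex K N (ρ ∪ face col J' c) (fun c' => Φ c' ^ 2) +
            Ex K N (ρ ∪ face col J' c) (fun c' => Ψ c' ^ 2)) := by
      intro c hc
      have hs := hS _ (union_face_mem hP hc J') x y (hx.union_face hxJ' c) (hyF.union_face hy c)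
        hxy φ (fun τ => ψ (face col J' c ∪ τ))
      have hΨc : ∀ c' ∈ Cham K N (ρ ∪ face col J' c),
          ψ (face col J' c ∪ face col {y} c') = Ψ c' := by
        intro c' hc'
        rw [hΨ]
        simp only
        rw [face_insert, ((mem_Cham_union hP J' hc).1 hc').2]
      have e1 : Cov K N (ρ ∪ face col J' c) (fun c' => φ (face col {x} c'))
          (fun c' => ψ (face col J' c ∪ face col {y} c')) =
          Ex K N (ρ ∪ face col J' c) (fun c' => Φ c' * Ψ c') -
            Ex K N (ρ ∪ face col J' c) Φ * Ex K N (ρ ∪ face col J' c) Ψ := by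
        simp only [Cov]
        rw [Ex_congr hΨc, Ex_congr (g := fun c' => Φ c' * Ψ c') fun c' hc' => by rw [hΨc c' hc']]
      have e2 : Cov K N (ρ ∪ face col J' c) (fun c' => ψ (face col J' c ∪ face col {y} c'))
          (fun c' => ψ (face col J' c ∪ face col {y} c')) ≤
          Ex K N (ρ ∪ face col J' c) (fun c' => Ψ c' ^ 2) := by
        refine (Var_le_sq _ _).trans (le_of_eq ?_)
        exact Ex_congr fun c' hc' => by rw [hΨc c' hc']
      have e3 := Var_le_sq (K := K) (N := N) (ρ ∪ face col J' c) Φ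
      have e4 := mul_le_mul_of_nonneg_left (add_le_add e3 e2) h0
      rw [e1] at hs
      have e5 : ψ' (face col J' c) = Ex K N (ρ ∪ face col J' c) Ψ := rfl
      rw [e5]
      have hs' := hs.trans e4
      linarith
    have h1 := Ex_mono hcond
    rw [Ex_tower' hP, Ex_add, Ex_mul_left, Ex_add, Ex_tower' hP, Ex_tower' hP,
      Ex_tower hP ρ J' ψ' (fun _ => Φ)] at h1
    have h2 : Ex K N ρ (fun c => ψ' (face col J' c)) = Ex K N ρ Ψ := Ex_tower' hP ρ J' Ψ
    have h3 : Ex K N ρ (fun c => ψ' (face col J' c) ^ 2) ≤ Ex K N ρ (fun c => Ψ c ^ 2) := by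
      rw [← Ex_tower' hP ρ J' (fun c => Ψ c ^ 2)]
      exact Ex_mono fun c _ => sq_Ex_le _ _
    have h4 : Ex K N ρ (fun c => ψ' (face col J' c) * Φ c) =
        Ex K N ρ (fun c => Φ c * ψ' (face col J' c)) := Ex_congr fun c _ => mul_comm _ _
    rw [h2] at ih'
    rw [h4] at h1
    rw [Finset.card_insert_of_notMem hy]
    have h5 : (0 : ℝ) ≤ J'.card * μ / 2 := by positivity
    have h6 := mul_le_mul_of_nonneg_left h3 h5
    push_cast
    change Ex K N ρ (fun c => Φ c * Ψ c) ≤ Ex K N ρ Φ * Ex K N ρ Ψ +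
      ((J'.card : ℝ) + 1) * μ / 2 * (Ex K N ρ (fun c => Φ c ^ 2) + Ex K N ρ (fun c => Ψ c ^ 2))
    change Ex K N ρ (fun c => Φ c * ψ' (face col J' c)) ≤ Ex K N ρ Φ * Ex K N ρ Ψ +
      (J'.card : ℝ) * μ / 2 * (Ex K N ρ (fun c => Φ c ^ 2) +
        Ex K N ρ (fun c => ψ' (face col J' c) ^ 2)) at ih'
    nlinarith

/-- local weight of the support of `h` at the face `r`. -/
noncomputable def Wt (K : Set (Finset V)) (N j : ℕ) (h : Finset V → ZMod 2) (r : Finset V) : ℝ :=
  (cnt K N r (j - r.card) (fun σ => h (σ ∪ r)) : ℝ) / ((Cham K N r).card : ℝ)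

/-- second moments `a_ℓ` (unnormalised). -/
noncomputable def Mom (K : Set (Finset V)) (N j : ℕ) (h : Finset V → ZMod 2) (ℓ : ℕ) : ℝ :=
  ∑ c ∈ Cham K N ∅, ∑ r ∈ c.powersetCard ℓ, Wt K N j h r ^ 2

/-- number of `j`-faces of `c` through `r` in the support of `h`. -/
def wc (j : ℕ) (h : Finset V → ZMod 2) (r c : Finset V) : ℕ :=
  ((c.powersetCard j).filter (fun σ => r ⊆ σ ∧ h σ ≠ 0)).card

/-- average of `wc`. -/
noncomputable def Wc (K : Set (Finset V)) (N j : ℕ) (h : Finset V → ZMod 2) (r : Finset V) : ℝ :=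
  Ex K N r (fun c => (wc j h r c : ℝ))

theorem wc_anti (j : ℕ) (h : Finset V → ZMod 2) {r r' : Finset V} (hr : r ⊆ r') (c : Finset V) :
    wc j h r' c ≤ wc j h r c := by
  refine Finset.card_le_card fun σ hσ => ?_
  rw [Finset.mem_filter] at hσ ⊢
  exact ⟨hσ.1, hr.trans hσ.2.1, hσ.2.2⟩

theorem wc_le (j : ℕ) (h : Finset V → ZMod 2) (r c : Finset V) : wc j h r c ≤ 2 ^ c.card := by
  rw [← Finset.card_powerset]
  refine Finset.card_le_card fun σ hσ => ?_
  exact Finset.mem_powerset.2 (Finset.mem_powersetCard.1 (Finset.mem_filter.1 hσ).1).1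

theorem card_link_eq {j : ℕ} (h : Finset V → ZMod 2) {r c : Finset V} (hrc : r ⊆ c)
    (hj : r.card ≤ j) :
    (((c \ r).powersetCard (j - r.card)).filter (fun σ => h (σ ∪ r) ≠ 0)).card = wc j h r c := by
  refine Finset.card_bij' (fun σ _ => σ ∪ r) (fun σ _ => σ \ r) ?_ ?_ ?_ ?_
  · intro σ hσ
    simp only [Finset.mem_filter, Finset.mem_powersetCard] at hσ ⊢
    have hd : Disjoint σ r := Finset.disjoint_of_subset_left hσ.1.1 Finset.sdiff_disjoint
    refine ⟨⟨Finset.union_subset (hσ.1.1.trans Finset.sdiff_subset) hrc, ?_⟩,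
      Finset.subset_union_right, hσ.2⟩
    rw [Finset.card_union_of_disjoint hd, hσ.1.2]; omega
  · intro σ hσ
    simp only [Finset.mem_filter, Finset.mem_powersetCard] at hσ ⊢
    refine ⟨⟨Finset.sdiff_subset_sdiff hσ.1.1 subset_rfl, ?_⟩, ?_⟩
    · rw [Finset.card_sdiff_of_subset hσ.2.1, hσ.1.2]
    · rw [Finset.sdiff_union_of_subset hσ.2.1]; exact hσ.2.2
  · intro σ hσ
    simp only [Finset.mem_filter, Finset.mem_powersetCard] at hσ
    have hd : Disjoint σ r := Finset.disjoint_of_subset_left hσ.1.1 Finset.sdiff_disjoint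
    exact Finset.union_sdiff_cancel_right hd
  · intro σ hσ
    simp only [Finset.mem_filter, Finset.mem_powersetCard] at hσ
    exact Finset.sdiff_union_of_subset hσ.2.1

theorem cnt_div (ρ : Finset V) (a : ℕ) (f : Finset V → ZMod 2) :
    (cnt K N ρ a f : ℝ) / ((Cham K N ρ).card : ℝ) =
      Ex K N ρ (fun c => ((((c \ ρ).powersetCard a).filter (fun σ => f σ ≠ 0)).card : ℝ)) := by
  simp only [cnt, Ex, Nat.cast_sum]

theorem Wt_eq_Wc {j : ℕ} (h : Finset V → ZMod 2) {r : Finset V} (hj : r.card ≤ j) :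
    Wt K N j h r = Wc K N j h r := by
  rw [Wt, cnt_div, Wc]
  exact Ex_congr fun c hc => by rw [card_link_eq h (mem_Cham.1 hc).2.2 hj]

theorem Wc_nonneg (j : ℕ) (h : Finset V → ZMod 2) (r : Finset V) : 0 ≤ Wc K N j h r :=
  Ex_nonneg fun _ _ => Nat.cast_nonneg _

theorem Wc_le (hP : Partite K col N) (j : ℕ) (h : Finset V → ZMod 2) {r : Finset V} (hr : r ∈ K) :
    Wc K N j h r ≤ 2 ^ N := by
  rw [← Ex_const hP hr (2 ^ N)]
  refine Ex_mono fun c hc => ?_
  have := wc_le j h r c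
  rw [(mem_Cham.1 hc).2.1] at this
  exact_mod_cast this

theorem Ex_Wc_le (hP : Partite K col N) (j : ℕ) (h : Finset V → ZMod 2) (r : Finset V)
    (J : Finset ℕ) : Ex K N r (fun c => Wc K N j h (r ∪ face col J c)) ≤ Wc K N j h r := by
  have := Ex_tower hP r J (fun _ => 1) (fun σ c => (wc j h (r ∪ σ) c : ℝ))
  simp only [one_mul] at this
  refine (le_of_eq this).trans (Ex_mono fun c _ => ?_)
  exact_mod_cast wc_anti j h Finset.subset_union_left c

theorem cnt_empty (j : ℕ) (h : Finset V → ZMod 2) :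
    (cnt K N ∅ j h : ℝ) = ∑ c ∈ Cham K N ∅, (wc j h ∅ c : ℝ) := by
  simp [cnt, wc]

theorem sum_Wc_le (j ℓ : ℕ) (h : Finset V → ZMod 2) :
    ∑ c ∈ Cham K N ∅, ∑ r ∈ c.powersetCard ℓ, Wc K N j h r ≤ 2 ^ N * (cnt K N ∅ j h : ℝ) := by
  have := sum_tower (K := K) (N := N) ℓ (fun r c => (wc j h r c : ℝ))
  refine (le_of_eq this).trans ?_
  rw [cnt_empty, Finset.mul_sum]
  refine Finset.sum_le_sum fun c hc => ?_
  have h1 : ∑ r ∈ c.powersetCard ℓ, (wc j h r c : ℝ) ≤
      (c.powersetCard ℓ).card • (wc j h ∅ c : ℝ) :=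
    Finset.sum_le_card_nsmul _ _ _ fun r _ => by
      exact_mod_cast wc_anti j h (Finset.empty_subset r) c
  refine h1.trans ?_
  rw [nsmul_eq_mul]
  refine mul_le_mul_of_nonneg_right ?_ (Nat.cast_nonneg _)
  have h2 : (c.powersetCard ℓ).card ≤ 2 ^ N := by
    rw [← (mem_Cham.1 hc).2.1, ← Finset.card_powerset]
    exact Finset.card_le_card fun σ hσ =>
      Finset.mem_powerset.2 (Finset.mem_powersetCard.1 hσ).1
  exact_mod_cast h2

/-- number of `a`-subsets `τ` of `c` avoiding `r` and `v` with `h (τ ∪ r) ≠ 0`. -/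
def mc (a : ℕ) (h : Finset V → ZMod 2) (r : Finset V) (v : V) (c : Finset V) : ℕ :=
  (((c \ insert v r).powersetCard a).filter (fun τ => h (τ ∪ r) ≠ 0)).card

/-- the local inequality coming from local minimality and expansion of the link. -/
theorem Wc_le_mc (hP : Partite K col N) {j C : ℕ} {h : Finset V → ZMod 2}
    (hh : ∀ τ ∈ K, τ.card = j + 1 → dl h τ = 0) (hm : LocMin K N j h) {r : Finset V} (hr : r ∈ K)
    {ℓ : ℕ} (hrc : r.card = ℓ + 1) (hℓ : ℓ + 1 ≤ j) (hE : LinkExp K N r (j - r.card) C) :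
    Wc K N j h r ≤ C * Ex K N r (fun c => ∑ v ∈ r, (mc (j - ℓ) h (r.erase v) v c : ℝ)) := by
  obtain ⟨g, hg⟩ := hE (fun σ => h (σ ∪ r))
  have h1 := (hm r hr (Finset.card_pos.1 (by omega)) (by omega) g).trans hg
  rw [← Wt_eq_Wc h (by omega), Wt]
  have h2 : (cnt K N r (j - r.card) (fun σ => h (σ ∪ r)) : ℝ) / ((Cham K N r).card : ℝ) ≤
      C * ((cnt K N r (j - r.card + 1) (dl fun σ => h (σ ∪ r)) : ℝ) / ((Cham K N r).card : ℝ)) := by
    rw [← mul_div_assoc]
    exact div_le_div_of_nonneg_right (by exact_mod_cast h1) (Nat.cast_nonneg _)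
  refine h2.trans (mul_le_mul_of_nonneg_left ?_ (Nat.cast_nonneg _))
  rw [cnt_div]
  refine Ex_mono fun c hc => ?_
  obtain ⟨hcK, -, hrc'⟩ := mem_Cham.1 hc
  have ha : j - r.card + 1 = j - ℓ := by omega
  rw [ha]
  have h3 : ((c \ r).powersetCard (j - ℓ)).filter (fun σ => dl (fun σ => h (σ ∪ r)) σ ≠ 0) ⊆
      r.biUnion (fun v => ((c \ insert v (r.erase v)).powersetCard (j - ℓ)).filter
        (fun τ => h (τ ∪ r.erase v) ≠ 0)) := by
    intro τ hτ
    rw [Finset.mem_filter, Finset.mem_powersetCard] at hτ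
    obtain ⟨⟨hτc, hτn⟩, hτ0⟩ := hτ
    have hd : Disjoint τ r := Finset.disjoint_of_subset_left hτc Finset.sdiff_disjoint
    have hK : τ ∪ r ∈ K :=
      hP.cx.2 c hcK _ (Finset.union_subset (hτc.trans Finset.sdiff_subset) hrc')
    have h4 := hh _ hK (by rw [Finset.card_union_of_disjoint hd]; omega)
    simp only [dl] at h4 hτ0
    rw [Finset.sum_union hd] at h4
    have h5 : ∑ v ∈ τ, h ((τ ∪ r).erase v) = ∑ v ∈ τ, h (τ.erase v ∪ r) :=
      Finset.sum_congr rfl fun v hv => by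
        rw [Finset.erase_union_distrib,
          Finset.erase_eq_of_notMem (Finset.disjoint_left.1 hd hv)]
    rw [h5] at h4
    have h6 : ∑ v ∈ r, h ((τ ∪ r).erase v) ≠ 0 := fun h0 => hτ0 (by rwa [h0, add_zero] at h4)
    obtain ⟨v, hv, hv0⟩ := Finset.exists_ne_zero_of_sum_ne_zero h6
    rw [Finset.mem_biUnion]
    refine ⟨v, hv, ?_⟩
    rw [Finset.mem_filter, Finset.mem_powersetCard, Finset.insert_erase hv]
    refine ⟨⟨hτc, hτn⟩, ?_⟩
    rwa [Finset.erase_union_distrib,
      Finset.erase_eq_of_notMem (Finset.disjoint_right.1 hd hv)] at hv0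
  have h7 := (Finset.card_le_card h3).trans Finset.card_biUnion_le
  exact_mod_cast h7

theorem sum_powersetCard_succ_erase (c : Finset V) (ℓ : ℕ) (G : Finset V → V → ℝ) :
    ∑ r ∈ c.powersetCard (ℓ + 1), ∑ v ∈ r, G (r.erase v) v =
      ∑ r ∈ c.powersetCard ℓ, ∑ v ∈ c \ r, G r v := by
  rw [Finset.sum_sigma', Finset.sum_sigma']
  refine Finset.sum_bij' (fun p _ => ⟨p.1.erase p.2, p.2⟩) (fun p _ => ⟨insert p.2 p.1, p.2⟩)
    ?_ ?_ ?_ ?_ ?_
  · rintro ⟨r, v⟩ hp
    simp only [Finset.mem_sigma, Finset.mem_powersetCard, Finset.mem_sdiff] at hp ⊢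
    refine ⟨⟨(Finset.erase_subset _ _).trans hp.1.1, ?_⟩, hp.1.1 hp.2, Finset.notMem_erase _ _⟩
    rw [Finset.card_erase_of_mem hp.2, hp.1.2]; rfl
  · rintro ⟨r, v⟩ hp
    simp only [Finset.mem_sigma, Finset.mem_powersetCard, Finset.mem_sdiff] at hp ⊢
    refine ⟨⟨Finset.insert_subset hp.2.1 hp.1.1, ?_⟩, Finset.mem_insert_self _ _⟩
    rw [Finset.card_insert_of_notMem hp.2.2, hp.1.2]
  · rintro ⟨r, v⟩ hp
    simp only [Finset.mem_sigma] at hp
    simp only [Finset.insert_erase hp.2]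
  · rintro ⟨r, v⟩ hp
    simp only [Finset.mem_sigma, Finset.mem_sdiff] at hp
    simp only [Finset.erase_insert hp.2.2]
  · rintro ⟨r, v⟩ _
    rfl

theorem face_image (hP : Partite K col N) {c τ : Finset V} (hc : c ∈ K) (hτ : τ ⊆ c) :
    face col (τ.image col) c = τ := by
  ext v
  simp only [face, Finset.mem_filter, Finset.mem_image]
  constructor
  · rintro ⟨hv, w, hw, hwv⟩
    rwa [← hP.inj c hc (hτ hw) hv hwv]
  · intro hv
    exact ⟨hτ hv, v, hv, rfl⟩

theorem free_of_mem (hP : Partite K col N) {r c : Finset V} (hc : c ∈ Cham K N r) {v : V}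
    (hv : v ∈ c) (hvr : v ∉ r) : Free col N r (col v) := by
  obtain ⟨hcK, -, hrc⟩ := mem_Cham.1 hc
  refine ⟨hP.lt v (hP.cx.2 c hcK _ (Finset.singleton_subset_iff.2 hv)), fun w hw e => ?_⟩
  exact hvr (hP.inj c hcK (hrc hw) hv e ▸ hw)

/-- the swap-walk bound in the link of `r`. -/
theorem inner_bound (hP : Partite K col N) {μ : ℝ} (h0 : 0 ≤ μ)
    (hS : ∀ ρ ∈ K, ∀ x y, Free col N ρ x → Free col N ρ y → x ≠ y → Spec K col N ρ x y μ)
    {j : ℕ} (h : Finset V → ZMod 2) {r : Finset V} (hr : r ∈ K) (hj : r.card ≤ j) :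
    Ex K N r (fun c => ∑ v ∈ c \ r, Wc K N j h (insert v r) * (mc (j - r.card) h r v c : ℝ)) ≤
      N * 2 ^ N * (Wc K N j h r ^ 2 + N * μ * 2 ^ N * Wc K N j h r) := by
  classical
  set F : Finset ℕ := (Finset.range N).filter (fun x => Free col N r x) with hF
  set φ : Finset V → ℝ := fun σ => Wc K N j h (r ∪ σ) with hφ
  set ψ : Finset V → ℝ := fun σ =>
    if σ.card = j - r.card ∧ Disjoint σ r ∧ h (σ ∪ r) ≠ 0 then 1 else 0 with hψ
  have hφ0 : ∀ σ, 0 ≤ φ σ := fun σ => Wc_nonneg _ _ _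
  have hψ0 : ∀ σ, 0 ≤ ψ σ := fun σ => by simp only [hψ]; split_ifs <;> norm_num
  have hFN : F.card ≤ N := (Finset.card_filter_le _ _).trans (by simp)
  have hmemF : ∀ c ∈ Cham K N r, ∀ v ∈ c, v ∉ r → col v ∈ F := fun c hc v hv hvr => by
    have := free_of_mem hP hc hv hvr
    exact Finset.mem_filter.2 ⟨Finset.mem_range.2 this.1, this⟩
  have hpt : ∀ c ∈ Cham K N r,
      ∑ v ∈ c \ r, Wc K N j h (insert v r) * (mc (j - r.card) h r v c : ℝ) ≤
        ∑ x ∈ F, ∑ J ∈ (F.erase x).powerset, φ (face col {x} c) * ψ (face col J c) := by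
    intro c hc
    obtain ⟨hcK, -, hrc⟩ := mem_Cham.1 hc
    have hinj : Set.InjOn col ((c \ r : Finset V) : Set V) :=
      (hP.inj c hcK).mono (Finset.coe_subset.2 Finset.sdiff_subset)
    calc ∑ v ∈ c \ r, Wc K N j h (insert v r) * (mc (j - r.card) h r v c : ℝ)
        ≤ ∑ v ∈ c \ r, ∑ J ∈ (F.erase (col v)).powerset,
            φ (face col {col v} c) * ψ (face col J c) := by
          refine Finset.sum_le_sum fun v hv => ?_
          obtain ⟨hvc, hvr⟩ := Finset.mem_sdiff.1 hv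
          have e1 : face col {col v} c = {v} := by
            rw [← Finset.image_singleton col v]
            exact face_image hP hcK (Finset.singleton_subset_iff.2 hvc)
          have e2 : φ (face col {col v} c) = Wc K N j h (insert v r) := by
            rw [e1, hφ]
            simp only
            rw [Finset.union_comm, ← Finset.insert_eq]
          rw [← Finset.mul_sum, e2]
          refine mul_le_mul_of_nonneg_left ?_ (Wc_nonneg _ _ _)
          set T := ((c \ insert v r).powersetCard (j - r.card)).filter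
            (fun τ => h (τ ∪ r) ≠ 0) with hT
          have hTc : ∀ τ ∈ T, τ ⊆ c \ insert v r := fun τ hτ =>
            (Finset.mem_powersetCard.1 (Finset.mem_filter.1 hτ).1).1
          have hTinj : Set.InjOn (fun τ : Finset V => τ.image col) (T : Set (Finset V)) := by
            intro τ hτ τ' hτ' e
            rw [← face_image hP hcK ((hTc τ hτ).trans Finset.sdiff_subset),
              ← face_image hP hcK ((hTc τ' hτ').trans Finset.sdiff_subset)]
            simp only at e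
            rw [e]
          calc (mc (j - r.card) h r v c : ℝ) = ∑ τ ∈ T, ψ (face col (τ.image col) c) := by
                rw [mc, ← hT, Finset.card_eq_sum_ones, Nat.cast_sum]
                refine Finset.sum_congr rfl fun τ hτ => ?_
                rw [face_image hP hcK ((hTc τ hτ).trans Finset.sdiff_subset), hψ]
                simp only
                rw [if_pos, Nat.cast_one]
                refine ⟨(Finset.mem_powersetCard.1 (Finset.mem_filter.1 hτ).1).2, ?_,
                  (Finset.mem_filter.1 hτ).2⟩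
                exact Finset.disjoint_left.2 fun w hw hwr =>
                  (Finset.mem_sdiff.1 (hTc τ hτ hw)).2 (Finset.mem_insert_of_mem hwr)
            _ = ∑ J ∈ T.image (fun τ : Finset V => τ.image col), ψ (face col J c) :=
                (Finset.sum_image (f := fun J => ψ (face col J c)) hTinj).symm
            _ ≤ ∑ J ∈ (F.erase (col v)).powerset, ψ (face col J c) := by
                refine Finset.sum_le_sum_of_subset_of_nonneg ?_ fun _ _ _ => hψ0 _
                intro J hJ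
                obtain ⟨τ, hτ, rfl⟩ := Finset.mem_image.1 hJ
                refine Finset.mem_powerset.2 fun y hy => ?_
                obtain ⟨w, hw, rfl⟩ := Finset.mem_image.1 hy
                obtain ⟨hwc, hw'⟩ := Finset.mem_sdiff.1 (hTc τ hτ hw)
                refine Finset.mem_erase.2 ⟨fun e => hw' ?_,
                  hmemF c hc w hwc fun hwr => hw' (Finset.mem_insert_of_mem hwr)⟩
                rw [hP.inj c hcK hwc hvc e]
                exact Finset.mem_insert_self _ _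
      _ = ∑ x ∈ (c \ r).image col, ∑ J ∈ (F.erase x).powerset,
            φ (face col {x} c) * ψ (face col J c) :=
          (Finset.sum_image (f := fun x => ∑ J ∈ (F.erase x).powerset,
            φ (face col {x} c) * ψ (face col J c)) hinj).symm
      _ ≤ _ := by
          refine Finset.sum_le_sum_of_subset_of_nonneg ?_ fun _ _ _ =>
            Finset.sum_nonneg fun _ _ => mul_nonneg (hφ0 _) (hψ0 _)
          intro x hx
          obtain ⟨v, hv, rfl⟩ := Finset.mem_image.1 hx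
          exact hmemF c hc v (Finset.mem_sdiff.1 hv).1 (Finset.mem_sdiff.1 hv).2
  have hW0 : 0 ≤ Wc K N j h r := Wc_nonneg _ _ _
  have hterm : ∀ x ∈ F, ∀ J ∈ (F.erase x).powerset,
      Ex K N r (fun c => φ (face col {x} c) * ψ (face col J c)) ≤
        Wc K N j h r ^ 2 + N * μ * 2 ^ N * Wc K N j h r := by
    intro x hx J hJ
    have hJF : J ⊆ F.erase x := Finset.mem_powerset.1 hJ
    have hs := swap hP h0 hS hr (Finset.mem_filter.1 hx).2 J
      (fun y hy => (Finset.mem_filter.1 (Finset.mem_of_mem_erase (hJF hy))).2)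
      (fun hxJ => Finset.notMem_erase x F (hJF hxJ)) φ ψ
    have a1 : Ex K N r (fun c => φ (face col {x} c)) ≤ Wc K N j h r := Ex_Wc_le hP j h r {x}
    have a2 : Ex K N r (fun c => ψ (face col J c)) ≤ Wc K N j h r := by
      refine Ex_mono fun c hc => ?_
      rw [← card_link_eq h (mem_Cham.1 hc).2.2 hj, hψ]
      simp only
      split_ifs with hcond
      · have : 0 < (((c \ r).powersetCard (j - r.card)).filter (fun σ => h (σ ∪ r) ≠ 0)).card := by
          refine Finset.card_pos.2 ⟨face col J c, Finset.mem_filter.2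
            ⟨Finset.mem_powersetCard.2 ⟨?_, hcond.1⟩, hcond.2.2⟩⟩
          exact Finset.subset_sdiff.2 ⟨face_subset _ _ _, hcond.2.1⟩
        exact_mod_cast this
      · exact Nat.cast_nonneg _
    have a3 : Ex K N r (fun c => φ (face col {x} c) ^ 2) ≤ 2 ^ N * Wc K N j h r := by
      refine le_trans ?_ (mul_le_mul_of_nonneg_left a1 (by positivity))
      rw [← Ex_mul_left]
      refine Ex_mono fun c hc => ?_
      rw [sq]
      exact mul_le_mul_of_nonneg_right (Wc_le hP j h (union_face_mem hP hc {x})) (hφ0 _)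
    have a4 : Ex K N r (fun c => ψ (face col J c) ^ 2) ≤ 2 ^ N * Wc K N j h r := by
      have b1 : Ex K N r (fun c => ψ (face col J c) ^ 2) = Ex K N r (fun c => ψ (face col J c)) :=
        Ex_congr fun c _ => by
          simp only [hψ]; split_ifs <;> norm_num
      rw [b1]
      refine a2.trans (le_mul_of_one_le_left hW0 (one_le_pow₀ (by norm_num)))
    have a5 : Ex K N r (fun c => φ (face col {x} c)) * Ex K N r (fun c => ψ (face col J c)) ≤
        Wc K N j h r ^ 2 := by
      rw [sq]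
      exact mul_le_mul a1 a2 (Ex_nonneg fun _ _ => hψ0 _) hW0
    have a6 : (J.card : ℝ) ≤ N := by
      exact_mod_cast ((Finset.card_le_card hJF).trans (Finset.card_erase_le)).trans hFN
    have a7 : J.card * μ / 2 * (Ex K N r (fun c => φ (face col {x} c) ^ 2) +
        Ex K N r (fun c => ψ (face col J c) ^ 2)) ≤
        N * μ / 2 * (2 ^ N * Wc K N j h r + 2 ^ N * Wc K N j h r) := by
      refine mul_le_mul ?_ (add_le_add a3 a4)
        (add_nonneg (Ex_nonneg fun _ _ => sq_nonneg _) (Ex_nonneg fun _ _ => sq_nonneg _))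
        (by positivity)
      exact div_le_div_of_nonneg_right (mul_le_mul_of_nonneg_right a6 h0) (by norm_num)
    linarith
  refine (Ex_mono hpt).trans ?_
  rw [Ex_sum]
  have hB : 0 ≤ Wc K N j h r ^ 2 + N * μ * 2 ^ N * Wc K N j h r := by positivity
  have h1 : ∀ x ∈ F, Ex K N r (fun c => ∑ J ∈ (F.erase x).powerset,
      φ (face col {x} c) * ψ (face col J c)) ≤
      2 ^ N * (Wc K N j h r ^ 2 + N * μ * 2 ^ N * Wc K N j h r) := by
    intro x hx
    rw [Ex_sum]
    refine (Finset.sum_le_card_nsmul _ _ _ (hterm x hx)).trans ?_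
    rw [nsmul_eq_mul, Finset.card_powerset]
    refine mul_le_mul_of_nonneg_right ?_ hB
    have : 2 ^ (F.erase x).card ≤ 2 ^ N :=
      Nat.pow_le_pow_right (by norm_num) ((Finset.card_erase_le).trans hFN)
    exact_mod_cast this
  refine (Finset.sum_le_card_nsmul _ _ _ h1).trans ?_
  rw [nsmul_eq_mul, mul_assoc (N : ℝ) (2 ^ N)]
  have hFN' : (F.card : ℝ) ≤ N := by exact_mod_cast hFN
  exact mul_le_mul_of_nonneg_right hFN' (by positivity)

/-- the key recursion.  Recipe (`r.card = ℓ + 1 ≤ j`): `LocMin` and `LinkExp` give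
`Wt r ≤ C · Ex r (fun c => #{τ ⊆ c \ r, |τ| = j - ℓ, dl h_r τ ≠ 0})`, and for a cocycle
`dl h_r τ = ∑ v ∈ r, h ((τ ∪ r).erase v)`, so the count is at most
`#{(v, σ) | v ∈ r, σ ⊆ c, |σ| = j, r.erase v ⊆ σ, v ∉ σ, h σ ≠ 0}`.  Multiply by `Wt r`, use
`sum_tower`, reindex `(r, v) ↦ (r' = r.erase v, v)`, `sum_tower` again; for `c ⊇ r'` write the inner
sum as a sum over free colours `x` and free colour sets `J ∌ x` of
`Wt (r' ∪ face {x} c) * 1[h (face J c ∪ r') ≠ 0]` and apply `swap`: `Ex φ ≤ Wt r'`, `Ex ψ ≤ Wt r'`,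
`0 ≤ φ ≤ 2^N`.  Finally `∑_c ∑_{r'} Wt r' ≤ 2^N cnt ∅ j h` (`sum_tower`). -/
theorem Mom_step (hP : Partite K col N) {μ : ℝ} (h0 : 0 ≤ μ)
    (hS : ∀ ρ ∈ K, ∀ x y, Free col N ρ x → Free col N ρ y → x ≠ y → Spec K col N ρ x y μ)
    {j C : ℕ} (hE : ∀ r ∈ K, r.Nonempty → r.card ≤ j → LinkExp K N r (j - r.card) C)
    {h : Finset V → ZMod 2} (hh : ∀ τ ∈ K, τ.card = j + 1 → dl h τ = 0) (hm : LocMin K N j h)
    {ℓ : ℕ} (hℓ : ℓ + 1 ≤ j) :
    Mom K N j h (ℓ + 1) ≤ (C * N * 2 ^ N : ℝ) *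
      (Mom K N j h ℓ + (N * μ * 4 ^ N) * (cnt K N ∅ j h : ℝ)) := by
  have hK : ∀ c ∈ Cham K N ∅, ∀ n, ∀ r ∈ c.powersetCard n, r ∈ K ∧ r.card = n :=
    fun c hc n r hr => ⟨hP.cx.2 c (mem_Cham.1 hc).1 r (Finset.mem_powersetCard.1 hr).1,
      (Finset.mem_powersetCard.1 hr).2⟩
  have hMom : ∀ n ≤ j, Mom K N j h n =
      ∑ c ∈ Cham K N ∅, ∑ r ∈ c.powersetCard n, Wc K N j h r ^ 2 := fun n hn =>
    Finset.sum_congr rfl fun c hc => Finset.sum_congr rfl fun r hr => by
      rw [Wt_eq_Wc h (by rw [(hK c hc n r hr).2]; exact hn)]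
  rw [hMom _ hℓ, hMom ℓ (by omega)]
  calc ∑ c ∈ Cham K N ∅, ∑ r ∈ c.powersetCard (ℓ + 1), Wc K N j h r ^ 2
      ≤ ∑ c ∈ Cham K N ∅, ∑ r ∈ c.powersetCard (ℓ + 1), Ex K N r
          (fun c' => C * ∑ v ∈ r, Wc K N j h r * (mc (j - ℓ) h (r.erase v) v c' : ℝ)) := by
        refine Finset.sum_le_sum fun c hc => Finset.sum_le_sum fun r hr => ?_
        obtain ⟨hrK, hrc⟩ := hK c hc _ r hr
        have := Wc_le_mc hP hh hm hrK hrc hℓ
          (hE r hrK (Finset.card_pos.1 (by omega)) (by omega))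
        simp only [← Finset.mul_sum]
        rw [Ex_mul_left, Ex_mul_left, mul_left_comm, sq]
        exact mul_le_mul_of_nonneg_left this (Wc_nonneg _ _ _)
    _ = ∑ c ∈ Cham K N ∅, ∑ r ∈ c.powersetCard (ℓ + 1),
          C * ∑ v ∈ r, Wc K N j h r * (mc (j - ℓ) h (r.erase v) v c : ℝ) :=
        sum_tower (ℓ + 1)
          (fun r c' => C * ∑ v ∈ r, Wc K N j h r * (mc (j - ℓ) h (r.erase v) v c' : ℝ))
    _ = ∑ c ∈ Cham K N ∅, ∑ r ∈ c.powersetCard ℓ,
          C * ∑ v ∈ c \ r, Wc K N j h (insert v r) * (mc (j - ℓ) h r v c : ℝ) := by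
        refine Finset.sum_congr rfl fun c _ => ?_
        rw [← Finset.mul_sum, ← Finset.mul_sum, ← sum_powersetCard_succ_erase c ℓ
          (fun r v => Wc K N j h (insert v r) * (mc (j - ℓ) h r v c : ℝ))]
        congr 1
        refine Finset.sum_congr rfl fun r _ => Finset.sum_congr rfl fun v hv => ?_
        rw [Finset.insert_erase hv]
    _ = ∑ c ∈ Cham K N ∅, ∑ r ∈ c.powersetCard ℓ, Ex K N r (fun c' =>
          C * ∑ v ∈ c' \ r, Wc K N j h (insert v r) * (mc (j - ℓ) h r v c' : ℝ)) :=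
        (sum_tower ℓ (fun r c' =>
          C * ∑ v ∈ c' \ r, Wc K N j h (insert v r) * (mc (j - ℓ) h r v c' : ℝ))).symm
    _ ≤ ∑ c ∈ Cham K N ∅, ∑ r ∈ c.powersetCard ℓ, (C * N * 2 ^ N : ℝ) *
          (Wc K N j h r ^ 2 + N * μ * 2 ^ N * Wc K N j h r) := by
        refine Finset.sum_le_sum fun c hc => Finset.sum_le_sum fun r hr => ?_
        obtain ⟨hrK, hrc⟩ := hK c hc _ r hr
        have := inner_bound hP h0 hS (j := j) h hrK (by omega)
        rw [hrc] at this
        rw [Ex_mul_left, mul_assoc, mul_assoc, ← mul_assoc (N : ℝ)]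
        exact mul_le_mul_of_nonneg_left this (Nat.cast_nonneg _)
    _ ≤ _ := by
        simp only [← Finset.mul_sum, Finset.sum_add_distrib]
        refine mul_le_mul_of_nonneg_left (add_le_add le_rfl ?_) (by positivity)
        have := mul_le_mul_of_nonneg_left (sum_Wc_le (K := K) (N := N) j ℓ h)
          (show (0 : ℝ) ≤ N * μ * 2 ^ N by positivity)
        refine this.trans (le_of_eq ?_)
        rw [show (4 : ℝ) = 2 * 2 by norm_num, mul_pow]
        ring

theorem Mom_top (hP : Partite K col N) (j : ℕ) (h : Finset V → ZMod 2) :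
    Mom K N j h j = (cnt K N ∅ j h : ℝ) := by
  simp only [Mom, cnt, Finset.sdiff_empty, Nat.cast_sum]
  refine Finset.sum_congr rfl fun c hc => ?_
  rw [Finset.card_filter, Nat.cast_sum]
  refine Finset.sum_congr rfl fun r hr => ?_
  obtain ⟨hrc, hrj⟩ := Finset.mem_powersetCard.1 hr
  have hrK : r ∈ K := hP.cx.2 c (mem_Cham.1 hc).1 r hrc
  have : Wt K N j h r = if h r ≠ 0 then 1 else 0 := by
    rw [Wt, cnt_div, ← Ex_const hP hrK (if h r ≠ 0 then 1 else 0)]
    refine Ex_congr fun c' _ => ?_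
    rw [hrj, Nat.sub_self, Finset.powersetCard_zero, Finset.filter_singleton, Finset.empty_union]
    split_ifs <;> simp
  rw [this]
  split_ifs <;> simp

theorem Mom_zero (j : ℕ) (h : Finset V → ZMod 2) :
    Mom K N j h 0 = (cnt K N ∅ j h : ℝ) ^ 2 / ((Cham K N ∅).card : ℝ) := by
  simp only [Mom, Finset.powersetCard_zero, Finset.sum_singleton, Wt, Finset.card_empty,
    Nat.sub_zero, Finset.union_empty, Finset.sum_const, nsmul_eq_mul]
  by_cases hc : ((Cham K N ∅).card : ℝ) = 0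
  · simp [hc]
  · field_simp

theorem Mom_nonneg (j : ℕ) (h : Finset V → ZMod 2) (ℓ : ℕ) : 0 ≤ Mom K N j h ℓ :=
  Finset.sum_nonneg fun _ _ => Finset.sum_nonneg fun _ _ => sq_nonneg _

end

/-- small locally minimal cocycles vanish.  Recipe: with `A = C N 2^N + 1`,
`Mom ℓ ≤ A^ℓ (Mom 0 + ℓ μ' cnt)`; choose `μ₀` with `A^j j N μ₀ 4^N ≤ 1/2` and `c₀ = 1/(2 A^j)`. -/
theorem small_cocycle (N j C : ℕ) : ∃ μ₀ : ℝ, 0 < μ₀ ∧ ∃ c₀ : ℝ, 0 < c₀ ∧
    ∀ (V : Type) [Fintype V] [DecidableEq V] (K : Set (Finset V)) (col : V → ℕ), Partite K col N →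
      (∀ ρ ∈ K, ∀ x y, Free col N ρ x → Free col N ρ y → x ≠ y → Spec K col N ρ x y μ₀) →
      (∀ r ∈ K, r.Nonempty → r.card ≤ j → LinkExp K N r (j - r.card) C) →
      ∀ h : Finset V → ZMod 2, (∀ τ ∈ K, τ.card = j + 1 → dl h τ = 0) → LocMin K N j h →
        (cnt K N ∅ j h : ℝ) < c₀ * ((Cham K N ∅).card : ℝ) → cnt K N ∅ j h = 0 := by
  set A : ℝ := C * N * 2 ^ N + 1 with hA
  have hA1 : 1 ≤ A := by rw [hA]; exact le_add_of_nonneg_left (by positivity)
  have hA0 : 0 < A := by linarith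
  set B : ℝ := j * (N * 4 ^ N) + 1 with hB
  have hB0 : 0 < B := by positivity
  refine ⟨1 / (2 * A ^ j * B), by positivity, 1 / (2 * A ^ j), by positivity, ?_⟩
  intro V _ _ K col hP hS hE h hh hm hlt
  set μ : ℝ := 1 / (2 * A ^ j * B) with hμ
  have hμ0 : 0 < μ := by positivity
  set n : ℝ := (cnt K N ∅ j h : ℝ) with hn
  have hn0 : 0 ≤ n := Nat.cast_nonneg _
  have hrec : ∀ ℓ ≤ j, Mom K N j h ℓ ≤ A ^ ℓ * (Mom K N j h 0 + ℓ * (N * μ * 4 ^ N * n)) := by
    intro ℓ
    induction ℓ with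
    | zero => intro _; simp
    | succ ℓ ih =>
      intro hℓ
      have h1 := Mom_step hP hμ0.le hS hE hh hm hℓ
      have h2 := ih (by omega)
      have h3 : 0 ≤ N * μ * 4 ^ N * n := by positivity
      have h4 := Mom_nonneg (K := K) (N := N) j h ℓ
      have h5 : 1 ≤ A ^ ℓ := one_le_pow₀ hA1
      calc Mom K N j h (ℓ + 1) ≤ (C * N * 2 ^ N : ℝ) * (Mom K N j h ℓ + N * μ * 4 ^ N * n) := h1
        _ ≤ A * (Mom K N j h ℓ + N * μ * 4 ^ N * n) :=
            mul_le_mul_of_nonneg_right (by rw [hA]; linarith) (add_nonneg h4 h3)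
        _ ≤ A * (A ^ ℓ * (Mom K N j h 0 + ℓ * (N * μ * 4 ^ N * n)) +
              A ^ ℓ * (N * μ * 4 ^ N * n)) :=
            mul_le_mul_of_nonneg_left (add_le_add h2 (le_mul_of_one_le_left h3 h5)) hA0.le
        _ = _ := by push_cast; ring
  have h1 := hrec j le_rfl
  rw [Mom_top hP, Mom_zero, ← hn] at h1
  have hM : (0 : ℝ) < (Cham K N ∅).card := by
    exact_mod_cast (Cham_nonempty hP hP.cx.1).card_pos
  by_contra hne
  have hpos : 0 < n := by rw [hn]; exact_mod_cast Nat.pos_of_ne_zero hne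
  have hAj : 0 < A ^ j := by positivity
  have h2 : A ^ j * (n ^ 2 / (Cham K N ∅).card) < n / 2 := by
    have : n / (Cham K N ∅).card < 1 / (2 * A ^ j) := (div_lt_iff₀ hM).2 hlt
    calc A ^ j * (n ^ 2 / (Cham K N ∅).card) = A ^ j * n * (n / (Cham K N ∅).card) := by ring
      _ < A ^ j * n * (1 / (2 * A ^ j)) := mul_lt_mul_of_pos_left this (by positivity)
      _ = n / 2 := by field_simp
  have h3 : A ^ j * (j * (N * μ * 4 ^ N * n)) ≤ n / 2 := by
    calc A ^ j * (j * (N * μ * 4 ^ N * n)) = (j * (N * 4 ^ N)) * (A ^ j * μ * n) := by ring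
      _ ≤ B * (A ^ j * μ * n) :=
          mul_le_mul_of_nonneg_right (by rw [hB]; linarith) (by positivity)
      _ = n / 2 := by rw [hμ]; field_simp
  rw [mul_add] at h1
  linarith

end Crest.Agent.R66
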