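import Crest.Agent.R66.Exp1

/-! # Row 66: cones imply coboundary expansion of links -/

set_option linter.unusedSectionVars false

namespace Crest.Agent.R66

variable {V : Type*} [Fintype V] [DecidableEq V] {K : Set (Finset V)} {col : V → ℕ} {N : ℕ}

/-- automorphisms of `K` fixing `ρ` pointwise -/
def exp5Grp (K : Set (Finset V)) (ρ : Finset V) : Subgroup (Equiv.Perm V) where
  carrier := {φ | (∀ σ : Finset V, σ.image φ ∈ K ↔ σ ∈ K) ∧ ∀ v ∈ ρ, φ v = v}
  one_mem' := ⟨fun σ => by simp, fun v _ => rfl⟩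
  mul_mem' := by
    rintro φ ψ ⟨h1, h2⟩ ⟨h3, h4⟩
    refine ⟨fun σ => ?_, fun v hv => by rw [Equiv.Perm.mul_apply, h4 v hv, h2 v hv]⟩
    rw [Equiv.Perm.coe_mul, ← Finset.image_image, h1, h3]
  inv_mem' := by
    rintro φ ⟨h1, h2⟩
    refine ⟨fun σ => ?_, fun v hv => by rw [Equiv.Perm.inv_eq_iff_eq, h2 v hv]⟩
    rw [← h1, Finset.image_image, ← Equiv.Perm.coe_mul, mul_inv_cancel]
    simp

theorem exp5_image_inv (φ : Equiv.Perm V) (σ : Finset V) : (σ.image φ).image ⇑φ⁻¹ = σ := by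
  rw [Finset.image_image, ← Equiv.Perm.coe_mul, inv_mul_cancel]
  simp

theorem exp5_image_rho {ρ : Finset V} {φ : Equiv.Perm V} (hφ : φ ∈ exp5Grp K ρ) :
    ρ.image φ = ρ := by
  rw [Finset.image_congr (g := id) fun v hv => hφ.2 v hv, Finset.image_id]

theorem exp5_cham {ρ c : Finset V} {φ : Equiv.Perm V} (hφ : φ ∈ exp5Grp K ρ)
    (hc : c ∈ Cham K N ρ) : c.image φ ∈ Cham K N ρ := by
  obtain ⟨h1, h2, h3⟩ := mem_Cham.1 hc
  refine mem_Cham.2 ⟨(hφ.1 c).2 h1, by rw [Finset.card_image_of_injective _ φ.injective, h2], ?_⟩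
  rw [← exp5_image_rho hφ]
  exact Finset.image_subset_image h3

theorem exp5_sdiff {ρ : Finset V} {φ : Equiv.Perm V} (hφ : φ ∈ exp5Grp K ρ) (c : Finset V) :
    c.image φ \ ρ = (c \ ρ).image φ := by
  rw [Finset.image_sdiff _ _ φ.injective, exp5_image_rho hφ]

theorem exp5_sum_cham {ρ : Finset V} {φ : Equiv.Perm V} (hφ : φ ∈ exp5Grp K ρ)
    (F : Finset V → ℕ) : ∑ c ∈ Cham K N ρ, F (c.image φ) = ∑ c ∈ Cham K N ρ, F c := by
  refine Finset.sum_nbij' (fun c => c.image φ) (fun c => c.image ⇑φ⁻¹)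
    (fun c hc => exp5_cham hφ hc) (fun c hc => exp5_cham (inv_mem hφ) hc)
    (fun c _ => exp5_image_inv φ c) (fun c _ => ?_) (fun c _ => rfl)
  simpa using exp5_image_inv φ⁻¹ c

open Classical in
theorem exp5_average (hP : Partite K col N) (hH : Homog K col N) {ρ c₀ : Finset V}
    (hc₀ : c₀ ∈ Cham K N ρ) (F : Finset V → ℕ) :
    (Cham K N ρ).card * ∑ φ : exp5Grp K ρ, F (c₀.image (φ : Equiv.Perm V)) =
      Fintype.card (exp5Grp K ρ) * ∑ c ∈ Cham K N ρ, F c := by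
  have h1 : ∀ c ∈ Cham K N ρ, ∑ φ : exp5Grp K ρ, F (c₀.image (φ : Equiv.Perm V)) =
      ∑ φ : exp5Grp K ρ, F (c.image (φ : Equiv.Perm V)) := by
    intro c hc
    obtain ⟨ψ, h1, -, h2, rfl⟩ := hH.fix hP hc₀ hc
    rw [← Equiv.sum_comp (Equiv.mulRight (⟨ψ, h1, h2⟩ : exp5Grp K ρ))]
    refine Finset.sum_congr rfl fun φ _ => ?_
    simp [Finset.image_image]
  rw [← smul_eq_mul, ← Finset.sum_const, Finset.sum_congr rfl h1, Finset.sum_comm,
    Finset.sum_congr rfl fun φ _ => exp5_sum_cham φ.2 F]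
  simp

theorem exp5_eval (f : Finset V → ZMod 2) (h : Finset V → Ch V) (φ : Equiv.Perm V) (σ : Finset V)
    (hσ : bd (h σ) + ∑ v ∈ σ, h (σ.erase v) = Finsupp.single σ 1) :
    (f - dl fun τ => Finsupp.linearCombination (ZMod 2) f (mapC φ (h (τ.image ⇑φ⁻¹))))
      (σ.image φ) = ∑ τ ∈ (h σ).support, dl f (τ.image φ) := by
  have h1 : f (σ.image φ) = Finsupp.linearCombination (ZMod 2) f
      (mapC φ (Finsupp.single σ 1)) := by simp
  have h2 : Finsupp.linearCombination (ZMod 2) (dl f) (mapC φ (h σ)) =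
      ∑ τ ∈ (h σ).support, dl f (τ.image φ) := by
    have := map_eq_sum_support (Finsupp.linearCombination (ZMod 2) (dl f) ∘ₗ mapC φ) (h σ)
    simpa using this
  rw [Pi.sub_apply, h1, ← hσ, map_add, map_add, ← bd_mapC _ _ fun _ _ => φ.injective.injOn,
    pair_bd, h2, dl, Finset.sum_image φ.injective.injOn, map_sum, map_sum, add_sub_assoc,
    add_eq_left, sub_eq_zero]
  refine Finset.sum_congr rfl fun v hv => ?_
  rw [← image_erase_of_injOn φ.injective.injOn hv, exp5_image_inv]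

/-- Recipe: `𝒢` = finset of `φ : Perm V` preserving `K`, colours of vertices, and fixing `ρ`
pointwise (closed under products and inverses; contains `1`).  For `φ ∈ 𝒢` put
`g_φ τ = linearCombination f (mapC φ (h (τ.image φ⁻¹)))`; for `σ ∈ Lk K ρ` of cardinality `a`,
`(f - dl g_φ) σ = linearCombination (dl f) (mapC φ (h (σ.image φ⁻¹)))` (`pair_bd`, `bd_mapC`), so
`1[(f - dl g_φ) σ ≠ 0] ≤ ∑ τ ∈ (h (φ⁻¹ σ)).support, 1[dl f (φ τ) ≠ 0]`.  Sum over `φ`, reindex
`(c, σ) ↦ (φ⁻¹ c, φ⁻¹ σ)`.  For `τ ∈ Lk K ρ` choose a chamber `c_τ ⊇ τ ∪ ρ`: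
`1[dl f (φ τ) ≠ 0] ≤ n (φ c_τ)` with `n c = #{σ ⊆ c \ ρ, |σ| = a+1, dl f σ ≠ 0}`, and
`|Cham ρ| ∑_φ n (φ c_τ) = |𝒢| ∑_c n c` by `Homog.fix`.  Some `φ` is at most average. -/
theorem linkExp_of_contr (hP : Partite K col N) (hH : Homog K col N) {ρ : Finset V} (hρ : ρ ∈ K)
    {m R a : ℕ} (hc : HasContr (Lk K ρ) m R) (ha : a ≤ m) : LinkExp K N ρ a (R * 2 ^ N) := by
  classical
  intro f
  obtain ⟨h, hh⟩ := hc
  have hch : ∀ τ ∈ Lk K ρ, ∃ c ∈ Cham K N ρ, τ ⊆ c \ ρ := by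
    rintro τ ⟨h1, h2⟩
    obtain ⟨c, hc1, hc2, hc3⟩ := hP.pure _ h2
    exact ⟨c, mem_Cham.2 ⟨hc1, hc3, Finset.subset_union_right.trans hc2⟩,
      Finset.subset_sdiff.2 ⟨Finset.subset_union_left.trans hc2, h1⟩⟩
  choose! ch hch1 hch2 using hch
  set n : Finset V → ℕ := fun c =>
    (((c \ ρ).powersetCard (a + 1)).filter (fun σ => dl f σ ≠ 0)).card with hn
  set g : Equiv.Perm V → Finset V → ZMod 2 := fun φ τ =>
    Finsupp.linearCombination (ZMod 2) f (mapC φ (h (τ.image ⇑φ⁻¹))) with hg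
  have hLk : ∀ c ∈ Cham K N ρ, ∀ σ ∈ (c \ ρ).powersetCard a, σ ∈ Lk K ρ ∧ σ.card = a := by
    intro c hc σ hσ
    obtain ⟨h1, h2⟩ := Finset.mem_powersetCard.1 hσ
    obtain ⟨h3, h4⟩ := Finset.subset_sdiff.1 h1
    obtain ⟨h5, -, h6⟩ := mem_Cham.1 hc
    exact ⟨⟨h4, hP.cx.2 c h5 _ (Finset.union_subset h3 h6)⟩, h2⟩
  have key : ∀ φ : exp5Grp K ρ, cnt K N ρ a (f - dl (g φ)) ≤
      ∑ c ∈ Cham K N ρ, ∑ σ ∈ (c \ ρ).powersetCard a, ∑ τ ∈ (h σ).support,
        n ((ch τ).image (φ : Equiv.Perm V)) := by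
    rintro ⟨φ, hφ⟩
    rw [cnt, ← exp5_sum_cham hφ]
    refine Finset.sum_le_sum fun c hc => ?_
    rw [exp5_sdiff hφ, Finset.card_filter]
    have e : ((c \ ρ).image φ).powersetCard a =
        ((c \ ρ).powersetCard a).image (Finset.image φ) := by
      ext σ
      simp only [Finset.mem_powersetCard, Finset.mem_image]
      constructor
      · rintro ⟨h1, h2⟩
        obtain ⟨τ, h3, rfl⟩ := Finset.subset_image_iff.1 h1
        exact ⟨τ, ⟨h3, by rwa [Finset.card_image_of_injective _ φ.injective] at h2⟩, rfl⟩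
      · rintro ⟨τ, ⟨h1, h2⟩, rfl⟩
        exact ⟨Finset.image_subset_image h1,
          by rwa [Finset.card_image_of_injective _ φ.injective]⟩
    rw [e, Finset.sum_image (Finset.image_injective φ.injective).injOn]
    refine Finset.sum_le_sum fun σ hσ => ?_
    obtain ⟨h1, h2⟩ := hLk c hc σ hσ
    obtain ⟨h3, -, h4⟩ := hh σ h1 (h2 ▸ ha)
    split_ifs with hne
    swap
    · exact Nat.zero_le _
    rw [hg, exp5_eval f h φ σ h4] at hne
    obtain ⟨τ, hτ, hτ'⟩ := Finset.exists_ne_zero_of_sum_ne_zero hne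
    obtain ⟨h5, h6⟩ := mem_Cs.1 h3 τ hτ
    refine le_trans ?_ (Finset.single_le_sum (fun _ _ => Nat.zero_le _) hτ)
    refine Finset.card_pos.2 ⟨τ.image φ, Finset.mem_filter.2 ⟨Finset.mem_powersetCard.2
      ⟨?_, by rw [Finset.card_image_of_injective _ φ.injective, h6, h2]⟩, hτ'⟩⟩
    rw [exp5_sdiff hφ]
    exact Finset.image_subset_image (hch2 τ h5)
  obtain ⟨c₀, hc₀⟩ := Cham_nonempty hP hρ
  set S := ∑ φ : exp5Grp K ρ, n (c₀.image (φ : Equiv.Perm V)) with hS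
  have hpos := (Cham_nonempty hP hρ).card_pos
  have hS' : ∀ c ∈ Cham K N ρ, ∑ φ : exp5Grp K ρ, n (c.image (φ : Equiv.Perm V)) = S :=
    fun c hc => Nat.eq_of_mul_eq_mul_left hpos
      ((exp5_average hP hH hc n).trans (exp5_average hP hH hc₀ n).symm)
  have hsum : ∑ φ : exp5Grp K ρ, cnt K N ρ a (f - dl (g φ)) ≤
      ∑ _φ : exp5Grp K ρ, R * 2 ^ N * cnt K N ρ (a + 1) (dl f) := by
    refine (Finset.sum_le_sum fun φ _ => key φ).trans ?_
    rw [Finset.sum_comm]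
    calc _ ≤ ∑ _c ∈ Cham K N ρ, R * 2 ^ N * S := by
          refine Finset.sum_le_sum fun c hc => ?_
          rw [Finset.sum_comm]
          calc _ ≤ ∑ _σ ∈ (c \ ρ).powersetCard a, R * S := by
                refine Finset.sum_le_sum fun σ hσ => ?_
                obtain ⟨h1, h2⟩ := hLk c hc σ hσ
                obtain ⟨h3, h4, -⟩ := hh σ h1 (h2 ▸ ha)
                rw [Finset.sum_comm, Finset.sum_congr rfl fun τ hτ =>
                  hS' _ (hch1 τ (mem_Cs.1 h3 τ hτ).1), Finset.sum_const, smul_eq_mul]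
                exact Nat.mul_le_mul_right _ h4
            _ ≤ _ := by
                rw [Finset.sum_const, smul_eq_mul, Finset.card_powersetCard, ← mul_assoc,
                  mul_comm _ R]
                refine Nat.mul_le_mul_right _ (Nat.mul_le_mul_left _ ?_)
                refine (Nat.choose_le_two_pow _ _).trans (Nat.pow_le_pow_right (by norm_num) ?_)
                rw [← (mem_Cham.1 hc).2.1]
                exact Finset.card_le_card Finset.sdiff_subset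
      _ = _ := by
          rw [Finset.sum_const, Finset.sum_const, smul_eq_mul, smul_eq_mul, mul_left_comm,
            hS, exp5_average hP hH hc₀ n, Finset.card_univ, mul_left_comm]
          rfl
  obtain ⟨φ, -, hφ⟩ := Finset.exists_le_of_sum_le Finset.univ_nonempty hsum
  exact ⟨g φ, hφ⟩

end Crest.Agent.R66
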