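import Crest.Agent.R66.Exp3
import Crest.Agent.R66.Exp4
import Crest.Agent.R66.Exp5

/-! # Row 66: cosystolic expansion -/

set_option linter.unusedSectionVars false

namespace Crest.Agent.R66

section
variable {V : Type*} [Fintype V] [DecidableEq V] {K : Set (Finset V)} {col : V → ℕ} {N : ℕ}

theorem ham_le_cnt (hP : Partite K col N) (a : ℕ) (f : Finset V → ZMod 2) :
    ham K a f ≤ cnt K N ∅ a f := by
  classical
  unfold ham cnt
  refine le_trans (Finset.card_le_card fun σ hσ => ?_) Finset.card_biUnion_le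
  simp only [Finset.mem_filter, Finset.mem_univ, true_and] at hσ
  obtain ⟨c, hc⟩ := Cham_nonempty hP hσ.1
  obtain ⟨h1, h2, h3⟩ := mem_Cham.1 hc
  simp only [Finset.mem_biUnion, Finset.mem_filter, Finset.mem_powersetCard, Finset.sdiff_empty]
  exact ⟨c, mem_Cham.2 ⟨h1, h2, Finset.empty_subset _⟩, ⟨h3, hσ.2.1⟩, hσ.2.2⟩

theorem card_Cham_le {D : ℕ} (hD : Deg K N D) {r : Finset V} (hr : r.Nonempty) :
    (Cham K N r).card ≤ D := by
  obtain ⟨v, hv⟩ := hr
  refine hD v _ fun c hc => ?_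
  obtain ⟨h1, h2, h3⟩ := mem_Cham.1 hc
  exact ⟨h1, h2, h3 hv⟩

theorem Cham_eq_filter (r : Finset V) : Cham K N r = (Cham K N ∅).filter (fun c => r ⊆ c) := by
  ext c
  simp [mem_Cham, and_assoc]

theorem cnt_le_ham (hP : Partite K col N) {D : ℕ} (hD : Deg K N D) {a : ℕ} (ha : 1 ≤ a)
    (f : Finset V → ZMod 2) : cnt K N ∅ a f ≤ D * ham K a f := by
  classical
  unfold ham cnt
  set S := (Finset.univ : Finset (Finset V)).filter (fun σ => σ ∈ K ∧ σ.card = a ∧ f σ ≠ 0) with hS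
  calc _ = ∑ c ∈ Cham K N ∅, ∑ σ ∈ S, if σ ⊆ c then 1 else 0 := by
        refine Finset.sum_congr rfl fun c hc => ?_
        rw [← Finset.card_filter]
        congr 1
        ext σ
        simp only [hS, Finset.mem_filter, Finset.mem_powersetCard, Finset.sdiff_empty,
          Finset.mem_univ, true_and]
        exact ⟨fun h => ⟨⟨hP.cx.2 c (mem_Cham.1 hc).1 σ h.1.1, h.1.2, h.2⟩, h.1.1⟩,
          fun h => ⟨⟨h.2, h.1.2.1⟩, h.1.2.2⟩⟩
    _ = ∑ σ ∈ S, (Cham K N σ).card := by
        rw [Finset.sum_comm]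
        refine Finset.sum_congr rfl fun σ _ => ?_
        rw [← Finset.card_filter, ← Cham_eq_filter]
    _ ≤ ∑ σ ∈ S, D := by
        refine Finset.sum_le_sum fun σ hσ => card_Cham_le hD ?_
        rw [← Finset.card_pos, (Finset.mem_filter.1 hσ).2.2.1]
        exact ha
    _ = D * S.card := by rw [Finset.sum_const, smul_eq_mul, mul_comm]

theorem card_filter_powersetCard_le {c : Finset V} (hc : c.card = N) (ρ : Finset V) (a : ℕ)
    (p : Finset V → Prop) [DecidablePred p] :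
    (((c \ ρ).powersetCard a).filter p).card ≤ 2 ^ N := by
  rw [← hc, ← Finset.card_powerset]
  refine Finset.card_le_card fun σ hσ => ?_
  exact Finset.mem_powerset.2
    ((Finset.mem_powersetCard.1 (Finset.mem_filter.1 hσ).1).1.trans Finset.sdiff_subset)

theorem cnt_le_card (a : ℕ) (f : Finset V → ZMod 2) :
    cnt K N ∅ a f ≤ 2 ^ N * (Cham K N ∅).card := by
  unfold cnt
  refine (Finset.sum_le_sum fun c hc =>
    card_filter_powersetCard_le (mem_Cham.1 hc).2.1 ∅ a _).trans ?_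
  rw [Finset.sum_const, smul_eq_mul, mul_comm]

theorem cnt_congr {ρ : Finset V} {a : ℕ} {f g : Finset V → ZMod 2}
    (h : ∀ σ, Disjoint σ ρ → σ.card = a → f σ = g σ) : cnt K N ρ a f = cnt K N ρ a g := by
  unfold cnt
  refine Finset.sum_congr rfl fun c _ => ?_
  congr 1
  refine Finset.filter_congr fun σ hσ => ?_
  obtain ⟨h1, h2⟩ := Finset.mem_powersetCard.1 hσ
  rw [h σ (Finset.disjoint_of_subset_left h1 Finset.sdiff_disjoint) h2]

theorem cnt_add_le (ρ : Finset V) (a : ℕ) (f g : Finset V → ZMod 2) :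
    cnt K N ρ a (f + g) ≤ cnt K N ρ a f + cnt K N ρ a g := by
  unfold cnt
  rw [← Finset.sum_add_distrib]
  refine Finset.sum_le_sum fun c _ => le_trans (Finset.card_le_card fun σ hσ => ?_)
    (Finset.card_union_le _ _)
  simp only [Finset.mem_filter, Finset.mem_union, Pi.add_apply] at hσ ⊢
  by_cases hf : f σ = 0
  · exact Or.inr ⟨hσ.1, fun hg => hσ.2 (by rw [hf, hg, add_zero])⟩
  · exact Or.inl ⟨hσ.1, hf⟩

theorem cnt_zero (ρ : Finset V) (a : ℕ) : cnt K N ρ a 0 = 0 := by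
  simp [cnt]

/-- the part of `cnt ∅` coming from faces not containing `r`. -/
noncomputable def cntOut (K : Set (Finset V)) (N : ℕ) (r : Finset V) (j : ℕ)
    (h : Finset V → ZMod 2) : ℕ :=
  ∑ c ∈ Cham K N ∅, ((c.powersetCard j).filter (fun τ => h τ ≠ 0 ∧ ¬ r ⊆ τ)).card

theorem cnt_split {r : Finset V} {j : ℕ} (hr : r.card ≤ j) (h : Finset V → ZMod 2) :
    cnt K N ∅ j h = cnt K N r (j - r.card) (fun σ => h (σ ∪ r)) + cntOut K N r j h := by
  unfold cnt cntOut
  rw [Cham_eq_filter r, Finset.sum_filter, ← Finset.sum_add_distrib]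
  refine Finset.sum_congr rfl fun c _ => ?_
  rw [Finset.sdiff_empty, ← Finset.filter_filter,
    ← Finset.card_filter_add_card_filter_not (s := (c.powersetCard j).filter fun τ => h τ ≠ 0)
      (fun τ => r ⊆ τ)]
  congr 1
  split_ifs with hc
  · symm
    refine Finset.card_nbij' (fun σ => σ ∪ r) (fun τ => τ \ r) (fun σ hσ => ?_) (fun τ hτ => ?_)
      (fun σ hσ => ?_) (fun τ hτ => ?_)
    · simp only [Finset.coe_filter, Finset.mem_filter, Finset.mem_powersetCard,
        Set.mem_ofPred_eq] at hσ ⊢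
      obtain ⟨⟨h1, h2⟩, h3⟩ := hσ
      have hd : Disjoint σ r := Finset.disjoint_of_subset_left h1 Finset.sdiff_disjoint
      refine ⟨⟨⟨Finset.union_subset (h1.trans Finset.sdiff_subset) hc, ?_⟩, h3⟩,
        Finset.subset_union_right⟩
      rw [Finset.card_union_of_disjoint hd, h2]
      omega
    · simp only [Finset.coe_filter, Finset.mem_filter, Finset.mem_powersetCard,
        Set.mem_ofPred_eq] at hτ ⊢
      obtain ⟨⟨⟨h1, h2⟩, h3⟩, h4⟩ := hτ
      refine ⟨⟨Finset.sdiff_subset_sdiff h1 subset_rfl, ?_⟩, ?_⟩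
      · rw [Finset.card_sdiff_of_subset h4, h2]
      · rwa [Finset.sdiff_union_of_subset h4]
    · simp only [Finset.coe_filter, Finset.mem_powersetCard, Set.mem_ofPred_eq] at hσ
      exact Finset.union_sdiff_cancel_right
        (Finset.disjoint_of_subset_left hσ.1.1 Finset.sdiff_disjoint)
    · simp only [Finset.coe_filter, Finset.mem_filter, Set.mem_ofPred_eq] at hτ
      exact Finset.sdiff_union_of_subset hτ.2
  · rw [Finset.card_eq_zero, Finset.filter_eq_empty_iff]
    intro τ hτ h1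
    exact hc (h1.trans (Finset.mem_powersetCard.1 (Finset.mem_filter.1 hτ).1).1)

/-- extension by zero of a cochain of the link of `r`. -/
def ext0 (r : Finset V) (g : Finset V → ZMod 2) : Finset V → ZMod 2 :=
  fun τ => if r ⊆ τ then g (τ \ r) else 0

theorem dl_ext0 (r : Finset V) (g : Finset V → ZMod 2) : dl (ext0 r g) = ext0 r (dl g) := by
  funext τ
  unfold ext0 dl
  split_ifs with h
  · rw [← Finset.sum_filter]
    refine Finset.sum_congr ?_ fun v _ => ?_
    · ext v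
      simp only [Finset.mem_filter, Finset.subset_erase, Finset.mem_sdiff, h, true_and]
    · rw [Finset.erase_sdiff_comm]
  · refine Finset.sum_eq_zero fun v _ => if_neg fun h' => h (h'.trans (Finset.erase_subset _ _))

theorem cnt_ext0_le (r : Finset V) (a : ℕ) (g : Finset V → ZMod 2) :
    cnt K N ∅ a (ext0 r g) ≤ (Cham K N r).card * 2 ^ N := by
  unfold cnt
  rw [Cham_eq_filter r, ← smul_eq_mul, ← Finset.sum_const, Finset.sum_filter]
  refine Finset.sum_le_sum fun c hc => ?_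
  split_ifs with h
  · exact card_filter_powersetCard_le (mem_Cham.1 hc).2.1 ∅ a _
  · rw [Nat.le_zero, Finset.card_eq_zero, Finset.filter_eq_empty_iff]
    intro τ hτ h1
    refine h1 (if_neg fun h2 => h (h2.trans ?_))
    exact (Finset.mem_powersetCard.1 hτ).1.trans Finset.sdiff_subset

/-- local correction.  Recipe: minimise `(D 2^N + 1) * cnt (a+1) (dl f') + cnt a (f - f')` over `f'`
(well-founded order on `ℕ`; compare with `f' = f`).  If `LocMin` fails at `r`, `g`, replace `f'` by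
`f' - g̃`, `g̃ τ = if r ⊆ τ ∧ τ.card = a then g (τ \ r) else 0`: for `τ.card = a+1`,
`dl g̃ τ = if r ⊆ τ then dl g (τ \ r) else 0`, so the first count drops by at least one (bijection
`σ ↦ σ ∪ r`), while the second grows by at most `|Cham r| 2^N ≤ D 2^N`. -/
theorem exists_locMin {D : ℕ} (hD : Deg K N D) (a : ℕ) (f : Finset V → ZMod 2) :
    ∃ f' : Finset V → ZMod 2, LocMin K N (a + 1) (dl f') ∧
      cnt K N ∅ (a + 1) (dl f') ≤ cnt K N ∅ (a + 1) (dl f) ∧
      cnt K N ∅ a (f - f') ≤ (D * 2 ^ N + 1) * cnt K N ∅ (a + 1) (dl f) := by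
  obtain ⟨f', hf'⟩ := Finite.exists_min fun f' : Finset V → ZMod 2 =>
    (D * 2 ^ N + 1) * cnt K N ∅ (a + 1) (dl f') + cnt K N ∅ a (f - f')
  have h0 := hf' f
  simp only [sub_self, cnt_zero, add_zero] at h0
  refine ⟨f', fun r _ hne hr g => ?_, ?_, by omega⟩
  · by_contra hlt
    rw [not_le] at hlt
    have h1 := hf' (f' - ext0 r g)
    have h2 : cnt K N ∅ a (f - (f' - ext0 r g)) ≤ cnt K N ∅ a (f - f') + D * 2 ^ N := by
      rw [show f - (f' - ext0 r g) = f - f' + ext0 r g by abel]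
      exact (cnt_add_le _ _ _ _).trans (Nat.add_le_add_left ((cnt_ext0_le r a g).trans
        (Nat.mul_le_mul_right _ (card_Cham_le hD hne))) _)
    have h3 : cnt K N ∅ (a + 1) (dl (f' - ext0 r g)) + 1 ≤ cnt K N ∅ (a + 1) (dl f') := by
      rw [cnt_split hr, cnt_split hr (dl f'), dl_sub, dl_ext0]
      have e1 : cntOut K N r (a + 1) (dl f' - ext0 r (dl g)) = cntOut K N r (a + 1) (dl f') := by
        unfold cntOut
        refine Finset.sum_congr rfl fun c _ => ?_
        congr 1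
        refine Finset.filter_congr fun τ _ => and_congr_left fun hτ => ?_
        rw [Pi.sub_apply, ext0, if_neg hτ, sub_zero]
      have e2 : cnt K N r (a + 1 - r.card) (fun σ => (dl f' - ext0 r (dl g)) (σ ∪ r)) =
          cnt K N r (a + 1 - r.card) ((fun σ => dl f' (σ ∪ r)) - dl g) :=
        cnt_congr fun σ hσ _ => by
          rw [Pi.sub_apply, Pi.sub_apply, ext0, if_pos Finset.subset_union_right,
            Finset.union_sdiff_cancel_right hσ]
      omega
    have h4 := Nat.mul_le_mul_left (D * 2 ^ N + 1) h3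
    rw [mul_add, mul_one] at h4
    omega
  · exact Nat.le_of_mul_le_mul_left ((Nat.le_add_right _ _).trans h0) (Nat.succ_pos _)

end

/-- Recipe: `μ₀, c₀` = minima over `j ≤ m` from `small_cocycle N j (R 2^N)`,
`lam = min (μ₀/2) (1/(2N+2))`, `b ≥ lam⁻²`; `spec_all`, `linkExp_of_contr`, `exists_locMin`.
If `cnt (dl f) < c₀ |Cham|` take `z = f'`, otherwise `z = 0`. -/
theorem cosys (m N R : ℕ) : ∃ b : ℕ, ∀ D : ℕ, ∃ ε : ℝ, 0 < ε ∧
    ∀ (V : Type) [Fintype V] [DecidableEq V] (K : Set (Finset V)) (col : V → ℕ),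
      Partite K col N → Local K col N m R b → Conn K → Homog K col N → Deg K N D →
      ∀ a : ℕ, 1 ≤ a → a + 1 ≤ m → ∀ f : Finset V → ZMod 2, ∃ z : Finset V → ZMod 2,
        (∀ τ ∈ K, τ.card = a + 1 → dl z τ = 0) ∧
        ε * (ham K a (f - z) : ℝ) ≤ (ham K (a + 1) (dl f) : ℝ) := by
  classical
  choose μ₀ hμ₀ c₀ hc₀ hsm using fun j => small_cocycle N j (R * 2 ^ N)
  have hmin : ∀ x : ℕ → ℝ, (∀ j, 0 < x j) → ∃ y : ℝ, 0 < y ∧ ∀ j ≤ m, y ≤ x j := fun x hx => by
    obtain ⟨j, _, hj⟩ := Finset.exists_min_image (Finset.range (m + 1)) x ⟨0, by simp⟩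
    exact ⟨x j, hx j, fun i hi => hj i (Finset.mem_range.2 (by omega))⟩
  obtain ⟨μ, hμ, hμ'⟩ := hmin μ₀ hμ₀
  obtain ⟨c, hc, hc'⟩ := hmin c₀ hc₀
  set lam : ℝ := min (μ / 2) (1 / (2 * N + 2)) with hlam
  have hl0 : 0 < lam := lt_min (by positivity) (by positivity)
  have hl1 : lam * N ≤ 1 / 2 := by
    have h1 : lam ≤ 1 / (2 * N + 2) := min_le_right _ _
    rw [le_div_iff₀ (by positivity)] at h1
    linarith
  have hl2 : 2 * lam ≤ μ := by
    have : lam ≤ μ / 2 := min_le_left _ _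
    linarith
  refine ⟨⌈(lam ^ 2)⁻¹⌉₊, fun D => ⟨min (1 / ((D * 2 ^ N + 1) * (D + 1))) (c / (2 ^ N * (D + 1))),
    lt_min (by positivity) (by positivity), ?_⟩⟩
  intro V _ _ K col hP hL hC hH hD a ha ham' f
  have hb : 1 ≤ lam ^ 2 * (⌈(lam ^ 2)⁻¹⌉₊ : ℕ) := by
    rw [← inv_le_iff_one_le_mul₀' (by positivity)]
    exact Nat.le_ceil _
  have hS := spec_all hP hH hL hC hl0 hl1 hb
  have k1 : (cnt K N ∅ (a + 1) (dl f) : ℝ) ≤ (D + 1) * ham K (a + 1) (dl f) := by
    have : (cnt K N ∅ (a + 1) (dl f) : ℝ) ≤ D * ham K (a + 1) (dl f) := by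
      exact_mod_cast cnt_le_ham hP hD (Nat.succ_pos a) (dl f)
    have h0 : (0 : ℝ) ≤ ham K (a + 1) (dl f) := Nat.cast_nonneg _
    linarith
  by_cases hsmall : (cnt K N ∅ (a + 1) (dl f) : ℝ) < c * ((Cham K N ∅).card : ℝ)
  · obtain ⟨f', h1, h2, h3⟩ := exists_locMin hD a f
    have h4 := hsm (a + 1) V K col hP
      (fun ρ hρ x y hx hy hxy => (hS ρ hρ x y hx hy hxy).mono (hl2.trans (hμ' _ ham')))
      (fun r hr hne hrc => linkExp_of_contr hP hH hr (hL.contr r hr hne (by omega)) (by omega))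
      (dl f') (fun τ _ _ => by rw [dl_dl]; rfl) h1
      ((Nat.cast_le.2 h2).trans_lt (hsmall.trans_le
        (mul_le_mul_of_nonneg_right (hc' _ ham') (Nat.cast_nonneg _))))
    refine ⟨f', fun τ hτ hτc => ?_, ?_⟩
    · have h5 := ham_le_cnt hP (a + 1) (dl f')
      rw [h4, Nat.le_zero, ham, Finset.card_eq_zero, Finset.filter_eq_empty_iff] at h5
      by_contra h6
      exact h5 (Finset.mem_univ τ) ⟨hτ, hτc, h6⟩
    · have h5 : (ham K a (f - f') : ℝ) ≤ (D * 2 ^ N + 1) * cnt K N ∅ (a + 1) (dl f) := by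
        exact_mod_cast (ham_le_cnt hP a _).trans h3
      refine (mul_le_mul_of_nonneg_right (min_le_left _ _) (Nat.cast_nonneg _)).trans ?_
      rw [one_div, inv_mul_le_iff₀ (by positivity), mul_assoc]
      exact h5.trans (mul_le_mul_of_nonneg_left k1 (by positivity))
  · rw [not_lt] at hsmall
    refine ⟨0, fun τ _ _ => by simp [dl], ?_⟩
    have h5 : (ham K a (f - 0) : ℝ) ≤ 2 ^ N * (Cham K N ∅).card := by
      exact_mod_cast (ham_le_cnt hP a _).trans (cnt_le_card a _)
    refine (mul_le_mul_of_nonneg_right (min_le_right _ _) (Nat.cast_nonneg _)).trans ?_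
    rw [div_mul_eq_mul_div, div_le_iff₀ (by positivity)]
    calc c * (ham K a (f - 0) : ℝ) ≤ c * (2 ^ N * (Cham K N ∅).card) := by gcongr
      _ = 2 ^ N * (c * (Cham K N ∅).card) := by ring
      _ ≤ 2 ^ N * ((D + 1) * ham K (a + 1) (dl f)) := mul_le_mul_of_nonneg_left
          (hsmall.trans k1) (by positivity)
      _ = _ := by ring

end Crest.Agent.R66
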