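import Crest.Agent.R66.Chain
import Crest.Prelude.Def_Cochain

/-! # Row 66: passing to the `d`-skeleton -/

set_option linter.unusedSectionVars false

namespace Crest.Agent.R66

open Crest.CombinatoricsR.Cochain

theorem sum_powersetCard_eq_dl {V : Type*} [DecidableEq V] {k : ℕ} {τ : Finset V}
    (hτ : τ.card = k + 1) (f : Finset V → ZMod 2) : ∑ σ ∈ τ.powersetCard k, f σ = dl f τ := by
  symm
  refine Finset.sum_bij (fun v _ => τ.erase v) (fun v hv => ?_) (fun v hv w hw h => ?_)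
    (fun σ hσ => ?_) (fun _ _ => rfl)
  · rw [Finset.mem_powersetCard, Finset.card_erase_of_mem hv, hτ]
    exact ⟨Finset.erase_subset _ _, rfl⟩
  · exact Finset.erase_injOn τ hv hw h
  · obtain ⟨h1, h2⟩ := Finset.mem_powersetCard.1 hσ
    obtain ⟨v, hv, hv'⟩ := Finset.exists_eq_insert_iff.2 ⟨h1, by rw [h2, hτ]⟩
    exact ⟨v, hv' ▸ Finset.mem_insert_self v σ, by rw [← hv', Finset.erase_insert hv]⟩

theorem ham_congr {V : Type*} [Fintype V] [DecidableEq V] {K : Set (Finset V)} {a : ℕ}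
    {f g : Finset V → ZMod 2} (h : ∀ σ, σ.card = a → f σ = g σ) : ham K a f = ham K a g := by
  unfold ham
  congr 1
  ext σ
  simp only [Finset.mem_filter, Finset.mem_univ, true_and]
  exact and_congr_right fun _ => and_congr_right fun h2 => by rw [h σ h2]

theorem final_arith {ε D A B t c₁ c₂ h w w' : ℝ} (hε : 0 < ε) (hD : 0 ≤ D) (hA : 0 < A)
    (hB : 0 < B) (ht : 0 < t) (h1 : 1 ≤ c₁) (h2 : 0 < c₂) (h3 : c₂ ≤ B) (h0 : 0 ≤ h)
    (k1 : w ≤ D * A * h) (k2 : ε * h ≤ w') :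
    ε / ((D + 1) * A * B) * (w / (c₁ * t)) ≤ w' / (c₂ * t) := by
  calc _ ≤ ε / ((D + 1) * A * B) * (((D + 1) * A * h) / (1 * t)) := by
        gcongr
        refine k1.trans ?_
        gcongr
        linarith
    _ = ε * h / (B * t) := by field_simp
    _ ≤ _ := by
        have : 0 ≤ w' := le_trans (by positivity) k2
        gcongr

/-- Recipe: `T` = faces of `X` of cardinality `d+1`.  For `σ ∉ X` the weight `#{τ ∈ T | σ ⊆ τ}`
is `0`; for a non-empty face of cardinality `≤ d+1` it lies in `[1, D 2^N]`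
(`Finset.exists_subsuperset_card_eq` inside a chamber; each `τ` lies in one of `≤ D` chambers through
a vertex of `σ`).  `coboundary i f τ = dl f τ` for `τ.card = i+2`.  For `b` take the constant `g ∅`
(`i = 0`) or `coboundary (i-1) g`.  `1 ≤ choose (d+1) k ≤ 2^(d+1)`. -/
theorem skeleton_main {d n N D : ℕ} (hd : 1 ≤ d) (hN : d + 1 ≤ N) (hn : 0 < n) {ε : ℝ}
    (hε : 0 < ε) {X : Set (Finset (Fin n))} {colX : Fin n → ℕ} (hP : Partite X colX N)
    (hD : Deg X N D) (hu : ∀ u : Fin n, ({u} : Finset (Fin n)) ∈ X) (hC : Conn X)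
    (hexp : ∀ a : ℕ, 1 ≤ a → a ≤ d → ∀ f : Finset (Fin n) → ZMod 2,
      ∃ g : Finset (Fin n) → ZMod 2, ε * (ham X a (f - dl g) : ℝ) ≤ (ham X (a + 1) (dl f) : ℝ)) :
    ∃ T : Finset (Finset (Fin n)), (∀ τ ∈ T, τ.card = d + 1) ∧
      (∀ v : Fin n, 1 ≤ vertexDegree T v ∧ vertexDegree T v ≤ D * 2 ^ N) ∧
      (skeleton T).Connected ∧
      ∀ i : ℕ, i < d → ∀ f : Finset (Fin n) → ZMod 2,
        ∃ b : Finset (Fin n) → ZMod 2, IsCoboundaryClass i b ∧
          ε / ((D + 1) * 2 ^ N * 2 ^ (d + 1)) * cochainNorm d T i (f - b) ≤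
            cochainNorm d T (i + 1) (coboundary i f) := by
  classical
  set T : Finset (Finset (Fin n)) := Finset.univ.filter (fun τ => τ ∈ X ∧ τ.card = d + 1) with hT
  have memT : ∀ τ, τ ∈ T ↔ τ ∈ X ∧ τ.card = d + 1 := fun τ => by simp [hT]
  have ext : ∀ σ ∈ X, σ.card ≤ d + 1 → ∃ τ ∈ T, σ ⊆ τ := fun σ hσ hc => by
    obtain ⟨c, h1, h2, h3⟩ := hP.pure σ hσ
    obtain ⟨τ, h4, h5, h6⟩ := Finset.exists_subsuperset_card_eq h2 hc (by omega : d + 1 ≤ c.card)
    exact ⟨τ, (memT τ).2 ⟨hP.cx.2 c h1 τ h5, h6⟩, h4⟩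
  have up : ∀ v : Fin n, (T.filter (fun τ => v ∈ τ)).card ≤ D * 2 ^ N := fun v => by
    set S : Finset (Finset (Fin n)) := Finset.univ.filter (fun c => c ∈ X ∧ c.card = N ∧ v ∈ c)
    have hS : S.card ≤ D := hD v S fun c hc => (Finset.mem_filter.1 hc).2
    calc _ ≤ (S.biUnion Finset.powerset).card := by
          refine Finset.card_le_card fun τ hτ => ?_
          obtain ⟨h1, h2⟩ := Finset.mem_filter.1 hτ
          obtain ⟨c, h3, h4, h5⟩ := hP.pure τ ((memT τ).1 h1).1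
          exact Finset.mem_biUnion.2 ⟨c, Finset.mem_filter.2 ⟨Finset.mem_univ _, h3, h5, h4 h2⟩,
            Finset.mem_powerset.2 h4⟩
      _ ≤ S.card * 2 ^ N := Finset.card_biUnion_le_card_mul _ _ _ fun c hc => by
          rw [Finset.card_powerset, (Finset.mem_filter.1 hc).2.2.1]
      _ ≤ D * 2 ^ N := Nat.mul_le_mul_right _ hS
  let W : ℕ → (Finset (Fin n) → ZMod 2) → ℕ := fun a f =>
    ∑ σ ∈ (Finset.univ.powersetCard a).filter (fun σ => f σ ≠ 0), (T.filter (fun τ => σ ⊆ τ)).card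
  have hW : ∀ i f, cochainNorm d T i f =
      (W (i + 1) f : ℝ) / ((Nat.choose (d + 1) (i + 1) : ℝ) * (T.card : ℝ)) := fun i f => by
    simp only [cochainNorm, faceWeight, W, Nat.cast_sum, Finset.sum_div]
  have hWS : ∀ a f, W a f = ∑ σ ∈ Finset.univ.filter (fun σ => σ ∈ X ∧ σ.card = a ∧ f σ ≠ 0),
      (T.filter (fun τ => σ ⊆ τ)).card := fun a f => by
    symm
    refine Finset.sum_subset (fun σ hσ => ?_) (fun σ hσ hσ' => ?_)
    · simp only [Finset.mem_filter, Finset.mem_univ, true_and, Finset.mem_powersetCard,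
        Finset.subset_univ] at hσ ⊢
      exact hσ.2
    · simp only [Finset.mem_filter, Finset.mem_univ, true_and, Finset.mem_powersetCard,
        Finset.subset_univ] at hσ hσ'
      rw [Finset.card_eq_zero, Finset.filter_eq_empty_iff]
      exact fun τ hτ h => hσ' ⟨hP.cx.2 τ ((memT τ).1 hτ).1 σ h, hσ⟩
  have lo : ∀ a f, a ≤ d + 1 → ham X a f ≤ W a f := fun a f ha => by
    rw [hWS, ham, Finset.card_eq_sum_ones]
    refine Finset.sum_le_sum fun σ hσ => ?_
    obtain ⟨h1, h2, _⟩ := (Finset.mem_filter.1 hσ).2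
    obtain ⟨τ, h4, h5⟩ := ext σ h1 (by omega)
    exact Finset.card_pos.2 ⟨τ, Finset.mem_filter.2 ⟨h4, h5⟩⟩
  have hi : ∀ a f, 1 ≤ a → W a f ≤ D * 2 ^ N * ham X a f := fun a f ha => by
    rw [hWS, ham, mul_comm, ← smul_eq_mul]
    refine Finset.sum_le_card_nsmul _ _ _ fun σ hσ => ?_
    obtain ⟨_, h2, _⟩ := (Finset.mem_filter.1 hσ).2
    obtain ⟨v, hv⟩ := Finset.card_pos.1 (by omega : 0 < σ.card)
    refine le_trans (Finset.card_le_card fun τ hτ => ?_) (up v)
    exact Finset.mem_filter.2 ⟨(Finset.mem_filter.1 hτ).1, (Finset.mem_filter.1 hτ).2 hv⟩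
  refine ⟨T, fun τ hτ => ((memT τ).1 hτ).2, fun v => ⟨?_, up v⟩, ?_, fun i hid f => ?_⟩
  · obtain ⟨τ, h1, h2⟩ := ext {v} (hu v) (by simp)
    exact Finset.card_pos.2 ⟨τ, Finset.mem_filter.2 ⟨h1, h2 (Finset.mem_singleton_self v)⟩⟩
  · have : Nonempty (Fin n) := ⟨⟨0, hn⟩⟩
    refine ⟨fun v w => ?_⟩
    have h := hC v w (hu v) (hu w)
    induction h with
    | refl => exact SimpleGraph.Reachable.refl _
    | @tail a b _ hab ih =>
      refine ih.trans ?_
      by_cases e : a = b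
      · rw [e]
      · obtain ⟨τ, h1, h2⟩ := ext {a, b} hab (Finset.card_le_two.trans (by omega))
        exact SimpleGraph.Adj.reachable ⟨e, τ, h1, h2 (by simp), h2 (by simp)⟩
  · obtain ⟨g, hg⟩ := hexp (i + 1) (by omega) (by omega) f
    obtain ⟨b, hb, hb'⟩ : ∃ b : Finset (Fin n) → ZMod 2, IsCoboundaryClass i b ∧
        ∀ σ : Finset (Fin n), σ.card = i + 1 → b σ = dl g σ := by
      rcases Nat.eq_zero_or_pos i with rfl | hi0
      · refine ⟨fun _ => g ∅, Or.inl ⟨rfl, _, fun _ => rfl⟩, fun σ hσ => ?_⟩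
        rw [← sum_powersetCard_eq_dl hσ]
        simp
      · refine ⟨coboundary (i - 1) g, Or.inr ⟨hi0, g, rfl⟩, fun σ hσ => ?_⟩
        exact sum_powersetCard_eq_dl (by omega) g
    refine ⟨b, hb, ?_⟩
    have e1 : ham X (i + 1) (f - b) = ham X (i + 1) (f - dl g) :=
      ham_congr fun σ hσ => by rw [Pi.sub_apply, Pi.sub_apply, hb' σ hσ]
    have e2 : ham X (i + 1 + 1) (coboundary i f) = ham X (i + 1 + 1) (dl f) :=
      ham_congr fun σ hσ => sum_powersetCard_eq_dl hσ f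
    have k1 : (W (i + 1) (f - b) : ℝ) ≤ D * 2 ^ N * ham X (i + 1) (f - dl g) := by
      rw [← e1]; exact_mod_cast hi _ _ (by omega)
    have k2 : (ham X (i + 1 + 1) (dl f) : ℝ) ≤ W (i + 1 + 1) (coboundary i f) := by
      rw [← e2]; exact_mod_cast lo _ _ (by omega)
    have hT0 : (0 : ℝ) < T.card := by
      obtain ⟨τ, h1, _⟩ := ext ∅ hP.cx.1 (by simp)
      exact_mod_cast Finset.card_pos.2 ⟨τ, h1⟩
    have c1 : (1 : ℝ) ≤ Nat.choose (d + 1) (i + 1) := by
      exact_mod_cast Nat.choose_pos (by omega)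
    have c2 : (0 : ℝ) < Nat.choose (d + 1) (i + 1 + 1) := by
      exact_mod_cast Nat.choose_pos (by omega)
    have c3 : (Nat.choose (d + 1) (i + 1 + 1) : ℝ) ≤ 2 ^ (d + 1) := by
      exact_mod_cast Nat.choose_le_two_pow _ _
    rw [hW, hW]
    exact final_arith hε (Nat.cast_nonneg D) (by positivity) (by positivity) hT0 c1 c2 c3
      (Nat.cast_nonneg _) k1 (hg.trans k2)

end Crest.Agent.R66
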