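import Crest.Agent.R66.Chain

/-! # Row 66: coinvariants, averaging, fundamental domains, transfer, quotients -/

set_option linter.unusedSectionVars false

namespace Crest.Agent.R66

variable {H H' : Type*} [Group H] [Group H'] {V W : Type*} [DecidableEq V] [DecidableEq W]

theorem act_apply (a : H →* Equiv.Perm V) (h : H) (x : Ch V) : act a h x = mapC (a h) x := rfl

@[simp] theorem act_single (a : H →* Equiv.Perm V) (h : H) (σ : Finset V) (r : ZMod 2) :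
    act a h (Finsupp.single σ r) = Finsupp.single (σ.image (a h)) r := mapC_single _ _ _

theorem bd_act (a : H →* Equiv.Perm V) (h : H) (x : Ch V) : bd (act a h x) = act a h (bd x) :=
  bd_mapC _ _ fun _ _ => (a h).injective.injOn

theorem act_mem_Cs {a : H →* Equiv.Perm V} {S : Subgroup H} {K : Set (Finset V)} (hK : Inv a S K)
    {h : H} (hh : h ∈ S) {j : ℕ} {x : Ch V} (hx : x ∈ Cs K j) : act a h x ∈ Cs K j :=
  mapC_mem_Cs _ hx fun σ hσ => ⟨(a h).injective.injOn, hK h hh σ (mem_Cs.1 hx σ hσ).1⟩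

theorem Inv.mono {a : H →* Equiv.Perm V} {S S' : Subgroup H} {K : Set (Finset V)} (h : Inv a S K)
    (hS : S' ≤ S) : Inv a S' K := fun g hg => h g (hS hg)

theorem Inv.comp {a : H →* Equiv.Perm V} {S : Subgroup H} {K : Set (Finset V)} (h : Inv a S K)
    (θ : H' →* H) {S' : Subgroup H'} (hS : S'.map θ ≤ S) : Inv (a.comp θ) S' K :=
  fun g hg => h (θ g) (hS ⟨g, hg, rfl⟩)

theorem mem_stab {a : H →* Equiv.Perm V} {S : Subgroup H} {σ : Finset V} {h : H} :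
    h ∈ stab a S σ ↔ h ∈ S ∧ σ.image (a h) = σ := Iff.rfl

theorem stab_le (a : H →* Equiv.Perm V) (S : Subgroup H) (σ : Finset V) : stab a S σ ≤ S :=
  fun _ h => h.1

section aug
variable {M M' : Type*} [AddCommGroup M] [Module (ZMod 2) M] [AddCommGroup M'] [Module (ZMod 2) M']

theorem sub_mem_Aug (ρ : Representation (ZMod 2) H M) {S : Subgroup H} {h : H} (hh : h ∈ S)
    (x : M) : ρ h x - x ∈ Aug ρ S :=
  Submodule.subset_span ⟨h, hh, x, rfl⟩

theorem Aug_mono (ρ : Representation (ZMod 2) H M) {S S' : Subgroup H} (h : S ≤ S') :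
    Aug ρ S ≤ Aug ρ S' :=
  Submodule.span_mono fun _ ⟨g, hg, x, e⟩ => ⟨g, h hg, x, e⟩

/-- a linear map sending the generators into `P` sends `Aug` into `P`. -/
theorem map_mem_of_Aug (ρ : Representation (ZMod 2) H M) (S : Subgroup H) (α : M →ₗ[ZMod 2] M')
    (P : Submodule (ZMod 2) M') (hα : ∀ h ∈ S, ∀ x, α (ρ h x - x) ∈ P) {x : M}
    (hx : x ∈ Aug ρ S) : α x ∈ P := by
  have : Aug ρ S ≤ P.comap α := Submodule.span_le.2 (by
    rintro _ ⟨h, hh, y, rfl⟩; exact hα h hh y)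
  exact this hx

theorem Aug_map (ρ : Representation (ZMod 2) H M) (ρ' : Representation (ZMod 2) H' M')
    (S : Subgroup H) (S' : Subgroup H') (α : M →ₗ[ZMod 2] M')
    (hα : ∀ h ∈ S, ∃ h' ∈ S', ∀ x, α (ρ h x) = ρ' h' (α x)) {x : M} (hx : x ∈ Aug ρ S) :
    α x ∈ Aug ρ' S' := by
  refine map_mem_of_Aug ρ S α _ (fun h hh y => ?_) hx
  obtain ⟨h', hh', e⟩ := hα h hh
  rw [map_sub, e]; exact sub_mem_Aug ρ' hh' _

theorem rep_mem_Aug (ρ : Representation (ZMod 2) H M) {S : Subgroup H} {g : H}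
    (hg : ∀ s ∈ S, g * s * g⁻¹ ∈ S) {x : M} (hx : x ∈ Aug ρ S) : ρ g x ∈ Aug ρ S :=
  Aug_map ρ ρ S S (ρ g) (fun h hh => ⟨g * h * g⁻¹, hg h hh, fun y => by
    simp [← Module.End.mul_apply, ← map_mul]⟩) hx

theorem exists_finset_of_mem_Aug (ρ : Representation (ZMod 2) H M) (S : Subgroup H) {y : M}
    (hy : y ∈ Aug ρ S) : ∃ s : Finset H, (∀ h ∈ s, h ∈ S) ∧
      ∀ S' : Subgroup H, (∀ h ∈ s, h ∈ S') → y ∈ Aug ρ S' := by
  classical
  induction hy using Submodule.span_induction with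
  | mem y hy =>
    obtain ⟨h, hh, x, rfl⟩ := hy
    exact ⟨{h}, by simpa using hh, fun S' hS' => sub_mem_Aug ρ (hS' h (by simp)) x⟩
  | zero => exact ⟨∅, by simp, fun S' _ => Submodule.zero_mem _⟩
  | add x y _ _ hx hy =>
    obtain ⟨s, hs, hs'⟩ := hx
    obtain ⟨t, ht, ht'⟩ := hy
    refine ⟨s ∪ t, fun h hh => (Finset.mem_union.1 hh).elim (hs h) (ht h), fun S' hS' => ?_⟩
    exact Submodule.add_mem _ (hs' S' fun h hh => hS' h (Finset.mem_union_left _ hh))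
      (ht' S' fun h hh => hS' h (Finset.mem_union_right _ hh))
  | smul r x _ hx =>
    obtain ⟨s, hs, hs'⟩ := hx
    exact ⟨s, hs, fun S' hS' => Submodule.smul_mem _ _ (hs' S' hS')⟩

end aug

theorem bd_mem_Aug (a : H →* Equiv.Perm V) {S : Subgroup H} {x : Ch V} (hx : x ∈ Aug (act a) S) :
    bd x ∈ Aug (act a) S :=
  Aug_map (act a) (act a) S S bd (fun h hh => ⟨h, hh, fun y => bd_act a h y⟩) hx

theorem Aug_comp (a : H →* Equiv.Perm V) (θ : H' →* H) (S' : Subgroup H') :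
    Aug (act (a.comp θ)) S' = Aug (act a) (S'.map θ) := by
  unfold Aug
  congr 1
  ext y
  constructor
  · rintro ⟨h, hh, x, rfl⟩
    exact ⟨θ h, ⟨h, hh, rfl⟩, x, rfl⟩
  · rintro ⟨_, ⟨h, hh, rfl⟩, x, rfl⟩
    exact ⟨h, hh, x, rfl⟩

theorem Van_comp (a : H →* Equiv.Perm V) (θ : H' →* H) (S' : Subgroup H') (K : Set (Finset V))
    (j : ℕ) : Van (a.comp θ) S' K j ↔ Van a (S'.map θ) K j := by
  simp only [Van, Aug_comp]

theorem Aug_subtype (a : H →* Equiv.Perm V) (S : Subgroup H) :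
    Aug (act (a.comp S.subtype)) ⊤ = Aug (act a) S := by
  rw [Aug_comp, ← MonoidHom.range_eq_map, Subgroup.range_subtype]

/-- Recipe: `θ` restricts to an injective hom of stabilisers; `Subgroup.card_dvd_of_injective`,
`Odd.of_dvd_nat`. -/
theorem OddStab.comp {a : H →* Equiv.Perm V} {S : Subgroup H} {K : Set (Finset V)}
    (h : OddStab a S K) (θ : H' →* H) (hθ : Function.Injective θ) {S' : Subgroup H'}
    (hS : S'.map θ ≤ S) : OddStab (a.comp θ) S' K := by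
  intro σ hσ hne
  refine Odd.of_dvd_nat (h σ hσ hne) ?_
  let φ : ↥(stab (a.comp θ) S' σ) →* ↥(stab a S σ) :=
    (θ.comp (stab (a.comp θ) S' σ).subtype).codRestrict _ fun g =>
      ⟨hS ⟨g, g.2.1, rfl⟩, g.2.2⟩
  refine Subgroup.card_dvd_of_injective φ fun g g' e => ?_
  exact Subtype.ext (hθ (congrArg Subtype.val e))

theorem OddStab.mono {a : H →* Equiv.Perm V} {S S' : Subgroup H} {K : Set (Finset V)}
    (h : OddStab a S K) (hS : S' ≤ S) : OddStab a S' K := by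
  intro σ hσ hne
  exact Odd.of_dvd_nat (h σ hσ hne)
    (Subgroup.card_dvd_of_le fun g hg => ⟨hS hg.1, hg.2⟩)

theorem locOdd_of_odd {S : Subgroup H} (h : Odd (Nat.card S)) : LocOdd S :=
  fun _ hs => ⟨S, le_rfl, hs, h⟩

/-- LOCFIN.  Recipe: `bd x ∈ Aug S` involves finitely many group elements
(`Submodule.span_induction`: `∃ s : Finset H, ↑s ⊆ S ∧ ∀ S' ⊇ s, y ∈ Aug S'`), so `bd x ∈ Aug S'`
with `S'` finite of odd order.  `A = ∑ g : S', act a g` kills `Aug S'` (reindex by right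
multiplication), so `A x` is a cycle, `= bd y`, and `A x - x ∈ Aug S'` by `odd_nsmul2`. -/
theorem van_of_locOdd {a : H →* Equiv.Perm V} {S : Subgroup H} {K : Set (Finset V)}
    (hS : LocOdd S) (hK : Inv a S K) {j : ℕ} (hE : Exact K j) : Van a S K j := by
  classical
  intro x hx hb
  obtain ⟨s, hs, hs'⟩ := exists_finset_of_mem_Aug (act a) S hb
  obtain ⟨S', hS', hs'', hodd⟩ := hS s hs
  have hfin : Finite S' := Nat.finite_of_card_ne_zero hodd.pos.ne'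
  have := Fintype.ofFinite S'
  have hb' := hs' S' hs''
  set A : Ch V →ₗ[ZMod 2] Ch V := ∑ g : S', act a g with hA
  have hA0 : A (bd x) = 0 := by
    have := map_mem_of_Aug (act a) S' A ⊥ (fun h hh y => by
      rw [Submodule.mem_bot, map_sub, sub_eq_zero, hA, LinearMap.sum_apply, LinearMap.sum_apply]
      refine Fintype.sum_equiv (Equiv.mulRight (⟨h, hh⟩ : S')) _ _ fun g => ?_
      simp [← Module.End.mul_apply, ← map_mul]) hb'
    simpa using this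
  have hAx : A x ∈ Cs K j := by
    rw [hA, LinearMap.sum_apply]
    exact Submodule.sum_mem _ fun g _ => act_mem_Cs hK (hS' g.2) hx
  have hbA : bd (A x) = 0 := by
    rw [← hA0, hA, LinearMap.sum_apply, LinearMap.sum_apply, map_sum]
    exact Finset.sum_congr rfl fun g _ => bd_act a g x
  obtain ⟨y, hy, hy'⟩ := hE _ hAx hbA
  refine ⟨y, hy, ?_⟩
  rw [hy']
  have h1 : x - A x = - ∑ g : S', (act a g x - x) := by
    rw [Finset.sum_sub_distrib, Finset.sum_const, Finset.card_univ, ← Nat.card_eq_fintype_card,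
      odd_nsmul2 hodd, hA, LinearMap.sum_apply, neg_sub]
  rw [h1]
  exact Submodule.neg_mem _ (Submodule.sum_mem _ fun g _ => sub_mem_Aug _ (hS' g.2) _)

/-- FUNDOM.  Recipe: `r v = if h : ∃ γ ∈ S, a γ v ∈ D then a (choose) v else v₀` is `S`-invariant
(`h2`), and agrees with `a γ` on `σ` for the `γ` of `h1`.  `ψ = mapC r` kills `Aug S`,
`x - ψ x ∈ Aug S`, `bd (ψ x) = ψ (bd x) = 0`; take `y = cone v₀ (ψ x)`. -/
theorem fundom {a : H →* Equiv.Perm V} {S : Subgroup H} {K : Set (Finset V)} (hK : Inv a S K)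
    (D : Set V) (v₀ : V) (h1 : ∀ σ ∈ K, ∃ γ ∈ S, ∀ v ∈ σ, a γ v ∈ D)
    (h2 : ∀ γ ∈ S, ∀ v ∈ D, a γ v ∈ D → a γ v = v)
    (h3 : ∀ σ ∈ K, (∀ v ∈ σ, v ∈ D) → insert v₀ σ ∈ K) (j : ℕ) : Van a S K j := by
  classical
  set r : V → V := fun v => if h : ∃ γ ∈ S, a γ v ∈ D then a h.choose v else v₀ with hr
  have hr1 : ∀ γ ∈ S, ∀ v, a γ v ∈ D → r v = a γ v := by
    intro γ hγ v hv
    have h : ∃ γ ∈ S, a γ v ∈ D := ⟨γ, hγ, hv⟩
    have e : a (h.choose * γ⁻¹) (a γ v) = a h.choose v := by simp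
    have := h2 _ (S.mul_mem h.choose_spec.1 (S.inv_mem hγ)) _ hv (by rw [e]; exact h.choose_spec.2)
    simp only [hr, dif_pos h]
    rw [← e, this]
  have hr2 : ∀ g ∈ S, ∀ v, r (a g v) = r v := by
    intro g hg v
    by_cases h : ∃ γ ∈ S, a γ v ∈ D
    · obtain ⟨γ, hγ, hv⟩ := h
      have e : a (γ * g⁻¹) (a g v) = a γ v := by simp
      rw [hr1 γ hγ v hv, hr1 (γ * g⁻¹) (S.mul_mem hγ (S.inv_mem hg)) _ (by rw [e]; exact hv), e]
    · have h' : ¬ ∃ γ ∈ S, a γ (a g v) ∈ D := by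
        rintro ⟨γ, hγ, hv⟩
        exact h ⟨γ * g, S.mul_mem hγ hg, by simpa using hv⟩
      simp only [hr, dif_neg h, dif_neg h']
  have hr3 : ∀ σ ∈ K, ∃ γ ∈ S, (∀ v ∈ σ, a γ v ∈ D) ∧ Set.InjOn r (σ : Set V) ∧
      σ.image r = σ.image (a γ) := by
    intro σ hσ
    obtain ⟨γ, hγ, hv⟩ := h1 σ hσ
    refine ⟨γ, hγ, hv, fun v hv' w hw e => ?_, Finset.image_congr fun v hv' => hr1 γ hγ v (hv v hv')⟩
    rw [hr1 γ hγ v (hv v hv'), hr1 γ hγ w (hv w hw)] at e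
    exact (a γ).injective e
  intro x hx hb
  have hx' := mem_Cs.1 hx
  have hψ : mapC r (bd x) = 0 := by
    have := map_mem_of_Aug (act a) S (mapC r) ⊥ (fun h hh y => by
      rw [Submodule.mem_bot, map_sub, sub_eq_zero, act_apply, mapC_mapC]
      congr 2
      funext v
      exact hr2 h hh v) hb
    simpa using this
  have hc : bd (mapC r x) = 0 := by
    rw [bd_mapC _ _ fun σ hσ => (hr3 σ (hx' σ hσ).1).choose_spec.2.2.1, hψ]
  have hm : mapC r x ∈ Cs {τ | τ ∈ K ∧ ∀ v ∈ τ, v ∈ D} j := by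
    refine mapC_mem_Cs _ hx fun σ hσ => ?_
    obtain ⟨γ, hγ, hv, hi, e⟩ := hr3 σ (hx' σ hσ).1
    refine ⟨hi, ?_⟩
    rw [e]
    refine ⟨hK γ hγ σ (hx' σ hσ).1, fun v hv' => ?_⟩
    obtain ⟨w, hw, rfl⟩ := Finset.mem_image.1 hv'
    exact hv w hw
  refine ⟨cone v₀ (mapC r x), cone_mem_Cs v₀ hm fun σ hσ _ => ?_, ?_⟩
  · exact h3 σ (mem_Cs.1 hm σ hσ).1.1 (mem_Cs.1 hm σ hσ).1.2
  · rw [bd_cone_of_cycle _ hc]
    refine map_mem_of_Cs (LinearMap.id - mapC r) _ hx fun σ hσ _ => ?_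
    obtain ⟨γ, hγ, -, -, e⟩ := hr3 σ hσ
    rw [LinearMap.sub_apply, LinearMap.id_apply, mapC_single, e, ← neg_sub, ← act_single]
    exact Submodule.neg_mem _ (sub_mem_Aug _ hγ _)

/-- TRANSFER.  Recipe: `Q = ↥Γ' ⧸ Γ.subgroupOf Γ'` is a finite group of odd order (normal by `hn`),
`A = ∑ q : Q, act a (q.out)`.  For `g ∈ Γ'`, `q.out * g = γ * (q * ḡ).out` with `γ ∈ Γ`, hence
`A (act g x) - A x ∈ Aug Γ`, so `A` maps `Aug Γ'` into `Aug Γ`.  With `x - bd y ∈ Aug Γ'`: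
`A x - bd (A y) ∈ Aug Γ`, while `A x - x - bd (∑ y_q) ∈ Aug Γ` by `htriv` and `odd_nsmul2`. -/
theorem transfer {a : H →* Equiv.Perm V} {Γ Γ' : Subgroup H} {K : Set (Finset V)} {j : ℕ}
    (hle : Γ ≤ Γ') (hn : ∀ g ∈ Γ', ∀ γ ∈ Γ, g * γ * g⁻¹ ∈ Γ) (hodd : Odd (Γ.relIndex Γ'))
    (hK : Inv a Γ' K) (hv : Van a Γ' K j)
    (htriv : ∀ g ∈ Γ', ∀ x ∈ Cs K j, bd x ∈ Aug (act a) Γ →
      ∃ y ∈ Cs K (j + 1), act a g x - x - bd y ∈ Aug (act a) Γ) : Van a Γ K j := by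
  classical
  intro x hx hb
  have hN : (Γ.subgroupOf Γ').Normal :=
    ⟨fun n hn' g => by
      rw [Subgroup.mem_subgroupOf] at hn' ⊢
      exact hn g g.2 n hn'⟩
  have hodd' : Odd (Nat.card (↥Γ' ⧸ Γ.subgroupOf Γ')) := hodd
  have hfin : Finite (↥Γ' ⧸ Γ.subgroupOf Γ') := Nat.finite_of_card_ne_zero hodd'.pos.ne'
  have := Fintype.ofFinite (↥Γ' ⧸ Γ.subgroupOf Γ')
  set A : Ch V →ₗ[ZMod 2] Ch V :=
    ∑ q : ↥Γ' ⧸ Γ.subgroupOf Γ', act a ((q.out : Γ') : H) with hA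
  have hAapp : ∀ z, A z = ∑ q : ↥Γ' ⧸ Γ.subgroupOf Γ', act a ((q.out : Γ') : H) z := by
    intro z; rw [hA, LinearMap.sum_apply]
  have hAaug : ∀ z ∈ Aug (act a) Γ', A z ∈ Aug (act a) Γ := by
    intro z hz
    refine map_mem_of_Aug (act a) Γ' A _ (fun h hh y => ?_) hz
    rw [map_sub, hAapp, hAapp,
      ← Equiv.sum_comp (Equiv.mulRight (QuotientGroup.mk (⟨h, hh⟩ : Γ') : ↥Γ' ⧸ Γ.subgroupOf Γ'))
        (fun q => act a ((q.out : Γ') : H) y), ← Finset.sum_sub_distrib]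
    refine Submodule.sum_mem _ fun q _ => ?_
    simp only [Equiv.coe_mulRight]
    set q' : ↥Γ' ⧸ Γ.subgroupOf Γ' := q * QuotientGroup.mk (⟨h, hh⟩ : Γ') with hq'
    have hγ : (q.out * (⟨h, hh⟩ : Γ') * (q'.out)⁻¹ : Γ') ∈ Γ.subgroupOf Γ' := by
      rw [← QuotientGroup.eq_one_iff]
      simp [hq']
    rw [Subgroup.mem_subgroupOf] at hγ
    have := sub_mem_Aug (act a) hγ (act a ((q'.out : Γ') : H) y)
    convert this using 2
    simp [← Module.End.mul_apply, ← map_mul]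
  obtain ⟨y, hy, hy'⟩ := hv x hx (Aug_mono _ hle hb)
  choose! yy hyy hyy' using fun q : ↥Γ' ⧸ Γ.subgroupOf Γ' =>
    htriv ((q.out : Γ') : H) (q.out).2 x hx hb
  have hAy : A y ∈ Cs K (j + 1) := by
    rw [hAapp]
    exact Submodule.sum_mem _ fun q _ => act_mem_Cs hK (q.out).2 hy
  have hbA : bd (A y) = A (bd y) := by
    rw [hAapp, hAapp, map_sum]
    exact Finset.sum_congr rfl fun g _ => bd_act a _ y
  refine ⟨A y - ∑ q, yy q, Submodule.sub_mem _ hAy (Submodule.sum_mem _ fun q _ => hyy q), ?_⟩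
  have h1 := hAaug _ hy'
  have h2 := Submodule.sum_mem (Aug (act a) Γ) (t := Finset.univ) fun q _ => hyy' q
  rw [Finset.sum_sub_distrib, Finset.sum_sub_distrib, Finset.sum_const, Finset.card_univ,
    ← Nat.card_eq_fintype_card, odd_nsmul2 hodd', ← hAapp, ← map_sum] at h2
  have := Submodule.sub_mem _ h1 h2
  convert this using 1
  rw [map_sub, map_sub, hbA]
  abel

/-- exactness of the quotient complex.  Recipe: choose a section `s` on faces of `X`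
(`s τ ∈ K`, `(s τ).image π = τ`), `Σ = lmapDomain s`.  For `w ∈ Cs K i`: `w - Σ (mapC π w) ∈ Aug Γ`
(`horb`).  Lift `z` to `x = Σ z`; `mapC π (bd x) = bd z = 0` gives `bd x ∈ Aug Γ` (case `j = 0`:
`bd x = 0`); `mapC π` kills `Aug Γ` (`hinv`). -/
theorem exact_quot {a : H →* Equiv.Perm V} {Γ : Subgroup H} {K : Set (Finset V)} (hK : IsCx K)
    (π : V → W) (hinv : ∀ γ ∈ Γ, ∀ v, π (a γ v) = π v) (hinj : ∀ σ ∈ K, Set.InjOn π (σ : Set V))
    (horb : ∀ σ ∈ K, ∀ τ ∈ K, σ.image π = τ.image π → ∃ γ ∈ Γ, σ.image (a γ) = τ)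
    {X : Set (Finset W)} (hX : ∀ τ, τ ∈ X ↔ ∃ σ ∈ K, σ.image π = τ) {j : ℕ} (hv : Van a Γ K j) :
    Exact X j := by
  classical
  choose! s hs hs' using fun τ (hτ : τ ∈ X) => (hX τ).1 hτ
  set Sg : Ch W →ₗ[ZMod 2] Ch V := Finsupp.lmapDomain (ZMod 2) (ZMod 2) s with hSg
  have hSs : ∀ τ, Sg (Finsupp.single τ 1) = Finsupp.single (s τ) 1 := by
    intro τ; simp [hSg]
  have h1 : ∀ i, ∀ w ∈ Cs K i, w - Sg (mapC π w) ∈ Aug (act a) Γ := by
    intro i w hw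
    refine map_mem_of_Cs (LinearMap.id - Sg ∘ₗ mapC π) _ hw fun σ hσ _ => ?_
    have hm : σ.image π ∈ X := (hX _).2 ⟨σ, hσ, rfl⟩
    obtain ⟨γ, hγ, e⟩ := horb _ (hs _ hm) σ hσ (hs' _ hm)
    rw [LinearMap.sub_apply, LinearMap.id_apply, LinearMap.comp_apply, mapC_single, hSs]
    have := sub_mem_Aug (act a) hγ (Finsupp.single (s (σ.image π)) 1)
    rwa [act_single, e] at this
  have h2 : ∀ w ∈ Aug (act a) Γ, mapC π w = 0 := by
    intro w hw
    have := map_mem_of_Aug (act a) Γ (mapC π) ⊥ (fun h hh y => by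
      rw [Submodule.mem_bot, map_sub, sub_eq_zero, act_apply, mapC_mapC]
      congr 2
      funext v
      exact hinv h hh v) hw
    simpa using this
  have h3 : ∀ i, ∀ w ∈ Cs K i, bd (mapC π w) = mapC π (bd w) := fun i w hw =>
    bd_mapC _ _ fun σ hσ => hinj σ (mem_Cs.1 hw σ hσ).1
  intro z hz hbz
  have hx : Sg z ∈ Cs K j := by
    refine map_mem_of_Cs Sg _ hz fun τ hτ hj => ?_
    rw [hSs]
    refine single_mem_Cs (hs τ hτ) ?_ _
    rw [← hj, ← Finset.card_image_of_injOn (hinj _ (hs τ hτ)), hs' τ hτ]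
  have hπ : mapC π (Sg z) = z := by
    refine map_congr_Cs (mapC π ∘ₗ Sg) LinearMap.id hz fun τ hτ _ => ?_
    rw [LinearMap.comp_apply, hSs, mapC_single, hs' τ hτ, LinearMap.id_apply]
  have hb : bd (Sg z) ∈ Aug (act a) Γ := by
    cases j with
    | zero => rw [bd_eq_zero_of_Cs_zero hx]; exact Submodule.zero_mem _
    | succ j =>
      have := h1 j _ (bd_mem_Cs hK hx)
      rwa [← h3 _ _ hx, hπ, hbz, map_zero, sub_zero] at this
  obtain ⟨y, hy, hy'⟩ := hv _ hx hb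
  refine ⟨mapC π y, mapC_mem_Cs π hy fun σ hσ => ⟨hinj σ (mem_Cs.1 hy σ hσ).1,
    (hX _).2 ⟨σ, (mem_Cs.1 hy σ hσ).1, rfl⟩⟩, ?_⟩
  have := h2 _ hy'
  rw [map_sub, hπ, sub_eq_zero] at this
  rw [h3 _ _ hy, ← this]

end Crest.Agent.R66
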