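import Crest.Agent.R66.GH1

/-! # Row 66: the comparison theorem in a finite range -/

set_option linter.unusedSectionVars false

namespace Crest.Agent.R66

variable {H : Type*} [Group H] {V : Type*} [DecidableEq V]
  {M M' : Type*} [AddCommGroup M] [Module (ZMod 2) M] [AddCommGroup M'] [Module (ZMod 2) M']

theorem image_act_mul (a : H →* Equiv.Perm V) (g h : H) (σ : Finset V) :
    (σ.image (a h)).image (a g) = σ.image (a (g * h)) := by
  rw [map_mul, Equiv.Perm.coe_mul, Finset.image_image]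

theorem lc_equiv (a : H →* Equiv.Perm V) (ρ : Representation (ZMod 2) H M) (g : Finset V → M)
    (hg : ∀ h σ, g (σ.image (a h)) = ρ h (g σ)) (h : H) (x : Ch V) :
    Finsupp.linearCombination (ZMod 2) g (act a h x) =
      ρ h (Finsupp.linearCombination (ZMod 2) g x) :=
  map_congr_support (Finsupp.linearCombination (ZMod 2) g ∘ₗ act a h)
    (ρ h ∘ₗ Finsupp.linearCombination (ZMod 2) g) x fun σ _ => by simp [hg]

/-- LIFT (projectivity of permutation modules with odd stabilisers).  Recipe: orbit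
representatives `r σ` (e.g. `Quotient.out` for the orbit setoid `∃ h, σ.image (a h) = τ`) and
`t σ : H` with `(r σ).image (a (t σ)) = σ`.  For a representative `σ₀` pick `y` from `hex` and average
`y₀ = ∑ h : stab a ⊤ σ₀, ρ h y` (stabiliser-invariant, in `P`, `D y₀ = f σ₀` by `odd_nsmul2`).
Put `g σ = ρ (t σ) (y₀ (r σ))` on faces of cardinality `j`, `0` elsewhere. -/
theorem lift_equiv {a : H →* Equiv.Perm V} {K : Set (Finset V)} (hinv : Inv a ⊤ K)
    (hodd : OddStab a ⊤ K) {j : ℕ} (hj : 1 ≤ j) (ρ : Representation (ZMod 2) H M)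
    (ρ' : Representation (ZMod 2) H M') (D : M →ₗ[ZMod 2] M')
    (hD : ∀ h x, D (ρ h x) = ρ' h (D x)) (P : Submodule (ZMod 2) M)
    (hP : ∀ h, ∀ x ∈ P, ρ h x ∈ P) (f : Finset V → M')
    (hf : ∀ h, ∀ σ ∈ K, σ.card = j → f (σ.image (a h)) = ρ' h (f σ))
    (hex : ∀ σ ∈ K, σ.card = j → ∃ y ∈ P, D y = f σ) :
    ∃ g : Finset V → M, (∀ h σ, g (σ.image (a h)) = ρ h (g σ)) ∧
      (∀ σ ∈ K, σ.card = j → g σ ∈ P ∧ D (g σ) = f σ) ∧
      ∀ σ, ¬ (σ ∈ K ∧ σ.card = j) → g σ = 0 := by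
  classical
  let st : Setoid (Finset V) :=
    ⟨fun σ τ => ∃ h : H, σ.image (a h) = τ, ⟨fun σ => ⟨1, by simp⟩,
      fun {σ τ} ⟨h, e⟩ => ⟨h⁻¹, by rw [← e, image_act_mul]; simp⟩,
      fun {σ τ υ} ⟨h, e⟩ ⟨h', e'⟩ => ⟨h' * h, by rw [← image_act_mul, e, e']⟩⟩⟩
  set r : Finset V → Finset V := fun σ => (Quotient.mk st σ).out with hr
  have hrt : ∀ σ, ∃ h : H, (r σ).image (a h) = σ := fun σ => Quotient.mk_out (s := st) σ
  choose t ht using hrt
  have hr' : ∀ h σ, r (σ.image (a h)) = r σ := by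
    intro h σ
    have : Quotient.mk st σ = Quotient.mk st (σ.image (a h)) := Quotient.sound ⟨h, rfl⟩
    simp only [hr, this]
  have hgood : ∀ h σ, (σ.image (a h) ∈ K ∧ (σ.image (a h)).card = j) ↔ (σ ∈ K ∧ σ.card = j) := by
    intro h σ
    rw [Finset.card_image_of_injective _ (a h).injective]
    refine and_congr_left fun _ => ⟨fun hσ => ?_, hinv h trivial σ⟩
    have := hinv h⁻¹ trivial _ hσ
    rwa [image_act_mul, inv_mul_cancel, map_one, Equiv.Perm.coe_one, Finset.image_id] at this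
  have hex' : ∀ σ ∈ K, σ.card = j → ∃ y ∈ P, D y = f σ ∧
      ∀ h : H, σ.image (a h) = σ → ρ h y = y := by
    intro σ hσ hc
    obtain ⟨y, hy, hy'⟩ := hex σ hσ hc
    have ho := hodd σ hσ (Finset.card_pos.1 (by omega))
    have hfin : Finite (stab a ⊤ σ) := Nat.finite_of_card_ne_zero ho.pos.ne'
    have := Fintype.ofFinite (stab a ⊤ σ)
    refine ⟨∑ g : stab a ⊤ σ, ρ g y, P.sum_mem fun g _ => hP _ _ hy, ?_, fun h hh => ?_⟩
    · rw [map_sum, Finset.sum_congr rfl (g := fun _ => f σ), Finset.sum_const, Finset.card_univ,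
        ← Nat.card_eq_fintype_card, odd_nsmul2 ho]
      intro g _
      rw [hD, hy', ← hf _ σ hσ hc, g.2.2]
    · rw [map_sum]
      refine Fintype.sum_equiv (Equiv.mulLeft (⟨h, trivial, hh⟩ : stab a ⊤ σ)) _ _ fun g => ?_
      simp [← Module.End.mul_apply, ← map_mul]
  choose! y0 hy0 hy1 hy2 using hex'
  have hrg : ∀ σ, (σ ∈ K ∧ σ.card = j) → (r σ ∈ K ∧ (r σ).card = j) := by
    intro σ hσ
    rw [← hgood (t σ), ht]
    exact hσ
  refine ⟨fun σ => if σ ∈ K ∧ σ.card = j then ρ (t σ) (y0 (r σ)) else 0, fun h σ => ?_,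
    fun σ hσ hc => ?_, fun σ hσ => if_neg hσ⟩
  · by_cases hσ : σ ∈ K ∧ σ.card = j
    · simp only [if_pos hσ, if_pos ((hgood h σ).2 hσ), hr']
      have h1 : (r σ).image (a ((t (σ.image (a h)))⁻¹ * (h * t σ))) = r σ := by
        have h2 := congrArg (Finset.image (a (t (σ.image (a h)))⁻¹)) (ht (σ.image (a h)))
        rw [image_act_mul, inv_mul_cancel, map_one, Equiv.Perm.coe_one, Finset.image_id,
          hr'] at h2
        rw [← image_act_mul, ← image_act_mul, ht, ← h2]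
      conv_lhs => rw [← hy2 _ (hrg σ hσ).1 (hrg σ hσ).2 _ h1]
      simp [← Module.End.mul_apply, ← map_mul]
    · simp only [if_neg hσ, if_neg (mt (hgood h σ).1 hσ), map_zero]
  · have hσ' := hrg σ ⟨hσ, hc⟩
    simp only [if_pos (⟨hσ, hc⟩ : σ ∈ K ∧ σ.card = j)]
    refine ⟨hP _ _ (hy0 _ hσ'.1 hσ'.2), ?_⟩
    rw [hD, hy1 _ hσ'.1 hσ'.2, ← hf _ _ hσ'.1 hσ'.2, ht]

/-- existence of equivariant chain maps.  Recipe: induction on `m`; `α₀ (single σ 1) = if σ = ∅ then
ε else 0`; keep the invariant "`α (single σ 1) = 0` if `σ.card > m`"; `α_{m+1} = α_m +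
linearCombination g` with `g` from `lift_equiv` for `f σ = α_m (bd (single σ 1))`. -/
theorem exists_chainMap {a : H →* Equiv.Perm V} {K : Set (Finset V)} (hK : IsCx K)
    (hinv : Inv a ⊤ K) (hodd : OddStab a ⊤ K) {ρ : Representation (ZMod 2) H M}
    {D : M →ₗ[ZMod 2] M} {G : ℕ → Submodule (ZMod 2) M} (hT : Target ρ D G) (ε : M)
    (hε : ε ∈ G 0) (hεD : D ε = 0) (hεi : ∀ h, ρ h ε = ε) (m : ℕ)
    (hex : ∀ i < m, ∀ x ∈ G i, D x = 0 → ∃ y ∈ G (i + 1), D y = x) :
    ∃ α : Ch V →ₗ[ZMod 2] M, (∀ h x, α (act a h x) = ρ h (α x)) ∧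
      α (Finsupp.single ∅ 1) = ε ∧ ∀ j ≤ m, ∀ x ∈ Cs K j, α x ∈ G j ∧ D (α x) = α (bd x) := by
  classical
  suffices h : ∃ α : Ch V →ₗ[ZMod 2] M, (∀ h x, α (act a h x) = ρ h (α x)) ∧
      α (Finsupp.single ∅ 1) = ε ∧ (∀ j ≤ m, ∀ x ∈ Cs K j, α x ∈ G j ∧ D (α x) = α (bd x)) ∧
      ∀ σ : Finset V, m < σ.card → α (Finsupp.single σ 1) = 0 by
    obtain ⟨α, h1, h2, h3, -⟩ := h
    exact ⟨α, h1, h2, h3⟩
  induction m with
  | zero =>
    refine ⟨Finsupp.linearCombination (ZMod 2) (fun σ => if σ = ∅ then ε else 0),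
      lc_equiv a ρ _ fun h σ => ?_, by simp, ?_, ?_⟩
    · by_cases hσ : σ = ∅ <;> simp [hσ, hεi]
    · intro j hj x hx
      obtain rfl : j = 0 := by omega
      rw [bd_eq_zero_of_Cs_zero hx, map_zero]
      refine ⟨map_mem_of_Cs _ _ hx fun σ _ hc => ?_, ?_⟩
      · simpa [Finset.card_eq_zero.1 hc] using hε
      · refine map_congr_Cs (D ∘ₗ _) 0 hx fun σ _ hc => ?_
        simpa [Finset.card_eq_zero.1 hc] using hεD
    · intro σ hσ
      have : σ ≠ ∅ := (Finset.card_pos.1 hσ).ne_empty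
      simp [this]
  | succ m ih =>
    obtain ⟨α, h1, h2, h3, h4⟩ := ih fun i hi => hex i (by omega)
    obtain ⟨g, hg1, hg2, hg3⟩ := lift_equiv hinv hodd (j := m + 1) (by omega) ρ ρ D hT.comm
      (G (m + 1)) (fun h => hT.inv h _) (fun σ => α (bd (Finsupp.single σ 1)))
      (fun h σ _ _ => by rw [← act_single, bd_act, h1])
      (fun σ hσ hc => by
        have := h3 m le_rfl _ (bd_mem_Cs hK (single_mem_Cs hσ hc 1))
        exact hex m (by omega) _ this.1 (by rw [this.2, bd_bd, map_zero]))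
    set β := Finsupp.linearCombination (ZMod 2) g with hβ
    have hβs : ∀ σ, β (Finsupp.single σ 1) = g σ := fun σ => by simp [hβ]
    have hβ0 : ∀ j ≤ m, ∀ x ∈ Cs K j, β x = 0 := fun j hj x hx =>
      map_congr_Cs β 0 hx fun σ _ hc => by
        rw [hβs, hg3 σ (fun h => by omega)]; rfl
    have hβb : ∀ j ≤ m + 1, ∀ x ∈ Cs K j, β (bd x) = 0 := by
      intro j hj x hx
      cases j with
      | zero => rw [bd_eq_zero_of_Cs_zero hx, map_zero]
      | succ j => exact hβ0 j (by omega) _ (bd_mem_Cs hK hx)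
    refine ⟨α + β, fun h x => ?_, ?_, fun j hj x hx => ?_, fun σ hσ => ?_⟩
    · rw [LinearMap.add_apply, LinearMap.add_apply, map_add, h1, lc_equiv a ρ g hg1]
    · rw [LinearMap.add_apply, h2, hβs, hg3 _ (by simp), add_zero]
    · rw [LinearMap.add_apply, LinearMap.add_apply, hβb j hj x hx, add_zero]
      rcases Nat.lt_or_ge j (m + 1) with hj' | hj'
      · rw [hβ0 j (by omega) x hx, add_zero]
        exact h3 j (by omega) x hx
      · obtain rfl : j = m + 1 := by omega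
        have : α x = 0 := map_congr_Cs α 0 hx fun σ _ hc => h4 σ (by omega)
        rw [this, zero_add]
        refine ⟨map_mem_of_Cs _ _ hx fun σ hσ hc => ?_,
          map_congr_Cs (D ∘ₗ β) (α ∘ₗ bd) hx fun σ hσ hc => ?_⟩
        · rw [hβs]; exact (hg2 σ hσ hc).1
        · rw [LinearMap.comp_apply, hβs]; exact (hg2 σ hσ hc).2
    · rw [LinearMap.add_apply, h4 σ (by omega), hβs, hg3 σ (fun h => by omega), add_zero]

/-- chain maps vanishing on the augmentation are null-homotopic.  Recipe: construct by induction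
on `m` an equivariant `η` (vanishing above the current level) with `η x ∈ G (j+1)` and
`D (η x) + η (bd x) = θ x` for `x ∈ Cs K j`, `j ≤ m` (`η₀ = 0`; step via `lift_equiv` for
`f σ = θ (single σ 1) + η (bd (single σ 1))`); then `Aug_map`. -/
theorem null_homotopy {a : H →* Equiv.Perm V} {K : Set (Finset V)} (hK : IsCx K)
    (hinv : Inv a ⊤ K) (hodd : OddStab a ⊤ K) {ρ : Representation (ZMod 2) H M}
    {D : M →ₗ[ZMod 2] M} {G : ℕ → Submodule (ZMod 2) M} (hT : Target ρ D G)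
    (θ : Ch V →ₗ[ZMod 2] M) (hθ : ∀ h x, θ (act a h x) = ρ h (θ x))
    (h0 : θ (Finsupp.single ∅ 1) = 0) (m : ℕ)
    (hθc : ∀ j ≤ m, ∀ x ∈ Cs K j, θ x ∈ G j ∧ D (θ x) = θ (bd x))
    (hex : ∀ i ≤ m, ∀ x ∈ G i, D x = 0 → ∃ y ∈ G (i + 1), D y = x) :
    ∀ x ∈ Cs K m, bd x ∈ Aug (act a) ⊤ → ∃ y ∈ G (m + 1), θ x - D y ∈ Aug ρ ⊤ := by
  classical
  have key : ∀ n ≤ m, ∃ η : Ch V →ₗ[ZMod 2] M, (∀ h x, η (act a h x) = ρ h (η x)) ∧
      (∀ j ≤ n, ∀ x ∈ Cs K j, η x ∈ G (j + 1) ∧ D (η x) + η (bd x) = θ x) ∧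
      ∀ σ : Finset V, n < σ.card → η (Finsupp.single σ 1) = 0 := by
    intro n
    induction n with
    | zero =>
      intro _
      refine ⟨0, by simp, fun j hj x hx => ?_, by simp⟩
      obtain rfl : j = 0 := by omega
      have : θ x = 0 := map_congr_Cs θ 0 hx fun σ _ hc => by
        rw [Finset.card_eq_zero.1 hc, h0]; rfl
      simp [this]
    | succ n ih =>
      intro hn
      obtain ⟨η, h1, h3, h4⟩ := ih (by omega)
      obtain ⟨g, hg1, hg2, hg3⟩ := lift_equiv hinv hodd (j := n + 1) (by omega) ρ ρ D hT.comm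
        (G (n + 1 + 1)) (fun h => hT.inv h _)
        (fun σ => θ (Finsupp.single σ 1) + η (bd (Finsupp.single σ 1)))
        (fun h σ _ _ => by rw [← act_single, bd_act, h1, hθ, map_add])
        (fun σ hσ hc => by
          have h5 := h3 n le_rfl _ (bd_mem_Cs hK (single_mem_Cs hσ hc 1))
          have h6 := hθc (n + 1) hn _ (single_mem_Cs hσ hc 1)
          refine hex (n + 1) hn _ (Submodule.add_mem _ h6.1 h5.1) ?_
          rw [map_add, h6.2, ← h5.2, bd_bd, map_zero, add_zero, add_self2])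
      set β := Finsupp.linearCombination (ZMod 2) g with hβ
      have hβs : ∀ σ, β (Finsupp.single σ 1) = g σ := fun σ => by simp [hβ]
      have hβ0 : ∀ j ≤ n, ∀ x ∈ Cs K j, β x = 0 := fun j hj x hx =>
        map_congr_Cs β 0 hx fun σ _ hc => by
          rw [hβs, hg3 σ (fun h => by omega)]; rfl
      have hβb : ∀ j ≤ n + 1, ∀ x ∈ Cs K j, β (bd x) = 0 := by
        intro j hj x hx
        cases j with
        | zero => rw [bd_eq_zero_of_Cs_zero hx, map_zero]
        | succ j => exact hβ0 j (by omega) _ (bd_mem_Cs hK hx)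
      refine ⟨η + β, fun h x => ?_, fun j hj x hx => ?_, fun σ hσ => ?_⟩
      · rw [LinearMap.add_apply, LinearMap.add_apply, map_add, h1, lc_equiv a ρ g hg1]
      · rw [LinearMap.add_apply, LinearMap.add_apply, hβb j hj x hx, add_zero]
        rcases Nat.lt_or_ge j (n + 1) with hj' | hj'
        · rw [hβ0 j (by omega) x hx, add_zero]
          exact h3 j (by omega) x hx
        · obtain rfl : j = n + 1 := by omega
          have : η x = 0 := map_congr_Cs η 0 hx fun σ _ hc => h4 σ (by omega)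
          rw [this, zero_add]
          refine ⟨map_mem_of_Cs _ _ hx fun σ hσ hc => ?_,
            map_congr_Cs (D ∘ₗ β + η ∘ₗ bd) θ hx fun σ hσ hc => ?_⟩
          · rw [hβs]; exact (hg2 σ hσ hc).1
          · rw [LinearMap.add_apply, LinearMap.comp_apply, LinearMap.comp_apply, hβs,
              (hg2 σ hσ hc).2, add_assoc, add_self2, add_zero]
      · rw [LinearMap.add_apply, h4 σ (by omega), hβs, hg3 σ (fun h => by omega), add_zero]
  obtain ⟨η, h1, h3, -⟩ := key m le_rfl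
  intro x hx hb
  obtain ⟨h5, h6⟩ := h3 m le_rfl x hx
  refine ⟨η x, h5, ?_⟩
  rw [← h6, add_sub_cancel_left]
  exact Aug_map (act a) ρ ⊤ ⊤ η (fun h _ => ⟨h, trivial, h1 h⟩) hb

end Crest.Agent.R66
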