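import Crest.Agent.R66.GH2

/-! # Row 66: consequences of the comparison theorem -/

set_option linter.unusedSectionVars false

namespace Crest.Agent.R66

variable {H : Type*} [Group H] {V V' : Type*} [DecidableEq V] [DecidableEq V']

theorem target_self {H' : Type*} [Group H'] {a : H' →* Equiv.Perm V} {K : Set (Finset V)}
    (hK : IsCx K) (hinv : Inv a ⊤ K) : Target (act a) bd (Cs K) :=
  ⟨fun h _ _ hx => act_mem_Cs hinv (Subgroup.mem_top h) hx, fun h x => bd_act a h x, bd_bd,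
    fun _ _ hx => bd_mem_Cs hK hx⟩

/-- the complex of `N`-coinvariants as a target for a group `S` normalising `N`.
Recipe: `Submodule.mapQ` with `rep_mem_Aug`, `bd_mem_Aug`. -/
theorem quot_target {a : H →* Equiv.Perm V} {K : Set (Finset V)} (hK : IsCx K) (S N : Subgroup H)
    (hinv : Inv a S K) (hN : ∀ s ∈ S, ∀ x ∈ N, s * x * s⁻¹ ∈ N) :
    ∃ (ρ : Representation (ZMod 2) ↥S (Ch V ⧸ Aug (act a) N))
      (D : (Ch V ⧸ Aug (act a) N) →ₗ[ZMod 2] (Ch V ⧸ Aug (act a) N)),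
      (∀ (s : ↥S) x, ρ s ((Aug (act a) N).mkQ x) = (Aug (act a) N).mkQ (act a s x)) ∧
      (∀ x, D ((Aug (act a) N).mkQ x) = (Aug (act a) N).mkQ (bd x)) ∧
      Target ρ D (fun j => (Cs K j).map (Aug (act a) N).mkQ) ∧
      (∀ i, Van a N K i → ∀ x ∈ (Cs K i).map (Aug (act a) N).mkQ, D x = 0 →
        ∃ y ∈ (Cs K (i + 1)).map (Aug (act a) N).mkQ, D y = x) ∧
      ∀ x, (Aug (act a) N).mkQ x ∈ Aug ρ ⊤ → x ∈ Aug (act a) S ⊔ Aug (act a) N := by
  set A := Aug (act a) N with hA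
  have h1 : ∀ s : S, A ≤ A.comap (act a (s : H)) := fun s x hx =>
    rep_mem_Aug (act a) (hN s s.2) hx
  have h2 : A ≤ A.comap bd := fun x hx => bd_mem_Aug a hx
  let ρ : Representation (ZMod 2) ↥S (Ch V ⧸ A) :=
    { toFun := fun s => A.mapQ A (act a (s : H)) (h1 s)
      map_one' := by
        refine Submodule.linearMap_qext _ (LinearMap.ext fun x => ?_)
        simp
      map_mul' := fun s t => by
        refine Submodule.linearMap_qext _ (LinearMap.ext fun x => ?_)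
        simp }
  have hρ : ∀ (s : ↥S) x, ρ s (A.mkQ x) = A.mkQ (act a s x) := fun s x => rfl
  have hD : ∀ x, A.mapQ A bd h2 (A.mkQ x) = A.mkQ (bd x) := fun x => rfl
  refine ⟨ρ, A.mapQ A bd h2, hρ, hD, ⟨?_, ?_, ?_, ?_⟩, ?_, ?_⟩
  · rintro s j _ ⟨x, hx, rfl⟩
    exact ⟨_, act_mem_Cs hinv s.2 hx, (hρ s x).symm⟩
  · intro s x
    obtain ⟨x, rfl⟩ := A.mkQ_surjective x
    rw [hρ, hD, hD, hρ, bd_act]
  · intro x
    obtain ⟨x, rfl⟩ := A.mkQ_surjective x
    rw [hD, hD, bd_bd, map_zero]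
  · rintro j _ ⟨x, hx, rfl⟩
    exact ⟨_, bd_mem_Cs hK hx, (hD x).symm⟩
  · rintro i hv _ ⟨x, hx, rfl⟩ h0
    rw [hD, Submodule.mkQ_apply, Submodule.Quotient.mk_eq_zero] at h0
    obtain ⟨y, hy, hy'⟩ := hv x hx h0
    refine ⟨_, ⟨y, hy, rfl⟩, ?_⟩
    rw [hD, Submodule.mkQ_apply, Submodule.mkQ_apply, eq_comm, Submodule.Quotient.eq]
    exact hy'
  · intro x hx
    have : Aug ρ ⊤ ≤ (Aug (act a) S).map A.mkQ := by
      refine Submodule.span_le.2 ?_
      rintro _ ⟨s, -, z, rfl⟩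
      obtain ⟨z, rfl⟩ := A.mkQ_surjective z
      exact ⟨_, sub_mem_Aug (act a) s.2 z, by rw [map_sub, hρ]⟩
    obtain ⟨z, hz, e⟩ := this hx
    rw [Submodule.mkQ_apply, Submodule.mkQ_apply, eq_comm, Submodule.Quotient.eq] at e
    have := Submodule.add_mem_sup hz e
    rwa [add_sub_cancel] at this

/-- TRIV.  Recipe: `null_homotopy` for the group `↥S` (action `a.comp S.subtype`, `Aug_subtype`,
`OddStab.comp`), target `quot_target`, `θ = mkQ ∘ (act a g - 1)`; equivariance because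
`g s = (g s g⁻¹ s⁻¹) (s g)` and `N` acts trivially on the quotient. -/
theorem triv {a : H →* Equiv.Perm V} {K : Set (Finset V)} (hK : IsCx K) (hinv : Inv a ⊤ K)
    (S N : Subgroup H) (hodd : OddStab a S K) (hN : ∀ s ∈ S, ∀ x ∈ N, s * x * s⁻¹ ∈ N) (g : H)
    (hg : ∀ s ∈ S, g * s * g⁻¹ * s⁻¹ ∈ N) {j : ℕ} (hv : ∀ i ≤ j, Van a N K i) :
    ∀ x ∈ Cs K j, bd x ∈ Aug (act a) S →
      ∃ y ∈ Cs K (j + 1), act a g x - x - bd y ∈ Aug (act a) S ⊔ Aug (act a) N := by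
  intro x hx hb
  obtain ⟨ρ, D, hρ, hD, hT, hE, hA⟩ := quot_target hK S N (hinv.mono le_top) hN
  have hq : ∀ n ∈ N, ∀ z, (Aug (act a) N).mkQ (act a n z) = (Aug (act a) N).mkQ z := fun n hn z => by
    rw [Submodule.mkQ_apply, Submodule.mkQ_apply, Submodule.Quotient.eq]
    exact sub_mem_Aug _ hn z
  obtain ⟨_, ⟨y, hy, rfl⟩, hy'⟩ := null_homotopy (a := a.comp S.subtype) hK
    (hinv.comp _ le_top) (hodd.comp _ S.subtype_injective (by rintro _ ⟨s, -, rfl⟩; exact s.2)) hT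
    ((Aug (act a) N).mkQ ∘ₗ (act a g - LinearMap.id)) (fun s z => by
      simp only [LinearMap.comp_apply, LinearMap.sub_apply, LinearMap.id_apply, map_sub, hρ]
      congr 1
      rw [← hq _ (hg s s.2) (act a s (act a g z))]
      congr 1
      change act a g (act a s z) = _
      simp [← Module.End.mul_apply, ← map_mul]) (by simp) j
    (fun i _ z hz => by
      refine ⟨⟨_, Submodule.sub_mem _ (act_mem_Cs hinv trivial hz) hz, rfl⟩, ?_⟩
      simp only [LinearMap.comp_apply, LinearMap.sub_apply, LinearMap.id_apply, hD, map_sub,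
        bd_act])
    (fun i hi => hE i (hv i hi)) x hx (by rwa [Aug_subtype])
  refine ⟨y, hy, hA _ ?_⟩
  rw [hD] at hy'
  rw [map_sub]
  exact hy'

/-- RETRACT.  Recipe: `exists_chainMap` from the `↥S`-complex to `Ch V` with `↥S` acting through `π`
(`target_self` for `a.comp π`) gives `φ`; `x' = φ x`, `bd x' = φ (bd x) ∈ Aug L` (`Aug_map`).
`null_homotopy` for `θ = mkQ ∘ (1 - φ)` into `quot_target`. -/
theorem retract {a : H →* Equiv.Perm V} {K : Set (Finset V)} (hK : IsCx K) (hinv : Inv a ⊤ K)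
    (S L N : Subgroup H) (hodd : OddStab a S K) (hN : ∀ s ∈ S, ∀ x ∈ N, s * x * s⁻¹ ∈ N)
    (π : ↥S →* H) (hπL : ∀ s, π s ∈ L) (hπN : ∀ s : ↥S, (s : H) * (π s)⁻¹ ∈ N) {j : ℕ}
    (hex : ∀ i < j, Exact K i) (hv : ∀ i ≤ j, Van a N K i) :
    ∀ x ∈ Cs K j, bd x ∈ Aug (act a) S → ∃ x' ∈ Cs K j, bd x' ∈ Aug (act a) L ∧
      ∃ y ∈ Cs K (j + 1), x - x' - bd y ∈ Aug (act a) S ⊔ Aug (act a) N := by
  intro x hx hb
  obtain ⟨ρ, D, hρ, hD, hT, hE, hA⟩ := quot_target hK S N (hinv.mono le_top) hN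
  have hq : ∀ n ∈ N, ∀ z, (Aug (act a) N).mkQ (act a n z) = (Aug (act a) N).mkQ z := fun n hn z => by
    rw [Submodule.mkQ_apply, Submodule.mkQ_apply, Submodule.Quotient.eq]
    exact sub_mem_Aug _ hn z
  have hi1 : Inv (a.comp S.subtype) ⊤ K := hinv.comp _ le_top
  have ho1 : OddStab (a.comp S.subtype) ⊤ K :=
    hodd.comp _ S.subtype_injective (by rintro _ ⟨s, -, rfl⟩; exact s.2)
  obtain ⟨φ, h1, h2, h3⟩ := exists_chainMap hK hi1 ho1
    (target_self (a := a.comp π) hK (hinv.comp _ le_top)) (Finsupp.single ∅ 1)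
    (single_mem_Cs hK.1 rfl 1) (by simp) (by simp) j hex
  have hb' : bd x ∈ Aug (act (a.comp S.subtype)) ⊤ := by rwa [Aug_subtype]
  obtain ⟨_, ⟨y, hy, rfl⟩, hy'⟩ := null_homotopy hK hi1 ho1 hT
    ((Aug (act a) N).mkQ ∘ₗ (LinearMap.id - φ)) (fun s z => by
      simp only [LinearMap.comp_apply, LinearMap.sub_apply, LinearMap.id_apply, map_sub, hρ, h1]
      congr 1
      rw [← hq _ (hπN s)]
      congr 1
      change act a _ (act a (π s) (φ z)) = _
      rw [← Module.End.mul_apply, ← map_mul, inv_mul_cancel_right]) (by simp [h2]) j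
    (fun i hi z hz => by
      refine ⟨⟨_, Submodule.sub_mem _ hz (h3 i hi z hz).1, rfl⟩, ?_⟩
      simp only [LinearMap.comp_apply, LinearMap.sub_apply, LinearMap.id_apply, hD, map_sub,
        (h3 i hi z hz).2])
    (fun i hi => hE i (hv i hi)) x hx hb'
  refine ⟨φ x, (h3 j le_rfl x hx).1, ?_, y, hy, hA _ ?_⟩
  · rw [(h3 j le_rfl x hx).2]
    exact Aug_map _ (act a) ⊤ L φ (fun s _ => ⟨π s, hπL s, h1 s⟩) hb'
  · rw [hD] at hy'
    rw [map_sub]
    exact hy'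

/-- COMPARE.  Recipe: restrict to the group `↥S`; chain maps `α : C(K) → C(K')` (up to `j`) and
`β : C(K') → C(K)` (up to `j+1`), `null_homotopy` for `1 - β ∘ α`. -/
theorem compare {a : H →* Equiv.Perm V} {a' : H →* Equiv.Perm V'} (S : Subgroup H)
    {K : Set (Finset V)} {K' : Set (Finset V')} (hK : IsCx K) (hK' : IsCx K') (hi : Inv a S K)
    (hi' : Inv a' S K') (ho : OddStab a S K) (ho' : OddStab a' S K') {j : ℕ}
    (he : ∀ i ≤ j, Exact K i) (he' : ∀ i ≤ j, Exact K' i) (hv : Van a' S K' j) : Van a S K j := by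
  intro x hx hb
  have hS : (⊤ : Subgroup S).map S.subtype ≤ S := by rintro _ ⟨s, -, rfl⟩; exact s.2
  have hi1 : Inv (a.comp S.subtype) ⊤ K := hi.comp _ hS
  have ho1 : OddStab (a.comp S.subtype) ⊤ K := ho.comp _ S.subtype_injective hS
  have hi2 : Inv (a'.comp S.subtype) ⊤ K' := hi'.comp _ hS
  have ho2 : OddStab (a'.comp S.subtype) ⊤ K' := ho'.comp _ S.subtype_injective hS
  obtain ⟨α, a1, a2, a3⟩ := exists_chainMap hK hi1 ho1 (target_self hK' hi2) (Finsupp.single ∅ 1)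
    (single_mem_Cs hK'.1 rfl 1) (by simp) (by simp) j (fun i hi => he' i hi.le)
  obtain ⟨β, b1, b2, b3⟩ := exists_chainMap hK' hi2 ho2 (target_self hK hi1) (Finsupp.single ∅ 1)
    (single_mem_Cs hK.1 rfl 1) (by simp) (by simp) (j + 1) (fun i hi => he i (by omega))
  have hb' : bd x ∈ Aug (act (a.comp S.subtype)) ⊤ := by rwa [Aug_subtype]
  obtain ⟨y, hy, hy'⟩ := null_homotopy hK hi1 ho1 (target_self hK hi1)
    (LinearMap.id - β ∘ₗ α) (fun s z => by
      simp only [LinearMap.comp_apply, LinearMap.sub_apply, LinearMap.id_apply, map_sub, a1, b1])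
    (by simp [a2, b2]) j
    (fun i hi z hz => by
      have h1 := a3 i hi z hz
      have h2 := b3 i (by omega) _ h1.1
      refine ⟨Submodule.sub_mem _ hz h2.1, ?_⟩
      simp only [LinearMap.comp_apply, LinearMap.sub_apply, LinearMap.id_apply, map_sub, h2.2,
        h1.2])
    he x hx hb'
  obtain ⟨y', hy1, hy2⟩ := hv (α x) (a3 j le_rfl x hx).1 (by
    rw [(a3 j le_rfl x hx).2, ← Aug_subtype]
    exact Aug_map _ _ ⊤ ⊤ α (fun s _ => ⟨s, trivial, a1 s⟩) hb')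
  rw [← Aug_subtype] at hy2
  have h3 := Aug_map _ (act (a.comp S.subtype)) ⊤ ⊤ β (fun s _ => ⟨s, trivial, b1 s⟩) hy2
  have h4 := b3 (j + 1) le_rfl y' hy1
  refine ⟨y + β y', Submodule.add_mem _ hy h4.1, ?_⟩
  rw [← Aug_subtype]
  convert Submodule.add_mem _ hy' h3 using 1
  simp only [LinearMap.comp_apply, LinearMap.sub_apply, LinearMap.id_apply, map_sub, map_add, h4.2]
  abel

end Crest.Agent.R66
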