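import Crest.Agent.R66.GH1

/-! # Row 66: Shapiro's lemma and the zig-zag argument -/

set_option linter.unusedSectionVars false

set_option maxHeartbeats 400000

namespace Crest.Agent.R66

section shapiro
variable {H : Type*} [Group H] {U : Type*} [DecidableEq U]
  {M E : Type*} [AddCommGroup M] [Module (ZMod 2) M] [AddCommGroup E] [Module (ZMod 2) E]

theorem image_mul_act (b : H →* Equiv.Perm U) (g h : H) (s : Finset U) :
    s.image (b (g * h)) = (s.image (b h)).image (b g) := by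
  rw [map_mul, Equiv.Perm.coe_mul, Finset.image_image]

theorem image_one_act (b : H →* Equiv.Perm U) (s : Finset U) : s.image (b 1) = s := by
  simp

theorem exists_orbit_rep (b : H →* Equiv.Perm U) (Γ : Subgroup H) (Rep : Set (Finset U)) :
    ∃ (r : Finset U → Finset U) (t : Finset U → H),
      (∀ s, t s ∈ Γ ∧ s.image (b (t s)) = r s) ∧
      (∀ s, (∃ γ ∈ Γ, s.image (b γ) ∈ Rep) → r s ∈ Rep) ∧
      (∀ s, ∀ h ∈ Γ, r (s.image (b h)) = r s) := by
  classical
  let C : Finset U → Set (Finset U) := fun s => {s' | ∃ γ ∈ Γ, s.image (b γ) = s'}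
  let pick : Set (Finset U) → Finset U := fun A =>
    if h : (A ∩ Rep).Nonempty then h.some else if h' : A.Nonempty then h'.some else ∅
  have hmem : ∀ s, pick (C s) ∈ C s := by
    intro s
    have hne : (C s).Nonempty := ⟨s, 1, Γ.one_mem, image_one_act b s⟩
    by_cases h : (C s ∩ Rep).Nonempty
    · simp only [pick, dif_pos h]; exact h.some_mem.1
    · simp only [pick, dif_neg h, dif_pos hne]; exact hne.some_mem
  choose t ht using hmem
  refine ⟨fun s => pick (C s), t, ht, ?_, ?_⟩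
  · rintro s ⟨γ, hγ, hs⟩
    have h : (C s ∩ Rep).Nonempty := ⟨_, ⟨γ, hγ, rfl⟩, hs⟩
    simp only [pick, dif_pos h]; exact h.some_mem.2
  · intro s h hh
    have : C (s.image (b h)) = C s := by
      ext s'
      constructor
      · rintro ⟨γ, hγ, rfl⟩
        exact ⟨γ * h, Γ.mul_mem hγ hh, image_mul_act b γ h s⟩
      · rintro ⟨γ, hγ, rfl⟩
        refine ⟨γ * h⁻¹, Γ.mul_mem hγ (Γ.inv_mem hh), ?_⟩
        rw [← image_mul_act, inv_mul_cancel_right]
    simp only [this]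

/-- normal form modulo `Aug Γ` in `E ≅ ⊕_s M`. -/
theorem shapiro_nf (b : H →* Equiv.Perm U) (Γ : Subgroup H) (ρ : Representation (ZMod 2) H M)
    (ρE : Representation (ZMod 2) H E) (e : (Finset U →₀ M) ≃ₗ[ZMod 2] E)
    (he : ∀ h s m, ρE h (e (Finsupp.single s m)) = e (Finsupp.single (s.image (b h)) (ρ h m)))
    (Rep : Set (Finset U)) :
    ∃ (r : Finset U → Finset U) (t : Finset U → H) (Φ : E →ₗ[ZMod 2] E),
      (∀ s, t s ∈ Γ ∧ s.image (b (t s)) = r s) ∧
      (∀ s, (∃ γ ∈ Γ, s.image (b γ) ∈ Rep) → r s ∈ Rep) ∧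
      (∀ s m, Φ (e (Finsupp.single s m)) = e (Finsupp.single (r s) (ρ (t s) m))) ∧
      (∀ x, x - Φ x ∈ Aug ρE Γ) ∧
      (∀ x ∈ Aug ρE Γ, ∀ s, e.symm (Φ x) s ∈ Aug ρ (stab b Γ s)) := by
  classical
  obtain ⟨r, t, h1, h2, h3⟩ := exists_orbit_rep b Γ Rep
  let Φ₀ : (Finset U →₀ M) →ₗ[ZMod 2] (Finset U →₀ M) :=
    Finsupp.lsum (ZMod 2) fun s => Finsupp.lsingle (r s) ∘ₗ ρ (t s)
  let Φ : E →ₗ[ZMod 2] E := (e : _ →ₗ[ZMod 2] E) ∘ₗ Φ₀ ∘ₗ (e.symm : E →ₗ[ZMod 2] _)
  have hΦ : ∀ s m, Φ (e (Finsupp.single s m)) = e (Finsupp.single (r s) (ρ (t s) m)) := by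
    intro s m
    simp [Φ, Φ₀]
  refine ⟨r, t, Φ, h1, h2, hΦ, ?_, ?_⟩
  · intro x
    obtain ⟨y, rfl⟩ := e.surjective x
    induction y using Finsupp.induction_linear with
    | zero => simp
    | add f g hf hg =>
      have := (Aug ρE Γ).add_mem hf hg
      convert this using 1
      rw [map_add, map_add]; abel
    | single s m =>
      rw [hΦ, ← (h1 s).2, ← he]
      have := (Aug ρE Γ).neg_mem (sub_mem_Aug ρE (h1 s).1 (e (Finsupp.single s m)))
      rwa [neg_sub] at this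
  · intro x hx s
    refine map_mem_of_Aug ρE Γ
      (Finsupp.lapply s ∘ₗ (e.symm : E →ₗ[ZMod 2] (Finset U →₀ M)) ∘ₗ Φ) _ (fun h hh x => ?_) hx
    obtain ⟨y, rfl⟩ := e.surjective x
    induction y using Finsupp.induction_linear with
    | zero => simp
    | add f g hf hg =>
      have := (Aug ρ (stab b Γ s)).add_mem hf hg
      convert this using 1
      rw [← map_add, map_add e, map_add (ρE h)]; congr 1; abel
    | single s' m =>
      simp only [LinearMap.comp_apply, map_sub, he, hΦ, LinearEquiv.coe_coe,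
        LinearEquiv.symm_apply_apply, Finsupp.lapply_apply, h3 s' h hh]
      by_cases hs : r s' = s
      · rw [hs, Finsupp.single_eq_same, Finsupp.single_eq_same]
        have hk : t (s'.image (b h)) * h * (t s')⁻¹ ∈ stab b Γ s := by
          refine ⟨Γ.mul_mem (Γ.mul_mem (h1 _).1 hh) (Γ.inv_mem (h1 _).1), ?_⟩
          conv_lhs => rw [← hs, ← (h1 s').2]
          rw [← image_mul_act, inv_mul_cancel_right, image_mul_act, (h1 _).2, h3 s' h hh, hs]
        have := sub_mem_Aug ρ hk (ρ (t s') m)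
        convert this using 2
        simp [← Module.End.mul_apply, ← map_mul]
      · rw [Finsupp.single_eq_of_ne (Ne.symm hs), Finsupp.single_eq_of_ne (Ne.symm hs), sub_zero]
        exact Submodule.zero_mem _

theorem single_mem_Aug (b : H →* Equiv.Perm U) (Γ : Subgroup H)
    (ρ : Representation (ZMod 2) H M) (ρE : Representation (ZMod 2) H E)
    (e : (Finset U →₀ M) ≃ₗ[ZMod 2] E)
    (he : ∀ h s m, ρE h (e (Finsupp.single s m)) = e (Finsupp.single (s.image (b h)) (ρ h m)))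
    (s : Finset U) {m : M} (hm : m ∈ Aug ρ (stab b Γ s)) :
    e (Finsupp.single s m) ∈ Aug ρE Γ := by
  refine Aug_map ρ ρE (stab b Γ s) Γ ((e : _ →ₗ[ZMod 2] E) ∘ₗ Finsupp.lsingle s)
    (fun h hh => ⟨h, hh.1, fun x => ?_⟩) hm
  simp only [LinearMap.comp_apply, Finsupp.lsingle_apply, LinearEquiv.coe_coe, he, hh.2]

/-- the normal form of an element supported on `S₀` with values in `P`. -/
theorem nf_components (b : H →* Equiv.Perm U) (Γ : Subgroup H) (ρ : Representation (ZMod 2) H M)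
    (e : (Finset U →₀ M) ≃ₗ[ZMod 2] E) {r : Finset U → Finset U} {t : Finset U → H}
    {Φ : E →ₗ[ZMod 2] E} {S₀ Rep : Set (Finset U)}
    (h1 : ∀ s, t s ∈ Γ ∧ s.image (b (t s)) = r s)
    (h2 : ∀ s, (∃ γ ∈ Γ, s.image (b γ) ∈ Rep) → r s ∈ Rep)
    (hΦ : ∀ s m, Φ (e (Finsupp.single s m)) = e (Finsupp.single (r s) (ρ (t s) m)))
    (hS : ∀ γ ∈ Γ, ∀ s ∈ S₀, s.image (b γ) ∈ S₀)
    (hRep : ∀ s ∈ S₀, ∃ γ ∈ Γ, s.image (b γ) ∈ Rep) {P : Submodule (ZMod 2) M}
    (hP : ∀ γ ∈ Γ, ∀ x ∈ P, ρ γ x ∈ P)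
    {x : E} (hx : ∀ s, e.symm x s ∈ P ∧ (s ∉ S₀ → e.symm x s = 0)) :
    ∀ s, e.symm (Φ x) s ∈ P ∧ (¬ (s ∈ S₀ ∧ s ∈ Rep) → e.symm (Φ x) s = 0) := by
  classical
  intro s
  have hx' : x = ∑ s' ∈ (e.symm x).support, e (Finsupp.single s' (e.symm x s')) := by
    rw [← map_sum]
    conv_lhs => rw [← e.apply_symm_apply x, ← Finsupp.sum_single (e.symm x)]
    rfl
  have hval : e.symm (Φ x) s = ∑ s' ∈ (e.symm x).support,
      (Finsupp.single (r s') (ρ (t s') (e.symm x s')) : Finset U →₀ M) s := by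
    conv_lhs => rw [hx', map_sum, map_sum, Finsupp.finsetSum_apply]
    simp only [hΦ, LinearEquiv.symm_apply_apply]
  rw [hval]
  constructor
  · refine P.sum_mem fun s' _ => ?_
    rw [Finsupp.single_apply]
    split_ifs
    · exact hP _ (h1 s').1 _ (hx s').1
    · exact P.zero_mem
  · intro hs
    refine Finset.sum_eq_zero fun s' hs' => ?_
    have hs0 : s' ∈ S₀ := by
      by_contra h
      exact Finsupp.mem_support_iff.1 hs' ((hx s').2 h)
    refine Finsupp.single_eq_of_ne ?_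
    rintro rfl
    exact hs ⟨(h1 s').2 ▸ hS _ (h1 s').1 s' hs0, h2 s' (hRep s' hs0)⟩

/-- Shapiro's lemma. -/
theorem shapiro (b : H →* Equiv.Perm U) (Γ : Subgroup H) (ρ : Representation (ZMod 2) H M)
    (ρE : Representation (ZMod 2) H E) (e : (Finset U →₀ M) ≃ₗ[ZMod 2] E)
    (he : ∀ h s m, ρE h (e (Finsupp.single s m)) = e (Finsupp.single (s.image (b h)) (ρ h m)))
    (D : M →ₗ[ZMod 2] M) (hD : ∀ h x, D (ρ h x) = ρ h (D x)) (DE : E →ₗ[ZMod 2] E)
    (hDE : ∀ s m, DE (e (Finsupp.single s m)) = e (Finsupp.single s (D m)))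
    (S₀ Rep : Set (Finset U)) (hS : ∀ γ ∈ Γ, ∀ s ∈ S₀, s.image (b γ) ∈ S₀)
    (hRep : ∀ s ∈ S₀, ∃ γ ∈ Γ, s.image (b γ) ∈ Rep) (P P' : Submodule (ZMod 2) M)
    (hP : ∀ γ ∈ Γ, ∀ x ∈ P, ρ γ x ∈ P)
    (hv : ∀ s ∈ S₀, s ∈ Rep → ∀ x ∈ P, D x ∈ Aug ρ (stab b Γ s) →
      ∃ y ∈ P', x - D y ∈ Aug ρ (stab b Γ s))
    {x : E} (hx : ∀ s, e.symm x s ∈ P ∧ (s ∉ S₀ → e.symm x s = 0)) (hDx : DE x ∈ Aug ρE Γ) :
    ∃ y : E, (∀ s, e.symm y s ∈ P' ∧ (s ∉ S₀ → e.symm y s = 0)) ∧ x - DE y ∈ Aug ρE Γ := by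
  classical
  obtain ⟨r, t, Φ, h1, h2, hΦ, h4, h5⟩ := shapiro_nf b Γ ρ ρE e he Rep
  have hz := nf_components b Γ ρ e h1 h2 hΦ hS hRep hP hx
  have hcomm : ∀ w, Φ (DE w) = DE (Φ w) := by
    intro w
    obtain ⟨y, rfl⟩ := e.surjective w
    induction y using Finsupp.induction_linear with
    | zero => simp
    | add f g hf hg => simp only [map_add, hf, hg]
    | single s m => rw [hDE, hΦ, hΦ, hDE, hD]
  have hcomp : ∀ w s, e.symm (DE w) s = D (e.symm w s) := by
    intro w s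
    obtain ⟨y, rfl⟩ := e.surjective w
    induction y using Finsupp.induction_linear with
    | zero => simp
    | add f g hf hg => simp only [map_add, Finsupp.add_apply, hf, hg]
    | single s' m =>
      rw [hDE, LinearEquiv.symm_apply_apply, LinearEquiv.symm_apply_apply, Finsupp.single_apply,
        Finsupp.single_apply]
      split_ifs <;> simp
  set z := e.symm (Φ x) with hzdef
  have hex : ∀ s ∈ z.support, ∃ y ∈ P', z s - D y ∈ Aug ρ (stab b Γ s) := by
    intro s hs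
    have hs' : s ∈ S₀ ∧ s ∈ Rep := by
      by_contra h
      exact Finsupp.mem_support_iff.1 hs ((hz s).2 h)
    refine hv s hs'.1 hs'.2 _ (hz s).1 ?_
    rw [hzdef, ← hcomp, ← hcomm]
    exact h5 _ hDx s
  choose! y hy using hex
  refine ⟨e (∑ s ∈ z.support, Finsupp.single s (y s)), fun s => ?_, ?_⟩
  · rw [LinearEquiv.symm_apply_apply, Finsupp.finsetSum_apply]
    constructor
    · refine P'.sum_mem fun s' hs' => ?_
      rw [Finsupp.single_apply]
      split_ifs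
      · exact (hy s' hs').1
      · exact P'.zero_mem
    · intro hs
      refine Finset.sum_eq_zero fun s' hs' => Finsupp.single_eq_of_ne ?_
      rintro rfl
      exact Finsupp.mem_support_iff.1 hs' ((hz s).2 fun h => hs h.1)
  · have hΦx : Φ x = ∑ s ∈ z.support, e (Finsupp.single s (z s)) := by
      rw [← map_sum]
      conv_lhs => rw [← e.apply_symm_apply (Φ x), ← hzdef, ← Finsupp.sum_single z]
      rfl
    have : Φ x - DE (e (∑ s ∈ z.support, Finsupp.single s (y s))) ∈ Aug ρE Γ := by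
      rw [hΦx, map_sum, map_sum, ← Finset.sum_sub_distrib]
      refine Submodule.sum_mem _ fun s hs => ?_
      rw [hDE, ← map_sub, ← Finsupp.single_sub]
      exact single_mem_Aug b Γ ρ ρE e he s (hy s hs).2
    have := (Aug ρE Γ).add_mem (h4 x) this
    rwa [sub_add_sub_cancel] at this

end shapiro

/-- the abstract zig-zag in a double complex modulo a subcomplex `I`. -/
theorem zigzag_abs {E : Type*} [AddCommGroup E] [Module (ZMod 2) E] (I : Submodule (ZMod 2) E)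
    (dK dU : E →ₗ[ZMod 2] E) (P : ℕ → ℕ → Submodule (ZMod 2) E)
    (comm : ∀ x, dK (dU x) = dU (dK x)) (hUU : ∀ x, dU (dU x) = 0) (hKK : ∀ x, dK (dK x) = 0)
    (hKI : ∀ x ∈ I, dK x ∈ I) (hUI : ∀ x ∈ I, dU x ∈ I)
    (hKP : ∀ i k, ∀ x ∈ P i (k + 1), dK x ∈ P i k) (hUP : ∀ i k, ∀ x ∈ P (i + 1) k, dU x ∈ P i k)
    (hK0 : ∀ i, ∀ x ∈ P i 0, dK x = 0) (hU0 : ∀ k, ∀ x ∈ P 0 k, dU x = 0) (j : ℕ)
    (row : ∀ i k, i + k = j → ∀ x ∈ P i k, dU x ∈ I → ∃ y ∈ P (i + 1) k, x - dU y ∈ I)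
    (col : ∀ i k, 2 ≤ i → i + k = j + 1 → ∀ x ∈ P i k, dK x ∈ I →
      ∃ y ∈ P i (k + 1), x - dK y ∈ I) :
    ∀ x ∈ P 0 j, dK x ∈ I → ∃ x₁ ∈ P 1 j, dK x₁ ∈ I ∧ x - dU x₁ ∈ I := by
  have key : ∀ k i, 2 ≤ i → i + k = j + 1 → ∀ x ∈ P i k, dU (dK x) ∈ I →
      ∃ y ∈ P i (k + 1), dU (x - dK y) ∈ I := by
    intro k
    induction k with
    | zero =>
      intro i hi hk x hx _
      obtain ⟨y, hy, h⟩ := col i 0 hi hk x hx (by rw [hK0 i x hx]; exact I.zero_mem)
      exact ⟨y, hy, hUI _ h⟩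
    | succ k ih =>
      intro i hi hk x hx hd
      obtain ⟨x', hx', h1⟩ := row i k (by omega) (dK x) (hKP i k x hx) hd
      have h2 : dU (dK x') ∈ I := by
        have := hKI _ h1
        rw [map_sub, hKK, zero_sub, comm] at this
        exact I.neg_mem_iff.1 this
      obtain ⟨y', hy', h3⟩ := ih (i + 1) (by omega) (by omega) x' hx' h2
      have h4 : dK (x - dU y') ∈ I := by
        have := I.add_mem h1 h3
        convert this using 1
        rw [map_sub, map_sub, comm]; abel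
      obtain ⟨y, hy, h5⟩ := col i (k + 1) hi hk (x - dU y')
        ((P i (k + 1)).sub_mem hx (hUP i (k + 1) y' hy')) h4
      refine ⟨y, hy, ?_⟩
      have := hUI _ h5
      convert this using 1
      simp only [map_sub, hUU]; abel
  intro x hx hd
  obtain ⟨x₁, hx₁, h1⟩ := row 0 j (by omega) x hx (by rw [hU0 j x hx]; exact I.zero_mem)
  rcases j with _ | j
  · exact ⟨x₁, hx₁, by rw [hK0 _ x₁ hx₁]; exact I.zero_mem, h1⟩
  have h2 : dU (dK x₁) ∈ I := by
    have := I.sub_mem hd (hKI _ h1)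
    rwa [map_sub, sub_sub_cancel, comm] at this
  obtain ⟨x₂, hx₂, h3⟩ := row 1 j (by omega) (dK x₁) (hKP _ _ x₁ hx₁) h2
  have h4 : dU (dK x₂) ∈ I := by
    have := hKI _ h3
    rw [map_sub, hKK, zero_sub, comm] at this
    exact I.neg_mem_iff.1 this
  obtain ⟨y₂, hy₂, h5⟩ := key j 2 le_rfl (by omega) x₂ hx₂ h4
  refine ⟨x₁ - dU y₂, (P 1 (j + 1)).sub_mem hx₁ (hUP 1 (j + 1) y₂ hy₂), ?_, ?_⟩
  · have := I.add_mem h3 h5
    convert this using 1
    rw [map_sub, map_sub, comm]; abel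
  · rwa [map_sub, hUU, sub_zero]

section double
variable {H : Type*} [Group H] {V U : Type*} [DecidableEq V] [DecidableEq U]

/-- the total space of the double complex -/
abbrev EE (V U : Type*) := (Finset U × Finset V) →₀ ZMod 2

/-- first identification -/
noncomputable def eOne (V U : Type*) : (Finset U →₀ Ch V) ≃ₗ[ZMod 2] EE V U :=
  (Finsupp.curryLinearEquiv (ZMod 2)).symm

/-- second identification -/
noncomputable def eTwo (V U : Type*) : (Finset V →₀ Ch U) ≃ₗ[ZMod 2] EE V U :=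
  (Finsupp.curryLinearEquiv (ZMod 2)).symm ≪≫ₗ
    Finsupp.domLCongr (Equiv.prodComm (Finset V) (Finset U))

theorem eOne_apply (x : Finset U →₀ Ch V) (τ : Finset U) (σ : Finset V) :
    eOne V U x (τ, σ) = x τ σ := rfl

theorem eTwo_apply (x : Finset V →₀ Ch U) (τ : Finset U) (σ : Finset V) :
    eTwo V U x (τ, σ) = x σ τ := by
  simp [eTwo]

theorem eOne_symm_apply (x : EE V U) (τ : Finset U) (σ : Finset V) :
    (eOne V U).symm x τ σ = x (τ, σ) := by
  rw [← eOne_apply, LinearEquiv.apply_symm_apply]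

theorem eTwo_symm_apply (x : EE V U) (τ : Finset U) (σ : Finset V) :
    (eTwo V U).symm x σ τ = x (τ, σ) := by
  rw [← eTwo_apply, LinearEquiv.apply_symm_apply]

theorem eOne_single (τ : Finset U) (σ : Finset V) (c : ZMod 2) :
    eOne V U (Finsupp.single τ (Finsupp.single σ c)) = Finsupp.single (τ, σ) c := by
  ext ⟨τ', σ'⟩
  rw [eOne_apply]
  by_cases h1 : σ = σ' <;> by_cases h2 : τ = τ' <;> simp [h1, h2]

theorem eTwo_single (τ : Finset U) (σ : Finset V) (c : ZMod 2) :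
    eTwo V U (Finsupp.single σ (Finsupp.single τ c)) = Finsupp.single (τ, σ) c := by
  ext ⟨τ', σ'⟩
  rw [eTwo_apply]
  by_cases h1 : σ = σ' <;> by_cases h2 : τ = τ' <;> simp [h1, h2]

/-- the diagonal action -/
noncomputable def diagRep (a : H →* Equiv.Perm V) (b : H →* Equiv.Perm U) :
    Representation (ZMod 2) H (EE V U) where
  toFun h := Finsupp.lmapDomain (ZMod 2) (ZMod 2)
    (fun p => (p.1.image (b h), p.2.image (a h)))
  map_one' := by
    apply Finsupp.lhom_ext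
    intro s m
    simp
  map_mul' g h := by
    apply Finsupp.lhom_ext
    intro s m
    simp [Finset.image_image]

theorem diagRep_single (a : H →* Equiv.Perm V) (b : H →* Equiv.Perm U) (h : H) (τ : Finset U)
    (σ : Finset V) (c : ZMod 2) : diagRep a b h (Finsupp.single (τ, σ) c) =
      Finsupp.single (τ.image (b h), σ.image (a h)) c := by
  simp [diagRep]

theorem diagRep_one (a : H →* Equiv.Perm V) (b : H →* Equiv.Perm U) (h : H) (s : Finset U)
    (m : Ch V) : diagRep a b h (eOne V U (Finsupp.single s m)) =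
      eOne V U (Finsupp.single (s.image (b h)) (act a h m)) := by
  induction m using Finsupp.induction_linear with
  | zero => simp
  | add f g hf hg => simp only [Finsupp.single_add, map_add, hf, hg]
  | single τ c => rw [eOne_single, diagRep_single, act_single, eOne_single]

theorem diagRep_two (a : H →* Equiv.Perm V) (b : H →* Equiv.Perm U) (h : H) (s : Finset V)
    (m : Ch U) : diagRep a b h (eTwo V U (Finsupp.single s m)) =
      eTwo V U (Finsupp.single (s.image (a h)) (act b h m)) := by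
  induction m using Finsupp.induction_linear with
  | zero => simp
  | add f g hf hg => simp only [Finsupp.single_add, map_add, hf, hg]
  | single τ c => rw [eTwo_single, diagRep_single, act_single, eTwo_single]

/-- the differential in the `K`-direction -/
noncomputable def dKE (V U : Type*) [DecidableEq V] : EE V U →ₗ[ZMod 2] EE V U :=
  Finsupp.linearCombination (ZMod 2)
    (fun p => ∑ v ∈ p.2, Finsupp.single (p.1, p.2.erase v) (1 : ZMod 2))

/-- the differential in the `𝒰`-direction -/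
noncomputable def dUE (V U : Type*) [DecidableEq U] : EE V U →ₗ[ZMod 2] EE V U :=
  Finsupp.linearCombination (ZMod 2)
    (fun p => ∑ u ∈ p.1, Finsupp.single (p.1.erase u, p.2) (1 : ZMod 2))

theorem dKE_single (τ : Finset U) (σ : Finset V) :
    dKE V U (Finsupp.single (τ, σ) 1) = ∑ v ∈ σ, Finsupp.single (τ, σ.erase v) (1 : ZMod 2) := by
  simp [dKE]

theorem dUE_single (τ : Finset U) (σ : Finset V) :
    dUE V U (Finsupp.single (τ, σ) 1) = ∑ u ∈ τ, Finsupp.single (τ.erase u, σ) (1 : ZMod 2) := by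
  simp [dUE]

theorem EE_induction {P : EE V U → Prop} (x : EE V U) (h0 : P 0)
    (hadd : ∀ f g, P f → P g → P (f + g)) (hs : ∀ τ σ, P (Finsupp.single (τ, σ) 1)) : P x := by
  induction x using Finsupp.induction_linear with
  | zero => exact h0
  | add f g hf hg => exact hadd f g hf hg
  | single p c =>
    rcases z2_cases c with rfl | rfl
    · simpa using h0
    · exact hs p.1 p.2

theorem Ch_induction {P : Ch V → Prop} (x : Ch V) (h0 : P 0)
    (hadd : ∀ f g, P f → P g → P (f + g)) (hs : ∀ σ, P (Finsupp.single σ 1)) : P x := by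
  induction x using Finsupp.induction_linear with
  | zero => exact h0
  | add f g hf hg => exact hadd f g hf hg
  | single p c =>
    rcases z2_cases c with rfl | rfl
    · simpa using h0
    · exact hs p

theorem dKE_one (s : Finset U) (m : Ch V) :
    dKE V U (eOne V U (Finsupp.single s m)) = eOne V U (Finsupp.single s (bd m)) := by
  induction m using Ch_induction with
  | h0 => simp
  | hadd f g hf hg => simp only [Finsupp.single_add, map_add, hf, hg]
  | hs σ =>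
    rw [eOne_single, dKE_single, bd_single, Finsupp.single_finsetSum, map_sum]
    simp only [eOne_single]

theorem dUE_two (s : Finset V) (m : Ch U) :
    dUE V U (eTwo V U (Finsupp.single s m)) = eTwo V U (Finsupp.single s (bd m)) := by
  induction m using Ch_induction with
  | h0 => simp
  | hadd f g hf hg => simp only [Finsupp.single_add, map_add, hf, hg]
  | hs σ =>
    rw [eTwo_single, dUE_single, bd_single, Finsupp.single_finsetSum, map_sum]
    simp only [eTwo_single]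

theorem dUE_one (τ : Finset U) (m : Ch V) :
    dUE V U (eOne V U (Finsupp.single τ m)) =
      ∑ u ∈ τ, eOne V U (Finsupp.single (τ.erase u) m) := by
  induction m using Ch_induction with
  | h0 => simp
  | hadd f g hf hg => simp only [Finsupp.single_add, map_add, hf, hg, Finset.sum_add_distrib]
  | hs σ => simp only [eOne_single, dUE_single]

theorem dKE_comp (x : EE V U) (τ : Finset U) :
    (eOne V U).symm (dKE V U x) τ = bd ((eOne V U).symm x τ) := by
  obtain ⟨y, rfl⟩ := (eOne V U).surjective x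
  induction y using Finsupp.induction_linear with
  | zero => simp
  | add f g hf hg => simp only [map_add, Finsupp.add_apply, hf, hg]
  | single s m =>
    rw [dKE_one, LinearEquiv.symm_apply_apply, LinearEquiv.symm_apply_apply, Finsupp.single_apply,
      Finsupp.single_apply]
    split_ifs <;> simp

theorem dUE_comp (x : EE V U) (σ : Finset V) :
    (eTwo V U).symm (dUE V U x) σ = bd ((eTwo V U).symm x σ) := by
  obtain ⟨y, rfl⟩ := (eTwo V U).surjective x
  induction y using Finsupp.induction_linear with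
  | zero => simp
  | add f g hf hg => simp only [map_add, Finsupp.add_apply, hf, hg]
  | single s m =>
    rw [dUE_two, LinearEquiv.symm_apply_apply, LinearEquiv.symm_apply_apply, Finsupp.single_apply,
      Finsupp.single_apply]
    split_ifs <;> simp

theorem dKE_dUE (x : EE V U) : dKE V U (dUE V U x) = dUE V U (dKE V U x) := by
  induction x using EE_induction with
  | h0 => simp
  | hadd f g hf hg => simp only [map_add, hf, hg]
  | hs τ σ =>
    simp only [dUE_single, dKE_single, map_sum]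
    exact Finset.sum_comm

theorem dKE_dKE (x : EE V U) : dKE V U (dKE V U x) = 0 := by
  induction x using EE_induction with
  | h0 => simp
  | hadd f g hf hg => simp only [map_add, hf, hg, add_zero]
  | hs τ σ =>
    simp only [dKE_single, map_sum]
    exact sum_erase_erase σ (fun s => (Finsupp.single (τ, s) (1 : ZMod 2) : EE V U))

theorem dUE_dUE (x : EE V U) : dUE V U (dUE V U x) = 0 := by
  induction x using EE_induction with
  | h0 => simp
  | hadd f g hf hg => simp only [map_add, hf, hg, add_zero]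
  | hs τ σ =>
    simp only [dUE_single, map_sum]
    exact sum_erase_erase τ (fun s => (Finsupp.single (s, σ) (1 : ZMod 2) : EE V U))

theorem dKE_diagRep (a : H →* Equiv.Perm V) (b : H →* Equiv.Perm U) (h : H)
    (x : EE V U) : dKE V U (diagRep a b h x) = diagRep a b h (dKE V U x) := by
  obtain ⟨y, rfl⟩ := (eOne V U).surjective x
  induction y using Finsupp.induction_linear with
  | zero => simp
  | add f g hf hg => simp only [map_add, hf, hg]
  | single τ m => simp only [diagRep_one, dKE_one, bd_act]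

theorem dUE_diagRep (a : H →* Equiv.Perm V) (b : H →* Equiv.Perm U) (h : H)
    (x : EE V U) : dUE V U (diagRep a b h x) = diagRep a b h (dUE V U x) := by
  obtain ⟨y, rfl⟩ := (eTwo V U).surjective x
  induction y using Finsupp.induction_linear with
  | zero => simp
  | add f g hf hg => simp only [map_add, hf, hg]
  | single τ m => simp only [diagRep_two, dUE_two, bd_act]

/-- bigraded pieces -/
def PE (K : Set (Finset V)) (𝒰 : Set (Finset U)) (i k : ℕ) : Submodule (ZMod 2) (EE V U) where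
  carrier := {x | ∀ τ σ, x (τ, σ) ≠ 0 → (τ ∈ 𝒰 ∧ τ.card = i) ∧ σ ∈ K ∧ σ.card = k}
  add_mem' := by
    intro x y hx hy τ σ h
    by_cases h1 : x (τ, σ) = 0
    · refine hy τ σ fun h2 => h ?_
      simp [h1, h2]
    · exact hx τ σ h1
  zero_mem' := by intro τ σ h; simp at h
  smul_mem' := by
    intro c x hx τ σ h
    refine hx τ σ fun h2 => h ?_
    simp [h2]

theorem mem_PE_one {K : Set (Finset V)} {𝒰 : Set (Finset U)} {i k : ℕ} {x : EE V U} :
    x ∈ PE K 𝒰 i k ↔ ∀ τ, (eOne V U).symm x τ ∈ Cs K k ∧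
      (τ ∉ {τ | τ ∈ 𝒰 ∧ τ.card = i} → (eOne V U).symm x τ = 0) := by
  constructor
  · intro h τ
    refine ⟨mem_Cs.2 fun σ hσ => (h τ σ ?_).2, fun hτ => ?_⟩
    · rw [← eOne_symm_apply]; exact Finsupp.mem_support_iff.1 hσ
    · ext σ
      by_contra h2
      rw [eOne_symm_apply] at h2
      exact hτ (h τ σ h2).1
  · intro h τ σ h2
    rw [← eOne_symm_apply] at h2
    refine ⟨?_, mem_Cs.1 (h τ).1 σ (Finsupp.mem_support_iff.2 h2)⟩
    by_contra h3
    rw [(h τ).2 h3] at h2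
    exact h2 rfl

theorem mem_PE_two {K : Set (Finset V)} {𝒰 : Set (Finset U)} {i k : ℕ} {x : EE V U} :
    x ∈ PE K 𝒰 i k ↔ ∀ σ, (eTwo V U).symm x σ ∈ Cs 𝒰 i ∧
      (σ ∉ {σ | σ ∈ K ∧ σ.card = k} → (eTwo V U).symm x σ = 0) := by
  constructor
  · intro h σ
    refine ⟨mem_Cs.2 fun τ hτ => (h τ σ ?_).1, fun hσ => ?_⟩
    · rw [← eTwo_symm_apply]; exact Finsupp.mem_support_iff.1 hτ
    · ext τ
      by_contra h2
      rw [eTwo_symm_apply] at h2
      exact hσ (h τ σ h2).2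
  · intro h τ σ h2
    rw [← eTwo_symm_apply] at h2
    refine ⟨mem_Cs.1 (h σ).1 τ (Finsupp.mem_support_iff.2 h2), ?_⟩
    by_contra h3
    rw [(h σ).2 h3] at h2
    exact h2 rfl

theorem dKE_mem_PE {K : Set (Finset V)} {𝒰 : Set (Finset U)} (hK : IsCx K) {i k : ℕ}
    {x : EE V U} (hx : x ∈ PE K 𝒰 i (k + 1)) : dKE V U x ∈ PE K 𝒰 i k := by
  rw [mem_PE_one] at hx ⊢
  intro τ
  rw [dKE_comp]
  exact ⟨bd_mem_Cs hK (hx τ).1, fun h => by rw [(hx τ).2 h, map_zero]⟩

theorem dKE_eq_zero {K : Set (Finset V)} {𝒰 : Set (Finset U)} {i : ℕ}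
    {x : EE V U} (hx : x ∈ PE K 𝒰 i 0) : dKE V U x = 0 := by
  rw [mem_PE_one] at hx
  apply (eOne V U).symm.injective
  ext τ : 1
  rw [dKE_comp, bd_eq_zero_of_Cs_zero (hx τ).1, map_zero]; rfl

theorem dUE_mem_PE {K : Set (Finset V)} {𝒰 : Set (Finset U)} (hU : IsCx 𝒰) {i k : ℕ}
    {x : EE V U} (hx : x ∈ PE K 𝒰 (i + 1) k) : dUE V U x ∈ PE K 𝒰 i k := by
  rw [mem_PE_two] at hx ⊢
  intro τ
  rw [dUE_comp]
  exact ⟨bd_mem_Cs hU (hx τ).1, fun h => by rw [(hx τ).2 h, map_zero]⟩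

theorem dUE_eq_zero {K : Set (Finset V)} {𝒰 : Set (Finset U)} {k : ℕ}
    {x : EE V U} (hx : x ∈ PE K 𝒰 0 k) : dUE V U x = 0 := by
  rw [mem_PE_two] at hx
  apply (eTwo V U).symm.injective
  ext τ : 1
  rw [dUE_comp, bd_eq_zero_of_Cs_zero (hx τ).1, map_zero]; rfl

variable {a : H →* Equiv.Perm V} {b : H →* Equiv.Perm U} {Γ : Subgroup H} {K : Set (Finset V)}
    {𝒰 : Set (Finset U)}

theorem stab_empty_zz (a : H →* Equiv.Perm V) (Γ : Subgroup H) :
    stab a Γ (∅ : Finset V) = Γ := by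
  ext h; simp [mem_stab]

theorem inv_level (hiK : Inv a Γ K) (i : ℕ) : ∀ γ ∈ Γ, ∀ s ∈ {τ | τ ∈ K ∧ τ.card = i},
    s.image (a γ) ∈ {τ | τ ∈ K ∧ τ.card = i} := fun γ hγ s hs =>
  ⟨hiK γ hγ s hs.1, by rw [Finset.card_image_of_injective _ (a γ).injective, hs.2]⟩

theorem dKE_mem_Aug {y : EE V U} (hy : y ∈ Aug (diagRep a b) Γ) :
    dKE V U y ∈ Aug (diagRep a b) Γ :=
  Aug_map (diagRep a b) (diagRep a b) Γ Γ (dKE V U) (fun h hh => ⟨h, hh, dKE_diagRep a b h⟩) hy

theorem dUE_mem_Aug {y : EE V U} (hy : y ∈ Aug (diagRep a b) Γ) :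
    dUE V U y ∈ Aug (diagRep a b) Γ :=
  Aug_map (diagRep a b) (diagRep a b) Γ Γ (dUE V U) (fun h hh => ⟨h, hh, dUE_diagRep a b h⟩) hy

theorem zz_row (hiK : Inv a Γ K) (hiU : Inv b Γ 𝒰) (hodd : OddStab a Γ K) {i k : ℕ}
    (hUe : Exact 𝒰 i) (hUv : Van b Γ 𝒰 i) {y : EE V U} (hy : y ∈ PE K 𝒰 i k)
    (hd : dUE V U y ∈ Aug (diagRep a b) Γ) :
    ∃ y' ∈ PE K 𝒰 (i + 1) k, y - dUE V U y' ∈ Aug (diagRep a b) Γ := by
  rw [mem_PE_two] at hy
  obtain ⟨y', hy', h⟩ := shapiro (M := Ch U) (E := EE V U) a Γ (act b) (diagRep a b)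
    (eTwo V U) (diagRep_two a b) bd (bd_act b) (dUE V U) dUE_two _ Set.univ (inv_level hiK k)
    (fun s _ => ⟨1, Γ.one_mem, Set.mem_univ _⟩) (Cs 𝒰 i) (Cs 𝒰 (i + 1))
    (fun γ hγ w hw => act_mem_Cs hiU hγ hw)
    (fun s hs _ => by
      rcases s.eq_empty_or_nonempty with rfl | hne
      · rw [stab_empty_zz]; exact hUv
      · exact van_of_locOdd (locOdd_of_odd (hodd s hs.1 hne)) (hiU.mono (stab_le a Γ s)) hUe)
    hy hd
  exact ⟨y', mem_PE_two.2 hy', h⟩

theorem zz_col (hiK : Inv a Γ K) (hiU : Inv b Γ 𝒰) {Rep : Set (Finset U)}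
    (hRep : ∀ τ ∈ 𝒰, ∃ γ ∈ Γ, τ.image (b γ) ∈ Rep) {i k : ℕ}
    (hcol : ∀ τ ∈ 𝒰, τ ∈ Rep → τ.card = i → Van a (stab b Γ τ) K k)
    {y : EE V U} (hy : y ∈ PE K 𝒰 i k) (hd : dKE V U y ∈ Aug (diagRep a b) Γ) :
    ∃ y' ∈ PE K 𝒰 i (k + 1), y - dKE V U y' ∈ Aug (diagRep a b) Γ := by
  rw [mem_PE_one] at hy
  obtain ⟨y', hy', h⟩ := shapiro (M := Ch V) (E := EE V U) b Γ (act a) (diagRep a b)
    (eOne V U) (diagRep_one a b) bd (bd_act a) (dKE V U) dKE_one
    _ Rep (inv_level hiU i) (fun s hs => hRep s hs.1) (Cs K k) (Cs K (k + 1))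
    (fun γ hγ w hw => act_mem_Cs hiK hγ hw) (fun s hs hr => hcol s hs.1 hr hs.2) hy hd
  exact ⟨y', mem_PE_one.2 hy', h⟩

theorem ev_mem_Aug {w : EE V U} (hw : w ∈ Aug (diagRep a b) Γ) :
    (eOne V U).symm w ∅ ∈ Aug (act a) Γ := by
  refine Aug_map (M := EE V U) (M' := Ch V) (diagRep a b) (act a) Γ Γ
    (Finsupp.lapply ∅ ∘ₗ ((eOne V U).symm : EE V U →ₗ[ZMod 2] (Finset U →₀ Ch V)))
    (fun h hh => ⟨h, hh, fun y => ?_⟩) hw
  obtain ⟨y, rfl⟩ := (eOne V U).surjective y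
  induction y using Finsupp.induction_linear with
  | zero => simp
  | add f g hf hg => simp only [map_add, hf, hg]
  | single s m =>
    simp only [LinearMap.comp_apply, LinearEquiv.coe_coe, diagRep_one,
      LinearEquiv.symm_apply_apply, Finsupp.lapply_apply, Finsupp.single_apply]
    by_cases hs : s = ∅
    · simp [hs]
    · rw [if_neg hs, if_neg (by simpa using hs), map_zero]

theorem zz_nf (hiK : Inv a Γ K) (hiU : Inv b Γ 𝒰) {Rep : Set (Finset U)}
    (hRep : ∀ τ ∈ 𝒰, ∃ γ ∈ Γ, τ.image (b γ) ∈ Rep) {i k : ℕ} {x₁ : EE V U}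
    (hx₁ : x₁ ∈ PE K 𝒰 i k) (hd₁ : dKE V U x₁ ∈ Aug (diagRep a b) Γ) :
    ∃ z : Finset U →₀ Ch V, x₁ - eOne V U z ∈ Aug (diagRep a b) Γ ∧ ∀ τ ∈ z.support,
      τ ∈ 𝒰 ∧ τ ∈ Rep ∧ τ.card = i ∧ z τ ∈ Cs K k ∧ bd (z τ) ∈ Aug (act a) (stab b Γ τ) := by
  obtain ⟨r, t, Φ, h1, h2, hΦ, h4, h5⟩ :=
    shapiro_nf (M := Ch V) (E := EE V U) b Γ (act a) (diagRep a b) (eOne V U) (diagRep_one a b) Rep
  rw [mem_PE_one] at hx₁
  have hz := nf_components (M := Ch V) (E := EE V U) b Γ (act a) (eOne V U) h1 h2 hΦ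
    (inv_level hiU i) (fun s hs => hRep s hs.1) (P := Cs K k)
    (fun γ hγ w hw => act_mem_Cs hiK hγ hw) hx₁
  have hcomm : ∀ w, Φ (dKE V U w) = dKE V U (Φ w) := by
    intro w
    obtain ⟨y, rfl⟩ := (eOne V U).surjective w
    induction y using Finsupp.induction_linear with
    | zero => simp
    | add f g hf hg => simp only [map_add, hf, hg]
    | single s m => rw [dKE_one, hΦ, hΦ, dKE_one, bd_act]
  refine ⟨(eOne V U).symm (Φ x₁), by rw [LinearEquiv.apply_symm_apply]; exact h4 x₁,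
    fun τ hτ => ?_⟩
  have hτ' : (τ ∈ 𝒰 ∧ τ.card = i) ∧ τ ∈ Rep := by
    by_contra h
    exact Finsupp.mem_support_iff.1 hτ ((hz τ).2 h)
  refine ⟨hτ'.1.1, hτ'.2, hτ'.1.2, (hz τ).1, ?_⟩
  rw [← dKE_comp, ← hcomm]
  exact h5 _ hd₁ τ

end double

/-- ZIGZAG. -/
theorem zigzag {H : Type*} [Group H] {V U : Type*} [DecidableEq V] [DecidableEq U]
    {a : H →* Equiv.Perm V} {b : H →* Equiv.Perm U} {Γ : Subgroup H} {K : Set (Finset V)}
    {𝒰 : Set (Finset U)} (hK : IsCx K) (hU : IsCx 𝒰) (hiK : Inv a Γ K) (hiU : Inv b Γ 𝒰)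
    (hodd : OddStab a Γ K) (Rep : Set (Finset U)) (hRep : ∀ τ ∈ 𝒰, ∃ γ ∈ Γ, τ.image (b γ) ∈ Rep)
    {j : ℕ} (hUe : ∀ i ≤ j, Exact 𝒰 i) (hUv : ∀ i ≤ j, Van b Γ 𝒰 i)
    (hcol : ∀ τ ∈ 𝒰, τ ∈ Rep → 2 ≤ τ.card → ∀ i, i + τ.card = j + 1 → Van a (stab b Γ τ) K i) :
    ∀ x ∈ Cs K j, bd x ∈ Aug (act a) Γ → x ∈ Aug (act a) Γ ⊔ Submodule.span (ZMod 2)
      {x' | ∃ τ ∈ 𝒰, τ ∈ Rep ∧ τ.card = 1 ∧ x' ∈ Cs K j ∧ bd x' ∈ Aug (act a) (stab b Γ τ)} := by
  intro x hx hbx
  have hx0 : eOne V U (Finsupp.single (∅ : Finset U) x) ∈ PE K 𝒰 0 j := by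
    rw [mem_PE_one]
    intro τ
    rw [LinearEquiv.symm_apply_apply, Finsupp.single_apply]
    split_ifs with h
    · exact ⟨hx, fun h' => absurd ⟨h ▸ hU.1, h ▸ rfl⟩ h'⟩
    · exact ⟨Submodule.zero_mem _, fun _ => rfl⟩
  have hd0 : dKE V U (eOne V U (Finsupp.single (∅ : Finset U) x)) ∈ Aug (diagRep a b) Γ := by
    rw [dKE_one]
    exact single_mem_Aug (M := Ch V) (E := EE V U) b Γ (act a) (diagRep a b)
      (eOne V U) (diagRep_one a b) ∅ (m := bd x) (by rw [stab_empty_zz]; exact hbx)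
  obtain ⟨x₁, hx₁, hd₁, hu₁⟩ := zigzag_abs (E := EE V U) (Aug (diagRep a b) Γ)
    (dKE V U) (dUE V U) (PE K 𝒰) dKE_dUE dUE_dUE dKE_dKE
    (fun y hy => dKE_mem_Aug hy) (fun y hy => dUE_mem_Aug hy)
    (fun i k y hy => dKE_mem_PE hK hy) (fun i k y hy => dUE_mem_PE hU hy)
    (fun i y hy => dKE_eq_zero hy) (fun k y hy => dUE_eq_zero hy) j
    (fun i k hik y hy hd => zz_row hiK hiU hodd (hUe i (by omega)) (hUv i (by omega)) hy hd)
    (fun i k hi hik y hy hd => zz_col hiK hiU hRep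
      (fun τ h1 h2 h3 => hcol τ h1 h2 (by omega) k (by omega)) hy hd)
    _ hx0 hd0
  obtain ⟨z, h4, hz⟩ := zz_nf hiK hiU hRep hx₁ hd₁
  have hI : eOne V U (Finsupp.single (∅ : Finset U) x) - dUE V U (eOne V U z) ∈
      Aug (diagRep a b) Γ := by
    have := (Aug (diagRep a b) Γ).add_mem hu₁ (dUE_mem_Aug h4)
    rwa [map_sub, sub_add_sub_cancel] at this
  have hsum : dUE V U (eOne V U z) =
      eOne V U (Finsupp.single ∅ (∑ τ ∈ z.support, z τ)) := by
    conv_lhs => rw [← Finsupp.sum_single z, Finsupp.sum, map_sum, map_sum]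
    rw [Finsupp.single_finsetSum, map_sum]
    refine Finset.sum_congr rfl fun τ hτ => ?_
    obtain ⟨u, rfl⟩ := Finset.card_eq_one.1 (hz τ hτ).2.2.1
    rw [dUE_one]
    simp
  have h7 := ev_mem_Aug hI
  rw [hsum, map_sub, LinearEquiv.symm_apply_apply, LinearEquiv.symm_apply_apply, Finsupp.sub_apply,
    Finsupp.single_eq_same, Finsupp.single_eq_same] at h7
  rw [← sub_add_cancel x (∑ τ ∈ z.support, z τ)]
  exact Submodule.add_mem_sup h7 (Submodule.sum_mem _ fun τ hτ =>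
    Submodule.subset_span ⟨τ, hz τ hτ⟩)

end Crest.Agent.R66
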