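import Crest.Agent.R66.AmbNrm

/-! # Row 66: gaps of a simplex of `Δ₀` -/

set_option linter.unusedSectionVars false

namespace Crest.Agent.R66.Amb

variable {F M : Type*} [Field F] [AddCommGroup M] [Module F M] {𝒜 : Amb F M}
  {ρ : Finset (Submodule F M)} {B V : Submodule F M}

private theorem Lat.gap_sh_neg_le {L : Submodule F M} (h : 𝒜.Lat L) : 𝒜.sh (-1) L ≤ L :=
  (𝒜.sh_neg_le_iff 1 L L).2 h.1

private theorem Lat.del_mono {L L' : Submodule F M} (h : 𝒜.Lat L') (hle : L ≤ L') :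
    𝒜.del L ≤ 𝒜.del L' := by
  have := h.fin 0
  exact Submodule.finrank_mono (inf_le_inf_right _ hle)

private theorem Good.del_eq' {L : Submodule F M} (h : 𝒜.Good L) : 𝒜.del L = 𝒜.typ L + 𝒜.N :=
  del_eq h.1.1 h.1.2.1

private theorem Good.typ_eq_mod {L : Submodule F M} (h : 𝒜.Good L) : 𝒜.typ L = 𝒜.del L % 𝒜.N := by
  rw [h.del_eq', Nat.add_mod_right, Nat.mod_eq_of_lt h.typ_lt]

private theorem le_of_typ_le (hρ : ρ ∈ 𝒜.Δ) {L L' : Submodule F M} (hL : L ∈ ρ) (hL' : L' ∈ ρ)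
    (h : 𝒜.typ L ≤ 𝒜.typ L') : L ≤ L' ∧ 𝒜.sh (-1) L' ≤ L := by
  have g : 𝒜.Good L := hρ.1 L hL
  have g' : 𝒜.Good L' := hρ.1 L' hL'
  by_cases e : L = L'
  · subst e
    exact ⟨le_rfl, g.1.1.gap_sh_neg_le⟩
  · rcases hρ.2 L hL L' hL' e with h1 | h1
    · exact h1
    · exact absurd (g'.typ_lt_typ g (lt_of_le_of_ne h1.1 (Ne.symm e))) (not_lt.2 h)

private theorem sh_one_inf_Q (W : Submodule F M) : 𝒜.sh 1 W ⊓ 𝒜.Q 2 = 𝒜.sh 1 (W ⊓ 𝒜.Q 1) := by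
  rw [map_inf, sh_Q]
  rfl

private theorem sh_one_sup_Q (W : Submodule F M) : 𝒜.sh 1 W ⊔ 𝒜.Q 2 = 𝒜.sh 1 (W ⊔ 𝒜.Q 1) := by
  rw [map_sup, sh_Q]
  rfl

private theorem nrm_of_eq {W : Submodule F M} (h : W ⊔ 𝒜.Q 1 = ⊤) : 𝒜.nrm W = W := if_pos h

private theorem nrm_of_ne {W : Submodule F M} (h : W ⊔ 𝒜.Q 1 ≠ ⊤) : 𝒜.nrm W = 𝒜.sh 1 W := if_neg h

private theorem IsGap.latB (hρ : ρ ∈ 𝒜.Δ) (h : 𝒜.IsGap ρ B V) : 𝒜.Lat B :=
  Lat.between (hρ.1 V h.memV : 𝒜.Good V).1.1 h.shle h.lt.le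

/-- a good lattice strictly inside the gap is a gap vertex -/
private theorem mem_gapIn_of_lt {w : Submodule F M} (hw : 𝒜.Good w) (h1 : B < w) (h2 : w < V) :
    w ∈ 𝒜.gapIn B V :=
  ⟨w, ⟨h1, h2, Or.inr ⟨by rw [hw.1.2.1]; exact le_top, not_le_of_gt h2⟩⟩, nrm_of_eq hw.1.2.1⟩

/-- `typ` is injective on simplices (they are chains, `Good.typ_lt_typ`). -/
theorem typ_injOn (hρ : ρ ∈ 𝒜.Δ) : Set.InjOn 𝒜.typ (ρ : Set (Submodule F M)) := by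
  intro L hL L' hL' e
  exact le_antisymm (le_of_typ_le hρ hL hL' e.le).1 (le_of_typ_le hρ hL' hL e.ge).1

/-- Recipe: `ρ` is a chain on which `typ` is strictly monotone.  If both `lo = {typ < a}` and
`hi = {typ > a}` are non-empty take `B = max lo`, `V = min hi`, `e = a + N` (use
`Finset.exists_max_image` for `typ`; `del = typ + N` on good lattices).  Otherwise `V = min ρ`,
`B = sh (-1) (max ρ)` (`del B = typ (max ρ)`), with `e = a` if `hi = ∅` and `e = a + N` if `lo = ∅`.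
`B < V` follows from `B ≤ V` and `del B < del V`. -/
theorem exists_gap (hρ : ρ ∈ 𝒜.Δ) (hne : ρ.Nonempty) {a : ℕ} (ha : a < 𝒜.N)
    (hfree : ∀ L ∈ ρ, 𝒜.typ L ≠ a) :
    ∃ B V e, 𝒜.IsGap ρ B V ∧ 𝒜.del B < e ∧ e < 𝒜.del V ∧ e % 𝒜.N = a := by
  classical
  by_cases hb : (ρ.filter fun L => 𝒜.typ L < a).Nonempty ∧ (ρ.filter fun L => a < 𝒜.typ L).Nonempty
  · obtain ⟨B, hB, hBm⟩ := Finset.exists_max_image _ 𝒜.typ hb.1
    obtain ⟨V, hV, hVm⟩ := Finset.exists_min_image _ 𝒜.typ hb.2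
    simp only [Finset.mem_filter, and_imp] at hB hBm hV hVm
    have gB : 𝒜.Good B := hρ.1 B hB.1
    have gV : 𝒜.Good V := hρ.1 V hV.1
    have hBV := le_of_typ_le hρ hB.1 hV.1 (hB.2.trans hV.2).le
    refine ⟨B, V, a + 𝒜.N, ⟨hV.1, Or.inl hB.1, lt_of_le_of_ne hBV.1 ?_, hBV.2, fun L hL => ?_⟩,
      ?_, ?_, ?_⟩
    · intro e
      have := hB.2.trans hV.2
      rw [e] at this
      exact lt_irrefl _ this
    · rcases lt_or_gt_of_ne (hfree L hL) with h | h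
      · exact Or.inr ⟨(le_of_typ_le hρ hL hB.1 (hBm L hL h)).1,
          (le_of_typ_le hρ hL hV.1 (h.trans hV.2).le).2⟩
      · exact Or.inl ⟨(le_of_typ_le hρ hV.1 hL (hVm L hL h)).1,
          (le_of_typ_le hρ hB.1 hL (hB.2.trans h).le).2⟩
    · rw [gB.del_eq']
      have := hB.2
      omega
    · rw [gV.del_eq']
      have := hV.2
      omega
    · rw [Nat.add_mod_right, Nat.mod_eq_of_lt ha]
  · obtain ⟨T, hT, hTm⟩ := Finset.exists_max_image _ 𝒜.typ hne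
    obtain ⟨V, hV, hVm⟩ := Finset.exists_min_image _ 𝒜.typ hne
    have gT : 𝒜.Good T := hρ.1 T hT
    have gV : 𝒜.Good V := hρ.1 V hV
    have hVT := le_of_typ_le hρ hV hT (hVm T hT)
    have dB : 𝒜.del (𝒜.sh (-1) T) = 𝒜.typ T := del_sh_neg T
    have dV := gV.del_eq'
    have tT := gT.typ_lt
    have gap : 𝒜.IsGap ρ (𝒜.sh (-1) T) V := by
      refine ⟨hV, Or.inr (by rwa [sh_sh_neg]), lt_of_le_of_ne hVT.2 ?_,
        (𝒜.sh (-1)).monotone hVT.1, fun L hL => Or.inl ⟨(le_of_typ_le hρ hV hL (hVm L hL)).1,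
          (𝒜.sh (-1)).monotone (le_of_typ_le hρ hL hT (hTm L hL)).1⟩⟩
      intro e
      rw [e] at dB
      omega
    rcases lt_or_gt_of_ne (hfree T hT) with h | h
    · exact ⟨_, V, a, gap, by omega, by omega, Nat.mod_eq_of_lt ha⟩
    · have h' : a < 𝒜.typ V := by
        rcases lt_or_gt_of_ne (hfree V hV) with h' | h'
        · exact absurd ⟨⟨V, Finset.mem_filter.2 ⟨hV, h'⟩⟩, ⟨T, Finset.mem_filter.2 ⟨hT, h⟩⟩⟩ hb
        · exact h'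
      exact ⟨_, V, a + 𝒜.N, gap, by omega, by omega,
        by rw [Nat.add_mod_right, Nat.mod_eq_of_lt ha]⟩

theorem IsGap.isDim (hρ : ρ ∈ 𝒜.Δ) (h : 𝒜.IsGap ρ B V) : IsDim B V 𝒜.del := by
  have gV : 𝒜.Good V := hρ.1 V h.memV
  refine Amb.isDim gV.1.1 (top_le_iff.1 ?_)
  rw [← sh_neg_sup_Q_zero gV.1.2.1]
  exact sup_le_sup_right h.shle _

theorem IsGap.dHyp (h : 𝒜.IsGap ρ B V) : DHyp B V (𝒜.Q 1) (𝒜.Q 1) V := by
  exact ⟨h.lt.le, le_rfl, le_rfl, fun _ _ hW _ => not_le_of_gt hW⟩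

theorem IsGap.del_le (hρ : ρ ∈ 𝒜.Δ) (h : 𝒜.IsGap ρ B V) : 𝒜.del V ≤ 𝒜.del B + 𝒜.N := by
  have gV : 𝒜.Good V := hρ.1 V h.memV
  have h1 := (h.latB hρ).del_mono h.shle
  rw [del_sh_neg] at h1
  rw [gV.del_eq']
  omega

theorem IsGap.typ_V (hρ : ρ ∈ 𝒜.Δ) (h : 𝒜.IsGap ρ B V) : 𝒜.typ V = 𝒜.del V % 𝒜.N := by
  exact Good.typ_eq_mod (hρ.1 V h.memV)

theorem IsGap.injOn (h : 𝒜.IsGap ρ B V) :
    Set.InjOn 𝒜.nrm (Dset B V (𝒜.Q 1) (𝒜.Q 1) V) := by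
  exact (nrm_injOn V).mono fun W hW => And.intro (h.shle.trans hW.1.le) hW.2.1

/-- Recipe: type 1: goodness is inherited from `V`.  Type 2 (`W ⊔ Q 1 ≠ ⊤`): then
`W ⊓ Q 1 ≤ B`, `B ∉ ρ`, so `sh 1 B` is good, `B ⊓ Q 1 = ⊥`. -/
theorem IsGap.good_nrm (hρ : ρ ∈ 𝒜.Δ) (h : 𝒜.IsGap ρ B V) {W : Submodule F M}
    (hW : W ∈ Dset B V (𝒜.Q 1) (𝒜.Q 1) V) :
    𝒜.Good (𝒜.nrm W) ∧ 𝒜.typ (𝒜.nrm W) = 𝒜.del W % 𝒜.N := by
  have gV : 𝒜.Good V := hρ.1 V h.memV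
  have hn := (gV.1.nrm (h.shle.trans_lt hW.1) hW.2.1).1
  by_cases e : W ⊔ 𝒜.Q 1 = ⊤
  · rw [nrm_of_eq e] at hn ⊢
    have g : 𝒜.Good W := ⟨hn, le_bot_iff.1 (gV.2 ▸ inf_le_inf_right _ hW.2.1.le)⟩
    exact ⟨g, g.typ_eq_mod⟩
  · rw [nrm_of_ne e] at hn ⊢
    have h1 : W ⊓ 𝒜.Q 1 ≤ B := by
      rcases hW.2.2 with h1 | h1
      · exact h1
      · refine absurd (top_le_iff.1 ?_) e
        rw [← gV.1.2.1]
        exact sup_le h1.1 le_sup_right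
    have h2 : 𝒜.Good (𝒜.sh 1 B) := by
      rcases h.memB with h2 | h2
      · refine absurd (top_le_iff.1 ?_) e
        rw [← (hρ.1 B h2 : 𝒜.Good B).1.2.1]
        exact sup_le_sup_right hW.1.le _
      · exact hρ.1 _ h2
    have g : 𝒜.Good (𝒜.sh 1 W) := by
      refine ⟨hn, le_bot_iff.1 ?_⟩
      rw [← h2.2, sh_one_inf_Q, sh_one_inf_Q]
      exact (𝒜.sh 1).monotone (le_inf h1 inf_le_right)
    refine ⟨g, ?_⟩
    have h3 := g.typ_lt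
    rw [typ_sh_one] at h3 ⊢
    exact (Nat.mod_eq_of_lt h3).symm

/-- a good lattice lying outside the gap has a colour not occurring in the gap.
Recipe: `del L = typ L + N`, `del (sh (-1) L) = typ L`, `del V < 2N`, monotonicity of `del`
(finite-dimensionality via `Lat.fin`). -/
theorem IsGap.typ_ne (hρ : ρ ∈ 𝒜.Δ) (h : 𝒜.IsGap ρ B V) {L : Submodule F M} (hL : 𝒜.Good L)
    (ho : (V ≤ L ∧ 𝒜.sh (-1) L ≤ B) ∨ (L ≤ B ∧ 𝒜.sh (-1) V ≤ L)) {e : ℕ} (h1 : 𝒜.del B < e)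
    (h2 : e < 𝒜.del V) : 𝒜.typ L ≠ e % 𝒜.N := by
  have gV : 𝒜.Good V := hρ.1 V h.memV
  have dV := gV.del_eq'
  have tV := gV.typ_lt
  have dL := hL.del_eq'
  have tL := hL.typ_lt
  have hmod : e % 𝒜.N = e ∧ e < 𝒜.N ∨ e % 𝒜.N = e - 𝒜.N ∧ 𝒜.N ≤ e := by
    rcases lt_or_ge e 𝒜.N with h3 | h3
    · exact Or.inl ⟨Nat.mod_eq_of_lt h3, h3⟩
    · exact Or.inr ⟨by rw [Nat.mod_eq_sub_mod h3, Nat.mod_eq_of_lt (by omega)], h3⟩
  rcases ho with ho | ho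
  · have a1 := hL.1.1.del_mono ho.1
    have a2 := (h.latB hρ).del_mono ho.2
    rw [del_sh_neg] at a2
    omega
  · have a1 := (h.latB hρ).del_mono ho.1
    omega

/-- link vertices not in the gap lie outside it.  Recipe: case analysis on adjacency to `V` and to
`B` resp. `sh 1 B`; in the remaining cases `w` itself (type 1) or `sh (-1) w` (type 2) is in `Dset`. -/
theorem IsGap.outside (hρ : ρ ∈ 𝒜.Δ) (h : 𝒜.IsGap ρ B V) {w : Submodule F M}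
    (hw : ({w} : Finset (Submodule F M)) ∈ Lk 𝒜.Δ ρ) (hn : w ∉ 𝒜.gapIn B V) :
    (V ≤ w ∧ 𝒜.sh (-1) w ≤ B) ∨ (w ≤ B ∧ 𝒜.sh (-1) V ≤ w) := by
  have hwρ : w ∉ ρ := Finset.disjoint_singleton_left.1 hw.1
  have hwm : w ∈ ({w} : Finset (Submodule F M)) ∪ ρ :=
    Finset.mem_union_left _ (Finset.mem_singleton_self w)
  have gw : 𝒜.Good w := hw.2.1 w hwm
  have gV : 𝒜.Good V := hρ.1 V h.memV
  have hne : ∀ L ∈ ρ, w ≠ L := fun L hL e => hwρ (e ▸ hL)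
  have hadj : ∀ L ∈ ρ, 𝒜.adj w L := fun L hL =>
    hw.2.2 w hwm L (Finset.mem_union_right _ hL) (hne L hL)
  rcases h.memB with hB | hB
  · rcases hadj V h.memV with a | a <;> rcases hadj B hB with b | b
    · exact Or.inr ⟨b.1, a.2⟩
    · exact absurd (mem_gapIn_of_lt gw (lt_of_le_of_ne b.1 (hne B hB).symm)
        (lt_of_le_of_ne a.1 (hne V h.memV))) hn
    · exact absurd (a.1.trans b.1) (not_le_of_gt h.lt)
    · exact Or.inl ⟨a.1, b.2⟩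
  · rcases hadj V h.memV with a | a <;> rcases hadj _ hB with b | b
    · rw [sh_neg_sh] at b
      by_cases e : B = w
      · exact Or.inr ⟨e.ge, a.2⟩
      · exact absurd (mem_gapIn_of_lt gw (lt_of_le_of_ne b.2 e)
          (lt_of_le_of_ne a.1 (hne V h.memV))) hn
    · exact absurd (le_antisymm a.1 (((𝒜.sh_neg_le_iff 1 V B).1 h.shle).trans b.1)) (hne V h.memV)
    · exact Or.inl ⟨a.1, (𝒜.sh_neg_le_iff 1 w B).2 b.1⟩
    · have h1 : 𝒜.sh (-1) w ⊔ 𝒜.Q 1 ≠ ⊤ := by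
        intro e
        apply gw.1.2.2
        have := sh_one_sup_Q (𝒜 := 𝒜) (𝒜.sh (-1) w)
        rwa [sh_sh_neg, e, map_top] at this
      have h2 : 𝒜.sh (-1) w ⊓ 𝒜.Q 1 ≤ B := by
        have := sh_one_inf_Q (𝒜 := 𝒜) (𝒜.sh (-1) w)
        rw [sh_sh_neg, gw.2] at this
        rw [← (𝒜.sh 1).le_iff_le, ← this]
        exact bot_le
      refine absurd ⟨𝒜.sh (-1) w, ⟨lt_of_le_of_ne ((𝒜.le_sh_neg_iff 1 B w).2 b.1) ?_,
        lt_of_le_of_ne a.2 ?_, Or.inl h2⟩, by rw [nrm_of_ne h1, sh_sh_neg]⟩ hn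
      · intro e
        apply hne _ hB
        rw [e, sh_sh_neg]
      · intro e
        rw [e] at h1
        exact h1 gV.1.2.1

/-- gap vertices are adjacent to good lattices outside the gap.  (In the case `L ≤ B` with `L` good
every `W ≥ B` is of type 1.) -/
theorem IsGap.adj_outside (h : 𝒜.IsGap ρ B V) {L W : Submodule F M} (hL : 𝒜.Good L)
    (ho : (V ≤ L ∧ 𝒜.sh (-1) L ≤ B) ∨ (L ≤ B ∧ 𝒜.sh (-1) V ≤ L))
    (hW : W ∈ Dset B V (𝒜.Q 1) (𝒜.Q 1) V) : 𝒜.adj (𝒜.nrm W) L := by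
  rcases ho with ho | ho
  · by_cases e : W ⊔ 𝒜.Q 1 = ⊤
    · rw [nrm_of_eq e]
      exact Or.inl ⟨hW.2.1.le.trans ho.1, ho.2.trans hW.1.le⟩
    · rw [nrm_of_ne e]
      refine Or.inr ⟨(𝒜.sh_neg_le_iff 1 L W).1 (ho.2.trans hW.1.le), ?_⟩
      rw [sh_neg_sh]
      exact hW.2.1.le.trans ho.1
  · have e : W ⊔ 𝒜.Q 1 = ⊤ := by
      refine top_le_iff.1 ?_
      rw [← hL.1.2.1]
      exact sup_le_sup_right (ho.1.trans hW.1.le) _
    rw [nrm_of_eq e]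
    exact Or.inr ⟨ho.1.trans hW.1.le, ((𝒜.sh (-1)).monotone hW.2.1.le).trans ho.2⟩

theorem IsGap.face_iff (hρ : ρ ∈ 𝒜.Δ) (h : 𝒜.IsGap ρ B V) (τ : Finset (Submodule F M)) :
    τ ∈ {τ | τ ∈ Lk 𝒜.Δ ρ ∧ ∀ v ∈ τ, v ∈ 𝒜.gapIn B V} ↔
      ∃ σ ∈ Dcx B V (𝒜.Q 1) (𝒜.Q 1) V, σ.image 𝒜.nrm = τ := by
  have hiff : ∀ W ∈ Dset B V (𝒜.Q 1) (𝒜.Q 1) V, ∀ W' ∈ Dset B V (𝒜.Q 1) (𝒜.Q 1) V,
      𝒜.adj (𝒜.nrm W) (𝒜.nrm W') ↔ Cmp W W' := fun W hW W' hW' =>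
    adj_nrm_iff (h.shle.trans hW.1.le) hW.2.1 (h.shle.trans hW'.1.le) hW'.2.1
  constructor
  · rintro ⟨hτ, hg⟩
    obtain ⟨σ, hσ, rfl⟩ := Finset.subset_set_image_iff.1
      (show (τ : Set (Submodule F M)) ⊆ 𝒜.nrm '' Dset B V (𝒜.Q 1) (𝒜.Q 1) V from hg)
    refine ⟨σ, ⟨fun W hW => hσ hW, fun W hW W' hW' hne => ?_⟩, rfl⟩
    refine (hiff W (hσ hW) W' (hσ hW')).1 (hτ.2.2 _ ?_ _ ?_ fun e => hne ?_)
    · exact Finset.mem_union_left _ (Finset.mem_image_of_mem _ hW)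
    · exact Finset.mem_union_left _ (Finset.mem_image_of_mem _ hW')
    · exact h.injOn (hσ hW) (hσ hW') e
  · rintro ⟨σ, hσ, rfl⟩
    refine ⟨⟨Finset.disjoint_left.2 fun v hv hvρ => ?_, fun v hv => ?_, fun v hv w hw hne => ?_⟩,
      fun v hv => ?_⟩
    · obtain ⟨W, hW, rfl⟩ := Finset.mem_image.1 hv
      have hD := hσ.1 W hW
      exact h.typ_ne hρ (hρ.1 _ hvρ) (h.out _ hvρ)
        ((h.isDim hρ).mono B W le_rfl hD.1 hD.2.1.le)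
        ((h.isDim hρ).mono W V hD.1.le hD.2.1 le_rfl) (h.good_nrm hρ hD).2
    · rcases Finset.mem_union.1 hv with hv | hv
      · obtain ⟨W, hW, rfl⟩ := Finset.mem_image.1 hv
        exact (h.good_nrm hρ (hσ.1 W hW)).1
      · exact hρ.1 v hv
    · rcases Finset.mem_union.1 hv with hv | hv <;> rcases Finset.mem_union.1 hw with hw | hw
      · obtain ⟨W, hW, rfl⟩ := Finset.mem_image.1 hv
        obtain ⟨W', hW', rfl⟩ := Finset.mem_image.1 hw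
        exact (hiff W (hσ.1 W hW) W' (hσ.1 W' hW')).2
          (hσ.2 W hW W' hW' fun e => hne (by rw [e]))
      · obtain ⟨W, hW, rfl⟩ := Finset.mem_image.1 hv
        exact h.adj_outside (hρ.1 w hw) (h.out w hw) (hσ.1 W hW)
      · obtain ⟨W, hW, rfl⟩ := Finset.mem_image.1 hw
        exact adj_symm _ _ (h.adj_outside (hρ.1 v hv) (h.out v hv) (hσ.1 W hW))
      · exact hρ.2 v hv w hw hne
    · obtain ⟨W, hW, rfl⟩ := Finset.mem_image.1 hv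
      exact ⟨W, hσ.1 W hW, rfl⟩

theorem IsGap.join (hρ : ρ ∈ 𝒜.Δ) (h : 𝒜.IsGap ρ B V) :
    ∀ σ ∈ Lk 𝒜.Δ ρ, ∀ τ ∈ Lk 𝒜.Δ ρ, (∀ v ∈ σ, v ∉ 𝒜.gapIn B V) → (∀ v ∈ τ, v ∈ 𝒜.gapIn B V) →
      τ ∪ σ ∈ Lk 𝒜.Δ ρ := by
  intro σ hσ τ hτ hσg hτg
  have key : ∀ v ∈ τ, ∀ w ∈ σ, 𝒜.adj v w := by
    intro v hv w hw
    obtain ⟨W, hW, rfl⟩ := hτg v hv
    exact h.adj_outside (hσ.2.1 w (Finset.mem_union_left _ hw))
      (h.outside hρ ((Lk_isCx Δ_isCx hρ).2 σ hσ _ (Finset.singleton_subset_iff.2 hw))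
        (hσg w hw)) hW
  refine ⟨Finset.disjoint_union_left.2 ⟨hτ.1, hσ.1⟩, fun v hv => ?_, fun v hv w hw hne => ?_⟩
  · rcases Finset.mem_union.1 hv with hv | hv
    · rcases Finset.mem_union.1 hv with hv | hv
      · exact hτ.2.1 v (Finset.mem_union_left _ hv)
      · exact hσ.2.1 v (Finset.mem_union_left _ hv)
    · exact hρ.1 v hv
  · simp only [Finset.mem_union] at hv hw
    rcases hv with (hv | hv) | hv <;> rcases hw with (hw | hw) | hw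
    · exact hτ.2.2 v (Finset.mem_union_left _ hv) w (Finset.mem_union_left _ hw) hne
    · exact key v hv w hw
    · exact hτ.2.2 v (Finset.mem_union_left _ hv) w (Finset.mem_union_right _ hw) hne
    · exact adj_symm _ _ (key w hw v hv)
    · exact hσ.2.2 v (Finset.mem_union_left _ hv) w (Finset.mem_union_left _ hw) hne
    · exact hσ.2.2 v (Finset.mem_union_left _ hv) w (Finset.mem_union_right _ hw) hne
    · exact hτ.2.2 v (Finset.mem_union_right _ hv) w (Finset.mem_union_left _ hw) hne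
    · exact hσ.2.2 v (Finset.mem_union_right _ hv) w (Finset.mem_union_left _ hw) hne
    · exact hρ.2 v hv w hw hne

end Crest.Agent.R66.Amb
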