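import Crest.Agent.R66.DFill
import Crest.Agent.R66.Gap

/-! # Row 66: local properties of `Δ₀` -/

set_option linter.unusedSectionVars false

namespace Crest.Agent.R66.Amb

section
variable {F M : Type*} [Field F] [Fintype F] [AddCommGroup M] [Module F M] {𝒜 : Amb F M}

theorem loc_mod_ne {N a b : ℕ} (hab : a < b) (h : b < a + N) : a % N ≠ b % N := by
  intro e
  have h1 : N ∣ b - a := (Nat.modEq_iff_dvd' hab.le).1 e
  have := Nat.le_of_dvd (by omega) h1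
  omega

section aux
variable {ρ : Finset (Submodule F M)} {B V : Submodule F M}

theorem loc_good {v : Submodule F M} (hv : ({v} : Finset (Submodule F M)) ∈ Lk 𝒜.Δ ρ) :
    𝒜.Good v := singleton_mem_Δ.1 (Lk_subset Δ_isCx ρ hv)

theorem loc_good_mem (hρ : ρ ∈ 𝒜.Δ) {L : Submodule F M} (hL : L ∈ ρ) : 𝒜.Good L := hρ.1 L hL

/-- the free colours -/
noncomputable def locFree (𝒜 : Amb F M) (ρ : Finset (Submodule F M)) : Finset ℕ :=
  Finset.range 𝒜.N \ ρ.image 𝒜.typ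

theorem mem_locFree {a : ℕ} : a ∈ locFree 𝒜 ρ ↔ a < 𝒜.N ∧ ∀ L ∈ ρ, 𝒜.typ L ≠ a := by
  simp [locFree]

theorem loc_image_sub (hρ : ρ ∈ 𝒜.Δ) : ρ.image 𝒜.typ ⊆ Finset.range 𝒜.N := by
  intro a ha
  obtain ⟨L, hL, rfl⟩ := Finset.mem_image.1 ha
  exact Finset.mem_range.2 (loc_good_mem hρ hL).typ_lt

theorem loc_card_le (hρ : ρ ∈ 𝒜.Δ) : ρ.card ≤ 𝒜.N := by
  have := Finset.card_le_card (loc_image_sub hρ)
  rwa [Finset.card_image_of_injOn (typ_injOn hρ), Finset.card_range] at this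

theorem card_locFree (hρ : ρ ∈ 𝒜.Δ) : (locFree 𝒜 ρ).card = 𝒜.N - ρ.card := by
  rw [locFree, Finset.card_sdiff_of_subset (loc_image_sub hρ),
    Finset.card_image_of_injOn (typ_injOn hρ), Finset.card_range]

theorem loc_typ_free {v : Submodule F M} (hv : ({v} : Finset (Submodule F M)) ∈ Lk 𝒜.Δ ρ) :
    𝒜.typ v ∈ locFree 𝒜 ρ := by
  refine mem_locFree.2 ⟨(loc_good hv).typ_lt, fun L hL e => ?_⟩
  have h1 : L = v := typ_injOn hv.2 (by simp [hL]) (by simp) e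
  exact Finset.disjoint_singleton_left.1 hv.1 (h1 ▸ hL)

theorem loc_gap_free (hρ : ρ ∈ 𝒜.Δ) (h : 𝒜.IsGap ρ B V) {e : ℕ} (h1 : 𝒜.del B < e)
    (h2 : e < 𝒜.del V) : e % 𝒜.N ∈ locFree 𝒜 ρ := by
  have hN : 0 < 𝒜.N := lt_of_le_of_lt (Nat.zero_le _) (loc_good_mem hρ h.memV).typ_lt
  exact mem_locFree.2 ⟨Nat.mod_lt _ hN, fun L hL =>
    h.typ_ne hρ (loc_good_mem hρ hL) (h.out L hL) h1 h2⟩

theorem loc_mem_gap (hρ : ρ ∈ 𝒜.Δ) (h : 𝒜.IsGap ρ B V) {v : Submodule F M}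
    (hv : ({v} : Finset (Submodule F M)) ∈ Lk 𝒜.Δ ρ) {e : ℕ} (h1 : 𝒜.del B < e)
    (h2 : e < 𝒜.del V) (he : 𝒜.typ v = e % 𝒜.N) : v ∈ 𝒜.gapIn B V := by
  by_contra hn
  exact h.typ_ne hρ (loc_good hv) (h.outside hρ hv hn) h1 h2 he

theorem loc_del_mem (hρ : ρ ∈ 𝒜.Δ) (h : 𝒜.IsGap ρ B V) {W : Submodule F M}
    (hW : W ∈ Dset B V (𝒜.Q 1) (𝒜.Q 1) V) : 𝒜.del B < 𝒜.del W ∧ 𝒜.del W < 𝒜.del V :=
  ⟨(h.isDim hρ).mono B W le_rfl hW.1 hW.2.1.le, (h.isDim hρ).mono W V hW.1.le hW.2.1 le_rfl⟩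

theorem loc_gap_vertex (hρ : ρ ∈ 𝒜.Δ) (h : 𝒜.IsGap ρ B V) {W : Submodule F M}
    (hW : W ∈ Dset B V (𝒜.Q 1) (𝒜.Q 1) V) :
    ({𝒜.nrm W} : Finset (Submodule F M)) ∈ Lk 𝒜.Δ ρ :=
  ((h.face_iff hρ {𝒜.nrm W}).2 ⟨{W}, singleton_mem_Flag.2 hW, by simp⟩).1

theorem loc_pair_join (hρ : ρ ∈ 𝒜.Δ) (h : 𝒜.IsGap ρ B V) {v w : Submodule F M}
    (hv : ({v} : Finset (Submodule F M)) ∈ Lk 𝒜.Δ ρ)
    (hw : ({w} : Finset (Submodule F M)) ∈ Lk 𝒜.Δ ρ) (hv' : v ∈ 𝒜.gapIn B V)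
    (hw' : w ∉ 𝒜.gapIn B V) : ({v, w} : Finset (Submodule F M)) ∈ Lk 𝒜.Δ ρ := by
  have := h.join hρ {w} hw {v} hv (by simpa using hw') (by simpa using hv')
  rwa [← Finset.insert_eq] at this

theorem loc_pair_iff (hρ : ρ ∈ 𝒜.Δ) (h : 𝒜.IsGap ρ B V) {W W' : Submodule F M}
    (hW : W ∈ Dset B V (𝒜.Q 1) (𝒜.Q 1) V) (hW' : W' ∈ Dset B V (𝒜.Q 1) (𝒜.Q 1) V) :
    ({𝒜.nrm W, 𝒜.nrm W'} : Finset (Submodule F M)) ∈ Lk 𝒜.Δ ρ ↔ Cmp W W' := by
  constructor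
  · intro hp
    obtain ⟨σ, hσ, he⟩ := (h.face_iff hρ {𝒜.nrm W, 𝒜.nrm W'}).1 ⟨hp, by
      intro v hv
      rcases Finset.mem_insert.1 hv with rfl | hv
      · exact ⟨W, hW, rfl⟩
      · rw [Finset.mem_singleton.1 hv]; exact ⟨W', hW', rfl⟩⟩
    have key : ∀ U ∈ Dset B V (𝒜.Q 1) (𝒜.Q 1) V, 𝒜.nrm U ∈ σ.image 𝒜.nrm → U ∈ σ := by
      intro U hU hm
      obtain ⟨U', hU', e⟩ := Finset.mem_image.1 hm
      rwa [← h.injOn (hσ.1 U' hU') hU e]
    by_cases e : W = W'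
    · exact Or.inl e.le
    · exact hσ.2 W (key W hW (by simp [he])) W' (key W' hW' (by simp [he])) e
  · intro hc
    refine ((h.face_iff hρ _).2 ⟨{W, W'}, ?_, by simp⟩).1
    exact insert_mem_Flag Cmp_symm (singleton_mem_Flag.2 hW') hW
      (fun w hw _ => by rw [Finset.mem_singleton.1 hw]; exact hc)

theorem loc_cmp_iff (hρ : ρ ∈ 𝒜.Δ) (h : 𝒜.IsGap ρ B V) {W W' : Submodule F M}
    (hW : W ∈ Dset B V (𝒜.Q 1) (𝒜.Q 1) V) (hW' : W' ∈ Dset B V (𝒜.Q 1) (𝒜.Q 1) V)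
    (hlt : 𝒜.del W < 𝒜.del W') : Cmp W W' ↔ W ≤ W' := by
  refine ⟨fun hc => ?_, Or.inl⟩
  rcases hc with hc | hc
  · exact hc
  · rcases hc.eq_or_lt with e | hc'
    · exact e.ge
    · have := (h.isDim hρ).mono W' W hW'.1.le hc' hW.2.1.le
      omega

theorem loc_exists_colour (hP : Partite 𝒜.Δ 𝒜.typ 𝒜.N) (hρ : ρ ∈ 𝒜.Δ) {c : ℕ}
    (hc : c ∈ locFree 𝒜 ρ) :
    ∃ v : Submodule F M, ({v} : Finset (Submodule F M)) ∈ Lk 𝒜.Δ ρ ∧ 𝒜.typ v = c := by
  obtain ⟨τ, hτ, hsub, hcard⟩ := hP.pure ρ hρ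
  have h0 : locFree 𝒜 τ = ∅ := by
    rw [← Finset.card_eq_zero, card_locFree hτ]; omega
  have h1 : c ∉ locFree 𝒜 τ := by simp [h0]
  rw [mem_locFree] at h1 hc
  push Not at h1
  obtain ⟨L, hL, e⟩ := h1 hc.1
  refine ⟨L, ⟨Finset.disjoint_singleton_left.2 fun hm => hc.2 L hm e, ?_⟩, e⟩
  exact Δ_isCx.2 τ hτ _ (Finset.union_subset (by simpa using hL) hsub)

end aux

/-- many link vertices of any free colour's gap.  Recipe: `exists_gap`, `D_many`, `face_iff`,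
`IsGap.injOn`. -/
theorem link_many {ρ : Finset (Submodule F M)} (hρ : ρ ∈ 𝒜.Δ) (hne : ρ.Nonempty)
    (hc : ρ.card < 𝒜.N) (b : ℕ) (hq : b + 1 < Fintype.card F) :
    ∃ s : Finset (Submodule F M), b ≤ s.card ∧
      ∀ v ∈ s, ({v} : Finset (Submodule F M)) ∈ Lk 𝒜.Δ ρ := by
  obtain ⟨a, ha⟩ : (locFree 𝒜 ρ).Nonempty := by
    rw [← Finset.card_pos, card_locFree hρ]; omega
  rw [mem_locFree] at ha
  obtain ⟨B, V, e, h, h1, h2, _⟩ := exists_gap hρ hne ha.1 ha.2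
  obtain ⟨s, hs, hs'⟩ := D_many h.dHyp (h.isDim hρ) (by omega) b hq
  refine ⟨s.image 𝒜.nrm, ?_, ?_⟩
  · rwa [Finset.card_image_of_injOn (h.injOn.mono fun W hW => hs' W hW)]
  · intro v hv
    obtain ⟨W, hW, rfl⟩ := Finset.mem_image.1 hv
    exact loc_gap_vertex hρ h (hs' W hW)

/-- Recipe: purity by induction on `N - σ.card` with `link_many` (`b = 1`); start the empty face
with `{Λ}`; `σ.card ≤ N` since `typ` is injective into `range N`. -/
theorem Delta_partite (hN : 1 ≤ 𝒜.N) (hq : 2 < Fintype.card F) : Partite 𝒜.Δ 𝒜.typ 𝒜.N := by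
  refine ⟨Δ_isCx, fun v hv => (singleton_mem_Δ.1 hv).typ_lt, fun σ hσ => typ_injOn hσ, ?_⟩
  have key : ∀ k, ∀ σ ∈ 𝒜.Δ, σ.Nonempty → σ.card + k = 𝒜.N →
      ∃ τ ∈ 𝒜.Δ, σ ⊆ τ ∧ τ.card = 𝒜.N := by
    intro k
    induction k with
    | zero => intro σ hσ _ h; exact ⟨σ, hσ, subset_rfl, h⟩
    | succ k ih =>
      intro σ hσ hne h
      obtain ⟨s, hs, hs'⟩ := link_many hσ hne (by omega) 1 hq
      obtain ⟨v, hv⟩ := Finset.card_pos.1 (lt_of_lt_of_le one_pos hs)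
      have h1 := hs' v hv
      obtain ⟨τ, hτ, hsub, hc⟩ := ih ({v} ∪ σ) h1.2 (by simp) (by
        rw [Finset.card_union_of_disjoint h1.1, Finset.card_singleton]; omega)
      exact ⟨τ, hτ, Finset.subset_union_right.trans hsub, hc⟩
  intro σ hσ
  rcases σ.eq_empty_or_nonempty with rfl | hne
  · obtain ⟨τ, hτ, _, hc⟩ := key (𝒜.N - 1) {𝒜.Λ} (singleton_mem_Δ.2 (good_Λ hN)) (by simp)
      (by simp only [Finset.card_singleton]; omega)
    exact ⟨τ, hτ, Finset.empty_subset _, hc⟩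
  · have := loc_card_le hσ
    exact key (𝒜.N - σ.card) σ hσ hne (by omega)

/-- Recipe: a free colour `x`, its gap `(B,V)`.  The numbers `e` with `del B < e < del V` give
pairwise distinct free colours `e % N` (`typ_ne` applied to `IsGap.out`, `del_le`), and there are only
two free colours, so `del V - del B ∈ {2,3}`.  If `2`: gap vertices all have colour `x`, vertices of
colour `x` are in the gap (`outside`, `typ_ne`), so two link vertices of different colours are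
adjacent by `IsGap.join`.  If `3`: all link vertices are in the gap; use `D_rank3`, taking for `v₀`
a vertex of the appropriate colour of a chamber containing `ρ` (purity). -/
theorem Delta_rank2 (hN : 3 ≤ 𝒜.N) (hq : 2 < Fintype.card F) : Rank2 𝒜.Δ 𝒜.typ 𝒜.N := by
  intro ρ hρ hc
  have hP : Partite 𝒜.Δ 𝒜.typ 𝒜.N := Delta_partite (by omega) hq
  have hne : ρ.Nonempty := Finset.card_pos.1 (by omega)
  have hfc : (locFree 𝒜 ρ).card = 2 := by rw [card_locFree hρ]; omega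
  have three : ∀ a ∈ locFree 𝒜 ρ, ∀ b ∈ locFree 𝒜 ρ, ∀ c ∈ locFree 𝒜 ρ, a ≠ b →
      c = a ∨ c = b := by
    intro a ha b hb c hc hab
    have h1 : ({a, b} : Finset ℕ) = locFree 𝒜 ρ :=
      Finset.eq_of_subset_of_card_le (by simp [Finset.insert_subset_iff, ha, hb])
        (by rw [hfc, Finset.card_pair hab])
    rw [← h1] at hc
    simpa using hc
  obtain ⟨a, ha⟩ : (locFree 𝒜 ρ).Nonempty := by
    rw [← Finset.card_pos]; omega
  obtain ⟨B, V, e, h, h1, h2, he⟩ := exists_gap hρ hne (mem_locFree.1 ha).1 (mem_locFree.1 ha).2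
  have n12 : (𝒜.del B + 1) % 𝒜.N ≠ (𝒜.del B + 2) % 𝒜.N := loc_mod_ne (by omega) (by omega)
  have hle : 𝒜.del V ≤ 𝒜.del B + 3 := by
    by_contra hcon
    rcases three _ (loc_gap_free hρ h (e := 𝒜.del B + 1) (by omega) (by omega))
      _ (loc_gap_free hρ h (e := 𝒜.del B + 2) (by omega) (by omega))
      _ (loc_gap_free hρ h (e := 𝒜.del B + 3) (by omega) (by omega)) n12 with h3 | h3
    · exact loc_mod_ne (by omega) (by omega) h3.symm
    · exact loc_mod_ne (by omega) (by omega) h3.symm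
  rcases Nat.lt_or_ge (𝒜.del V) (𝒜.del B + 3) with h3 | h3
  · left
    have hout : ∀ w, 𝒜.typ w ≠ a → w ∉ 𝒜.gapIn B V := by
      rintro w hw ⟨W, hW, rfl⟩
      have h4 := loc_del_mem hρ h hW
      rw [(h.good_nrm hρ hW).2, show 𝒜.del W = e by omega] at hw
      exact hw he
    intro v w hv hw hvw
    rcases three _ (loc_typ_free hv) _ (loc_typ_free hw) a ha hvw with h4 | h4
    · exact loc_pair_join hρ h hv hw (loc_mem_gap hρ h hv h1 h2 (by omega))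
        (hout w (by omega))
    · rw [Finset.pair_comm]
      exact loc_pair_join hρ h hw hv (loc_mem_gap hρ h hw h1 h2 (by omega))
        (hout v (by omega))
  · right
    have h3' : 𝒜.del V = 𝒜.del B + 3 := by omega
    have hall : ∀ v, ({v} : Finset (Submodule F M)) ∈ Lk 𝒜.Δ ρ → v ∈ 𝒜.gapIn B V := by
      intro v hv
      rcases three _ (loc_gap_free hρ h (e := 𝒜.del B + 1) (by omega) (by omega))
        _ (loc_gap_free hρ h (e := 𝒜.del B + 2) (by omega) (by omega)) _ (loc_typ_free hv) n12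
        with h4 | h4
      · exact loc_mem_gap hρ h hv (by omega) (by omega) h4
      · exact loc_mem_gap hρ h hv (by omega) (by omega) h4
    have main : ∀ i j : ℕ, (i = 1 ∧ j = 2) ∨ (i = 2 ∧ j = 1) →
        (∀ W ∈ Dset B V (𝒜.Q 1) (𝒜.Q 1) V, ∀ W' ∈ Dset B V (𝒜.Q 1) (𝒜.Q 1) V,
          𝒜.del W = 𝒜.del B + i → 𝒜.del W' = 𝒜.del B + i → W ≠ W' →
          ∃! u, u ∈ Dset B V (𝒜.Q 1) (𝒜.Q 1) V ∧ 𝒜.del u = 𝒜.del B + j ∧ Cmp u W ∧ Cmp u W') →
        ∃ v₀ : Submodule F M, ({v₀} : Finset (Submodule F M)) ∈ Lk 𝒜.Δ ρ ∧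
          ∀ v v' : Submodule F M, ({v} : Finset (Submodule F M)) ∈ Lk 𝒜.Δ ρ →
            ({v'} : Finset (Submodule F M)) ∈ Lk 𝒜.Δ ρ → 𝒜.typ v = 𝒜.typ v₀ →
            𝒜.typ v' = 𝒜.typ v₀ → v ≠ v' →
            ∃! u : Submodule F M, 𝒜.typ u ≠ 𝒜.typ v₀ ∧
              ({u, v} : Finset (Submodule F M)) ∈ Lk 𝒜.Δ ρ ∧
              ({u, v'} : Finset (Submodule F M)) ∈ Lk 𝒜.Δ ρ := by
      intro i j hij H
      have nij : (𝒜.del B + i) % 𝒜.N ≠ (𝒜.del B + j) % 𝒜.N := by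
        rcases hij with ⟨rfl, rfl⟩ | ⟨rfl, rfl⟩
        · exact n12
        · exact n12.symm
      obtain ⟨v₀, hv₀, ht₀⟩ := loc_exists_colour hP hρ
        (loc_gap_free hρ h (e := 𝒜.del B + i) (by omega) (by omega))
      have hdel : ∀ W ∈ Dset B V (𝒜.Q 1) (𝒜.Q 1) V,
          𝒜.del W = 𝒜.del B + i ∨ 𝒜.del W = 𝒜.del B + j := by
        intro W hW
        have := loc_del_mem hρ h hW
        omega
      refine ⟨v₀, hv₀, fun v v' hv hv' ht ht' hvv => ?_⟩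
      obtain ⟨W, hW, rfl⟩ := hall v hv
      obtain ⟨W', hW', rfl⟩ := hall v' hv'
      rw [(h.good_nrm hρ hW).2, ht₀] at ht
      rw [(h.good_nrm hρ hW').2, ht₀] at ht'
      have d1 : 𝒜.del W = 𝒜.del B + i := by
        rcases hdel W hW with h4 | h4
        · exact h4
        · rw [h4] at ht; exact absurd ht.symm nij
      have d2 : 𝒜.del W' = 𝒜.del B + i := by
        rcases hdel W' hW' with h4 | h4
        · exact h4
        · rw [h4] at ht'; exact absurd ht'.symm nij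
      obtain ⟨u, ⟨hu, hud, hc1, hc2⟩, huniq⟩ := H W hW W' hW' d1 d2 (fun e => hvv (by rw [e]))
      refine ⟨𝒜.nrm u, ⟨?_, (loc_pair_iff hρ h hu hW).2 hc1, (loc_pair_iff hρ h hu hW').2 hc2⟩, ?_⟩
      · rw [(h.good_nrm hρ hu).2, hud, ht₀]; exact nij.symm
      · rintro u' ⟨hu1, hu2, hu3⟩
        obtain ⟨U, hU, rfl⟩ := hall u' ((Lk_isCx Δ_isCx hρ).2 _ hu2 _ (by simp))
        rw [(h.good_nrm hρ hU).2, ht₀] at hu1
        have d3 : 𝒜.del U = 𝒜.del B + j := by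
          rcases hdel U hU with h4 | h4
          · rw [h4] at hu1; exact absurd rfl hu1
          · exact h4
        rw [huniq U ⟨hU, d3, (loc_pair_iff hρ h hU hW).1 hu2, (loc_pair_iff hρ h hU hW').1 hu3⟩]
    rcases D_rank3 (E := 𝒜.Q 1) h.lt.le (h.isDim hρ) h3' with H | H
    · refine main 2 1 (by omega) fun W hW W' hW' d1 d2 hne' => ?_
      refine (existsUnique_congr fun u => ?_).1 (H W hW W' hW' d1 d2 hne')
      refine and_congr_right fun hu => and_congr_right fun hd => ?_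
      rw [loc_cmp_iff hρ h hu hW (by omega), loc_cmp_iff hρ h hu hW' (by omega)]
    · refine main 1 2 (by omega) fun W hW W' hW' d1 d2 hne' => ?_
      refine (existsUnique_congr fun u => ?_).1 (H W hW W' hW' d1 d2 hne')
      refine and_congr_right fun hu => and_congr_right fun hd => ?_
      rw [← loc_cmp_iff hρ h hW hu (by omega), ← loc_cmp_iff hρ h hW' hu (by omega)]
      exact and_congr ⟨Cmp_symm _ _, Cmp_symm _ _⟩ ⟨Cmp_symm _ _, Cmp_symm _ _⟩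

end

/-- Recipe: gap at the colour of `v`; `v` is in the gap.  If `v'` is not, they are adjacent
(`IsGap.join`).  If both are and `del B + 3 ≤ del V` use `D_contr 1`, `HasContr.exact`,
`Exact.conn`, `Conn.image`, `face_iff`.  Otherwise the gap carries a single colour; a chamber through
`ρ` has a link vertex `u` of another free colour, outside the gap, adjacent to both. -/
theorem Delta_conn : ∃ q₀ : ℕ, ∀ (F M : Type) [Field F] [Fintype F] [AddCommGroup M]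
    [Module F M] (𝒜 : Amb F M), q₀ ≤ Fintype.card F → ∀ ρ ∈ 𝒜.Δ, ρ.Nonempty →
    ρ.card + 2 ≤ 𝒜.N → Conn (Lk 𝒜.Δ ρ) := by
  obtain ⟨R, q₀, hD⟩ := D_contr 1
  refine ⟨q₀ + 3, fun F M _ _ _ _ 𝒜 hq ρ hρ hne hc v v' hv hv' => ?_⟩
  have hP : Partite 𝒜.Δ 𝒜.typ 𝒜.N := Delta_partite (by omega) (by omega)
  have ha := loc_typ_free hv
  obtain ⟨B, V, e, h, h1, h2, he⟩ := exists_gap hρ hne (mem_locFree.1 ha).1 (mem_locFree.1 ha).2
  have hvg := loc_mem_gap hρ h hv h1 h2 he.symm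
  by_cases hvg' : v' ∈ 𝒜.gapIn B V
  · rcases Nat.lt_or_ge (𝒜.del V) (𝒜.del B + 3) with h3 | h3
    · obtain ⟨c, hc1, hc2⟩ := Finset.exists_mem_ne (s := locFree 𝒜 ρ)
        (by rw [card_locFree hρ]; omega) (𝒜.typ v)
      obtain ⟨u, hu, rfl⟩ := loc_exists_colour hP hρ hc1
      have hug : u ∉ 𝒜.gapIn B V := by
        rintro ⟨W, hW, rfl⟩
        have h4 := loc_del_mem hρ h hW
        rw [(h.good_nrm hρ hW).2, show 𝒜.del W = e by omega] at hc2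
        exact hc2 he
      refine Relation.ReflTransGen.head (loc_pair_join hρ h hv hu hvg hug)
        (Relation.ReflTransGen.single ?_)
      rw [Finset.pair_comm]
      exact loc_pair_join hρ h hv' hu hvg' hug
    · have h4 := hD F M B V _ _ V 𝒜.del h.dHyp (h.isDim hρ) (by omega) (by omega)
      have h5 := Conn.image (Flag_isCx _ _) 𝒜.nrm (h.face_iff hρ)
        ((h4.exact le_rfl).conn (Flag_isCx _ _))
      have h6 := h5 v v' ⟨hv, by simpa using hvg⟩ ⟨hv', by simpa using hvg'⟩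
      clear hv' hvg'
      induction h6 with
      | refl => exact Relation.ReflTransGen.refl
      | tail _ hab ih => exact ih.tail hab.1
  · exact Relation.ReflTransGen.single (loc_pair_join hρ h hv hv' hvg hvg')

/-- Recipe: pigeonhole: one of the `m+1` intervals `[k(m+1), (k+1)(m+1))` contains no colour of
`ρ`; the gap at its left end `a` has `del B + m + 2 ≤ del V` (`typ_V`: `del V % N` is a colour of
`ρ`, while `(e + i) % N = a + i` for `i ≤ m`).  Then `D_contr`, `HasContr.image` (`face_iff`),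
`HasContr.join` (`IsGap.join`). -/
theorem Delta_contr (m : ℕ) : ∃ R q₀ : ℕ, ∀ (F M : Type) [Field F] [Fintype F] [AddCommGroup M]
    [Module F M] (𝒜 : Amb F M), q₀ ≤ Fintype.card F → (m + 1) * (m + 1) ≤ 𝒜.N →
    ∀ ρ ∈ 𝒜.Δ, ρ.Nonempty → ρ.card ≤ m → HasContr (Lk 𝒜.Δ ρ) m R := by
  obtain ⟨R, q₀, hD⟩ := D_contr m
  refine ⟨R, q₀, fun F M _ _ _ _ 𝒜 hq hN ρ hρ hne hc => ?_⟩
  obtain ⟨k, hk, hk'⟩ := Finset.exists_mem_notMem_of_card_lt_card
    (s := ρ.image (fun L => 𝒜.typ L / (m + 1))) (t := Finset.range (m + 1))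
    (by rw [Finset.card_range]; exact lt_of_le_of_lt Finset.card_image_le (by omega))
  rw [Finset.mem_range] at hk
  have hfree : ∀ i, i ≤ m → ∀ L ∈ ρ, 𝒜.typ L ≠ k * (m + 1) + i := by
    intro i hi L hL e
    refine hk' (Finset.mem_image.2 ⟨L, hL, ?_⟩)
    rw [e, mul_comm, Nat.mul_add_div (by omega), Nat.div_eq_of_lt (by omega), add_zero]
  have hlt : k * (m + 1) + m < 𝒜.N := by
    have : (k + 1) * (m + 1) ≤ (m + 1) * (m + 1) := Nat.mul_le_mul_right _ hk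
    have h2 : (k + 1) * (m + 1) = k * (m + 1) + m + 1 := by ring
    omega
  obtain ⟨B, V, e, h, h1, h2, he⟩ := exists_gap hρ hne (a := k * (m + 1)) (by omega)
    (fun L hL => hfree 0 (Nat.zero_le _) L hL)
  have h3 : 𝒜.del B + m + 2 ≤ 𝒜.del V := by
    by_contra hcon
    refine hfree (𝒜.del V - e) (by omega) V h.memV ?_
    rw [h.typ_V hρ]
    conv_lhs => rw [show 𝒜.del V = e + (𝒜.del V - e) by omega]
    rw [← Nat.mod_add_mod, he, Nat.mod_eq_of_lt (by omega)]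
  have h4 := hD F M B V _ _ V 𝒜.del h.dHyp (h.isDim hρ) hq h3
  exact HasContr.join (Lk_isCx Δ_isCx hρ) (𝒜.gapIn B V) (h.join hρ)
    (HasContr.image (Flag_isCx _ _) 𝒜.nrm _ (fun σ hσ => hσ.1) h.injOn (h.face_iff hρ) h4)

theorem Delta_local (m : ℕ) : ∃ R : ℕ, ∀ b : ℕ, ∃ q₀ : ℕ, ∀ (F M : Type) [Field F] [Fintype F]
    [AddCommGroup M] [Module F M] (𝒜 : Amb F M), q₀ ≤ Fintype.card F →
    (m + 1) * (m + 1) ≤ 𝒜.N → 3 ≤ 𝒜.N →
    Partite 𝒜.Δ 𝒜.typ 𝒜.N ∧ Local 𝒜.Δ 𝒜.typ 𝒜.N m R b := by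
  obtain ⟨R, q₁, h₁⟩ := Delta_contr m
  obtain ⟨q₂, h₂⟩ := Delta_conn
  refine ⟨R, fun b => ⟨q₁ + q₂ + b + 3, fun F M _ _ _ _ 𝒜 hq hN h3 => ⟨?_, ?_, ?_, ?_, ?_⟩⟩⟩
  · exact Delta_partite (by omega) (by omega)
  · exact h₂ F M 𝒜 (by omega)
  · intro ρ hρ hc
    exact link_many hρ (Finset.card_pos.1 (by omega)) (by omega) b (by omega)
  · exact Delta_rank2 h3 (by omega)
  · exact h₁ F M 𝒜 (by omega) hN

end Crest.Agent.R66.Amb
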