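import Crest.Agent.R66.Model1
import Crest.Agent.R66.Gap
import Crest.Agent.R66.GH1

/-! # Row 66: transitivity, separation, stabilisers, fundamental domain -/

set_option linter.unusedSectionVars false

namespace Crest.Agent.R66

open Polynomial LaurentPolynomial

/-- adapted bases for complete flags. -/
theorem exists_flag_basis {F M : Type*} [Field F] [AddCommGroup M] [Module F M] (N : ℕ)
    (U : ℕ → Submodule F M) (hmono : ∀ i < N, U i ≤ U (i + 1)) [FiniteDimensional F ↥(U N)]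
    (hrk : ∀ i ≤ N, Module.finrank F ↥(U i) = i) :
    ∃ u : ℕ → M, ∀ i ≤ N, U i = Submodule.span F (u '' {k | k < i}) := by
  have hle : ∀ k i, i + k = N → U i ≤ U N := by
    intro k
    induction k with
    | zero => intro i hi; rw [← hi]; exact le_rfl
    | succ k ih => intro i hi; exact (hmono i (by omega)).trans (ih (i + 1) (by omega))
  have hfin : ∀ i ≤ N, FiniteDimensional F ↥(U i) := fun i hi =>
    Submodule.finiteDimensional_of_le (hle (N - i) i (by omega))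
  have hex : ∀ i, ∃ x : M, i < N → x ∈ U (i + 1) ∧ x ∉ U i := by
    intro i
    by_cases hi : i < N
    · have hlt : U i < U (i + 1) := lt_of_le_of_ne (hmono i hi) fun h => by
        have h1 := hrk i hi.le
        have h2 := hrk (i + 1) hi
        rw [h] at h1
        omega
      obtain ⟨x, hx1, hx2⟩ := SetLike.exists_of_lt hlt
      exact ⟨x, fun _ => ⟨hx1, hx2⟩⟩
    · exact ⟨0, fun h => absurd h hi⟩
  choose u hu using hex
  refine ⟨u, fun i => ?_⟩
  induction i with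
  | zero =>
    intro h0
    have := hfin 0 h0
    rw [Submodule.finrank_eq_zero.1 (hrk 0 h0)]
    simp
  | succ i ih =>
    intro hi
    have := hfin (i + 1) hi
    have e : u '' {k | k < i + 1} = insert (u i) (u '' {k | k < i}) := by
      rw [← Set.image_insert_eq]
      congr 1
      ext k
      simp only [Set.mem_ofPred_eq, Set.mem_insert_iff]
      omega
    rw [e, Submodule.span_insert, ← ih (by omega)]
    obtain ⟨h1, h2⟩ := hu i hi
    have h3 : Submodule.span F {u i} ⊔ U i ≤ U (i + 1) :=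
      sup_le ((Submodule.span_singleton_le_iff_mem _ _).2 h1) (hmono i hi)
    have h4 : U i < Submodule.span F {u i} ⊔ U i := lt_of_le_of_ne le_sup_right fun h =>
      h2 (h ▸ Submodule.mem_sup_left (Submodule.mem_span_singleton_self _))
    have := Submodule.finiteDimensional_of_le h3
    have h5 := Submodule.finrank_lt_finrank_of_lt h4
    refine (Submodule.eq_of_le_of_finrank_le h3 ?_).symm
    rw [hrk i (by omega)] at h5
    rw [hrk (i + 1) hi]
    omega

variable {ι : Type*} [Fintype ι] [DecidableEq ι] {F : Type*} [Field F]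

theorem exists_mem_LM (x : MM ι F) : ∃ k : ℕ, x ∈ LM ι F k := by
  refine ⟨Finset.univ.sup fun i => (x i).coeff.support.sup Int.toNat, fun i n hn => ?_⟩
  by_contra h
  have h1 : n.toNat ≤ (x i).coeff.support.sup Int.toNat :=
    Finset.le_sup (f := Int.toNat) (Finsupp.mem_support_iff.2 h)
  have h2 : (x i).coeff.support.sup Int.toNat ≤
      Finset.univ.sup fun i => (x i).coeff.support.sup Int.toNat :=
    Finset.le_sup (f := fun i => (x i).coeff.support.sup Int.toNat) (Finset.mem_univ i)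
  omega

theorem eq_sum_single (x : MM ι F) : x = ∑ j, ∑ n ∈ (x j).coeff.support,
    (x j).coeff n • tM ι F n (Pi.single j 1) := by
  funext i
  rw [Finset.sum_apply, Finset.sum_eq_single i]
  · rw [Finset.sum_apply]
    conv_lhs => rw [← AddMonoidAlgebra.sum_coeff_single (x i), Finsupp.sum]
    refine Finset.sum_congr rfl fun n _ => ?_
    change _ = (x i).coeff n • (T n * (Pi.single i 1 : MM ι F) i)
    rw [Pi.single_eq_same, mul_one, single_eq_C_mul_T, LaurentPolynomial.smul_eq_C_mul]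
  · intro j _ hj
    rw [Finset.sum_apply]
    refine Finset.sum_eq_zero fun n _ => ?_
    change (x j).coeff n • (T n * (Pi.single j 1 : MM ι F) i) = 0
    rw [Pi.single_eq_of_ne hj.symm, mul_zero, smul_zero]
  · intro h; exact absurd (Finset.mem_univ i) h

theorem LM_le {a : ℤ} {W : Submodule F (MM ι F)}
    (h : ∀ j n, n ≤ a → tM ι F n (Pi.single j 1) ∈ W) : LM ι F a ≤ W := by
  intro x hx
  rw [eq_sum_single x]
  refine W.sum_mem fun j _ => W.sum_mem fun n hn => W.smul_mem _ (h j n ?_)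
  by_contra hlt
  exact Finsupp.mem_support_iff.1 hn (hx j n (by omega))

theorem single_mem_PM (j : ι) : (Pi.single j 1 : MM ι F) ∈ PM ι F 0 := by
  intro l n hn
  by_cases hl : l = j
  · subst hl
    rw [Pi.single_eq_same, ← T_zero, T_apply, if_neg (by omega)]
  · rw [Pi.single_eq_of_ne hl]; rfl

theorem tM_mem_sh {L : Submodule F (MM ι F)} {x : MM ι F} (hx : x ∈ L) (n : ℤ) :
    tM ι F n x ∈ (amb ι F).sh n L := by
  rw [amb_sh]; exact ⟨x, hx, rfl⟩

theorem amb_sh_LM (m a : ℤ) : (amb ι F).sh m (LM ι F a) = LM ι F (m + a) := by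
  rw [amb_sh, map_LM]

theorem latAct_sh (g : GL ι F[X]) (m : ℤ) (L : Submodule F (MM ι F)) :
    latAct ι F g ((amb ι F).sh m L) = (amb ι F).sh m (latAct ι F g L) :=
  (rep_isSym g).map_sh m L

theorem latAct_PM (g : GL ι F[X]) (a : ℤ) : latAct ι F g (PM ι F a) = PM ι F a := by
  rw [← amb_Q]; exact (rep_isSym g).map_Q a

theorem latAct_mono (g : GL ι F[X]) {L L' : Submodule F (MM ι F)} (h : L ≤ L') :
    latAct ι F g L ≤ latAct ι F g L' := Submodule.map_mono h

theorem latAct_sup (g : GL ι F[X]) (L L' : Submodule F (MM ι F)) :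
    latAct ι F g (L ⊔ L') = latAct ι F g L ⊔ latAct ι F g L' := Submodule.map_sup _ _ _

theorem latAct_inv_cancel (g : GL ι F[X]) (L : Submodule F (MM ι F)) :
    latAct ι F g⁻¹ (latAct ι F g L) = L := by
  rw [← Equiv.Perm.mul_apply, ← map_mul, inv_mul_cancel, map_one, Equiv.Perm.one_apply]

/-- modular law -/
theorem eq_sup_inf_of_le {α : Type*} [Lattice α] [IsModularLattice α] [OrderTop α] {A L Q : α}
    (h : A ≤ L) (hs : A ⊔ Q = ⊤) : L = A ⊔ (L ⊓ Q) := by
  rw [inf_comm, ← sup_inf_assoc_of_le _ h, hs, top_inf_eq]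

section simplex
variable {M : Type*} [AddCommGroup M] [Module F M] {𝒜 : Amb F M} {σ : Finset (Submodule F M)}
  {L L' : Submodule F M}

theorem simplex_le_sh (hσ : σ ∈ 𝒜.Δ) (hL : L ∈ σ) (hL' : L' ∈ σ) : L' ≤ 𝒜.sh 1 L := by
  have hg : 𝒜.Good L := hσ.1 L hL
  by_cases h : L = L'
  · rw [← h]; exact hg.1.1.1
  · exact Amb.adj_le hg.1.1 (hσ.2 L hL L' hL' h)

theorem simplex_le_of_typ (hσ : σ ∈ 𝒜.Δ) (hL : L ∈ σ) (hL' : L' ∈ σ) (h : 𝒜.typ L ≤ 𝒜.typ L') :
    L ≤ L' := by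
  by_cases he : L = L'
  · exact he.le
  · rcases hσ.2 L hL L' hL' he with h1 | h1
    · exact h1.1
    · have := Amb.Good.typ_lt_typ (hσ.1 L' hL') (hσ.1 L hL) (lt_of_le_of_ne h1.1 (Ne.symm he))
      omega

end simplex

/-- a spanning family of `L ⊓ P` for a type-`0` vertex `L` is an `F[X]`-basis.
Recipe: `g = matrix with columns u j`.  Surjectivity of `mulVec`: by induction on `m`, every
polynomial vector in `sh m L` is in the range (`P = (L ⊓ P) ⊔ Q 1`; `x = u + t y`), and every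
polynomial vector lies in some `sh m L` (`Lat`).  `Matrix.mulVec_surjective_iff_isUnit`.
Then `g • LM 0 ≤ L` (write `x = ∑ x_j e_j`, `x_j ∈ F[T⁻¹]`, `sh (-k) L ≤ L`), and equality by the
modular law from `g • LM 0 ⊔ Q 1 = ⊤`, `L ⊓ Q 1 = ⊥`. -/
theorem type0_basis {L : Submodule F (MM ι F)} (hL : (amb ι F).Good L) (h0 : (amb ι F).typ L = 0)
    (u : ι → MM ι F) (hu : L ⊓ PM ι F 0 = Submodule.span F (Set.range u)) :
    ∃ g : GL ι F[X], latAct ι F g (LM ι F 0) = L ∧ ∀ j, rep ι F g (Pi.single j 1) = u j := by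
  have hlat := hL.1.1
  have hsup : L ⊔ PM ι F 1 = ⊤ := by rw [← amb_Q]; exact hL.1.2.1
  have hinf : L ⊓ PM ι F 1 = ⊥ := by
    have := hlat.fin 1
    rw [← amb_Q]
    exact Submodule.finrank_eq_zero.1 h0
  have hum : ∀ j, u j ∈ L ⊓ PM ι F 0 := fun j => by
    rw [hu]; exact Submodule.subset_span ⟨j, rfl⟩
  choose p hp using fun j => mem_PM_zero.1 (hum j).2
  let A : Matrix ι ι F[X] := Matrix.of fun i j => p j i
  have hA : ∀ j, repL ι F A (Pi.single j 1) = u j := fun j => by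
    change (A.map toLaurent).mulVec (Pi.single j 1) = _
    rw [Matrix.mulVec_single_one, hp j]
    rfl
  have key : ∀ m : ℕ, (amb ι F).sh m L ⊓ PM ι F 0 ≤ (PM ι F 0).map (repL ι F A) := by
    have base : L ⊓ PM ι F 0 ≤ (PM ι F 0).map (repL ι F A) := by
      rw [hu, Submodule.span_le]
      rintro _ ⟨j, rfl⟩
      exact ⟨_, single_mem_PM j, hA j⟩
    intro m
    induction m with
    | zero => rw [Nat.cast_zero, Amb.sh_zero]; exact base
    | succ m ih =>
      rintro x ⟨hx1, hx2⟩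
      obtain ⟨l, hl, y, hy, rfl⟩ := Submodule.mem_sup.1 (hsup ▸ Submodule.mem_top : x ∈ L ⊔ PM ι F 1)
      have hy0 : y ∈ PM ι F 0 := PM_anti (by norm_num) hy
      have hl0 : l ∈ PM ι F 0 := by
        have := (PM ι F 0).sub_mem hx2 hy0
        rwa [add_sub_cancel_right] at this
      refine Submodule.add_mem _ (base ⟨hl, hl0⟩) ?_
      have hl1 : l ∈ (amb ι F).sh ((m + 1 : ℕ) : ℤ) L := by
        have := (amb ι F).sh_mono_int hlat.1 (a := 0) (b := ((m + 1 : ℕ) : ℤ)) (by omega)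
        rw [Amb.sh_zero] at this
        exact this hl
      have hy1 : y ∈ (amb ι F).sh ((m + 1 : ℕ) : ℤ) L := by
        have := Submodule.sub_mem _ hx1 hl1
        rwa [add_sub_cancel_left] at this
      have hy2 : y ∈ (amb ι F).sh 1 ((amb ι F).sh m L ⊓ PM ι F 0) := by
        rw [OrderIso.map_inf, Amb.sh_sh, ← amb_Q, Amb.sh_Q, amb_Q, add_comm (1 : ℤ) m, add_zero]
        exact ⟨by exact_mod_cast hy1, hy⟩
      rw [amb_sh] at hy2
      obtain ⟨y', hy', rfl⟩ := hy2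
      obtain ⟨z, hz, hz'⟩ := ih hy'
      refine ⟨tM ι F 1 z, ?_, ?_⟩
      · have h1 := tM_mem_sh hz 1
        rw [← amb_Q, Amb.sh_Q, amb_Q] at h1
        exact PM_anti (by norm_num) h1
      · rw [repL_tM, hz']; rfl
  have hsurj : Function.Surjective A.mulVec := by
    intro q
    obtain ⟨k, hk⟩ := exists_mem_LM (fun i => toLaurent (q i) : MM ι F)
    obtain ⟨m, hm, -⟩ := hlat.2
    have h1 : LM ι F k ≤ (amb ι F).sh ((k + m : ℕ) : ℤ) L := by
      refine le_trans (le_of_eq ?_) (((amb ι F).sh _).monotone hm)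
      rw [Amb.sh_sh, amb_sh_Λ]
      congr 1
      push_cast
      ring
    obtain ⟨z, hz, hz'⟩ := key (k + m) ⟨h1 hk, mem_PM_zero.2 ⟨q, rfl⟩⟩
    obtain ⟨r, rfl⟩ := mem_PM_zero.1 hz
    refine ⟨r, funext fun i => toLaurent_injective ?_⟩
    rw [← congrFun hz' i]
    change toLaurent (∑ j, A i j * r j) = ∑ j, toLaurent (A i j) * toLaurent (r j)
    rw [map_sum]
    simp only [map_mul]
  obtain ⟨g, hg⟩ := Matrix.mulVec_surjective_iff_isUnit.1 hsurj
  have hgu : ∀ j, rep ι F g (Pi.single j 1) = u j := fun j => by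
    rw [← hA j, ← hg]; rfl
  refine ⟨g, ?_, hgu⟩
  have h1 : latAct ι F g (LM ι F 0) ≤ L := by
    rw [latAct_eq_map, Submodule.map_le_iff_le_comap]
    refine LM_le fun j n hn => ?_
    change repL ι F (g : Matrix ι ι F[X]) _ ∈ L
    rw [repL_tM, hg, hA]
    have := (amb ι F).sh_mono_int hlat.1 hn (tM_mem_sh (hum j).1 n)
    rwa [Amb.sh_zero] at this
  have h2 : latAct ι F g (LM ι F 0) ⊔ PM ι F 1 = ⊤ := by
    rw [← latAct_PM g 1, ← latAct_sup]
    have := LM_sup_PM (ι := ι) (F := F) 0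
    rw [zero_add] at this
    rw [this]
    exact (Submodule.orderIsoMapComap (rep ι F g)).map_top
  rw [eq_sup_inf_of_le h1 h2, hinf, sup_bot_eq]

theorem type0_trans {L : Submodule F (MM ι F)} (hL : (amb ι F).Good L)
    (h0 : (amb ι F).typ L = 0) : ∃ g : GL ι F[X], latAct ι F g (LM ι F 0) = L := by
  have hfin := hL.1.1.fin 0
  have hd := Amb.del_eq hL.1.1 hL.1.2.1
  rw [h0, zero_add, amb_N, Amb.del] at hd
  rw [amb_Q] at hfin hd
  let b := (Module.finBasisOfFinrankEq F _ hd).reindex (Fintype.equivFin ι).symm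
  obtain ⟨g, hg, -⟩ := type0_basis hL h0 (fun j => (b j : MM ι F)) (by
    have h1 := congrArg (Submodule.map (L ⊓ PM ι F 0).subtype) b.span_eq
    rw [Submodule.map_span, Submodule.map_top, Submodule.range_subtype, ← Set.range_comp] at h1
    exact h1.symm)
  exact ⟨g, hg⟩

/-- every chamber has exactly one vertex of each colour. -/
theorem Partite.exists_col {V : Type*} [DecidableEq V] {K : Set (Finset V)} {col : V → ℕ} {N : ℕ}
    (hP : Partite K col N) {c : Finset V} (hc : c ∈ K) (hN : c.card = N) {x : ℕ} (hx : x < N) :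
    ∃ v ∈ c, col v = x := by
  have h1 : c.image col ⊆ Finset.range N := by
    intro y hy
    obtain ⟨v, hv, rfl⟩ := Finset.mem_image.1 hy
    exact Finset.mem_range.2 (hP.lt v (hP.cx.2 c hc _ (Finset.singleton_subset_iff.2 hv)))
  have h2 : c.image col = Finset.range N := Finset.eq_of_subset_of_card_le h1 (by
    rw [Finset.card_range, Finset.card_image_of_injOn (hP.inj c hc), hN])
  exact Finset.mem_image.1 (h2 ▸ Finset.mem_range.2 hx)

/-- the standard chamber -/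
noncomputable def stdV (ι : Type*) [Fintype ι] [DecidableEq ι] (F : Type*) [Field F] (i : ℕ) :
    Submodule F (MM ι F) :=
  LM ι F 0 ⊔ (amb ι F).sh 1 (Submodule.span F
    ((fun j : ι => (Pi.single j 1 : MM ι F)) '' {j | (Fintype.equivFin ι j : ℕ) < i}))

theorem chamber_eq (hP : Partite (amb ι F).Δ (amb ι F).typ (amb ι F).N)
    {c : Finset (Submodule F (MM ι F))} (hc : c ∈ (amb ι F).Δ) (hN : c.card = (amb ι F).N) :
    ∃ g : GL ι F[X], c = (Finset.range (amb ι F).N).image fun i => latAct ι F g (stdV ι F i) := by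
  rcases Nat.eq_zero_or_pos (amb ι F).N with h0 | hpos
  · refine ⟨1, ?_⟩
    rw [h0] at hN ⊢
    rw [Finset.card_eq_zero.1 hN]
    simp
  have hex : ∀ i, ∃ v, i < (amb ι F).N → v ∈ c ∧ (amb ι F).typ v = i := by
    intro i
    by_cases hi : i < (amb ι F).N
    · obtain ⟨v, hv⟩ := hP.exists_col hc hN hi
      exact ⟨v, fun _ => hv⟩
    · exact ⟨⊥, fun h => absurd h hi⟩
  choose L hL using hex
  have hg0 : (amb ι F).Good (L 0) := hc.1 _ (hL 0 hpos).1
  let U : ℕ → Submodule F (MM ι F) := fun i =>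
    if i < (amb ι F).N then (amb ι F).sh (-1) (L i) ⊓ (amb ι F).Q 0 else L 0 ⊓ (amb ι F).Q 0
  have hU1 : ∀ i < (amb ι F).N, U i = (amb ι F).sh (-1) (L i) ⊓ (amb ι F).Q 0 := fun i hi =>
    if_pos hi
  have hU2 : U (amb ι F).N = L 0 ⊓ (amb ι F).Q 0 := if_neg (lt_irrefl _)
  have hfin : FiniteDimensional F ↥(U (amb ι F).N) := by rw [hU2]; exact hg0.1.1.fin 0
  obtain ⟨u, hu⟩ := exists_flag_basis (amb ι F).N U (by
      intro i hi
      rw [hU1 i hi]
      rcases Nat.lt_or_ge (i + 1) (amb ι F).N with h | h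
      · rw [hU1 _ h]
        refine inf_le_inf_right _ (((amb ι F).sh _).monotone ?_)
        refine simplex_le_of_typ hc (hL i hi).1 (hL _ h).1 ?_
        rw [(hL i hi).2, (hL _ h).2]
        omega
      · rw [show i + 1 = (amb ι F).N by omega, hU2]
        refine inf_le_inf_right _ ?_
        rw [Amb.sh_neg_le_iff]
        exact simplex_le_sh hc (hL 0 hpos).1 (hL i hi).1) (by
      intro i hi
      rcases hi.lt_or_eq with h | h
      · rw [hU1 i h]
        exact (Amb.del_sh_neg (L i)).trans (hL i h).2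
      · rw [h, hU2]
        have := Amb.del_eq hg0.1.1 hg0.1.2.1
        rw [(hL 0 hpos).2, zero_add] at this
        exact this)
  have himg : ∀ i ≤ (amb ι F).N, u '' {k | k < i} =
      (fun j : ι => u (Fintype.equivFin ι j)) '' {j | (Fintype.equivFin ι j : ℕ) < i} := by
    intro i hi
    ext x
    constructor
    · rintro ⟨k, hk, rfl⟩
      have hk' : k < Fintype.card ι := lt_of_lt_of_le hk hi
      refine ⟨(Fintype.equivFin ι).symm ⟨k, hk'⟩, ?_, ?_⟩ <;> simp [show k < i from hk]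
    · rintro ⟨j, hj, rfl⟩
      exact ⟨_, hj, rfl⟩
  obtain ⟨g, hg, hgu⟩ := type0_basis hg0 (hL 0 hpos).2 (fun j => u (Fintype.equivFin ι j)) (by
    rw [← amb_Q, ← hU2, hu _ le_rfl, himg _ le_rfl]
    congr 1
    ext x
    constructor
    · rintro ⟨j, -, rfl⟩; exact ⟨j, rfl⟩
    · rintro ⟨j, rfl⟩; exact ⟨j, (Fintype.equivFin ι j).2, rfl⟩)
  have hLi : ∀ i < (amb ι F).N, latAct ι F g (stdV ι F i) = L i := by
    intro i hi
    have h1 : L 0 ≤ L i := simplex_le_of_typ hc (hL 0 hpos).1 (hL i hi).1 (by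
      rw [(hL 0 hpos).2]; exact Nat.zero_le _)
    have h2 : L i ⊓ (amb ι F).Q 1 = (amb ι F).sh 1 (U i) := by
      rw [hU1 i hi, OrderIso.map_inf, Amb.sh_sh_neg, Amb.sh_Q, add_zero]
    rw [eq_sup_inf_of_le h1 hg0.1.2.1, h2, stdV, latAct_sup, hg, latAct_sh, hu i hi.le,
      himg i hi.le, latAct_eq_map, Submodule.map_span, Set.image_image]
    congr 4
    funext j
    exact hgu j
  refine ⟨g, ?_⟩
  ext v
  rw [Finset.mem_image]
  constructor
  · intro hv
    have h1 : (amb ι F).typ v < (amb ι F).N := Amb.Good.typ_lt (hc.1 v hv)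
    refine ⟨_, Finset.mem_range.2 h1, ?_⟩
    rw [hLi _ h1]
    exact hP.inj c hc (hL _ h1).1 hv (hL _ h1).2
  · rintro ⟨i, hi, rfl⟩
    rw [hLi i (Finset.mem_range.1 hi)]
    exact (hL i (Finset.mem_range.1 hi)).1

/-- Recipe: let `L i` be the vertex of type `i` of `c`, `U i = sh (-1) (L i) ⊓ P` for `i < N`,
`U N = L 0 ⊓ P`; `exists_flag_basis`, an equivalence `e : ι ≃ Fin N`, `type0_basis`.  Then
`L i = L 0 ⊔ (L i ⊓ Q 1) = g • (LM 0 ⊔ sh 1 (span {e_j | e j < i}))`, so `c = g • C` for a fixed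
standard chamber `C`; the same for `c'`. -/
theorem model_trans (hP : Partite (amb ι F).Δ (amb ι F).typ (amb ι F).N) :
    ∀ c ∈ (amb ι F).Δ, ∀ c' ∈ (amb ι F).Δ, c.card = (amb ι F).N → c'.card = (amb ι F).N →
      ∃ g : GL ι F[X], c.image (latAct ι F g) = c' := by
  intro c hc c' hc' hN hN'
  obtain ⟨g, rfl⟩ := chamber_eq hP hc hN
  obtain ⟨g', rfl⟩ := chamber_eq hP hc' hN'
  refine ⟨g' * g⁻¹, ?_⟩
  rw [Finset.image_image]
  congr 1
  funext i
  rw [Function.comp_apply, map_mul, Equiv.Perm.mul_apply, latAct_inv_cancel]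

theorem exists_type0 (hP : Partite (amb ι F).Δ (amb ι F).typ (amb ι F).N)
    (hN : 1 ≤ Fintype.card ι) {σ : Finset (Submodule F (MM ι F))} (hσ : σ ∈ (amb ι F).Δ) :
    ∃ g : GL ι F[X], ∀ v ∈ σ, latAct ι F g (LM ι F 0) ≤ v ∧
      v ≤ (amb ι F).sh 1 (latAct ι F g (LM ι F 0)) := by
  obtain ⟨τ, hτ, hστ, hc⟩ := hP.pure σ hσ
  obtain ⟨L, hL, h0⟩ := hP.exists_col hτ hc (x := 0) hN
  obtain ⟨g, hg⟩ := type0_trans (hτ.1 L hL) h0
  refine ⟨g, fun v hv => ?_⟩
  rw [hg]
  exact ⟨simplex_le_of_typ hτ hL (hστ hv) (by rw [h0]; exact Nat.zero_le _),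
    simplex_le_sh hτ hL (hστ hv)⟩

theorem model_inv : Inv (latAct ι F) ⊤ (amb ι F).Δ :=
  fun g _ _ hσ => (rep_isSym g).mem_Δ hσ

/-- Recipe: a type-`0` vertex `Λ' = g • LM 0` of a chamber through `w` has `Λ' ≤ w ≤ sh 1 Λ'`;
`γ Λ' ≤ γ w ≤ sh 1 v ≤ sh 2 w ≤ sh 3 Λ'`, so `g⁻¹ γ g` has entries of degree `≤ 3`
(`bdd_entries`, `eq_one_of_bdd`). -/
theorem model_sep (hP : Partite (amb ι F).Δ (amb ι F).typ (amb ι F).N) {n : ℕ} (hn : 4 ≤ n) :
    ∀ γ ∈ Gam ι F n, ∀ v w : Submodule F (MM ι F), ({v, w} : Finset _) ∈ (amb ι F).Δ →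
      ({v, latAct ι F γ w} : Finset _) ∈ (amb ι F).Δ → latAct ι F γ w = w := by
  intro γ hγ v w h1 h2
  have hw : (amb ι F).Good w := h1.1 w (by simp)
  have hN : 1 ≤ Fintype.card ι := by
    have := Amb.Good.typ_lt hw
    rw [amb_N] at this
    omega
  obtain ⟨g, hg⟩ := exists_type0 hP hN h1
  obtain ⟨ha, hb⟩ := hg w (by simp)
  have h3 : latAct ι F γ w ≤ (amb ι F).sh 1 v := simplex_le_sh h2 (by simp) (by simp)
  have h4 : v ≤ (amb ι F).sh 1 w := simplex_le_sh h1 (by simp) (by simp)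
  have h5 : latAct ι F γ (latAct ι F g (LM ι F 0)) ≤ (amb ι F).sh 3 (latAct ι F g (LM ι F 0)) := by
    refine (latAct_mono γ ha).trans (h3.trans ((((amb ι F).sh 1).monotone
      (h4.trans (((amb ι F).sh 1).monotone hb))).trans (le_of_eq ?_)))
    rw [Amb.sh_sh, Amb.sh_sh]
    norm_num
  have h6 : latAct ι F (g⁻¹ * γ * g) (LM ι F 0) ≤ LM ι F (3 : ℕ) := by
    rw [map_mul, map_mul, Equiv.Perm.mul_apply, Equiv.Perm.mul_apply]
    refine (latAct_mono g⁻¹ h5).trans (le_of_eq ?_)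
    rw [latAct_sh, latAct_inv_cancel, amb_sh_LM]
    norm_num
  have h7 : g⁻¹ * γ * g ∈ Gam ι F n := by
    have := (Gam_normal (ι := ι) (F := F) n).conj_mem γ hγ g⁻¹
    rwa [inv_inv] at this
  have h8 := eq_one_of_bdd (k := 3) (by omega) h7 (bdd_entries h6)
  have h9 : γ = 1 := by
    calc γ = g * (g⁻¹ * γ * g) * g⁻¹ := by group
      _ = 1 := by rw [h8]; group
  rw [h9, map_one, Equiv.Perm.one_apply]

/-- Recipe: for `v ∈ σ` with `LM (-m) ≤ v ≤ LM m`, a stabiliser element `h` has `h v ≤ sh 1 v`, so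
`h • LM 0 ≤ LM (2m+1)`; `finite_bdd`, `odd_card_of_le`. -/
theorem model_odd [Finite F] (h2 : (2 : F) ≠ 0) :
    OddStab (latAct ι F) (Gam ι F 1) (amb ι F).Δ := by
  rintro σ hσ ⟨v, hv⟩
  obtain ⟨m, hm1, hm2⟩ := (hσ.1 v hv : (amb ι F).Good v).1.1.2
  rw [amb_sh_Λ] at hm1 hm2
  have hfin : (stab (latAct ι F) (Gam ι F 1) σ : Set (GL ι F[X])).Finite := by
    refine (finite_bdd (ι := ι) (F := F) (2 * m + 1)).subset fun h hh => bdd_entries ?_
    have h1 : latAct ι F h v ∈ σ := by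
      rw [← hh.2]; exact Finset.mem_image_of_mem _ hv
    have h2 := simplex_le_sh hσ hv h1
    have h3 : LM ι F 0 = (amb ι F).sh m (LM ι F (-(m : ℤ))) := by
      rw [amb_sh_LM, add_neg_cancel]
    rw [h3, latAct_sh]
    refine (((amb ι F).sh m).monotone ((latAct_mono h hm1).trans (h2.trans
      (((amb ι F).sh 1).monotone hm2)))).trans (le_of_eq ?_)
    rw [amb_sh_LM, amb_sh_LM]
    congr 1
    push_cast
    ring
  have : Finite (stab (latAct ι F) (Gam ι F 1) σ) := hfin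
  exact odd_card_of_le h2 fun _ hh => hh.1

/-- Recipe: `fundom` with `D = {L | Good L ∧ LM 0 ≤ L ∧ L ≤ LM 1}`, `v₀ = LM 0`.
(h1) purity, `type0_trans`, `exists_Gam_one`.  (h2) `L = LM 0 ⊔ (L ⊓ Q 1)`; for `x ∈ L ⊓ Q 1`,
`γ x - x ∈ LM 1 ⊓ PM 2 = ⊥` (`rep_sub_mem`), so `L ⊓ Q 1 = γ L ⊓ Q 1`. -/
theorem model_van (hP : Partite (amb ι F).Δ (amb ι F).typ (amb ι F).N)
    (hN : 1 ≤ Fintype.card ι) (j : ℕ) : Van (latAct ι F) (Gam ι F 1) (amb ι F).Δ j := by
  have hsup : LM ι F 0 ⊔ PM ι F 1 = ⊤ := by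
    have := LM_sup_PM (ι := ι) (F := F) 0
    rwa [zero_add] at this
  refine fundom (fun g _ => model_inv g (Subgroup.mem_top g))
    {L | (amb ι F).Good L ∧ LM ι F 0 ≤ L ∧ L ≤ LM ι F 1} (LM ι F 0) ?_ ?_ ?_ j
  · intro σ hσ
    obtain ⟨g, hg⟩ := exists_type0 hP hN hσ
    obtain ⟨γ, hγ, hγg⟩ := exists_Gam_one g
    rw [← hγg] at hg
    refine ⟨γ⁻¹, Subgroup.inv_mem _ hγ, fun v hv => ⟨(rep_isSym γ⁻¹).good (hσ.1 v hv), ?_, ?_⟩⟩
    · have := latAct_mono γ⁻¹ (hg v hv).1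
      rwa [latAct_inv_cancel] at this
    · have := latAct_mono γ⁻¹ (hg v hv).2
      rwa [latAct_sh, latAct_inv_cancel, amb_sh_LM, add_zero] at this
  · rintro γ hγ v ⟨-, hv1, hv2⟩ ⟨-, hw1, hw2⟩
    have key : ∀ x ∈ v, x ∈ PM ι F 1 → rep ι F γ x = x := by
      intro x hx hx1
      have h1 : rep ι F γ x - x ∈ LM ι F 1 ⊓ PM ι F (1 + 1) :=
        ⟨Submodule.sub_mem _ (hw2 ⟨x, hx, rfl⟩) (hv2 hx), rep_sub_mem hγ hx1⟩
      rwa [LM_inf_PM, Submodule.mem_bot, sub_eq_zero] at h1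
    rw [eq_sup_inf_of_le hw1 hsup]
    conv_rhs => rw [eq_sup_inf_of_le hv1 hsup]
    congr 1
    apply le_antisymm
    · rintro _ ⟨⟨x, hx, rfl⟩, hy⟩
      have hx1 : x ∈ PM ι F 1 := by
        have h1 : (rep ι F γ : MM ι F →ₗ[F] MM ι F) x ∈ latAct ι F γ (PM ι F 1) := by
          rw [latAct_PM]; exact hy
        obtain ⟨x', hx', he⟩ := h1
        rwa [← (rep ι F γ).injective he]
      have h2 : (rep ι F γ : MM ι F →ₗ[F] MM ι F) x = x := key x hx hx1
      rw [h2]
      exact ⟨hx, hx1⟩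
    · rintro x ⟨hx, hx1⟩
      exact ⟨⟨x, hx, key x hx hx1⟩, hx1⟩
  · intro σ hσ hD
    refine insert_mem_Flag (amb ι F).adj_symm hσ ((amb ι F).good_Λ hN) fun w hw _ =>
      Or.inl ⟨(hD w hw).2.1, ?_⟩
    rw [Amb.sh_neg_le_iff, amb_sh_LM, add_zero]
    exact (hD w hw).2.2

end Crest.Agent.R66
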