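import Crest.Agent.R66.Chain

/-! # Row 66: contractions, transport, joins, duality -/

set_option linter.unusedSectionVars false

namespace Crest.Agent.R66

variable {V V' : Type*} [DecidableEq V] [DecidableEq V']

/-- CONTRACT.  Recipe: induction on `m` for the stronger statement
`(h σ).support.card ≤ rho f (σ.card + 1)`.  For `σ ∈ K` of cardinality `j` (new level) the chain
`z = single σ 1 + ∑ v ∈ σ, h (σ.erase v)` lies in `Cs K j`, has at most `1 + j * rho f j` faces
(`card_support_add_le`, `card_support_sum_le`) and is a cycle: by the identity for `σ.erase v`,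
`bd (h (σ.erase v)) = single (σ.erase v) 1 + ∑ w ∈ σ.erase v, h ((σ.erase v).erase w)`, and the
double sum vanishes by `sum_erase_erase`.  Define the new `h σ` by `Classical.choose` of the
filling (keep the old `h` on all other sets; `σ.erase v` has smaller cardinality). -/
theorem hasContr_of_fill {K : Set (Finset V)} (hK : IsCx K) (f : ℕ → ℕ → ℕ) (m R : ℕ)
    (hf : ∀ j ≤ m, Fill K j (1 + j * rho f j) (f j (1 + j * rho f j)))
    (hR : ∀ j ≤ m, rho f (j + 1) ≤ R) : HasContr K m R := by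
  have key : ∀ n, n ≤ m + 1 → ∃ h : Finset V → Ch V, ∀ σ ∈ K, σ.card < n →
      h σ ∈ Cs K (σ.card + 1) ∧ (h σ).support.card ≤ rho f (σ.card + 1) ∧
        bd (h σ) + ∑ v ∈ σ, h (σ.erase v) = Finsupp.single σ 1 := by
    intro n
    induction n with
    | zero => exact fun _ => ⟨fun _ => 0, fun σ _ h => absurd h (Nat.not_lt_zero _)⟩
    | succ n ih =>
      intro hn
      obtain ⟨h, hh⟩ := ih (by omega)
      have step : ∀ σ : Finset V, ∃ y : Ch V, σ ∈ K → σ.card = n →
          y ∈ Cs K (n + 1) ∧ y.support.card ≤ rho f (n + 1) ∧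
            bd y + ∑ v ∈ σ, h (σ.erase v) = Finsupp.single σ 1 := by
        intro σ
        by_cases hσ : σ ∈ K ∧ σ.card = n
        · obtain ⟨hσK, hσn⟩ := hσ
          have herase : ∀ v ∈ σ, h (σ.erase v) ∈ Cs K n ∧
              (h (σ.erase v)).support.card ≤ rho f n ∧
              bd (h (σ.erase v)) + ∑ w ∈ σ.erase v, h ((σ.erase v).erase w) =
                Finsupp.single (σ.erase v) 1 := by
            intro v hv
            have hc : (σ.erase v).card + 1 = n := by
              rw [Finset.card_erase_add_one hv, hσn]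
            have := hh (σ.erase v) (hK.2 σ hσK _ (Finset.erase_subset v σ)) (by omega)
            rwa [hc] at this
          have hz1 : Finsupp.single σ 1 + ∑ v ∈ σ, h (σ.erase v) ∈ Cs K n :=
            Submodule.add_mem _ (single_mem_Cs hσK hσn _)
              (Submodule.sum_mem _ fun v hv => (herase v hv).1)
          have hz2 : bd (Finsupp.single σ 1 + ∑ v ∈ σ, h (σ.erase v)) = 0 := by
            rw [map_add, map_sum, bd_single, ← Finset.sum_add_distrib,
              ← sum_erase_erase σ h]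
            refine Finset.sum_congr rfl fun v hv => ?_
            rw [← (herase v hv).2.2, add_right_comm, add_self2, zero_add]
          have hz3 : (Finsupp.single σ 1 + ∑ v ∈ σ, h (σ.erase v)).support.card ≤
              1 + n * rho f n := by
            refine (card_support_add_le _ _).trans
              (add_le_add (card_support_single_le _ _) ((card_support_sum_le _ _).trans ?_))
            have := Finset.sum_le_card_nsmul σ (fun v => (h (σ.erase v)).support.card) (rho f n)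
              fun v hv => (herase v hv).2.1
            rwa [hσn, smul_eq_mul] at this
          obtain ⟨y, hy1, hy2, hy3⟩ := hf n (by omega) _ hz1 hz2 hz3
          refine ⟨y, fun _ _ => ⟨hy1, hy3, ?_⟩⟩
          rw [hy2, add_assoc, add_self2, add_zero]
        · exact ⟨0, fun h1 h2 => absurd ⟨h1, h2⟩ hσ⟩
      choose y hy using step
      refine ⟨fun σ => if σ.card = n then y σ else h σ, fun σ hσ hc => ?_⟩
      have hsum : ∑ v ∈ σ, (if (σ.erase v).card = n then y (σ.erase v) else h (σ.erase v)) =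
          ∑ v ∈ σ, h (σ.erase v) := by
        refine Finset.sum_congr rfl fun v hv => if_neg ?_
        have := Finset.card_erase_add_one hv
        omega
      simp only [hsum]
      by_cases hn' : σ.card = n
      · rw [if_pos hn', hn']
        exact hy σ hσ hn'
      · rw [if_neg hn']
        exact hh σ hσ (by omega)
  obtain ⟨h, hh⟩ := key (m + 1) le_rfl
  refine ⟨h, fun σ hσ hc => ?_⟩
  obtain ⟨h1, h2, h3⟩ := hh σ hσ (by omega)
  exact ⟨h1, h2.trans (hR _ hc), h3⟩

theorem HasContr.mono {K : Set (Finset V)} {m m' R R' : ℕ} (h : HasContr K m R) (hm : m' ≤ m)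
    (hR : R ≤ R') : HasContr K m' R' := by
  obtain ⟨h, hh⟩ := h
  refine ⟨h, fun σ hσ hc => ?_⟩
  obtain ⟨h1, h2, h3⟩ := hh σ hσ (hc.trans hm)
  exact ⟨h1, h2.trans hR, h3⟩

/-- Recipe: `y = Finsupp.linearCombination _ h z`; use `map_congr_Cs` to get
`bd y + linearCombination h (bd z) = z`. -/
theorem HasContr.exact {K : Set (Finset V)} {m R j : ℕ} (h : HasContr K m R) (hj : j ≤ m) :
    Exact K j := by
  obtain ⟨h, hh⟩ := h
  intro z hz hbd
  refine ⟨Finsupp.linearCombination (ZMod 2) h z, ?_, ?_⟩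
  · refine map_mem_of_Cs _ _ hz fun σ hσ hc => ?_
    rw [Finsupp.linearCombination_single, one_smul, ← hc]
    exact (hh σ hσ (hc ▸ hj)).1
  · have := map_congr_Cs (bd ∘ₗ Finsupp.linearCombination (ZMod 2) h +
      Finsupp.linearCombination (ZMod 2) h ∘ₗ bd) LinearMap.id hz fun σ hσ hc => by
        simp only [LinearMap.add_apply, LinearMap.comp_apply, bd_single, map_sum,
          Finsupp.linearCombination_single, one_smul, LinearMap.id_apply]
        exact (hh σ hσ (hc ▸ hj)).2.2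
    simpa [hbd] using this

/-- a left inverse of `Finset.image φ` on the faces of `K`. -/
theorem exists_pre {K : Set (Finset V)} (φ : V → V') (U : Set V)
    (hU : ∀ σ ∈ K, ∀ v ∈ σ, v ∈ U) (hφ : Set.InjOn φ U) :
    ∃ pre : Finset V' → Finset V, ∀ σ ∈ K, pre (σ.image φ) = σ := by
  classical
  refine ⟨fun τ => if hτ : ∃ σ ∈ K, σ.image φ = τ then hτ.choose else ∅, fun σ hσ => ?_⟩
  have hex : ∃ σ' ∈ K, σ'.image φ = σ.image φ := ⟨σ, hσ, rfl⟩
  simp only [dif_pos hex]
  obtain ⟨h1, h2⟩ := hex.choose_spec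
  generalize hex.choose = σ' at h1 h2
  ext v
  constructor
  · intro hv
    obtain ⟨u, hu, e⟩ := Finset.mem_image.1 (h2 ▸ Finset.mem_image_of_mem φ hv)
    rwa [← hφ (hU σ hσ u hu) (hU σ' h1 v hv) e]
  · intro hv
    obtain ⟨u, hu, e⟩ := Finset.mem_image.1 (h2.symm ▸ Finset.mem_image_of_mem φ hv)
    rwa [← hφ (hU σ' h1 u hu) (hU σ hσ v hv) e]

/-- transport along a map injective on the vertex set.  Recipe: for `τ ∈ K'` put
`h' τ = mapC φ (h (pre τ))` where `pre τ` is the unique `σ ⊆ U` with `σ.image φ = τ`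
(e.g. `pre τ = if hτ : ∃ σ ∈ K, σ.image φ = τ then choose else ∅`; uniqueness from `hφ`);
`image_erase_of_injOn`, `bd_mapC`, `mapC_mem_Cs`, `card_support_mapC_le`. -/
theorem HasContr.image {K : Set (Finset V)} {K' : Set (Finset V')} (hK : IsCx K) (φ : V → V')
    (U : Set V) (hU : ∀ σ ∈ K, ∀ v ∈ σ, v ∈ U) (hφ : Set.InjOn φ U)
    (hK' : ∀ τ, τ ∈ K' ↔ ∃ σ ∈ K, σ.image φ = τ) {m R : ℕ} (h : HasContr K m R) :
    HasContr K' m R := by
  obtain ⟨h, hh⟩ := h
  obtain ⟨pre, hpre⟩ := exists_pre φ U hU hφ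
  have hinj : ∀ σ ∈ K, Set.InjOn φ (σ : Set V) := fun σ hσ =>
    hφ.mono fun v hv => hU σ hσ v hv
  refine ⟨fun τ => mapC φ (h (pre τ)), fun τ hτ hc => ?_⟩
  obtain ⟨σ, hσ, rfl⟩ := (hK' τ).1 hτ
  have hcard : (σ.image φ).card = σ.card := Finset.card_image_of_injOn (hinj σ hσ)
  rw [hcard] at hc ⊢
  obtain ⟨h1, h2, h3⟩ := hh σ hσ hc
  simp only [hpre σ hσ]
  refine ⟨mapC_mem_Cs φ h1 fun ρ hρ => ?_, (card_support_mapC_le φ _).trans h2, ?_⟩
  · have := (mem_Cs.1 h1 ρ hρ).1
    exact ⟨hinj ρ this, (hK' _).2 ⟨ρ, this, rfl⟩⟩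
  · rw [bd_mapC φ _ fun ρ hρ => hinj ρ (mem_Cs.1 h1 ρ hρ).1, Finset.sum_image (hinj σ hσ),
      ← mapC_single, ← h3, map_add, map_sum]
    congr 1
    refine Finset.sum_congr rfl fun v hv => ?_
    rw [← image_erase_of_injOn (hinj σ hσ) hv, hpre _ (hK.2 σ hσ _ (Finset.erase_subset v σ))]

/-- Recipe: lift `z ∈ Cs K' j` to `x = ∑ τ ∈ z.support, single (pre τ) 1 ∈ Cs K j` with
`mapC φ x = z`; `mapC φ` is injective on chains supported on subsets of `U`
(`Finsupp.mapDomain_injOn`), so `bd x = 0`. -/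
theorem Exact.image {K : Set (Finset V)} {K' : Set (Finset V')} (hK : IsCx K) (φ : V → V')
    (U : Set V) (hU : ∀ σ ∈ K, ∀ v ∈ σ, v ∈ U) (hφ : Set.InjOn φ U)
    (hK' : ∀ τ, τ ∈ K' ↔ ∃ σ ∈ K, σ.image φ = τ) {j : ℕ} (h : Exact K j) : Exact K' j := by
  obtain ⟨pre, hpre⟩ := exists_pre φ U hU hφ
  have hinj : ∀ σ ∈ K, Set.InjOn φ (σ : Set V) := fun σ hσ =>
    hφ.mono fun v hv => hU σ hσ v hv
  intro z hz hbd
  set L : Ch V' →ₗ[ZMod 2] Ch V :=
    Finsupp.linearCombination (ZMod 2) fun τ => Finsupp.single (pre τ) (1 : ZMod 2) with hL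
  have hL1 : ∀ σ ∈ K, L (Finsupp.single (σ.image φ) 1) = Finsupp.single σ 1 := by
    intro σ hσ
    rw [hL, Finsupp.linearCombination_single, one_smul, hpre σ hσ]
  have hx : L z ∈ Cs K j := by
    refine map_mem_of_Cs _ _ hz fun τ hτ hc => ?_
    obtain ⟨σ, hσ, rfl⟩ := (hK' τ).1 hτ
    rw [hL1 σ hσ]
    exact single_mem_Cs hσ (by rw [← hc, Finset.card_image_of_injOn (hinj σ hσ)]) _
  have hmap : mapC φ (L z) = z := by
    refine map_congr_Cs (mapC φ ∘ₗ L) LinearMap.id hz fun τ hτ _ => ?_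
    obtain ⟨σ, hσ, rfl⟩ := (hK' τ).1 hτ
    rw [LinearMap.comp_apply, hL1 σ hσ, mapC_single, LinearMap.id_apply]
  have hbdx : bd (L z) = 0 := by
    have : bd (L z) = L (bd z) := by
      refine map_congr_Cs (bd ∘ₗ L) (L ∘ₗ bd) hz fun τ hτ _ => ?_
      obtain ⟨σ, hσ, rfl⟩ := (hK' τ).1 hτ
      rw [LinearMap.comp_apply, LinearMap.comp_apply, hL1 σ hσ, bd_single, bd_single, map_sum,
        Finset.sum_image (hinj σ hσ)]
      refine Finset.sum_congr rfl fun v hv => ?_
      rw [← image_erase_of_injOn (hinj σ hσ) hv, hL1 _ (hK.2 σ hσ _ (Finset.erase_subset v σ))]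
    rw [this, hbd, map_zero]
  obtain ⟨y, hy1, hy2⟩ := h _ hx hbdx
  refine ⟨mapC φ y, mapC_mem_Cs φ hy1 fun ρ hρ => ?_, ?_⟩
  · have := (mem_Cs.1 hy1 ρ hρ).1
    exact ⟨hinj ρ this, (hK' _).2 ⟨ρ, this, rfl⟩⟩
  · rw [bd_mapC φ _ fun ρ hρ => hinj ρ (mem_Cs.1 hy1 ρ hρ).1, hy2, hmap]

theorem Conn.image {K : Set (Finset V)} {K' : Set (Finset V')} (hK : IsCx K) (φ : V → V')
    (hK' : ∀ τ, τ ∈ K' ↔ ∃ σ ∈ K, σ.image φ = τ) (h : Conn K) : Conn K' := by
  have hv : ∀ v' : V', ({v'} : Finset V') ∈ K' → ∃ v, φ v = v' ∧ ({v} : Finset V) ∈ K := by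
    intro v' hv'
    obtain ⟨σ, hσ, e⟩ := (hK' _).1 hv'
    obtain ⟨v, hv, e'⟩ := Finset.mem_image.1 (e.symm ▸ Finset.mem_singleton_self v')
    exact ⟨v, e', hK.2 σ hσ _ (Finset.singleton_subset_iff.2 hv)⟩
  intro v' w' h1 h2
  obtain ⟨v, rfl, hv1⟩ := hv v' h1
  obtain ⟨w, rfl, hw1⟩ := hv w' h2
  refine Relation.ReflTransGen.lift φ (fun a b hab => ?_) _ _ (h v w hv1 hw1)
  exact (hK' _).2 ⟨{a, b}, hab, by simp⟩

/-- join with a fixed face. -/
noncomputable def joinC (ρ : Finset V) : Ch V →ₗ[ZMod 2] Ch V :=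
  Finsupp.lmapDomain (ZMod 2) (ZMod 2) (fun τ : Finset V => τ ∪ ρ)

theorem joinC_single (ρ τ : Finset V) (r : ZMod 2) :
    joinC ρ (Finsupp.single τ r) = Finsupp.single (τ ∪ ρ) r := by
  simp [joinC]

theorem bd_joinC (ρ : Finset V) (c : Ch V) (h : ∀ τ ∈ c.support, Disjoint τ ρ) :
    bd (joinC ρ c) = joinC ρ (bd c) + ∑ w ∈ ρ, joinC (ρ.erase w) c := by
  have := map_congr_support (bd ∘ₗ joinC ρ) (joinC ρ ∘ₗ bd + ∑ w ∈ ρ, joinC (ρ.erase w)) c
    fun τ hτ => by
      have hd := h τ hτ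
      simp only [LinearMap.comp_apply, LinearMap.add_apply, LinearMap.sum_apply, joinC_single,
        bd_single, map_sum]
      rw [Finset.sum_union hd]
      congr 1
      · refine Finset.sum_congr rfl fun v hv => ?_
        rw [Finset.erase_union_distrib, Finset.erase_eq_of_notMem (Finset.disjoint_left.1 hd hv)]
      · refine Finset.sum_congr rfl fun v hv => ?_
        rw [Finset.erase_union_distrib, Finset.erase_eq_of_notMem (Finset.disjoint_right.1 hd hv)]
  simpa [LinearMap.sum_apply] using this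

/-- a contraction of one join factor contracts the join.  Recipe: with `σi = σ.filter (· ∈ In)`,
`σo = σ.filter (· ∉ In)` put `h' σ = Finsupp.mapDomain (· ∪ σo) (h σi)` (`lmapDomain`).  For `τ ⊆ In`:
`bd (single (τ ∪ σo)) = mapDomain (· ∪ σo) (bd (single τ)) + ∑ w ∈ σo, single (τ ∪ σo.erase w)`;
the sum `∑ v ∈ σ, h' (σ.erase v)` splits into `v ∈ σi` and `v ∈ σo`, and the `σo` terms cancel
mod 2. -/
theorem HasContr.join {K : Set (Finset V)} (hK : IsCx K) (In : Set V)
    (hj : ∀ σ ∈ K, ∀ τ ∈ K, (∀ v ∈ σ, v ∉ In) → (∀ v ∈ τ, v ∈ In) → τ ∪ σ ∈ K) {m R : ℕ}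
    (h : HasContr {τ | τ ∈ K ∧ ∀ v ∈ τ, v ∈ In} m R) : HasContr K m R := by
  classical
  obtain ⟨h, hh⟩ := h
  refine ⟨fun σ => joinC (σ.filter (· ∉ In)) (h (σ.filter (· ∈ In))), fun σ hσ hc => ?_⟩
  have hi : σ.filter (· ∈ In) ∈ {τ | τ ∈ K ∧ ∀ v ∈ τ, v ∈ In} :=
    ⟨hK.2 σ hσ _ (Finset.filter_subset _ _), fun v hv => (Finset.mem_filter.1 hv).2⟩
  have ho : σ.filter (· ∉ In) ∈ K := hK.2 σ hσ _ (Finset.filter_subset _ _)
  have ho' : ∀ v ∈ σ.filter (· ∉ In), v ∉ In := fun v hv => (Finset.mem_filter.1 hv).2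
  have hcard : (σ.filter (· ∈ In)).card + (σ.filter (· ∉ In)).card = σ.card :=
    Finset.card_filter_add_card_filter_not _
  obtain ⟨h1, h2, h3⟩ := hh _ hi (by omega)
  have hdis : ∀ τ : Finset V, (∀ v ∈ τ, v ∈ In) → Disjoint τ (σ.filter (· ∉ In)) :=
    fun τ hτ => Finset.disjoint_left.2 fun v hv hv' => ho' v hv' (hτ v hv)
  refine ⟨?_, ?_, ?_⟩
  · refine map_mem_of_Cs _ _ h1 fun τ hτ hτc => ?_
    rw [joinC_single]
    refine single_mem_Cs (hj _ ho τ hτ.1 ho' hτ.2) ?_ _
    rw [Finset.card_union_of_disjoint (hdis τ hτ.2), hτc]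
    omega
  · have := card_support_map_le (joinC (σ.filter (· ∉ In))) (h (σ.filter (· ∈ In))) 1
      fun τ _ => by rw [joinC_single]; exact card_support_single_le _ _
    rw [mul_one] at this
    exact this.trans h2
  · rw [bd_joinC _ _ fun τ hτ => hdis τ (mem_Cs.1 h1 τ hτ).1.2,
      ← Finset.sum_filter_add_sum_filter_not σ (· ∈ In)]
    have e1 : ∑ v ∈ σ.filter (· ∈ In),
        joinC ((σ.erase v).filter (· ∉ In)) (h ((σ.erase v).filter (· ∈ In))) =
        joinC (σ.filter (· ∉ In)) (∑ v ∈ σ.filter (· ∈ In), h ((σ.filter (· ∈ In)).erase v)) := by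
      rw [map_sum]
      refine Finset.sum_congr rfl fun v hv => ?_
      rw [Finset.filter_erase, Finset.filter_erase, Finset.erase_eq_of_notMem]
      exact fun hv' => ho' v hv' (Finset.mem_filter.1 hv).2
    have e2 : ∑ v ∈ σ.filter (· ∉ In),
        joinC ((σ.erase v).filter (· ∉ In)) (h ((σ.erase v).filter (· ∈ In))) =
        ∑ v ∈ σ.filter (· ∉ In),
          joinC ((σ.filter (· ∉ In)).erase v) (h (σ.filter (· ∈ In))) := by
      refine Finset.sum_congr rfl fun v hv => ?_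
      rw [Finset.filter_erase, Finset.filter_erase,
        Finset.erase_eq_of_notMem (s := σ.filter (· ∈ In))]
      exact fun hv' => ho' v hv (Finset.mem_filter.1 hv').2
    simp only [e1, e2]
    rw [add_add_add_comm, add_self2, add_zero, ← map_add, h3, joinC_single,
      Finset.filter_union_filter_not_eq]

/-- Recipe: for `v ≠ w` fill the cycle `single {v} 1 + single {w} 1`; pair with the cochain
`f σ = if ∃ u, σ = {u} ∧ u reachable from v then 1 else 0`, whose `dl` vanishes on edges of `K`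
(`pair_bd`). -/
theorem Exact.conn {K : Set (Finset V)} (hK : IsCx K) (h : Exact K 1) : Conn K := by
  classical
  intro v w hv hw
  by_contra hn
  have hz1 : (Finsupp.single {v} 1 + Finsupp.single {w} 1 : Ch V) ∈ Cs K 1 :=
    Submodule.add_mem _ (single_mem_Cs hv (Finset.card_singleton v) _)
      (single_mem_Cs hw (Finset.card_singleton w) _)
  have hz2 : bd (Finsupp.single {v} 1 + Finsupp.single {w} 1 : Ch V) = 0 := by
    rw [map_add, bd_single, bd_single, Finset.sum_singleton, Finset.sum_singleton,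
      Finset.erase_singleton, Finset.erase_singleton, add_self2]
  obtain ⟨y, hy1, hy2⟩ := h _ hz1 hz2
  set r : V → V → Prop := fun a b => ({a, b} : Finset V) ∈ K with hr
  set f : Finset V → ZMod 2 := fun σ =>
    if ∃ u, σ = {u} ∧ Relation.ReflTransGen r v u then 1 else 0 with hf
  have hf1 : ∀ u, f {u} = if Relation.ReflTransGen r v u then 1 else 0 := by
    intro u
    simp only [hf, Finset.singleton_inj, exists_eq_left']
  have h0 : Finsupp.linearCombination (ZMod 2) (dl f) y = 0 := by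
    refine map_congr_Cs _ 0 hy1 fun σ hσ hc => ?_
    obtain ⟨a, b, hab, rfl⟩ := Finset.card_eq_two.1 hc
    have hab1 : r a b := hσ
    have hab2 : r b a := by
      change ({b, a} : Finset V) ∈ K
      rwa [Finset.pair_comm]
    rw [Finsupp.linearCombination_single, one_smul, LinearMap.zero_apply, dl,
      Finset.sum_pair hab, Finset.erase_insert (by simpa using hab), Finset.pair_comm,
      Finset.erase_insert (by simpa using hab.symm), hf1, hf1]
    have : Relation.ReflTransGen r v b ↔ Relation.ReflTransGen r v a :=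
      ⟨fun h' => h'.tail hab2, fun h' => h'.tail hab1⟩
    simp only [this]
    exact add_self2 _
  rw [← pair_bd, hy2, map_add, Finsupp.linearCombination_single,
    Finsupp.linearCombination_single, one_smul, one_smul, hf1, hf1,
    if_pos Relation.ReflTransGen.refl, if_neg hn, add_zero] at h0
  exact one_ne_zero h0

theorem exists_factor_dual {A B : Type*} [AddCommGroup A] [Module (ZMod 2) A] [AddCommGroup B]
    [Module (ZMod 2) B] (g : A →ₗ[ZMod 2] B) (Φ : A →ₗ[ZMod 2] ZMod 2)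
    (h : ∀ x, g x = 0 → Φ x = 0) : ∃ Ψ : B →ₗ[ZMod 2] ZMod 2, ∀ x, Ψ (g x) = Φ x := by
  have hmem : Φ ∈ (LinearMap.ker g).dualAnnihilator :=
    (Submodule.mem_dualAnnihilator _).2 fun x hx => h x hx
  obtain ⟨Ψ, hΨ⟩ := (LinearMap.range_dualMap_eq_dualAnnihilator_ker (K := ZMod 2) g).ge hmem
  exact ⟨Ψ, fun x => LinearMap.congr_fun hΨ x⟩

/-- cocycles are coboundaries.  Recipe: `Φ = linearCombination f` restricted to `Cs K (j+1)` kills
the kernel of `bd ∘ subtype` (`pair_bd`, exactness), hence lies in the range of the dual map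
(`LinearMap.range_dualMap_eq_dualAnnihilator_ker`): `Φ = Ψ ∘ bd`; put `g σ = Ψ (single σ 1)`. -/
theorem cocycle_eq_dl {K : Set (Finset V)} {j : ℕ} (hE : Exact K j)
    (f : Finset V → ZMod 2) (hf : ∀ τ ∈ K, τ.card = j + 1 → dl f τ = 0) :
    ∃ g : Finset V → ZMod 2, ∀ σ ∈ K, σ.card = j → f σ = dl g σ := by
  obtain ⟨Ψ, hΨ⟩ := exists_factor_dual (A := Cs K j) (B := Ch V) (bd ∘ₗ (Cs K j).subtype)
    (Finsupp.linearCombination (ZMod 2) f ∘ₗ (Cs K j).subtype) (by
      rintro ⟨z, hz⟩ hker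
      obtain ⟨y, hy1, hy2⟩ := hE z hz hker
      change Finsupp.linearCombination (ZMod 2) f z = 0
      rw [← hy2, pair_bd]
      refine map_congr_Cs _ 0 hy1 fun σ hσ hc => ?_
      rw [Finsupp.linearCombination_single, one_smul, LinearMap.zero_apply, hf σ hσ hc])
  refine ⟨fun σ => Ψ (Finsupp.single σ 1), fun σ hσ hc => ?_⟩
  have := hΨ ⟨Finsupp.single σ 1, single_mem_Cs hσ hc _⟩
  simp only [LinearMap.comp_apply, Submodule.subtype_apply, bd_single,
    map_sum, Finsupp.linearCombination_single, one_smul] at this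
  exact this.symm

end Crest.Agent.R66
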