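import Crest.Agent.R66.GH1
import Crest.Agent.R66.Tools1

/-! # Row 66: the finite quotient -/

set_option linter.unusedSectionVars false

namespace Crest.Agent.R66

variable {H : Type*} [Group H] {V : Type*} [DecidableEq V] {a : H →* Equiv.Perm V}
  {Γ : Subgroup H} {K : Set (Finset V)} {col : V → ℕ} {N : ℕ}

theorem quot_sing {K : Set (Finset V)} (hK : IsCx K) {σ : Finset V} (hσ : σ ∈ K) {v : V}
    (hv : v ∈ σ) : ({v} : Finset V) ∈ K :=
  hK.2 σ hσ _ (Finset.singleton_subset_iff.2 hv)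

theorem quot_pair {K : Set (Finset V)} (hK : IsCx K) {σ : Finset V} (hσ : σ ∈ K) {v w : V}
    (hv : v ∈ σ) (hw : w ∈ σ) : ({v, w} : Finset V) ∈ K :=
  hK.2 σ hσ _ (Finset.insert_subset hv (Finset.singleton_subset_iff.2 hw))

theorem quot_act_sing (hi : Inv a ⊤ K) (g : H) {v : V} (hv : ({v} : Finset V) ∈ K) :
    ({a g v} : Finset V) ∈ K := by
  simpa using hi g (Subgroup.mem_top g) _ hv

/-- Recipe: fix a chamber `c₀`; `D` = number of chambers meeting `c₀` (finite).  A set `s` of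
chambers through `v` is moved by `g` (with `g c = c₀` for one `c ∈ s`) to chambers through
`g v ∈ c₀`. -/
theorem deg_of_trans (hP : Partite K col N) (hi : Inv a ⊤ K)
    (ht : ∀ c ∈ K, ∀ c' ∈ K, c.card = N → c'.card = N → ∃ g : H, c.image (a g) = c')
    (hf : ∀ v : V, ({v} : Finset V) ∈ K → {c | c ∈ K ∧ v ∈ c}.Finite) : ∃ D, Deg K N D := by
  obtain ⟨c₀, hc₀, -, hN⟩ := hP.pure ∅ hP.cx.1
  have hfin : (⋃ v ∈ (c₀ : Set V), {c | c ∈ K ∧ v ∈ c}).Finite :=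
    c₀.finite_toSet.biUnion fun v hv => hf v (quot_sing hP.cx hc₀ hv)
  refine ⟨hfin.toFinset.card, fun v s hs => ?_⟩
  rcases s.eq_empty_or_nonempty with rfl | ⟨c, hc⟩
  · simp
  obtain ⟨g, hg⟩ := ht c (hs c hc).1 c₀ hc₀ (hs c hc).2.1 hN
  refine Finset.card_le_card_of_injOn (fun c => c.image (a g)) (fun c' hc' => ?_)
    (Finset.image_injective (a g).injective).injOn
  have hc'' := hs c' hc'
  simp only [Finset.mem_coe, Set.Finite.mem_toFinset, Set.mem_iUnion, Set.mem_ofPred_eq]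
  exact ⟨a g v, hg ▸ Finset.mem_image_of_mem _ (hs c hc).2.2,
    hi g (Subgroup.mem_top g) _ hc''.1, Finset.mem_image_of_mem _ hc''.2.2⟩

/-- the projection to the finite set of orbits of vertices.  Recipe: the set of `Γ`-orbits of
vertices is finite: every vertex is `g v`, `v ∈ c₀`, and its orbit depends only on the class of `g`
in `H ⧸ Γ` (normality).  Number the orbits by `Fin n` (`n ≥ 1` as `N ≥ 1`); send non-vertices
to `0`. -/
theorem exists_proj (hQ : QData a Γ K col N) (hN : 1 ≤ N) : ∃ (n : ℕ) (π : V → Fin n),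
    (∀ γ ∈ Γ, ∀ v, π (a γ v) = π v) ∧
    (∀ v w : V, ({v} : Finset V) ∈ K → ({w} : Finset V) ∈ K → π v = π w → ∃ γ ∈ Γ, a γ v = w) ∧
    ∀ u : Fin n, ∃ v : V, ({v} : Finset V) ∈ K ∧ π v = u := by
  classical
  let r : Setoid V :=
    { r := fun v w => ∃ γ ∈ Γ, a γ v = w
      iseqv :=
        ⟨fun v => ⟨1, Γ.one_mem, by simp⟩,
         fun ⟨γ, hγ, e⟩ => ⟨γ⁻¹, Γ.inv_mem hγ, by rw [← e]; simp⟩,
         fun ⟨γ, hγ, e⟩ ⟨γ', hγ', e'⟩ => ⟨γ' * γ, Γ.mul_mem hγ' hγ, by rw [← e', ← e]; simp⟩⟩ }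
  let S : Set (Quotient r) := {q | ∃ v : V, ({v} : Finset V) ∈ K ∧ Quotient.mk r v = q}
  obtain ⟨c₀, hc₀, -, hcN⟩ := hQ.part.pure ∅ hQ.part.cx.1
  have := hQ.fin
  have hSfin : S.Finite := by
    have hf : ((Set.univ : Set (H ⧸ Γ)) ×ˢ (c₀ : Set V)).Finite :=
      Set.finite_univ.prod c₀.finite_toSet
    refine (hf.image fun p => Quotient.mk r (a p.1.out p.2)).subset ?_
    rintro _ ⟨w, hw, rfl⟩
    obtain ⟨c, hc, hwc, hcc⟩ := hQ.part.pure _ hw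
    obtain ⟨g, hg⟩ := hQ.trans c₀ hc₀ c hc hcN hcc
    have hw' : w ∈ c₀.image (a g) := hg ▸ Finset.singleton_subset_iff.1 hwc
    obtain ⟨v, hv, rfl⟩ := Finset.mem_image.1 hw'
    refine ⟨((g : H ⧸ Γ), v), ⟨Set.mem_univ _, hv⟩, ?_⟩
    obtain ⟨h, hh⟩ := QuotientGroup.mk_out_eq_mul Γ g
    have : Quotient.mk r (a g v) = Quotient.mk r (a (g * h) v) :=
      Quotient.sound ⟨g * h * g⁻¹, hQ.normal.conj_mem _ h.2 g, by simp⟩
    simp only [hh]
    exact this.symm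
  obtain ⟨n, ⟨e⟩⟩ := hSfin.to_subtype.exists_equiv_fin
  obtain ⟨v₀, hv₀⟩ : c₀.Nonempty := Finset.card_pos.1 (by omega)
  have hv₀S : Quotient.mk r v₀ ∈ S := ⟨v₀, quot_sing hQ.part.cx hc₀ hv₀, rfl⟩
  let p : Quotient r → Fin n := fun q => if h : q ∈ S then e ⟨q, h⟩ else e ⟨_, hv₀S⟩
  refine ⟨n, fun v => p (Quotient.mk r v), fun γ hγ v => ?_, fun v w hv hw h => ?_, fun u => ?_⟩
  · have : Quotient.mk r v = Quotient.mk r (a γ v) := Quotient.sound ⟨γ, hγ, rfl⟩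
    simp only [← this]
  · have h1 : Quotient.mk r v ∈ S := ⟨v, hv, rfl⟩
    have h2 : Quotient.mk r w ∈ S := ⟨w, hw, rfl⟩
    simp only [p, dif_pos h1, dif_pos h2] at h
    exact Quotient.exact (congrArg Subtype.val (e.injective h))
  · obtain ⟨v, hv, hv'⟩ := (e.symm u).2
    refine ⟨v, hv, ?_⟩
    simp only [p, hv', dif_pos (e.symm u).2]
    exact e.apply_symm_apply u

section proj
variable {W : Type*} [DecidableEq W] {π : V → W}

theorem proj_injOn (hQ : QData a Γ K col N)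
    (h2 : ∀ v w : V, ({v} : Finset V) ∈ K → ({w} : Finset V) ∈ K → π v = π w →
      ∃ γ ∈ Γ, a γ v = w) : ∀ σ ∈ K, Set.InjOn π (σ : Set V) := by
  intro σ hσ v hv w hw h
  obtain ⟨γ, -, e⟩ := h2 v w (quot_sing hQ.part.cx hσ hv) (quot_sing hQ.part.cx hσ hw) h
  refine hQ.part.inj σ hσ hv hw ?_
  rw [← e, hQ.colinv γ v (quot_sing hQ.part.cx hσ hv)]

/-- vertices of two faces with a common vertex are separated by `π`. -/
theorem proj_eq_of_mem (hQ : QData a Γ K col N)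
    (h2 : ∀ v w : V, ({v} : Finset V) ∈ K → ({w} : Finset V) ∈ K → π v = π w →
      ∃ γ ∈ Γ, a γ v = w) {σ τ : Finset V} (hσ : σ ∈ K) (hτ : τ ∈ K) {w u u' : V} (hwσ : w ∈ σ)
    (hwτ : w ∈ τ) (hu : u ∈ σ) (hu' : u' ∈ τ) (h : π u = π u') : u = u' := by
  obtain ⟨γ, hγ, e⟩ := h2 u u' (quot_sing hQ.part.cx hσ hu) (quot_sing hQ.part.cx hτ hu') h
  have := hQ.sep γ hγ w u (quot_pair hQ.part.cx hσ hwσ hu)
    (by rw [e]; exact quot_pair hQ.part.cx hτ hwτ hu')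
  rw [← e, this]

theorem proj_image_act (h1 : ∀ γ ∈ Γ, ∀ v, π (a γ v) = π v) {γ : H} (hγ : γ ∈ Γ) (σ : Finset V) :
    (σ.image (a γ)).image π = σ.image π := by
  rw [Finset.image_image]
  exact Finset.image_congr fun v _ => h1 γ hγ v

/-- faces with the same image are conjugate. -/
theorem proj_orb (hQ : QData a Γ K col N) (h1 : ∀ γ ∈ Γ, ∀ v, π (a γ v) = π v)
    (h2 : ∀ v w : V, ({v} : Finset V) ∈ K → ({w} : Finset V) ∈ K → π v = π w →
      ∃ γ ∈ Γ, a γ v = w) :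
    ∀ σ ∈ K, ∀ τ ∈ K, σ.image π = τ.image π → ∃ γ ∈ Γ, σ.image (a γ) = τ := by
  intro σ hσ τ hτ h
  rcases σ.eq_empty_or_nonempty with rfl | ⟨v, hv⟩
  · refine ⟨1, Γ.one_mem, ?_⟩
    rw [Finset.image_empty, eq_comm, Finset.image_eq_empty] at h
    rw [h, Finset.image_empty]
  have hv' : π v ∈ τ.image π := h ▸ Finset.mem_image_of_mem _ hv
  obtain ⟨w, hw, e⟩ := Finset.mem_image.1 hv'
  obtain ⟨γ, hγ, e'⟩ := h2 v w (quot_sing hQ.part.cx hσ hv) (quot_sing hQ.part.cx hτ hw) e.symm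
  refine ⟨γ, hγ, ?_⟩
  have hσ' : σ.image (a γ) ∈ K := hQ.inv γ (Subgroup.mem_top γ) σ hσ
  have hw' : w ∈ σ.image (a γ) := e' ▸ Finset.mem_image_of_mem _ hv
  have him : (σ.image (a γ)).image π = τ.image π := by rw [proj_image_act h1 hγ, h]
  ext u
  constructor
  · intro hu
    have : π u ∈ τ.image π := him ▸ Finset.mem_image_of_mem _ hu
    obtain ⟨u', hu', e⟩ := Finset.mem_image.1 this
    rw [proj_eq_of_mem hQ h2 hσ' hτ hw' hw hu hu' e.symm]; exact hu'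
  · intro hu
    have : π u ∈ (σ.image (a γ)).image π := him ▸ Finset.mem_image_of_mem _ hu
    obtain ⟨u', hu', e⟩ := Finset.mem_image.1 this
    rw [← proj_eq_of_mem hQ h2 hσ' hτ hw' hw hu' hu e]; exact hu'

/-- faces of the quotient containing the image of `ρ` lift to faces containing `ρ`. -/
theorem proj_lift (hQ : QData a Γ K col N) (h1 : ∀ γ ∈ Γ, ∀ v, π (a γ v) = π v)
    (h2 : ∀ v w : V, ({v} : Finset V) ∈ K → ({w} : Finset V) ∈ K → π v = π w →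
      ∃ γ ∈ Γ, a γ v = w) {ρ κ : Finset V} (hρ : ρ ∈ K) (hκ : κ ∈ K)
    (h : ρ.image π ⊆ κ.image π) : ∃ κ' ∈ K, ρ ⊆ κ' ∧ κ'.image π = κ.image π := by
  obtain ⟨κ₀, hκ₀, e⟩ := Finset.subset_image_iff.1 h
  obtain ⟨γ, hγ, e'⟩ := proj_orb hQ h1 h2 κ₀ (hQ.part.cx.2 κ hκ _ hκ₀) ρ hρ e
  exact ⟨κ.image (a γ), hQ.inv γ (Subgroup.mem_top γ) κ hκ, e' ▸ Finset.image_subset_image hκ₀,
    proj_image_act h1 hγ κ⟩

/-- links of non-empty faces are mapped isomorphically. -/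
theorem proj_link (hQ : QData a Γ K col N) (h1 : ∀ γ ∈ Γ, ∀ v, π (a γ v) = π v)
    (h2 : ∀ v w : V, ({v} : Finset V) ∈ K → ({w} : Finset V) ∈ K → π v = π w →
      ∃ γ ∈ Γ, a γ v = w) {ρ : Finset V} (hρ : ρ ∈ K) (hne : ρ.Nonempty) :
    Set.InjOn π {v | ({v} : Finset V) ∈ Lk K ρ} ∧
    ∀ τ, τ ∈ Lk {τ | ∃ σ ∈ K, σ.image π = τ} (ρ.image π) ↔ ∃ σ ∈ Lk K ρ, σ.image π = τ := by
  obtain ⟨w, hw⟩ := hne
  refine ⟨fun v hv v' hv' h => ?_, fun τ => ⟨?_, ?_⟩⟩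
  · exact proj_eq_of_mem hQ h2 hv.2 hv'.2 (Finset.mem_union_right _ hw)
      (Finset.mem_union_right _ hw) (Finset.mem_union_left _ (Finset.mem_singleton_self v))
      (Finset.mem_union_left _ (Finset.mem_singleton_self v')) h
  · rintro ⟨hd, κ, hκ, e⟩
    obtain ⟨κ', hκ', hρκ, e'⟩ := proj_lift hQ h1 h2 hρ hκ (e ▸ Finset.subset_union_right)
    refine ⟨κ' \ ρ, ⟨Finset.sdiff_disjoint, by rwa [Finset.sdiff_union_of_subset hρκ]⟩, ?_⟩
    rw [Finset.image_sdiff_of_injOn (proj_injOn hQ h2 κ' hκ') hρκ, e', e,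
      Finset.union_sdiff_cancel_right hd]
  · rintro ⟨σ, ⟨hd, hσ⟩, rfl⟩
    refine ⟨Finset.disjoint_left.2 fun u hu hu' => ?_, σ ∪ ρ, hσ, Finset.image_union _ _⟩
    obtain ⟨v, hv, rfl⟩ := Finset.mem_image.1 hu
    obtain ⟨v', hv', e⟩ := Finset.mem_image.1 hu'
    have := proj_injOn hQ h2 _ hσ (Finset.mem_coe.2 (Finset.mem_union_right _ hv'))
      (Finset.mem_coe.2 (Finset.mem_union_left _ hv)) e
    exact Finset.disjoint_left.1 hd hv (this ▸ hv')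

/-- vertices of an image complex lift. -/
theorem quot_sing_lift {L : Set (Finset V)} {L' : Set (Finset W)}
    (h : ∀ τ, τ ∈ L' ↔ ∃ σ ∈ L, σ.image π = τ) (hL : IsCx L) {u : W}
    (hu : ({u} : Finset W) ∈ L') : ∃ v : V, ({v} : Finset V) ∈ L ∧ π v = u := by
  obtain ⟨σ, hσ, e⟩ := (h _).1 hu
  have : u ∈ σ.image π := e ▸ Finset.mem_singleton_self u
  obtain ⟨v, hv, e'⟩ := Finset.mem_image.1 this
  exact ⟨v, quot_sing hL hσ hv, e'⟩

theorem quot_sing_image {L : Set (Finset V)} {L' : Set (Finset W)}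
    (h : ∀ τ, τ ∈ L' ↔ ∃ σ ∈ L, σ.image π = τ) {v : V} (hv : ({v} : Finset V) ∈ L) :
    ({π v} : Finset W) ∈ L' :=
  (h _).2 ⟨_, hv, Finset.image_singleton _ _⟩

theorem quot_pair_iff {L : Set (Finset V)} {L' : Set (Finset W)}
    (h : ∀ τ, τ ∈ L' ↔ ∃ σ ∈ L, σ.image π = τ) (hL : IsCx L)
    (hinj : Set.InjOn π {v | ({v} : Finset V) ∈ L}) {v w : V} (hv : ({v} : Finset V) ∈ L)
    (hw : ({w} : Finset V) ∈ L) : ({π v, π w} : Finset W) ∈ L' ↔ ({v, w} : Finset V) ∈ L := by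
  constructor
  · intro huv
    obtain ⟨σ, hσ, e⟩ := (h _).1 huv
    have h1 : π v ∈ σ.image π := e ▸ Finset.mem_insert_self _ _
    have h2 : π w ∈ σ.image π := e ▸ Finset.mem_insert_of_mem (Finset.mem_singleton_self _)
    obtain ⟨v', hv', e1⟩ := Finset.mem_image.1 h1
    obtain ⟨w', hw', e2⟩ := Finset.mem_image.1 h2
    have e1' : v' = v := hinj (quot_sing hL hσ hv') hv e1
    have e2' : w' = w := hinj (quot_sing hL hσ hw') hw e2
    exact quot_pair hL hσ (e1' ▸ hv') (e2' ▸ hw')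
  · intro hvw
    exact (h _).2 ⟨_, hvw, by simp⟩

end proj

/-- Recipe: `X = {τ | ∃ σ ∈ K, σ.image π = τ}`, `colX u = col (chosen preimage)`, so
`colX (π v) = col v` for vertices.  `Local` is transported by `proj_link` (`Conn.image`,
`HasContr.image`); `Deg`: lift chambers through `π v` to chambers through `v`; `Homog`: `g : H`
induces a permutation `ḡ` of `Fin n` with `ḡ (π v) = π (a g v)` on vertices (normality);
`exact_quot`; `n₀ ≤ n` since `π ∘ v` is injective. -/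
theorem quot_main (hQ : QData a Γ K col N) (hN : 3 ≤ N) {m R b D : ℕ} (hL : Local K col N m R b)
    (hD : Deg K N D) (hv : ∀ i ≤ m, Van a Γ K i) {n₀ : ℕ} (v : Fin n₀ → V)
    (hv1 : ∀ i, ({v i} : Finset V) ∈ K) (hv2 : ∀ i i', ∀ γ ∈ Γ, a γ (v i) = v i' → i = i') :
    ∃ n : ℕ, n₀ ≤ n ∧ ∃ (X : Set (Finset (Fin n))) (colX : Fin n → ℕ), Partite X colX N ∧
      Local X colX N m R b ∧ Deg X N D ∧ Homog X colX N ∧ (∀ i ≤ m, Exact X i) ∧
      ∀ u : Fin n, ({u} : Finset (Fin n)) ∈ X := by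
  obtain ⟨n, π, h1, h2, h3⟩ := exists_proj hQ (by omega)
  choose pre hpre hpre' using h3
  have hK := hQ.part.cx
  have hinj := proj_injOn hQ h2
  have hcard : ∀ σ ∈ K, (σ.image π).card = σ.card := fun σ hσ =>
    Finset.card_image_of_injOn (hinj σ hσ)
  have hcol : ∀ w : V, ({w} : Finset V) ∈ K → col (pre (π w)) = col w := by
    intro w hw
    obtain ⟨γ, -, e⟩ := h2 _ w (hpre (π w)) hw (hpre' _)
    conv_rhs => rw [← e]
    rw [hQ.colinv γ _ (hpre _)]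
  have hn : n₀ ≤ n := by
    have : Function.Injective fun i => π (v i) := by
      intro i i' h
      obtain ⟨γ, hγ, e⟩ := h2 _ _ (hv1 i) (hv1 i') h
      exact hv2 i i' γ hγ e
    simpa using Fintype.card_le_of_injective _ this
  refine ⟨n, hn, {τ | ∃ σ ∈ K, σ.image π = τ}, fun u => col (pre u), ⟨⟨⟨∅, hK.1, rfl⟩, ?_⟩, ?_, ?_, ?_⟩,
    ⟨?_, ?_, ?_, ?_⟩, ?_, ?_, ?_, ?_⟩
  · rintro _ ⟨σ, hσ, rfl⟩ τ hτ
    obtain ⟨σ', hσ', e⟩ := Finset.subset_image_iff.1 hτ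
    exact ⟨σ', hK.2 σ hσ _ hσ', e⟩
  · intro u _
    exact hQ.part.lt _ (hpre u)
  · rintro _ ⟨σ, hσ, rfl⟩ u hu u' hu' h
    obtain ⟨w, hw, rfl⟩ := Finset.mem_image.1 (Finset.mem_coe.1 hu)
    obtain ⟨w', hw', rfl⟩ := Finset.mem_image.1 (Finset.mem_coe.1 hu')
    simp only [hcol w (quot_sing hK hσ hw), hcol w' (quot_sing hK hσ hw')] at h
    rw [hQ.part.inj σ hσ hw hw' h]
  · rintro _ ⟨σ, hσ, rfl⟩
    obtain ⟨c, hc, hσc, hcN⟩ := hQ.part.pure σ hσ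
    exact ⟨c.image π, ⟨c, hc, rfl⟩, Finset.image_subset_image hσc, by rw [hcard c hc, hcN]⟩
  · rintro _ ⟨ρ, hρ, rfl⟩ hne hc
    rw [hcard ρ hρ] at hc
    have hne' : ρ.Nonempty := Finset.image_nonempty.1 hne
    exact Conn.image (Lk_isCx hK hρ) π (proj_link hQ h1 h2 hρ hne').2 (hL.conn ρ hρ hne' hc)
  · rintro _ ⟨ρ, hρ, rfl⟩ hc
    rw [hcard ρ hρ] at hc
    have hne' : ρ.Nonempty := Finset.card_pos.1 (by omega)
    obtain ⟨hi, hl⟩ := proj_link hQ h1 h2 hρ hne'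
    obtain ⟨s, hs, hs'⟩ := hL.thick ρ hρ hc
    refine ⟨s.image π, ?_, fun u hu => ?_⟩
    · rwa [Finset.card_image_of_injOn (hi.mono fun w hw => hs' w hw)]
    · obtain ⟨w, hw, rfl⟩ := Finset.mem_image.1 hu
      exact quot_sing_image hl (hs' w hw)
  · rintro _ ⟨ρ, hρ, rfl⟩ hc
    rw [hcard ρ hρ] at hc
    have hne' : ρ.Nonempty := Finset.card_pos.1 (by omega)
    obtain ⟨hi, hl⟩ := proj_link hQ h1 h2 hρ hne'
    have hLk := Lk_isCx hK hρ
    have hcol' : ∀ w : V, ({w} : Finset V) ∈ Lk K ρ → col (pre (π w)) = col w := fun w hw =>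
      hcol w (Lk_subset hK ρ hw)
    rcases hL.rank2 ρ hρ hc with h | ⟨v₀, hv₀, h⟩
    · left
      intro u u' hu hu' hne
      obtain ⟨w, hw, rfl⟩ := quot_sing_lift hl hLk hu
      obtain ⟨w', hw', rfl⟩ := quot_sing_lift hl hLk hu'
      simp only [hcol' w hw, hcol' w' hw'] at hne
      exact (quot_pair_iff hl hLk hi hw hw').2 (h w w' hw hw' hne)
    · right
      refine ⟨π v₀, quot_sing_image hl hv₀, fun u u' hu hu' e e' hne => ?_⟩
      obtain ⟨w, hw, rfl⟩ := quot_sing_lift hl hLk hu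
      obtain ⟨w', hw', rfl⟩ := quot_sing_lift hl hLk hu'
      simp only [hcol' w hw, hcol' w' hw', hcol' v₀ hv₀] at e e' ⊢
      obtain ⟨x, ⟨hx1, hx2, hx3⟩, hx⟩ := h w w' hw hw' e e' fun e => hne (by rw [e])
      have hx0 : ({x} : Finset V) ∈ Lk K ρ := quot_sing hLk hx2 (Finset.mem_insert_self _ _)
      refine ⟨π x, ⟨by rwa [hcol' x hx0], (quot_pair_iff hl hLk hi hx0 hw).2 hx2,
        (quot_pair_iff hl hLk hi hx0 hw').2 hx3⟩, ?_⟩
      rintro y ⟨hy1, hy2, hy3⟩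
      have hXc : IsCx (Lk {τ | ∃ σ ∈ K, σ.image π = τ} (ρ.image π)) := by
        refine Lk_isCx (K := {τ | ∃ σ ∈ K, σ.image π = τ}) ⟨⟨∅, hK.1, rfl⟩, ?_⟩ ⟨ρ, hρ, rfl⟩
        rintro _ ⟨σ, hσ, rfl⟩ τ hτ
        obtain ⟨σ', hσ', e⟩ := Finset.subset_image_iff.1 hτ
        exact ⟨σ', hK.2 σ hσ _ hσ', e⟩
      obtain ⟨y', hy', rfl⟩ :=
        quot_sing_lift hl hLk (quot_sing hXc hy2 (Finset.mem_insert_self _ _))
      rw [hcol' y' hy'] at hy1
      exact congrArg π (hx y' ⟨hy1, (quot_pair_iff hl hLk hi hy' hw).1 hy2,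
        (quot_pair_iff hl hLk hi hy' hw').1 hy3⟩)
  · rintro _ ⟨ρ, hρ, rfl⟩ hne hc
    rw [hcard ρ hρ] at hc
    have hne' : ρ.Nonempty := Finset.image_nonempty.1 hne
    obtain ⟨hi, hl⟩ := proj_link hQ h1 h2 hρ hne'
    exact HasContr.image (Lk_isCx hK hρ) π _
      (fun σ hσ w hw => quot_sing (Lk_isCx hK hρ) hσ hw) hi hl (hL.contr ρ hρ hne' hc)
  · intro u s hs
    have : ∀ c' ∈ s, ∃ c : Finset V, (c ∈ K ∧ c.card = N ∧ pre u ∈ c) ∧ c.image π = c' := by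
      intro c' hc'
      obtain ⟨⟨c, hc, rfl⟩, hcN, hu⟩ := hs c' hc'
      obtain ⟨κ, hκ, hκ', e⟩ := proj_lift hQ h1 h2 (hpre u) hc
        (by rw [Finset.image_singleton, hpre']; exact Finset.singleton_subset_iff.2 hu)
      exact ⟨κ, ⟨hκ, by rw [← hcard κ hκ, e, hcN], Finset.singleton_subset_iff.1 hκ'⟩, e⟩
    choose! f hf hf' using this
    have hfi : Set.InjOn f (s : Set (Finset (Fin n))) := fun c hc c' hc' e => by
      rw [← hf' c hc, ← hf' c' hc', e]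
    rw [← Finset.card_image_of_injOn hfi]
    refine hD (pre u) _ fun c hc => ?_
    obtain ⟨c', hc', rfl⟩ := Finset.mem_image.1 hc
    exact hf c' hc'
  · rintro _ ⟨c, hc, rfl⟩ _ ⟨c', hc', rfl⟩ hcN hcN'
    rw [hcard c hc] at hcN
    rw [hcard c' hc'] at hcN'
    obtain ⟨g, hg⟩ := hQ.trans c hc c' hc' hcN hcN'
    let ψ : H → Fin n → Fin n := fun g u => π (a g (pre u))
    have hψ : ∀ (g : H) (w : V), ({w} : Finset V) ∈ K → ψ g (π w) = π (a g w) := by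
      intro g w hw
      obtain ⟨γ, hγ, e⟩ := h2 _ w (hpre (π w)) hw (hpre' _)
      have := h1 _ (hQ.normal.conj_mem γ hγ g) (a g (pre (π w)))
      simp only [ψ]
      rw [← this]
      conv_rhs => rw [← e]
      simp
    have hψψ : ∀ (g : H) (u : Fin n), ψ g⁻¹ (ψ g u) = u := by
      intro g u
      change ψ g⁻¹ (π (a g (pre u))) = u
      rw [hψ _ _ (quot_act_sing hQ.inv g (hpre u))]
      simp [hpre']
    have hψim : ∀ (g : H), ∀ σ ∈ K, (σ.image π).image (ψ g) = (σ.image (a g)).image π := by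
      intro g σ hσ
      rw [Finset.image_image, Finset.image_image]
      exact Finset.image_congr fun w hw => hψ g w (quot_sing hK hσ hw)
    have hψX : ∀ (g : H) (τ : Finset (Fin n)), (∃ σ ∈ K, σ.image π = τ) →
        ∃ σ ∈ K, σ.image π = τ.image (ψ g) := by
      rintro g _ ⟨σ, hσ, rfl⟩
      exact ⟨σ.image (a g), hQ.inv g (Subgroup.mem_top g) σ hσ, (hψim g σ hσ).symm⟩
    refine ⟨⟨ψ g, ψ g⁻¹, hψψ g, fun u => by simpa using hψψ g⁻¹ u⟩, fun τ => ⟨fun h => ?_, hψX g τ⟩,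
      fun u _ => ?_, ?_⟩
    · have := hψX g⁻¹ _ h
      rw [Finset.image_image] at this
      have e : τ.image (ψ g⁻¹ ∘ ψ g) = τ := by
        rw [show ψ g⁻¹ ∘ ψ g = id from funext (hψψ g), Finset.image_id]
      exact e ▸ this
    · change col (pre (π (a g (pre u)))) = col (pre u)
      rw [hcol _ (quot_act_sing hQ.inv g (hpre u)), hQ.colinv g _ (hpre u)]
    · change (c.image π).image (ψ g) = _
      rw [hψim g c hc, hg]
  · intro i hi
    exact exact_quot hK π h1 hinj (proj_orb hQ h1 h2) (fun τ => Iff.rfl) (hv i hi)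
  · intro u
    exact ⟨{pre u}, hpre u, by rw [Finset.image_singleton, hpre']⟩

end Crest.Agent.R66
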