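import Crest.Agent.R66.Mat1
import Crest.Agent.R66.GH1
import Crest.Agent.R66.Tools1

/-! # Row 66: the complex `𝒰` of translates of partial standard bases -/

set_option linter.unusedSectionVars false

namespace Crest.Agent.R66

open Polynomial

section
variable {ι : Type*} [Fintype ι] [DecidableEq ι] {F : Type*} [Field F]

theorem vecAct_apply (g : GL ι F[X]) (v : ι → F[X]) :
    vecAct ι F g v = (g : Matrix ι ι F[X]).mulVec v := rfl

theorem stdU_card (T : Finset ι) : (stdU F T).card = T.card := by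
  refine Finset.card_image_of_injective _ fun i j h => ?_
  by_contra hij
  have := congrFun h i
  simp [hij] at this

theorem UU_isCx (n : ℕ) : IsCx (UU ι F n) := by
  refine ⟨⟨1, one_mem _, ∅, by simp [stdU]⟩, ?_⟩
  rintro σ ⟨γ, hγ, T, rfl⟩ τ hτ
  rw [stdU, Finset.image_image] at hτ
  obtain ⟨T', -, rfl⟩ := Finset.subset_image_iff.1 hτ
  exact ⟨γ, hγ, T', by rw [stdU, Finset.image_image]⟩

theorem UU_inv (n : ℕ) : Inv (vecAct ι F) (Gam ι F n) (UU ι F n) := by
  rintro h hh σ ⟨γ, hγ, T, rfl⟩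
  exact ⟨h * γ, mul_mem hh hγ, T, by rw [map_mul, Equiv.Perm.coe_mul, Finset.image_image]⟩

theorem UU_rep (n : ℕ) : ∀ τ ∈ UU ι F n, ∃ γ ∈ Gam ι F n,
    τ.image (vecAct ι F γ) ∈ Set.range (stdU F : Finset ι → Finset (ι → F[X])) := by
  rintro τ ⟨γ, hγ, T, rfl⟩
  refine ⟨γ⁻¹, inv_mem hγ, T, ?_⟩
  rw [Finset.image_image, ← Equiv.Perm.coe_mul, ← map_mul, inv_mul_cancel, map_one]
  simp

theorem eq_of_vecAct_single {n : ℕ} (hn : 1 ≤ n) {γ : GL ι F[X]} (hγ : γ ∈ Gam ι F n) {i j : ι}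
    (h : vecAct ι F γ (Pi.single i 1) = Pi.single j 1) : i = j := by
  by_contra hij
  have h1 := congrFun h j
  rw [vecAct_apply, Matrix.mulVec_single_one] at h1
  have h2 := mem_Gam.1 (Gam_anti hn hγ) j i
  simp only [Matrix.col_apply, Pi.single_eq_same] at h1
  rw [h1, Matrix.one_apply_ne (Ne.symm hij), sub_zero, pow_one] at h2
  exact Polynomial.not_isUnit_X (isUnit_of_dvd_one h2)

/-- Recipe: `fundom` with `D = range (Pi.single · 1)`; `γ e_i = e_j` with `γ ≡ 1 mod X` forces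
`i = j`. -/
theorem UU_van [Nonempty ι] {n : ℕ} (hn : 1 ≤ n) (j : ℕ) :
    Van (vecAct ι F) (Gam ι F n) (UU ι F n) j := by
  obtain ⟨i₀⟩ := ‹Nonempty ι›
  refine fundom (UU_inv n) (Set.range fun i : ι => (Pi.single i 1 : ι → F[X])) (Pi.single i₀ 1)
    ?_ ?_ ?_ j
  · intro σ hσ
    obtain ⟨γ, hγ, T, hT⟩ := UU_rep n σ hσ
    refine ⟨γ, hγ, fun v hv => ?_⟩
    have := Finset.mem_image_of_mem (vecAct ι F γ) hv
    rw [← hT, stdU, Finset.mem_image] at this
    obtain ⟨i, -, hi⟩ := this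
    exact ⟨i, hi⟩
  · rintro γ hγ _ ⟨i, rfl⟩ ⟨k, hk⟩
    have := eq_of_vecAct_single hn hγ hk.symm
    subst this
    exact hk.symm
  · intro σ _ h
    refine ⟨1, one_mem _, insert i₀ (Finset.univ.filter fun i => (Pi.single i 1 : ι → F[X]) ∈ σ), ?_⟩
    ext v
    simp only [map_one, Equiv.Perm.coe_one, Finset.image_id, stdU, Finset.image_insert,
      Finset.mem_insert, Finset.mem_image, Finset.mem_filter, Finset.mem_univ, true_and]
    refine or_congr Iff.rfl ⟨fun hv => ?_, ?_⟩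
    · obtain ⟨i, rfl⟩ := h v hv
      exact ⟨i, hv, rfl⟩
    · rintro ⟨i, hi, rfl⟩
      exact hi

/-- Recipe: the kernel is non-zero by rank (`LinearMap.exists_ne_zero…`/`finrank` of free modules:
an injective map `A^κ → A^r` forces `card κ ≤ r`); divide a non-zero kernel vector by the gcd of its
coordinates (`Finset.extract_gcd`, torsion-free target) and use Bezout
(`Finset.gcd_eq_sum_mul` or `Ideal.span = ⊤`). -/
theorem exists_unimod {κ : Type*} [Fintype κ] {r : ℕ} (hr : r < Fintype.card κ)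
    (f : Fin r → ((κ → F[X]) →ₗ[F[X]] F[X])) :
    ∃ (x : κ → F[X]) (l : (κ → F[X]) →ₗ[F[X]] F[X]), (∀ i, f i x = 0) ∧ l x = 1 := by
  classical
  have hni : ¬ Function.Injective (LinearMap.pi f) := fun h => by
    have := card_le_of_injective F[X] (LinearMap.pi f) h
    rw [Fintype.card_fin] at this
    omega
  rw [injective_iff_map_eq_zero] at hni
  push Not at hni
  obtain ⟨x₀, hx₀, hne⟩ := hni
  have hκ : (Finset.univ : Finset κ).Nonempty := by
    rw [← Finset.card_pos, Finset.card_univ]; omega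
  obtain ⟨x, hx, hg⟩ := Finset.extract_gcd x₀ hκ
  obtain ⟨c, hc⟩ := Finset.gcd_eq_sum_mul Finset.univ x
  have e : x₀ = Finset.univ.gcd x₀ • x := funext fun a => hx a (Finset.mem_univ _)
  have hd : Finset.univ.gcd x₀ ≠ 0 := fun h => hne (by rw [e, h, zero_smul])
  refine ⟨x, ∑ a, c a • LinearMap.proj a, fun i => ?_, ?_⟩
  · have := congrFun hx₀ i
    rw [LinearMap.pi_apply, e, map_smul, smul_eq_mul, Pi.zero_apply] at this
    exact (mul_eq_zero.1 this).resolve_left hd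
  · rw [← hg, hc]
    simp [mul_comm]

/-- one more simplex.  If `w = γ⁻¹ (e_j + X^n y) = e_j + X^n u` and `l` is a functional killing `e_j`
and the `e_a` (`a ∈ T`) with `l u = 1`, then the transvection `1 + X^n u φᵀ`, `φ = e_j^* - u_j l`
(`φ u = 0`, inverse `1 - X^n u φᵀ`) lies in `Gam n`, fixes the `e_a` and maps `e_j` to `w`. -/
theorem insert_mem_UU {n : ℕ} {γ : GL ι F[X]} (hγ : γ ∈ Gam ι F n) {T : Finset ι} {j : ι}
    (hj : j ∉ T) (u : ι → F[X]) (l : (ι → F[X]) →ₗ[F[X]] F[X])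
    (hl : ∀ a, (a ∈ T ∨ a = j) → l (Pi.single a 1) = 0) (hu : l u = 1) :
    insert (vecAct ι F γ (Pi.single j 1 + (X : F[X]) ^ n • u)) ((stdU F T).image (vecAct ι F γ)) ∈
      UU ι F n := by
  set φ : ι → F[X] := fun a => (Pi.single j 1 : ι → F[X]) a - u j * l (Pi.single a 1) with hφ
  have hφu : φ ⬝ᵥ u = 0 := by
    have e : u = ∑ a, u a • (Pi.single a 1 : ι → F[X]) := by
      ext a : 1
      simp [Finset.sum_apply, Pi.single_apply]
    have h1 : ∑ a, l (Pi.single a 1) * u a = 1 := by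
      refine Eq.trans ?_ hu
      conv_rhs => rw [e]
      simp [mul_comm]
    simp only [dotProduct, hφ, sub_mul, Finset.sum_sub_distrib, mul_assoc, ← Finset.mul_sum, h1]
    simp [Pi.single_apply]
  have hsq : Matrix.vecMulVec u φ * Matrix.vecMulVec u φ = 0 := by
    rw [Matrix.vecMulVec_mul_vecMulVec, hφu]; simp
  let t : GL ι F[X] :=
    { val := 1 + (X : F[X]) ^ n • Matrix.vecMulVec u φ
      inv := 1 - (X : F[X]) ^ n • Matrix.vecMulVec u φ
      val_inv := by simp [add_mul, mul_sub, hsq]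
      inv_val := by simp [sub_mul, mul_add, hsq] }
  have ht : ∀ a, vecAct ι F t (Pi.single a 1) = Pi.single a 1 + φ a • (X : F[X]) ^ n • u := by
    intro a
    rw [vecAct_apply, Matrix.mulVec_single_one]
    ext b : 1
    simp [t, Matrix.vecMulVec_apply, Matrix.one_apply, Pi.single_apply]
    ring
  refine ⟨γ * t, mul_mem hγ (mem_Gam'.2 ⟨_, rfl⟩), insert j T, ?_⟩
  rw [map_mul, Equiv.Perm.coe_mul, ← Finset.image_image, ← Finset.image_insert]
  congr 1
  rw [stdU, stdU, Finset.image_insert, Finset.image_insert, Finset.image_image, ht]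
  congr 1
  · simp [hφ, hl j (Or.inr rfl)]
  · refine Finset.image_congr fun a ha => ?_
    have haj : a ≠ j := fun h => hj (h ▸ ha)
    simp [ht, hφ, hl a (Or.inl ha), haj]

/-- EXT.  Recipe: write `τ = γ_τ • stdU T_τ`, pick `j ∉ ⋃ T_τ`.  Write
`γ_τ⁻¹ e_j = e_j + X^n c_τ`, so `γ_τ⁻¹ (e_j + X^n y) = e_j + X^n (c_τ + γ_τ⁻¹ y)`.  By induction on
`s` find `y` and functionals `l_τ` (killing `e_a`, `a ∈ T_τ ∪ {j}`) with `l_τ (c_τ + γ_τ⁻¹ y) = 1`:
for a new `τ` apply `exists_unimod` on `κ = {a // a ∉ T_τ ∧ a ≠ j}` to the functionals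
`x ↦ l_τ' (γ_τ'⁻¹ γ_τ (extend x))`, get `x, l`; `l_τ = l ∘ restrict`, and replace `y` by
`y + (1 - l_τ (c_τ + γ_τ⁻¹ y)) • γ_τ (extend x)`.  Conclude with `insert_mem_UU`. -/
theorem UU_ext {n m r : ℕ} (hc : r * m + m + r + 2 ≤ Fintype.card ι)
    (s : Finset (Finset (ι → F[X]))) (hs : ∀ τ ∈ s, τ ∈ UU ι F n ∧ τ.card ≤ m)
    (hr : s.card ≤ r) : ∃ v, ∀ τ ∈ s, insert v τ ∈ UU ι F n := by
  have h0 : ∀ τ : Finset (ι → F[X]), ∃ (γ : GL ι F[X]) (T : Finset ι), γ ∈ Gam ι F n ∧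
      (τ ∈ s → τ = (stdU F T).image (vecAct ι F γ) ∧ T.card ≤ m) := by
    intro τ
    by_cases hτ : τ ∈ s
    · obtain ⟨⟨γ, hγ, T, hT⟩, hm⟩ := hs τ hτ
      refine ⟨γ, T, hγ, fun _ => ⟨hT, ?_⟩⟩
      rw [hT, Finset.card_image_of_injective _ (vecAct ι F γ).injective, stdU_card] at hm
      exact hm
    · exact ⟨1, ∅, one_mem _, fun h => absurd h hτ⟩
  choose γ T hγ hT using h0
  obtain ⟨j, hj⟩ : ∃ j, j ∉ s.biUnion T := by
    by_contra hcon
    push Not at hcon
    have h1 : Fintype.card ι ≤ (s.biUnion T).card :=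
      Finset.card_le_card (fun j _ => hcon j)
    have h2 := Finset.card_biUnion_le_card_mul s T m fun τ hτ => (hT τ hτ).2
    have h3 := Nat.mul_le_mul_right m hr
    omega
  have hjT : ∀ τ ∈ s, j ∉ T τ := fun τ hτ h => hj (Finset.mem_biUnion.2 ⟨τ, hτ, h⟩)
  have h1 : ∀ τ, ∃ c : ι → F[X], (((γ τ)⁻¹ : GL ι F[X]) : Matrix ι ι F[X]).mulVec (Pi.single j 1)
      = Pi.single j 1 + (X : F[X]) ^ n • c := by
    intro τ
    obtain ⟨Y, hY⟩ := mem_Gam'.1 (inv_mem (hγ τ))
    exact ⟨Y.mulVec (Pi.single j 1), by rw [hY, Matrix.add_mulVec, Matrix.one_mulVec,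
      Matrix.smul_mulVec]⟩
  choose c hcj using h1
  have main : ∀ s' : Finset (Finset (ι → F[X])), s' ⊆ s → ∃ (y : ι → F[X])
      (l : Finset (ι → F[X]) → ((ι → F[X]) →ₗ[F[X]] F[X])), ∀ τ ∈ s',
      (∀ a, (a ∈ T τ ∨ a = j) → l τ (Pi.single a 1) = 0) ∧
      l τ (c τ + (((γ τ)⁻¹ : GL ι F[X]) : Matrix ι ι F[X]).mulVec y) = 1 := by
    intro s'
    induction s' using Finset.induction_on with
    | empty => exact fun _ => ⟨0, 0, by simp⟩
    | insert τ₀ s' hτ₀ ih =>
      intro hsub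
      obtain ⟨y, l, hl⟩ := ih ((Finset.subset_insert _ _).trans hsub)
      have hτ₀s : τ₀ ∈ s := hsub (Finset.mem_insert_self _ _)
      let ext : ({a // a ∉ insert j (T τ₀)} → F[X]) →ₗ[F[X]] (ι → F[X]) :=
        LinearMap.pi fun a => if h : a ∉ insert j (T τ₀) then LinearMap.proj ⟨a, h⟩ else 0
      let res : (ι → F[X]) →ₗ[F[X]] ({a // a ∉ insert j (T τ₀)} → F[X]) :=
        LinearMap.pi fun a => LinearMap.proj a.1
      have hre : ∀ x, res (ext x) = x := by
        intro x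
        ext a : 1
        simp only [res, ext, LinearMap.pi_apply, LinearMap.proj_apply, dif_pos a.2]
      have hcard : s'.card < Fintype.card {a // a ∉ insert j (T τ₀)} := by
        rw [Fintype.card_subtype_compl, Fintype.card_coe]
        have := Finset.card_insert_le j (T τ₀)
        have := (hT τ₀ hτ₀s).2
        have := Finset.card_le_card ((Finset.subset_insert _ _).trans hsub)
        omega
      obtain ⟨x, l₀, hx, hl₀⟩ := exists_unimod hcard fun i =>
        l (s'.equivFin.symm i) ∘ₗ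
          Matrix.mulVecLin (((γ (s'.equivFin.symm i))⁻¹ : GL ι F[X]) : Matrix ι ι F[X]) ∘ₗ
          Matrix.mulVecLin (γ τ₀ : Matrix ι ι F[X]) ∘ₗ ext
      refine ⟨y + (1 - l₀ (res (c τ₀ + (((γ τ₀)⁻¹ : GL ι F[X]) : Matrix ι ι F[X]).mulVec y))) •
        (γ τ₀ : Matrix ι ι F[X]).mulVec (ext x), Function.update l τ₀ (l₀ ∘ₗ res), ?_⟩
      intro τ hτ
      rcases Finset.mem_insert.1 hτ with rfl | hτ'
      · rw [Function.update_self]
        refine ⟨fun a ha => ?_, ?_⟩
        · have : res (Pi.single a 1) = 0 := by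
            ext b : 1
            have hb : b.1 ≠ a := by
              rintro rfl
              exact b.2 (Finset.mem_insert.2 ha.symm)
            simp [res, hb]
          rw [LinearMap.comp_apply, this, map_zero]
        · rw [Matrix.mulVec_add, Matrix.mulVec_smul, Matrix.mulVec_mulVec, Units.inv_mul,
            Matrix.one_mulVec, ← add_assoc, LinearMap.comp_apply, map_add, map_add, map_smul,
            map_smul, hre, hl₀]
          simp
      · have hne : τ ≠ τ₀ := fun h => hτ₀ (h ▸ hτ')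
        rw [Function.update_of_ne hne]
        refine ⟨(hl τ hτ').1, ?_⟩
        have := hx (s'.equivFin ⟨τ, hτ'⟩)
        simp only [Equiv.symm_apply_apply, LinearMap.comp_apply, Matrix.mulVecLin_apply] at this
        rw [Matrix.mulVec_add, Matrix.mulVec_smul, ← add_assoc, map_add, map_smul, this,
          (hl τ hτ').2]
        simp
  obtain ⟨y, l, hl⟩ := main s subset_rfl
  refine ⟨Pi.single j 1 + (X : F[X]) ^ n • y, fun τ hτ => ?_⟩
  have := insert_mem_UU (hγ τ) (hjT τ hτ) _ (l τ) (hl τ hτ).1 (hl τ hτ).2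
  rw [← (hT τ hτ).1, smul_add, ← add_assoc, ← hcj, ← Matrix.mulVec_smul, ← Matrix.mulVec_add,
    vecAct_apply, Matrix.mulVec_mulVec, Units.mul_inv, Matrix.one_mulVec] at this
  exact this

end

/-- Recipe: `Fill (UU ..) j r r` by coning (`UU_ext`), `hasContr_of_fill` with `f j r = r`,
`HasContr.exact`. -/
theorem UU_exact (m : ℕ) : ∃ c : ℕ, ∀ (ι : Type) [Fintype ι] [DecidableEq ι] (F : Type) [Field F]
    (n : ℕ), c ≤ Fintype.card ι → ∀ i ≤ m, Exact (UU ι F n) i := by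
  set ρ : ℕ → ℕ := rho fun _ r => r with hρ
  set R : ℕ := (Finset.range (m + 1)).sup fun j => 1 + j * ρ j with hR
  have hle : ∀ j ≤ m, 1 + j * ρ j ≤ R := fun j hj =>
    Finset.le_sup (f := fun j => 1 + j * ρ j) (Finset.mem_range.2 (Nat.lt_succ_of_le hj))
  refine ⟨R * m + m + R + 2, fun ι _ _ F _ n hc i hi => ?_⟩
  refine HasContr.exact (hasContr_of_fill (UU_isCx n) (fun _ r => r) m R ?_ hle) hi
  intro j hj z hz hbd hcard
  obtain ⟨v, hv⟩ := UU_ext hc z.support
    (fun τ hτ => ⟨(mem_Cs.1 hz τ hτ).1, (mem_Cs.1 hz τ hτ).2.le.trans hj⟩)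
    (hcard.trans (hle j hj))
  exact ⟨cone v z, cone_mem_Cs v hz fun σ hσ _ => hv σ hσ, bd_cone_of_cycle v hbd,
    (card_support_cone_le v z).trans hcard⟩

end Crest.Agent.R66
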