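import Crest.Agent.R66.Mat1
import Crest.Agent.R66.Mat2
import Crest.Agent.R66.GH1

/-! # Row 66: block structure of stabilisers -/

set_option linter.unusedSectionVars false

namespace Crest.Agent.R66

open Polynomial

variable {ι : Type*} [Fintype ι] [DecidableEq ι] {F : Type*} [Field F]

/-- for `n ≥ 1` the setwise stabiliser fixes the basis vectors. -/
theorem mem_stab_stdU {n : ℕ} (hn : 1 ≤ n) {T : Finset ι} {g : GL ι F[X]} :
    g ∈ stab (vecAct ι F) (Gam ι F n) (stdU F T) ↔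
      g ∈ Gam ι F n ∧ ∀ i, ∀ j ∈ T, (g : Matrix ι ι F[X]) i j = (1 : Matrix ι ι F[X]) i j := by
  refine and_congr_right fun hg => ⟨fun h i j hj => ?_, fun h => ?_⟩
  · have h1 : vecAct ι F g (Pi.single j 1) ∈ stdU F T := by
      rw [← h]
      exact Finset.mem_image_of_mem _ (Finset.mem_image_of_mem _ hj)
    obtain ⟨k, -, hk⟩ := Finset.mem_image.1 h1
    have := eq_of_vecAct_single hn hg hk.symm
    subst this
    have h2 := congrFun hk i
    rw [vecAct_apply, Matrix.mulVec_single_one] at h2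
    simp only [Matrix.col_apply] at h2
    rw [← h2, Matrix.one_apply, Pi.single_apply]
  · rw [stdU, Finset.image_image]
    refine Finset.image_congr fun j hj => ?_
    ext i : 1
    simp only [Function.comp_apply, vecAct_apply, Matrix.mulVec_single_one, Matrix.col_apply]
    rw [h i j hj, Matrix.one_apply, Pi.single_apply]

theorem locOdd_of_add [Finite F] (h2 : (2 : F) ≠ 0) {N : Subgroup (GL ι F[X])}
    (hN : N ≤ Gam ι F 1) (h : ∀ x ∈ N, ∀ y ∈ N, ((x : Matrix ι ι F[X]) - 1) * (y - 1) = 0) :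
    LocOdd N := by
  intro s hs
  set k : ℕ := s.sup fun g => Finset.univ.sup fun ij : ι × ι =>
    ((g : Matrix ι ι F[X]) ij.1 ij.2).natDegree with hk
  have h1 : ∀ i j, ((1 : Matrix ι ι F[X]) i j).natDegree ≤ k := by
    intro i j
    by_cases hij : i = j <;> simp [Matrix.one_apply, hij]
  let S' : Subgroup (GL ι F[X]) :=
    { carrier := {g | g ∈ N ∧ ∀ i j, ((g : Matrix ι ι F[X]) i j).natDegree ≤ k}
      one_mem' := ⟨N.one_mem, h1⟩
      mul_mem' := by
        rintro x y ⟨hx, hx'⟩ ⟨hy, hy'⟩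
        refine ⟨N.mul_mem hx hy, fun i j => ?_⟩
        have e : ((x * y : GL ι F[X]) : Matrix ι ι F[X]) = x + y - 1 := by
          have := h x hx y hy
          rw [Units.val_mul, ← sub_eq_zero, ← this]
          noncomm_ring
        rw [e, Matrix.sub_apply, Matrix.add_apply]
        exact (natDegree_sub_le _ _).trans (max_le ((natDegree_add_le _ _).trans
          (max_le (hx' i j) (hy' i j))) (h1 i j))
      inv_mem' := by
        rintro x ⟨hx, hx'⟩
        refine ⟨N.inv_mem hx, fun i j => ?_⟩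
        have e : ((x⁻¹ : GL ι F[X]) : Matrix ι ι F[X]) = 1 + 1 - x := by
          have := h x hx x⁻¹ (N.inv_mem hx)
          rw [sub_mul, mul_sub, Units.mul_inv, mul_one, one_mul] at this
          rw [← sub_eq_zero, ← neg_eq_zero, ← this]
          abel
        rw [e, Matrix.sub_apply, Matrix.add_apply]
        exact (natDegree_sub_le _ _).trans (max_le ((natDegree_add_le _ _).trans
          (max_le (h1 i j) (h1 i j))) (hx' i j)) }
  have hfin : Finite S' := Set.Finite.to_subtype ((finite_bdd k).subset fun g hg => hg.2)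
  refine ⟨S', fun g hg => hg.1, fun g hg => ⟨hs g hg, fun i j => ?_⟩,
    odd_card_of_le h2 fun g hg => hN hg.1⟩
  exact le_trans (Finset.le_sup (f := fun ij : ι × ι => ((g : Matrix ι ι F[X]) ij.1 ij.2).natDegree)
    (Finset.mem_univ (i, j))) (Finset.le_sup (f := fun g : GL ι F[X] => Finset.univ.sup
      fun ij : ι × ι => ((g : Matrix ι ι F[X]) ij.1 ij.2).natDegree) hg)

/-- units fixing `A` on the left and `B` on the right -/
def fixSub (A B : Matrix ι ι F[X]) : Subgroup (GL ι F[X]) where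
  carrier := {g | (g : Matrix ι ι F[X]) * A = A ∧ B * (g : Matrix ι ι F[X]) = B}
  one_mem' := by simp
  mul_mem' := by
    rintro x y ⟨hx, hx'⟩ ⟨hy, hy'⟩
    exact ⟨by rw [Units.val_mul, mul_assoc, hy, hx], by rw [Units.val_mul, ← mul_assoc, hx', hy']⟩
  inv_mem' := by
    rintro x ⟨hx, hx'⟩
    refine ⟨?_, ?_⟩
    · conv_lhs => rw [← hx, ← mul_assoc, Units.inv_mul, one_mul]
    · conv_lhs => rw [← hx', mul_assoc, Units.mul_inv, mul_one]

theorem mem_fixSub {A B : Matrix ι ι F[X]} {g : GL ι F[X]} :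
    g ∈ fixSub A B ↔ (g : Matrix ι ι F[X]) * A = A ∧ B * (g : Matrix ι ι F[X]) = B := Iff.rfl

theorem fixSub_sq {A B : Matrix ι ι F[X]} (hAB : A + B = 1) {x y : GL ι F[X]} (hx : x ∈ fixSub A B)
    (hy : y ∈ fixSub A B) : ((x : Matrix ι ι F[X]) - 1) * (y - 1) = 0 := by
  calc ((x : Matrix ι ι F[X]) - 1) * (y - 1) = (x - 1) * (A + B) * (y - 1) := by rw [hAB, mul_one]
    _ = (x * A - A) * (y - 1) + (x - 1) * (B * y - B) := by noncomm_ring
    _ = 0 := by rw [hx.1, hy.2]; simp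

theorem fixSub_conj {A B : Matrix ι ι F[X]} (hAB : A + B = 1) (hBA : B * A = 0) {s x : GL ι F[X]}
    (hs : (s : Matrix ι ι F[X]) * A = A) (hx : x ∈ fixSub A B) : s * x * s⁻¹ ∈ fixSub A B := by
  have hs' : ((s⁻¹ : GL ι F[X]) : Matrix ι ι F[X]) * A = A :=
    ((fixSub A 0).inv_mem (x := s) ⟨hs, by simp⟩).1
  refine ⟨?_, ?_⟩
  · rw [Units.val_mul, Units.val_mul, mul_assoc, hs', mul_assoc, hx.1, hs]
  · have e : B * (s : Matrix ι ι F[X]) = B * s * B := by
      calc B * (s : Matrix ι ι F[X]) = B * s * (A + B) := by rw [hAB, mul_one]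
        _ = B * (s * A) + B * s * B := by noncomm_ring
        _ = _ := by rw [hs, hBA, zero_add]
    rw [Units.val_mul, Units.val_mul, ← mul_assoc, ← mul_assoc, e, mul_assoc _ B, hx.2, ← e,
      mul_assoc, Units.mul_inv, mul_one]

theorem fixSub_conj' {A B : Matrix ι ι F[X]} (hAB : A + B = 1) (hBA : B * A = 0) {s x : GL ι F[X]}
    (hs : B * (s : Matrix ι ι F[X]) = B) (hx : x ∈ fixSub A B) : s * x * s⁻¹ ∈ fixSub A B := by
  have hs' : B * ((s⁻¹ : GL ι F[X]) : Matrix ι ι F[X]) = B :=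
    ((fixSub 0 B).inv_mem (x := s) ⟨by simp, hs⟩).2
  refine ⟨?_, ?_⟩
  · have e : ((s⁻¹ : GL ι F[X]) : Matrix ι ι F[X]) * A
        = A * (((s⁻¹ : GL ι F[X]) : Matrix ι ι F[X]) * A) := by
      calc ((s⁻¹ : GL ι F[X]) : Matrix ι ι F[X]) * A
          = (A + B) * (((s⁻¹ : GL ι F[X]) : Matrix ι ι F[X]) * A) := by rw [hAB, one_mul]
        _ = A * (((s⁻¹ : GL ι F[X]) : Matrix ι ι F[X]) * A)
            + (B * ((s⁻¹ : GL ι F[X]) : Matrix ι ι F[X])) * A := by noncomm_ring
        _ = _ := by rw [hs', hBA, add_zero]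
    rw [Units.val_mul, Units.val_mul, mul_assoc, mul_assoc, e, ← mul_assoc _ A, hx.1, ← e,
      ← mul_assoc, Units.mul_inv, one_mul]
  · rw [Units.val_mul, Units.val_mul, ← mul_assoc, ← mul_assoc, hs, hx.2, hs']

/-- Recipe: `θ` = extension by the identity (`Units.map` of the monoid hom
`A ↦ of fun i j => if hi : i ∉ T then if hj : j ∉ T then A ⟨i,hi⟩ ⟨j,hj⟩ else 0 else (1 : Matrix) i j`);
`(Gam _ n).map θ = {g ∈ Gam n | ∀ i j, i ∈ T ∨ j ∈ T → g i j = 1 i j}`.
`N = {g ∈ Gam n | ∀ i j, i ∉ T ∨ j ∈ T → g i j = 1 i j}` (`g = 1 + Y`, `Y` supported in `T × Tᶜ`,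
products of two such `Y` vanish), `N'` the transpose.  `π s = θ (restriction of s to Tᶜ × Tᶜ)`
(multiplicative on the stabiliser as the `(Tᶜ, T)` block vanishes).  `LocOdd`: elements of `N` with
entries of degree `≤ k` form a subgroup, finite by `finite_bdd`, odd by `odd_card_of_le`.
Commutators: `elem l i r * s * (elem l i r)⁻¹ * s⁻¹ = 1 + E - s E s⁻¹` with `E = single l i r`,
`s E s⁻¹ = E s⁻¹ ≡ E mod X^n`. -/
theorem exists_blocks [Finite F] (h2 : (2 : F) ≠ 0) (T : Finset ι) {n : ℕ} (hn : 1 ≤ n) :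
    ∃ (θ : GL {i // i ∉ T} F[X] →* GL ι F[X]) (N N' : Subgroup (GL ι F[X]))
      (π : ↥(stab (vecAct ι F) (Gam ι F n) (stdU F T)) →* GL ι F[X]), Blocks T n θ N N' π := by
  set P : Matrix ι ι F[X] := Matrix.diagonal fun i => if i ∈ T then 1 else 0 with hP
  set J : Matrix ι {i // i ∉ T} F[X] := Matrix.of fun i k => if i = k.1 then 1 else 0 with hJ
  set J' : Matrix {i // i ∉ T} ι F[X] := Matrix.of fun k i => if i = k.1 then 1 else 0 with hJ'
  have hJJ : J' * J = 1 := by
    ext a b : 1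
    simp [hJ, hJ', Matrix.mul_apply, Matrix.one_apply, Subtype.ext_iff, eq_comm]
  have hPJ : P * J = 0 := by
    ext a b : 1
    simp only [hP, hJ, Matrix.diagonal_mul, Matrix.of_apply, Matrix.zero_apply]
    by_cases h : a = b.1
    · simp [h, b.2]
    · simp [h]
  have hJP : J' * P = 0 := by
    ext a b : 1
    simp only [hP, hJ', Matrix.mul_diagonal, Matrix.of_apply, Matrix.zero_apply]
    by_cases h : b = a.1
    · simp [h, a.2]
    · simp [h]
  have hPP : P * P = P := by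
    rw [hP, Matrix.diagonal_mul_diagonal]
    congr 1
    ext i : 1
    split_ifs <;> simp
  have hPQ : P + J * J' = 1 := by
    ext a b : 1
    simp only [hP, hJ, hJ', Matrix.add_apply, Matrix.mul_apply, Matrix.of_apply,
      Matrix.diagonal_apply, Matrix.one_apply]
    by_cases ha : a ∈ T
    · rw [Finset.sum_eq_zero]
      · simp [ha]
      · intro k _
        rw [if_neg (fun h : a = k.1 => k.2 (h ▸ ha)), zero_mul]
    · rw [Finset.sum_eq_single ⟨a, ha⟩]
      · simp [ha, eq_comm]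
      · intro k _ hk
        rw [if_neg (fun h : a = k.1 => hk (Subtype.ext h.symm)), zero_mul]
      · simp
  have hcol : ∀ g : Matrix ι ι F[X], g * P = P ↔ ∀ i, ∀ j ∈ T, g i j = (1 : Matrix ι ι F[X]) i j := by
    intro g
    rw [← Matrix.ext_iff]
    refine forall_congr' fun i => forall_congr' fun j => ?_
    simp only [hP, Matrix.mul_diagonal, Matrix.diagonal_apply, Matrix.one_apply]
    by_cases hj : j ∈ T
    · by_cases hij : i = j
      · simp [hj, hij]
      · simp [hj, hij]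
    · by_cases hij : i = j
      · simp [hj, hij]
      · simp [hj, hij]
  have hE1 : ∀ l i, i ∉ T → ∀ r, Matrix.single l i r * P = 0 := by
    intro l i hi r
    ext a b : 1
    simp only [hP, Matrix.mul_diagonal, Matrix.single_apply, Matrix.zero_apply]
    by_cases h : l = a ∧ i = b
    · simp [← h.2, hi]
    · simp [h]
  have hE2 : ∀ l i, i ∉ T → ∀ r, P * Matrix.single i l r = 0 := by
    intro l i hi r
    ext a b : 1
    simp only [hP, Matrix.diagonal_mul, Matrix.single_apply, Matrix.zero_apply]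
    by_cases h : i = a ∧ l = b
    · simp [← h.1, hi]
    · simp [h]
  have hE3 : ∀ l ∈ T, ∀ i r, P * Matrix.single l i r = Matrix.single l i r := by
    intro l hl i r
    ext a b : 1
    simp only [hP, Matrix.diagonal_mul, Matrix.single_apply]
    by_cases h : l = a ∧ i = b
    · simp [← h.1, hl]
    · simp [h]
  have hE4 : ∀ l ∈ T, ∀ i r, Matrix.single i l r * P = Matrix.single i l r := by
    intro l hl i r
    ext a b : 1
    simp only [hP, Matrix.mul_diagonal, Matrix.single_apply]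
    by_cases h : i = a ∧ l = b
    · simp [← h.2, hl]
    · simp [h]
  clear_value P J J'
  have hQ : J * J' = 1 - P := by rw [← hPQ]; simp
  have hstab : ∀ g, g ∈ stab (vecAct ι F) (Gam ι F n) (stdU F T) ↔
      g ∈ Gam ι F n ∧ (g : Matrix ι ι F[X]) * P = P := fun g => by
    rw [mem_stab_stdU hn, hcol]
  let θ₀ : Matrix {i // i ∉ T} {i // i ∉ T} F[X] →* Matrix ι ι F[X] :=
    { toFun := fun A => P + J * A * J'
      map_one' := by rw [Matrix.mul_one, hPQ]
      map_mul' := fun A B => by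
        have e1 : P * (J * B * J') = 0 := by
          rw [← Matrix.mul_assoc, ← Matrix.mul_assoc, hPJ]; simp
        have e2 : J * A * J' * P = 0 := by rw [Matrix.mul_assoc, hJP]; simp
        have e3 : J * A * J' * (J * B * J') = J * (A * B) * J' := by
          simp only [Matrix.mul_assoc]
          rw [← Matrix.mul_assoc J' J, hJJ, Matrix.one_mul]
        rw [add_mul, mul_add, mul_add, hPP, e1, e2, e3]; simp }
  let θ : GL {i // i ∉ T} F[X] →* GL ι F[X] := Units.map θ₀
  have hθ : ∀ A, ((θ A : GL ι F[X]) : Matrix ι ι F[X])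
      = P + J * (A : Matrix {i // i ∉ T} {i // i ∉ T} F[X]) * J' := fun _ => rfl
  have hθP : ∀ A, ((θ A : GL ι F[X]) : Matrix ι ι F[X]) * P = P := by
    intro A
    rw [hθ, add_mul, hPP, Matrix.mul_assoc, hJP]; simp
  have hPθ : ∀ A, P * ((θ A : GL ι F[X]) : Matrix ι ι F[X]) = P := by
    intro A
    rw [hθ, mul_add, hPP, ← Matrix.mul_assoc, ← Matrix.mul_assoc, hPJ]; simp
  have hθG : ∀ k, (Gam {i // i ∉ T} F k).map θ ≤ Gam ι F k := by
    rintro k _ ⟨A, hA, rfl⟩
    obtain ⟨Y, hY⟩ := mem_Gam'.1 hA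
    refine mem_Gam'.2 ⟨J * Y * J', ?_⟩
    rw [hθ, hY, Matrix.mul_add, Matrix.add_mul, Matrix.mul_one, ← add_assoc, hPQ]
    simp
  let ρ₀ : ↥(stab (vecAct ι F) (Gam ι F n) (stdU F T)) →*
      Matrix {i // i ∉ T} {i // i ∉ T} F[X] :=
    { toFun := fun s => J' * ((s : GL ι F[X]) : Matrix ι ι F[X]) * J
      map_one' := by simp [hJJ]
      map_mul' := fun s t => by
        have hs := ((hstab s).1 s.2).2
        have e : J' * ((s : GL ι F[X]) : Matrix ι ι F[X]) * J *
            (J' * ((t : GL ι F[X]) : Matrix ι ι F[X]) * J)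
            = J' * (((s : GL ι F[X]) : Matrix ι ι F[X]) * (J * J'))
              * ((t : GL ι F[X]) : Matrix ι ι F[X]) * J := by
          simp only [Matrix.mul_assoc]
        rw [e, hQ, mul_sub, mul_one, hs, Matrix.mul_sub, hJP, sub_zero]
        simp [Matrix.mul_assoc] }
  have hρ : ∀ s, ((ρ₀.toHomUnits s : GL {i // i ∉ T} F[X]) : Matrix _ _ F[X])
      = J' * ((s : GL ι F[X]) : Matrix ι ι F[X]) * J := fun _ => rfl
  have hρG : ∀ s, ρ₀.toHomUnits s ∈ Gam {i // i ∉ T} F n := by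
    intro s
    obtain ⟨Y, hY⟩ := mem_Gam'.1 ((hstab s).1 s.2).1
    refine mem_Gam'.2 ⟨J' * Y * J, ?_⟩
    rw [hρ, hY, Matrix.mul_add, Matrix.add_mul, Matrix.mul_one, hJJ]
    simp
  have hs1 : P + (1 - P) = 1 := by simp
  have hs2 : (1 - P) + P = 1 := by simp
  have hs3 : (1 - P) * P = 0 := by rw [sub_mul, hPP]; simp
  have hs4 : P * (1 - P) = 0 := by rw [mul_sub, hPP]; simp
  have hnorm := Gam_normal (ι := ι) (F := F) n
  refine ⟨θ, Gam ι F n ⊓ fixSub P (1 - P), Gam ι F n ⊓ fixSub (1 - P) P, θ.comp ρ₀.toHomUnits,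
    ?_, hθG 1, ?_, ?_, inf_le_left, ?_, ?_, ?_, ?_, ?_, ?_, ?_, ?_⟩
  · intro A B h
    have h1 := congrArg (fun g : GL ι F[X] => J' * (g : Matrix ι ι F[X]) * J) h
    simp only [hθ, Matrix.mul_add, Matrix.add_mul, hJP, Matrix.zero_mul, zero_add,
      Matrix.mul_assoc, hJJ, Matrix.mul_one] at h1
    simp only [← Matrix.mul_assoc, hJJ, Matrix.one_mul] at h1
    exact Units.ext h1
  · intro g hg
    refine (hstab g).2 ⟨hθG n hg, ?_⟩
    obtain ⟨A, -, rfl⟩ := hg
    exact hθP A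
  · exact fun g hg => (hstab g).2 ⟨hg.1, hg.2.1⟩
  · exact locOdd_of_add h2 (inf_le_left.trans (Gam_anti hn)) fun x hx y hy =>
      fixSub_sq hs1 hx.2 hy.2
  · exact locOdd_of_add h2 (inf_le_left.trans (Gam_anti hn)) fun x hx y hy =>
      fixSub_sq hs2 hx.2 hy.2
  · exact fun s hs x hx => ⟨hnorm.conj_mem _ hx.1 _, fixSub_conj hs1 hs3 ((hstab s).1 hs).2 hx.2⟩
  · rintro _ ⟨A, -, rfl⟩ x hx
    exact ⟨hnorm.conj_mem _ hx.1 _, fixSub_conj' hs2 hs4 (hPθ A) hx.2⟩
  · exact fun s => ⟨_, hρG s, rfl⟩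
  · intro s
    have hs := (hstab s).1 s.2
    refine Subgroup.mem_inf.2 ⟨mul_mem hs.1 (inv_mem (hθG n ⟨_, hρG s, rfl⟩)), ?_, ?_⟩
    · rw [← map_inv, Units.val_mul, mul_assoc, MonoidHom.comp_apply, hθP, hs.2]
    · rw [← map_inv, Units.val_mul, MonoidHom.comp_apply, hθ, hρ]
      have e : J * (J' * (((s⁻¹ : ↥(stab (vecAct ι F) (Gam ι F n) (stdU F T))) : GL ι F[X]) :
          Matrix ι ι F[X]) * J) * J' = (J * J') * (((s : GL ι F[X])⁻¹ : GL ι F[X]) :
          Matrix ι ι F[X]) * (J * J') := by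
        simp only [Matrix.mul_assoc]; rfl
      rw [e, hQ]
      have e2 := Units.mul_inv (s : GL ι F[X])
      generalize (((s : GL ι F[X])⁻¹ : GL ι F[X]) : Matrix ι ι F[X]) = s' at e2 ⊢
      have e3 := hs.2
      generalize ((s : GL ι F[X]) : Matrix ι ι F[X]) = s0 at e2 e3 ⊢
      calc (1 - P) * (s0 * (P + (1 - P) * s' * (1 - P)))
          = (1 - P) * (s0 * P) + (1 - P) * (s0 * s') * (1 - P)
            - (1 - P) * (s0 * P) * s' * (1 - P) := by noncomm_ring
        _ = 1 - P := by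
          rw [e2, e3, hs3, mul_one, mul_sub, hs3]; simp
  · intro l hl i hi r s hs
    have hli : l ≠ i := fun h => hi (h ▸ hl)
    have he : elem l i r ∈ fixSub P (1 - P) := by
      rw [mem_fixSub, elem_val hli, add_mul, hE1 l i hi, mul_add, sub_mul _ _ (Matrix.single _ _ _),
        hE3 l hl]
      simp
    refine Subgroup.mem_inf.2 ⟨mul_mem (hnorm.conj_mem _ (hθG n hs) _) (inv_mem (hθG n hs)), ?_⟩
    obtain ⟨A, -, rfl⟩ := hs
    have := mul_mem he (fixSub_conj hs1 hs3 (hθP A) (inv_mem he))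
    simpa only [mul_assoc] using this
  · intro l hl i hi r s hs
    have hli : i ≠ l := fun h => hi (h ▸ hl)
    have he : elem i l r ∈ fixSub (1 - P) P := by
      rw [mem_fixSub, elem_val hli, add_mul, mul_sub (Matrix.single _ _ _), hE4 l hl, mul_add,
        hE2 l i hi]
      simp
    refine Subgroup.mem_inf.2 ⟨mul_mem (hnorm.conj_mem _ (hθG n hs) _) (inv_mem (hθG n hs)), ?_⟩
    obtain ⟨A, -, rfl⟩ := hs
    have := mul_mem he (fixSub_conj' hs2 hs4 (hPθ A) (inv_mem he))
    simpa only [mul_assoc] using this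

end Crest.Agent.R66
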