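import Crest.Agent.R66.GH3
import Crest.Agent.R66.GH4
import Crest.Agent.R66.Mat2
import Crest.Agent.R66.Mat3

/-! # Row 66: vanishing of the `F₂`-homology of congruence subgroups in a stable range -/

set_option linter.unusedSectionVars false

namespace Crest.Agent.R66

open Polynomial

section
variable {ι : Type*} [Fintype ι] [DecidableEq ι] {F : Type*} [Field F] [Finite F]
  {V : Type*} [DecidableEq V] {a : GL ι F[X] →* Equiv.Perm V} {K : Set (Finset V)} {m n : ℕ}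

theorem mem_Aug_of_sup {S S' Γ : Subgroup (GL ι F[X])} (h : S ≤ Γ) (h' : S' ≤ Γ) {z : Ch V}
    (hz : z ∈ Aug (act a) S ⊔ Aug (act a) S') : z ∈ Aug (act a) Γ :=
  (sup_le (Aug_mono _ h) (Aug_mono _ h') : Aug (act a) S ⊔ Aug (act a) S' ≤ Aug (act a) Γ) hz

/-- Recipe: `exists_blocks`; `compare` (group `GL {i // i ∉ T}`, actions `a.comp θ` and `a'`,
subgroup `Gam _ n`) and `Van_comp` give `Van a L K i`; `van_of_locOdd` gives `Van a N K`;
`retract` and `Aug L, Aug N ≤ Aug Aff`. -/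
theorem van_aff (h2 : (2 : F) ≠ 0) (hn : 1 ≤ n) (hM : IsModel a K m) (T : Finset ι)
    {V' : Type*} [DecidableEq V'] {a' : GL {i // i ∉ T} F[X] →* Equiv.Perm V'}
    {K' : Set (Finset V')} (hM' : IsModel a' K' m) {i : ℕ} (hi : i ≤ m)
    (hv : Van a' (Gam {i // i ∉ T} F n) K' i) :
    Van a (stab (vecAct ι F) (Gam ι F n) (stdU F T)) K i := by
  obtain ⟨θ, N, N', π, hB⟩ := exists_blocks (F := F) h2 T hn
  have hL : Van a ((Gam {i // i ∉ T} F n).map θ) K i :=
    (Van_comp a θ _ K i).1 (compare (a := a.comp θ) (a' := a') (Gam _ F n) hM.cx hM'.cx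
      (hM.inv.comp θ le_top) (hM'.inv.mono le_top)
      (hM.odd.comp θ hB.inj ((Subgroup.map_mono (Gam_anti hn)).trans hB.le_one))
      (hM'.odd.mono (Gam_anti hn)) (fun k hk => hM.exact k (hk.trans hi))
      (fun k hk => hM'.exact k (hk.trans hi)) hv)
  intro x hx hb
  obtain ⟨x', hx', hb', y, hy, e⟩ := retract hM.cx hM.inv _ _ N
    (hM.odd.mono ((stab_le _ _ _).trans (Gam_anti hn))) hB.norm π hB.π_mem hB.π_N
    (fun k hk => hM.exact k (hk.le.trans hi))
    (fun k hk => van_of_locOdd hB.odd (hM.inv.mono le_top) (hM.exact k (hk.trans hi))) x hx hb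
  obtain ⟨y', hy', e'⟩ := hL x' hx' hb'
  refine ⟨y + y', add_mem hy hy', ?_⟩
  rw [show x - bd (y + y') = (x - x' - bd y) + (x' - bd y') by rw [map_add]; abel]
  exact add_mem (mem_Aug_of_sup le_rfl hB.N_le e) (Aug_mono _ hB.L_le e')

theorem mem_bd_sup_iff {j : ℕ} {P : Submodule (ZMod 2) (Ch V)} {z : Ch V} :
    z ∈ (Cs K j).map bd ⊔ P ↔ ∃ y ∈ Cs K j, z - bd y ∈ P := by
  constructor
  · intro h
    obtain ⟨_, ⟨y, hy, rfl⟩, w, hw, rfl⟩ := Submodule.mem_sup.1 h
    exact ⟨y, hy, by simpa⟩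
  · rintro ⟨y, hy, h⟩
    exact Submodule.mem_sup.2 ⟨_, ⟨y, hy, rfl⟩, _, h, by abel⟩

theorem act_mem_Aug_Gam (g : GL ι F[X]) {z : Ch V} (hz : z ∈ Aug (act a) (Gam ι F n)) :
    act a g z ∈ Aug (act a) (Gam ι F n) :=
  rep_mem_Aug _ (fun s hs => (Gam_normal n).conj_mem s hs g) hz

theorem act_mem_bd_sup (hM : IsModel a K m) (g : GL ι F[X]) {j : ℕ} {z : Ch V}
    (hz : z ∈ (Cs K j).map bd ⊔ Aug (act a) (Gam ι F n)) :
    act a g z ∈ (Cs K j).map bd ⊔ Aug (act a) (Gam ι F n) := by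
  obtain ⟨y, hy, h⟩ := mem_bd_sup_iff.1 hz
  refine mem_bd_sup_iff.2 ⟨act a g y, act_mem_Cs hM.inv (Subgroup.mem_top g) hy, ?_⟩
  rw [bd_act, ← map_sub]
  exact act_mem_Aug_Gam g h

/-- classes coming from the stabiliser of one basis vector are fixed by `Γ₁`.
Recipe: `T = {l}`; `retract` gives `x'` with `bd x' ∈ Aug L`.  Let `B = (Cs K (j+1)).map bd ⊔ Aug Γ_n`
(invariant under all of `GL`, as `Γ_n` is normal) and `S = {g | act a g x' - x' ∈ B}`, a subgroup
(`g h x' - x' = g (h x' - x') + (g x' - x')`) containing `Γ_n`, `elem l i r` and `elem i l r`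
(`triv` with `S = L` and `N` resp. `N'`).  `Gam_le_of_elem`; finally `x - x' ∈ B`. -/
theorem triv_on_aff (h2 : (2 : F) ≠ 0) (hn : 1 ≤ n) (hM : IsModel a K m) (l : ι) {j : ℕ}
    (hj : j ≤ m) {x : Ch V} (hx : x ∈ Cs K j)
    (hb : bd x ∈ Aug (act a) (stab (vecAct ι F) (Gam ι F n) (stdU F {l}))) :
    ∀ g ∈ Gam ι F 1, ∃ y ∈ Cs K (j + 1), act a g x - x - bd y ∈ Aug (act a) (Gam ι F n) := by
  obtain ⟨θ, N, N', π, hB⟩ := exists_blocks (F := F) h2 {l} hn
  have hNv : ∀ {N : Subgroup (GL ι F[X])}, LocOdd N → ∀ k ≤ j, Van a N K k := fun h k hk =>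
    van_of_locOdd h (hM.inv.mono le_top) (hM.exact k (hk.trans hj))
  obtain ⟨x', hx', hb', y, hy, e⟩ := retract hM.cx hM.inv _ _ N
    (hM.odd.mono ((stab_le _ _ _).trans (Gam_anti hn))) hB.norm π hB.π_mem hB.π_N
    (fun k hk => hM.exact k (hk.le.trans hj)) (hNv hB.odd) x hx hb
  have hLΓ : (Gam {i // i ∉ ({l} : Finset ι)} F n).map θ ≤ Gam ι F n :=
    hB.L_le.trans (stab_le _ _ _)
  have hNΓ : N ≤ Gam ι F n := hB.N_le.trans (stab_le _ _ _)
  have hoL : OddStab a ((Gam {i // i ∉ ({l} : Finset ι)} F n).map θ) K :=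
    hM.odd.mono (hLΓ.trans (Gam_anti hn))
  set B := (Cs K (j + 1)).map bd ⊔ Aug (act a) (Gam ι F n)
  have hxx : x - x' ∈ B := mem_bd_sup_iff.2
    ⟨y, hy, mem_Aug_of_sup (stab_le _ _ _) hNΓ e⟩
  let S : Subgroup (GL ι F[X]) :=
    { carrier := {g | act a g x' - x' ∈ B}
      one_mem' := by simp
      mul_mem' := by
        intro g h hg hh
        have : act a (g * h) x' - x' = act a g (act a h x' - x') + (act a g x' - x') := by
          rw [map_mul, map_sub, Module.End.mul_apply]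
          abel
        show act a (g * h) x' - x' ∈ B
        rw [this]
        exact add_mem (act_mem_bd_sup hM g hh) hg
      inv_mem' := by
        intro g hg
        have : act a g⁻¹ x' - x' = -act a g⁻¹ (act a g x' - x') := by
          rw [map_sub, ← Module.End.mul_apply, ← map_mul, inv_mul_cancel, map_one]
          simp
        show act a g⁻¹ x' - x' ∈ B
        rw [this]
        exact neg_mem (act_mem_bd_sup hM g⁻¹ hg) }
  have hS : Gam ι F 1 ≤ S := by
    refine Gam_le_of_elem S l (n := n)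
      (fun g hg => Submodule.mem_sup_right (sub_mem_Aug _ hg x')) (fun i hi r => ?_) fun i hi r => ?_
    · obtain ⟨z, hz, h⟩ := triv hM.cx hM.inv _ N hoL (fun s hs => hB.norm s (hB.L_le hs))
        (elem l i r) (hB.comm l (by simp) i (by simpa) r) (hNv hB.odd) x' hx' hb'
      exact mem_bd_sup_iff.2 ⟨z, hz, mem_Aug_of_sup hLΓ hNΓ h⟩
    · obtain ⟨z, hz, h⟩ := triv hM.cx hM.inv _ N' hoL hB.norm'
        (elem i l r) (hB.comm' l (by simp) i (by simpa) r) (hNv hB.odd') x' hx' hb'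
      exact mem_bd_sup_iff.2 ⟨z, hz, mem_Aug_of_sup hLΓ hB.N'_le h⟩
  intro g hg
  refine mem_bd_sup_iff.1 ?_
  rw [show act a g x - x = (act a g x' - x') + (act a g (x - x') - (x - x')) by
    rw [map_sub]; abel]
  exact add_mem (hS hg) (sub_mem (act_mem_bd_sup hM g hxx) hxx)

/-- Recipe: `transfer` from `Γ₁` (`odd_relIndex`); trivial action by `zigzag`
(`Rep = range stdU`, `stdU_card`) and `triv_on_aff` (the set of `x` with
`act a g x - x ∈ B` is a submodule containing `Aug Γ_n`). -/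
theorem van_step [Nonempty ι] (h2 : (2 : F) ≠ 0) (hn : 1 ≤ n) (hM : IsModel a K m) {j : ℕ}
    (hj : j ≤ m) (hU : ∀ i ≤ j, Exact (UU ι F n) i)
    (hcol : ∀ T : Finset ι, 2 ≤ T.card → ∀ i, i + T.card = j + 1 →
      Van a (stab (vecAct ι F) (Gam ι F n) (stdU F T)) K i) : Van a (Gam ι F n) K j := by
  refine transfer (Gam_anti hn) (fun g _ γ hγ => (Gam_normal n).conj_mem γ hγ g)
    (odd_relIndex h2 n) (hM.inv.mono le_top) (hM.van j hj) fun g hg x hx hb => ?_
  have hz := zigzag hM.cx (UU_isCx n) (hM.inv.mono le_top) (UU_inv n) (hM.odd.mono (Gam_anti hn))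
    _ (UU_rep n) hU (fun i _ => UU_van hn i) (by
      rintro _ - ⟨T, rfl⟩ hT i hi
      rw [stdU_card] at hT hi
      exact hcol T hT i hi) x hx hb
  have key : Aug (act a) (Gam ι F n) ⊔ Submodule.span (ZMod 2)
      {x' | ∃ τ ∈ UU ι F n, τ ∈ Set.range (stdU F : Finset ι → Finset (ι → F[X])) ∧ τ.card = 1 ∧
        x' ∈ Cs K j ∧ bd x' ∈ Aug (act a) (stab (vecAct ι F) (Gam ι F n) τ)} ≤
      ((Cs K (j + 1)).map bd ⊔ Aug (act a) (Gam ι F n)).comap (act a g - 1) := by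
    refine sup_le (fun z hz => Submodule.mem_sup_right (sub_mem (act_mem_Aug_Gam g hz) hz))
      (Submodule.span_le.2 ?_)
    rintro z ⟨_, -, ⟨T, rfl⟩, hT, hz, hbz⟩
    rw [stdU_card, Finset.card_eq_one] at hT
    obtain ⟨l, rfl⟩ := hT
    exact mem_bd_sup_iff.2 (triv_on_aff h2 hn hM l hj hz hbz g hg)
  exact mem_bd_sup_iff.1 (key hz)

end

/-- Recipe: prove by induction on `j ≤ m` the existence of `N_j` working for all `i ≤ j`
(`N_{j+1} = N_j + (j + 2) + c + c_U + 1`); `Fintype.card_subtype_compl`. -/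
theorem van_main (m c : ℕ) : ∃ N' : ℕ, ∀ (F : Type) [Field F] [Finite F], (2 : F) ≠ 0 →
    (∀ (ι : Type) [Fintype ι] [DecidableEq ι], c ≤ Fintype.card ι →
      ∃ (V : Type) (_ : DecidableEq V) (a : GL ι F[X] →* Equiv.Perm V) (K : Set (Finset V)),
        IsModel a K m) →
    ∀ n : ℕ, 1 ≤ n → ∀ (ι : Type) [Fintype ι] [DecidableEq ι], N' ≤ Fintype.card ι →
      ∀ (V : Type) [DecidableEq V] (a : GL ι F[X] →* Equiv.Perm V) (K : Set (Finset V)),
        IsModel a K m → ∀ i ≤ m, Van a (Gam ι F n) K i := by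
  obtain ⟨cU, hcU⟩ := UU_exact m
  suffices h : ∀ j ≤ m + 1, ∃ N' : ℕ, ∀ (F : Type) [Field F] [Finite F], (2 : F) ≠ 0 →
      (∀ (ι : Type) [Fintype ι] [DecidableEq ι], c ≤ Fintype.card ι →
        ∃ (V : Type) (_ : DecidableEq V) (a : GL ι F[X] →* Equiv.Perm V) (K : Set (Finset V)),
          IsModel a K m) →
      ∀ n : ℕ, 1 ≤ n → ∀ (ι : Type) [Fintype ι] [DecidableEq ι], N' ≤ Fintype.card ι →
        ∀ (V : Type) [DecidableEq V] (a : GL ι F[X] →* Equiv.Perm V) (K : Set (Finset V)),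
          IsModel a K m → ∀ i < j, Van a (Gam ι F n) K i by
    obtain ⟨N', h⟩ := h (m + 1) le_rfl
    exact ⟨N', fun F _ _ h2 hex n hn ι _ _ hι V _ a K hM i hi =>
      h F h2 hex n hn ι hι V a K hM i (by omega)⟩
  intro j hj
  induction j with
  | zero => exact ⟨0, fun F _ _ h2 hex n hn ι _ _ hι V _ a K hM i hi => by omega⟩
  | succ j ih =>
    obtain ⟨N', ih⟩ := ih (by omega)
    refine ⟨N' + (j + 2) + c + cU + 1, fun F _ _ h2 hex n hn ι _ _ hι V _ a K hM i hi => ?_⟩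
    rcases Nat.lt_succ_iff_lt_or_eq.1 hi with hi | rfl
    · exact ih F h2 hex n hn ι (by omega) V a K hM i hi
    have : Nonempty ι := Fintype.card_pos_iff.1 (by omega)
    refine van_step h2 hn hM (by omega) (fun k hk => hcU ι F n (by omega) k (by omega))
      fun T hT k hk => ?_
    have hc : Fintype.card {i // i ∉ T} = Fintype.card ι - T.card := by
      rw [Fintype.card_subtype_compl, Fintype.card_coe]
    obtain ⟨V', _, a', K', hM'⟩ := hex {i // i ∉ T} (by omega)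
    exact van_aff h2 hn hM T hM' (by omega) (ih F h2 hex n hn _ (by omega) V' a' K' hM' k (by omega))

end Crest.Agent.R66
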