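import Crest.Agent.R66.Acyc
import Crest.Agent.R66.Local
import Crest.Agent.R66.VanMain
import Crest.Agent.R66.Model2
import Crest.Agent.R66.Exp6
import Crest.Agent.R66.Quot
import Crest.Agent.R66.Final

/-! # Row 66: assembly -/

namespace Crest.Agent.R66

open Polynomial Crest.CombinatoricsR.Cochain

theorem model_isModel (m : ℕ) : ∃ q₀ : ℕ, ∀ (F : Type) [Field F] [Fintype F], (2 : F) ≠ 0 →
    q₀ ≤ Fintype.card F → ∀ (ι : Type) [Fintype ι] [DecidableEq ι], m + 2 ≤ Fintype.card ι →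
      IsModel (latAct ι F) (amb ι F).Δ m := by
  obtain ⟨q₀, h⟩ := Amb.Delta_exact m
  refine ⟨q₀ + 3, fun F _ _ h2 hq ι _ _ hι => ?_⟩
  have hP : Partite (amb ι F).Δ (amb ι F).typ (amb ι F).N :=
    Amb.Delta_partite (by rw [amb_N]; omega) (by omega)
  exact ⟨Amb.Δ_isCx, model_inv, h F _ (amb ι F) (by omega) hι, model_odd h2,
    fun i _ => model_van hP (by omega) i⟩

theorem main (d : ℕ) (hd : 1 ≤ d) :
    ∃ D : ℕ, ∃ ε : ℝ, 0 < ε ∧ ∀ N : ℕ, ∃ n : ℕ, ∃ T : Finset (Finset (Fin n)), N ≤ n ∧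
      (∀ τ ∈ T, τ.card = d + 1) ∧
      (∀ v : Fin n, 1 ≤ vertexDegree T v ∧ vertexDegree T v ≤ D) ∧
      (skeleton T).Connected ∧
      ∀ i : ℕ, i < d → ∀ f : Finset (Fin n) → ZMod 2,
        ∃ b : Finset (Fin n) → ZMod 2, IsCoboundaryClass i b ∧
          ε * cochainNorm d T i (f - b) ≤ cochainNorm d T (i + 1) (coboundary i f) := by
  classical
  set m := d + 1 with hm
  obtain ⟨R, hR⟩ := Amb.Delta_local m
  obtain ⟨q₁, hq₁⟩ := model_isModel m
  obtain ⟨N', hN'⟩ := van_main m (m + 2)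
  set N := N' + (m + 1) * (m + 1) + m + 3 with hN
  obtain ⟨b, hb⟩ := cosys m N R
  obtain ⟨q₂, hq₂⟩ := hR b
  obtain ⟨p, hp1, hp⟩ := Nat.exists_infinite_primes (q₁ + q₂ + 3)
  have : Fact p.Prime := ⟨hp⟩
  have hcard : Fintype.card (ZMod p) = p := ZMod.card p
  have h2 : (2 : ZMod p) ≠ 0 := by
    intro h
    have : ((2 : ℕ) : ZMod p) = 0 := by exact_mod_cast h
    rw [ZMod.natCast_eq_zero_iff] at this
    have := Nat.le_of_dvd (by norm_num) this
    omega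
  have hι : Fintype.card (Fin N) = N := Fintype.card_fin N
  have hAN : (amb (Fin N) (ZMod p)).N = N := hι
  obtain ⟨hP, hL⟩ := hq₂ (ZMod p) _ (amb (Fin N) (ZMod p)) (by omega) (by rw [hAN]; omega)
    (by rw [hAN]; omega)
  have hM := hq₁ (ZMod p) h2 (by omega) (Fin N) (by omega)
  obtain ⟨D, hD⟩ := deg_of_trans hP model_inv (model_trans hP)
    (fun v hv => (Amb.singleton_mem_Δ.1 hv).locFin)
  obtain ⟨ε, hε, hexp⟩ := hb D
  refine ⟨D * 2 ^ N, ε / ((D + 1) * 2 ^ N * 2 ^ (d + 1)), by positivity, fun n₀ => ?_⟩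
  obtain ⟨g, hg⟩ := many_vertices (ι := Fin N) (F := ZMod p) (by omega)
  have hQ : QData (latAct (Fin N) (ZMod p)) (Gam (Fin N) (ZMod p) (n₀ + 5))
      (amb (Fin N) (ZMod p)).Δ (amb (Fin N) (ZMod p)).typ (amb (Fin N) (ZMod p)).N :=
    ⟨Gam_normal _, Gam_finiteIndex _, hP, model_inv, fun g v _ => (rep_isSym g).typ v,
      model_trans hP, model_sep hP (by omega)⟩
  have hv := hN' (ZMod p) h2
    (fun ι _ _ hι => ⟨_, _, latAct ι (ZMod p), _, hq₁ (ZMod p) h2 (by omega) ι hι⟩)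
    (n₀ + 5) (by omega) (Fin N) (by omega) _ _ _ hM
  have hΛ : (amb (Fin N) (ZMod p)).Good (amb (Fin N) (ZMod p)).Λ :=
    Amb.good_Λ (by rw [hAN]; omega)
  obtain ⟨n, hn, X, colX, hXP, hXL, hXD, hXH, hXE, hXu⟩ := quot_main hQ (by rw [hAN]; omega) hL hD hv
    (n₀ := n₀ + 1) (fun i => latAct (Fin N) (ZMod p) (g i) (LM (Fin N) (ZMod p) 0))
    (fun i => Amb.singleton_mem_Δ.2 ((rep_isSym (g i)).good hΛ))
    (fun i i' γ hγ h => Fin.ext (hg (n₀ + 5) i i' (by omega) (by omega) γ hγ h))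
  rw [hAN] at hXP hXL hXD hXH
  have hXC : Conn X := (hXE 1 (by omega)).conn hXP.cx
  obtain ⟨T, h1, h2', h3, h4⟩ := skeleton_main hd (by omega) (by omega) hε hXP hXD hXu hXC
    (fun a ha had f => by
      obtain ⟨z, hz, hz'⟩ := hexp (Fin n) X colX hXP hXL hXC hXH hXD a ha (by omega) f
      obtain ⟨g, hg⟩ := cocycle_eq_dl (hXE a (by omega)) z hz
      refine ⟨g, le_of_eq_of_le ?_ hz'⟩
      congr 2
      unfold ham
      congr 1
      refine Finset.filter_congr fun σ _ => ?_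
      constructor
      · rintro ⟨h1, h2, h3⟩
        exact ⟨h1, h2, by rwa [Pi.sub_apply, hg σ h1 h2]⟩
      · rintro ⟨h1, h2, h3⟩
        exact ⟨h1, h2, by rwa [Pi.sub_apply, ← hg σ h1 h2]⟩)
  exact ⟨n, T, by omega, h1, h2', h3, h4⟩

end Crest.Agent.R66
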