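import Crest.Agent.R66.Defs

/-! # Row 66: congruence subgroups of `GL_ι(F[X])` -/

set_option linter.unusedSectionVars false

namespace Crest.Agent.R66

open Polynomial

variable {ι : Type*} [Fintype ι] [DecidableEq ι] {F : Type*} [Field F]

theorem mem_Gam {n : ℕ} {g : GL ι F[X]} :
    g ∈ Gam ι F n ↔ ∀ i j, (X : F[X]) ^ n ∣
      (g : Matrix ι ι F[X]) i j - (1 : Matrix ι ι F[X]) i j := by
  rw [Gam, MonoidHom.mem_ker, Units.ext_iff, ← Matrix.ext_iff]
  refine forall_congr' fun i => forall_congr' fun j => ?_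
  rw [← Ideal.mem_span_singleton, ← Ideal.Quotient.eq]
  have : Ideal.Quotient.mk (Ideal.span {(X : F[X]) ^ n}) ((1 : Matrix ι ι F[X]) i j)
      = (1 : Matrix ι ι _) i j := by
    by_cases h : i = j <;> simp [Matrix.one_apply, h]
  rw [this]
  rfl

theorem mem_Gam' {n : ℕ} {g : GL ι F[X]} :
    g ∈ Gam ι F n ↔ ∃ Y : Matrix ι ι F[X], (g : Matrix ι ι F[X]) = 1 + (X : F[X]) ^ n • Y := by
  rw [mem_Gam]
  constructor
  · intro h
    choose Y hY using h
    refine ⟨Matrix.of Y, ?_⟩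
    ext i j : 1
    simp only [Matrix.add_apply, Matrix.smul_apply, Matrix.of_apply, smul_eq_mul, ← hY]
    ring
  · rintro ⟨Y, hY⟩ i j
    rw [hY]
    exact ⟨Y i j, by simp⟩

theorem Gam_normal (n : ℕ) : (Gam ι F n).Normal := MonoidHom.normal_ker _

theorem Gam_anti {m n : ℕ} (h : m ≤ n) : Gam ι F n ≤ Gam ι F m := fun _ hg =>
  mem_Gam.2 fun i j => (pow_dvd_pow _ h).trans (mem_Gam.1 hg i j)

/-- Recipe: the target `GL ι (F[X] ⧸ (X^n))` is finite (`AdjoinRoot.powerBasis'`/`Module.Finite`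
+ `Module.finite_of_finite`), `Subgroup.finiteIndex_ker`. -/
theorem Gam_finiteIndex [Finite F] (n : ℕ) : (Gam ι F n).FiniteIndex := by
  have h1 : Module.Finite F (AdjoinRoot ((X : F[X]) ^ n)) :=
    (AdjoinRoot.powerBasis' (monic_X_pow n)).finite
  have h2 : Finite (AdjoinRoot ((X : F[X]) ^ n)) := Module.finite_of_finite F
  have h3 : Finite (F[X] ⧸ Ideal.span {(X : F[X]) ^ n}) := h2
  have h4 : Finite (Matrix ι ι (F[X] ⧸ Ideal.span {(X : F[X]) ^ n})) :=
    inferInstanceAs (Finite (ι → ι → _))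
  exact Subgroup.finiteIndex_ker _

theorem elem_val {i j : ι} (h : i ≠ j) (r : F[X]) :
    ((elem i j r : GL ι F[X]) : Matrix ι ι F[X]) = 1 + Matrix.single i j r := by
  simp [elem, h]

theorem elem_inv_val {i j : ι} (h : i ≠ j) (r : F[X]) :
    (((elem i j r)⁻¹ : GL ι F[X]) : Matrix ι ι F[X]) = 1 - Matrix.single i j r := by
  simp [elem, h]

/-- Recipe: `(g - 1) (g + 1) = g² - 1`; multiply by the adjugate of `g + 1`; `d = det (g + 1)`
has `eval 0 d = 2 ^ card ι ≠ 0`, so `d` is coprime to `X ^ n`. -/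
theorem mem_Gam_of_sq (h2 : (2 : F) ≠ 0) {n : ℕ} {g : GL ι F[X]} (hg : g ∈ Gam ι F 1)
    (hsq : g * g ∈ Gam ι F n) : g ∈ Gam ι F n := by
  obtain ⟨Y, hY⟩ := mem_Gam'.1 hg
  obtain ⟨Z, hZ⟩ := mem_Gam'.1 hsq
  set G : Matrix ι ι F[X] := (g : Matrix ι ι F[X]) with hG
  have h1 : (G - 1) * (G + 1) = (X : F[X]) ^ n • Z := by
    have : G * G = 1 + (X : F[X]) ^ n • Z := hZ
    rw [sub_mul, mul_add, mul_add, this]; simp; abel
  have h3 : (G + 1).det • (G - 1) = (X : F[X]) ^ n • (Z * (G + 1).adjugate) := by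
    rw [← smul_mul_assoc, ← h1, mul_assoc, Matrix.mul_adjugate, mul_smul_comm, mul_one]
  have h4 : ((G + 1).det).eval 0 = 2 ^ Fintype.card ι := by
    rw [← coe_evalRingHom, RingHom.map_det]
    have : (evalRingHom (0 : F)).mapMatrix (G + 1) = (2 : F) • (1 : Matrix ι ι F) := by
      ext i j
      by_cases h : i = j
      · simp [hY, h]; norm_num
      · simp [hY, h]
    rw [this, Matrix.det_smul, Matrix.det_one, mul_one]
  have h5 : IsCoprime ((X : F[X]) ^ n) (G + 1).det := by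
    refine IsCoprime.pow_left ((Polynomial.irreducible_X.coprime_iff_not_dvd).2 ?_)
    rw [X_dvd_iff, coeff_zero_eq_eval_zero, h4]
    exact pow_ne_zero _ h2
  refine mem_Gam.2 fun i j => h5.dvd_of_dvd_mul_left ?_
  have := congrFun (congrFun h3 i) j
  simp only [Matrix.smul_apply, Matrix.sub_apply, smul_eq_mul] at this
  exact ⟨_, this⟩

theorem eq_one_of_forall_mem_Gam {g : GL ι F[X]} (h : ∀ n, g ∈ Gam ι F n) : g = 1 := by
  ext i j : 2
  rw [← sub_eq_zero]
  refine eq_zero_of_dvd_of_natDegree_lt (mem_Gam.1 (h (((g : Matrix ι ι F[X]) i j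
    - (1 : Matrix ι ι F[X]) i j).natDegree + 1)) i j) ?_
  rw [natDegree_X_pow]
  exact Nat.lt_succ_self _

/-- Recipe: Cauchy (`exists_prime_orderOf_dvd_card'`) in `↥(Gam 1) ⧸ (Gam n).subgroupOf (Gam 1)`. -/
theorem odd_relIndex [Finite F] (h2 : (2 : F) ≠ 0) (n : ℕ) :
    Odd ((Gam ι F n).relIndex (Gam ι F 1)) := by
  have := Gam_finiteIndex (ι := ι) (F := F) n
  have := Gam_normal (ι := ι) (F := F) n
  have : Fact (Nat.Prime 2) := ⟨Nat.prime_two⟩
  by_contra hodd
  rw [Nat.not_odd_iff_even, even_iff_two_dvd, Subgroup.relIndex, Subgroup.index] at hodd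
  obtain ⟨q, hq⟩ := exists_prime_orderOf_dvd_card' 2 hodd
  obtain ⟨g, rfl⟩ := QuotientGroup.mk_surjective q
  have h1 := pow_orderOf_eq_one ((g : ↥(Gam ι F 1)) : ↥(Gam ι F 1) ⧸ (Gam ι F n).subgroupOf (Gam ι F 1))
  rw [hq, ← QuotientGroup.mk_pow, QuotientGroup.eq_one_iff, Subgroup.mem_subgroupOf, sq] at h1
  have h3 := mem_Gam_of_sq h2 g.2 h1
  rw [(QuotientGroup.eq_one_iff g).2 (Subgroup.mem_subgroupOf.2 h3), orderOf_one] at hq
  exact absurd hq (by norm_num)

theorem odd_card_of_le (h2 : (2 : F) ≠ 0) {S : Subgroup (GL ι F[X])} (hS : S ≤ Gam ι F 1)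
    [Finite S] : Odd (Nat.card S) := by
  have : Fact (Nat.Prime 2) := ⟨Nat.prime_two⟩
  by_contra hodd
  rw [Nat.not_odd_iff_even, even_iff_two_dvd] at hodd
  obtain ⟨g, hg⟩ := exists_prime_orderOf_dvd_card' 2 hodd
  have h1 := pow_orderOf_eq_one g
  rw [hg, sq] at h1
  have h3 : (g : GL ι F[X]) * g = 1 := by exact_mod_cast h1
  have h4 : (g : GL ι F[X]) = 1 := eq_one_of_forall_mem_Gam fun n =>
    mem_Gam_of_sq h2 (hS g.2) (by rw [h3]; exact one_mem _)
  have h5 : g = 1 := Subtype.ext h4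
  rw [h5, orderOf_one] at hg
  exact absurd hg (by norm_num)

/-- matrices with entries of bounded degree form a finite set. -/
theorem finite_bdd [Finite F] (k : ℕ) :
    {g : GL ι F[X] | ∀ i j, ((g : Matrix ι ι F[X]) i j).natDegree ≤ k}.Finite := by
  refine Set.Finite.of_finite_image (f := fun (g : GL ι F[X]) (i j : ι) (d : Fin (k + 1)) =>
    ((g : Matrix ι ι F[X]) i j).coeff d) (Set.toFinite _) ?_
  intro g hg g' hg' h
  ext i j d
  by_cases hd : d < k + 1
  · exact congrFun (congrFun (congrFun h i) j) ⟨d, hd⟩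
  · rw [coeff_eq_zero_of_natDegree_lt (lt_of_le_of_lt (hg i j) (by omega)),
      coeff_eq_zero_of_natDegree_lt (lt_of_le_of_lt (hg' i j) (by omega))]

theorem eq_one_of_bdd {k n : ℕ} (hk : k < n) {g : GL ι F[X]} (hg : g ∈ Gam ι F n)
    (h : ∀ i j, ((g : Matrix ι ι F[X]) i j).natDegree ≤ k) : g = 1 := by
  ext i j : 2
  rw [← sub_eq_zero]
  refine eq_zero_of_dvd_of_natDegree_lt (mem_Gam.1 hg i j) ?_
  rw [natDegree_X_pow]
  refine lt_of_le_of_lt (natDegree_sub_le _ _) (max_lt (lt_of_le_of_lt (h i j) hk) ?_)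
  by_cases hij : i = j
  · simp [hij]; omega
  · simp [hij]; omega

theorem elem_comm {i j l : ι} (hij : i ≠ j) (hil : i ≠ l) (hlj : l ≠ j) (r : F[X]) :
    elem i j r = elem i l r * elem l j 1 * (elem i l r)⁻¹ * (elem l j (1 : F[X]))⁻¹ := by
  ext : 1
  simp only [Units.val_mul, elem_val hij, elem_val hil, elem_val hlj, elem_inv_val hil,
    elem_inv_val hlj]
  simp [add_mul, mul_add, sub_mul, mul_sub, Matrix.single_mul_single_of_ne, hij.symm, hil.symm,
    hlj.symm]
  abel

theorem Gam_step (S : Subgroup (GL ι F[X])) (l : ι) (h : ∀ i j, i ≠ j → ∀ r, elem i j r ∈ S)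
    {k : ℕ} (hk : Gam ι F (k + 1 + 1) ≤ S) : Gam ι F (k + 1) ≤ S := by
  let Z : AddSubmonoid (Matrix ι ι F) :=
    { carrier := {Y | ∃ s ∈ S, ∃ R : Matrix ι ι F[X], ((s : GL ι F[X]) : Matrix ι ι F[X])
          = 1 + (X : F[X]) ^ (k + 1) • (Y.map C + (X : F[X]) • R)}
      zero_mem' := ⟨1, S.one_mem, 0, by simp⟩
      add_mem' := by
        rintro Y Y' ⟨s, hs, R, hR⟩ ⟨s', hs', R', hR'⟩
        refine ⟨s * s', S.mul_mem hs hs', R + R' + (X : F[X]) ^ k •
          ((Y.map C + (X : F[X]) • R) * (Y'.map C + (X : F[X]) • R')), ?_⟩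
        rw [Units.val_mul, hR, hR', Matrix.map_add _ (by simp)]
        generalize Y.map C = A
        generalize Y'.map C = A'
        simp only [add_mul, mul_add, smul_add, one_mul, mul_one, smul_mul_assoc, mul_smul_comm,
          smul_smul]
        module }
  have z1 : ∀ i j, i ≠ j → ∀ c, Matrix.single i j c ∈ Z := by
    intro i j hij c
    refine ⟨elem i j (X ^ (k + 1) * C c), h i j hij _, 0, ?_⟩
    rw [elem_val hij]
    simp [Matrix.map_single]
  have z2 : ∀ i j c, Matrix.single j j c - Matrix.single i i c ∈ Z := by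
    intro i j c
    by_cases hij : i = j
    · subst hij; simpa using Z.zero_mem
    have z3 : Matrix.single i j c + Matrix.single j j c - Matrix.single i i c
        - Matrix.single j i c ∈ Z := by
      refine ⟨elem j i 1 * elem i j (X ^ (k + 1) * C c) * (elem j i 1)⁻¹,
        S.mul_mem (S.mul_mem (h j i (Ne.symm hij) _) (h i j hij _)) (S.inv_mem (h j i (Ne.symm hij) _)),
        0, ?_⟩
      simp only [Units.val_mul, elem_val hij, elem_val (Ne.symm hij), elem_inv_val (Ne.symm hij)]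
      rw [Matrix.map_sub _ (by simp), Matrix.map_sub _ (by simp), Matrix.map_add _ (by simp)]
      simp [add_mul, mul_add, mul_sub, smul_sub, Matrix.single_mul_single_of_ne, hij,
        Matrix.map_single]
      abel
    have := Z.add_mem (Z.add_mem z3 (z1 i j hij (-c))) (z1 j i (Ne.symm hij) c)
    convert this using 1
    rw [← Matrix.single_neg]
    abel
  have z4 : ∀ Y : Matrix ι ι F, Y.trace = 0 → Y ∈ Z := by
    intro Y hY
    have e : Y = ∑ i, ∑ j, (Matrix.single i j (Y i j)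
        - if i = j then Matrix.single l l (Y i j) else 0) := by
      simp only [Finset.sum_sub_distrib, Finset.sum_ite_eq, Finset.mem_univ, if_true]
      rw [← Matrix.matrix_eq_sum_single]
      have : ∑ i, Matrix.single l l (Y i i) = Matrix.single l l Y.trace := by
        ext a b
        simp only [Matrix.sum_apply, Matrix.single_apply, Matrix.trace, Matrix.diag]
        split_ifs <;> simp
      rw [this, hY]
      simp
    rw [e]
    refine Z.sum_mem fun i _ => Z.sum_mem fun j _ => ?_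
    split_ifs with hij
    · subst hij; exact z2 l i _
    · simpa using z1 i j hij _
  intro g hg
  obtain ⟨Y, hY⟩ := mem_Gam'.1 hg
  have htr : (Y.map (fun p => p.coeff 0)).trace = 0 := by
    have hu : IsUnit (g : Matrix ι ι F[X]).det := (Matrix.isUnit_iff_isUnit_det _).1 g.isUnit
    obtain ⟨u, -, hu'⟩ := Polynomial.isUnit_iff.1 hu
    rw [hY, Matrix.det_one_add_smul] at hu'
    have := congrArg (fun p : F[X] => p.coeff (0 + (k + 1))) hu'
    simp only [coeff_add, coeff_mul_X_pow, sq, ← mul_assoc] at this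
    rw [coeff_C_of_ne_zero (by omega), coeff_one, if_neg (by omega), pow_succ, ← mul_assoc,
      coeff_mul_X_zero, zero_add, add_zero] at this
    simp only [Matrix.trace, Matrix.diag, Matrix.map_apply] at this ⊢
    rw [← finsetSum_coeff]
    exact this.symm
  obtain ⟨s, hs, R, hR⟩ := z4 _ htr
  have hsg : s⁻¹ * g ∈ Gam ι F (k + 1 + 1) := by
    have e : Y = (Y.map (fun p => p.coeff 0)).map C + (X : F[X]) • Y.map divX := by
      ext i j : 1
      simp only [Matrix.add_apply, Matrix.map_apply, Matrix.smul_apply, smul_eq_mul]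
      rw [add_comm, X_mul_divX_add]
    refine mem_Gam'.2 ⟨((s⁻¹ : GL ι F[X]) : Matrix ι ι F[X]) * (Y.map divX - R), ?_⟩
    have e2 : (g : Matrix ι ι F[X]) = (s : Matrix ι ι F[X])
        + (X : F[X]) ^ (k + 1 + 1) • (Y.map divX - R) := by
      rw [hR, hY]
      conv_lhs => rw [e]
      module
    rw [Units.val_mul, e2, mul_add, Units.inv_mul, mul_smul_comm]
  simpa using S.mul_mem hs (hk hsg)

/-- Recipe: first all `elem i j r ∈ S` (`elem i j r = [elem i l r, elem l j 1]` for `i, j, l`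
distinct).  Then downward induction: `Gam (k+1) ≤ S → Gam k ≤ S` for `k ≥ 1`.  Let
`Z = {Y : Matrix ι ι F | ∃ s ∈ S, s ≡ 1 + X^k • Y.map C mod X^(k+1)}`, an additive submonoid
containing `single i j c` (`i ≠ j`) and, conjugating `elem i j (C c * X^k)` by `elem j i 1`,
`single i j c + single j j c - single i i c - single j i c`; hence all trace-zero matrices.
For `g ∈ Gam k`, `g = 1 + X^k • Y'`, `det g = 1` (a unit of `F[X]` with value `1` at `0`), so
`trace (Y' at 0) = 0` (`Matrix.det_one_add_smul`); then `s⁻¹ g ∈ Gam (k+1)`.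
(Alternative: `E_ι = SL_ι` over a Euclidean domain.) -/
theorem Gam_le_of_elem (S : Subgroup (GL ι F[X])) (l : ι) {n : ℕ} (hn : Gam ι F n ≤ S)
    (h1 : ∀ i, i ≠ l → ∀ r, elem l i r ∈ S) (h2 : ∀ i, i ≠ l → ∀ r, elem i l r ∈ S) :
    Gam ι F 1 ≤ S := by
  have h : ∀ i j, i ≠ j → ∀ r, elem i j r ∈ S := by
    intro i j hij r
    by_cases hi : i = l
    · subst hi; exact h1 j (Ne.symm hij) r
    by_cases hj : j = l
    · subst hj; exact h2 i hij r
    rw [elem_comm hij hi (Ne.symm hj)]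
    exact S.mul_mem (S.mul_mem (S.mul_mem (h2 i hi r) (h1 j hj 1)) (S.inv_mem (h2 i hi r)))
      (S.inv_mem (h1 j hj 1))
  have : ∀ k, Gam ι F (k + 1) ≤ S → Gam ι F 1 ≤ S := by
    intro k
    induction k with
    | zero => exact id
    | succ k ih => exact fun hk => ih (Gam_step S l h hk)
  exact this n ((Gam_anti (Nat.le_succ n)).trans hn)

end Crest.Agent.R66
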