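import Crest.Agent.R66.AmbNrm
import Crest.Agent.R66.Mat1

/-! # Row 66: the concrete model `M = F[T;T⁻¹]^ι` -/

set_option linter.unusedSectionVars false

namespace Crest.Agent.R66

open Polynomial LaurentPolynomial

/-- the ambient space -/
abbrev MM (ι F : Type*) [Field F] := ι → F[T;T⁻¹]

variable (ι : Type*) [Fintype ι] [DecidableEq ι] (F : Type*) [Field F]

/-- multiplication by `T m` -/
noncomputable def tM (m : ℤ) : MM ι F ≃ₗ[F] MM ι F where
  toFun x := fun i => T m * x i
  invFun x := fun i => T (-m) * x i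
  map_add' x y := by funext i; simp [mul_add]
  map_smul' c x := by funext i; simp
  left_inv x := by funext i; simp [← mul_assoc, ← T_add]
  right_inv x := by funext i; simp [← mul_assoc, ← T_add]

/-- vectors with all exponents `≥ a` -/
def PM (a : ℤ) : Submodule F (MM ι F) where
  carrier := {x | ∀ i n, n < a → (x i).coeff n = 0}
  add_mem' hx hy i n hn := by simp [hx i n hn, hy i n hn]
  zero_mem' i n _ := by simp
  smul_mem' c x hx i n hn := by simp [hx i n hn]

/-- vectors with all exponents `≤ a` -/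
def LM (a : ℤ) : Submodule F (MM ι F) where
  carrier := {x | ∀ i n, a < n → (x i).coeff n = 0}
  add_mem' hx hy i n hn := by simp [hx i n hn, hy i n hn]
  zero_mem' i n _ := by simp
  smul_mem' c x hx i n hn := by simp [hx i n hn]

variable {ι F}

theorem coeff_T_mul (m n : ℤ) (f : F[T;T⁻¹]) : (T m * f).coeff n = f.coeff (n - m) := by
  have := AddMonoidAlgebra.coeff_single_mul_eq_mul_coeff (x := f) (m := m) (r := (1 : F))
    (m₁ := n) (n - m) (fun m' _ => by omega)
  rw [one_mul] at this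
  exact this

theorem mem_map_tM (m : ℤ) (L : Submodule F (MM ι F)) (x : MM ι F) :
    x ∈ Submodule.orderIsoMapComap (tM ι F m) L ↔ (fun i => T (-m) * x i) ∈ L :=
  Submodule.mem_map_equiv L (e := tM ι F m) (x := x)

theorem coeff_toLaurent_mul (p : F[X]) (f : F[T;T⁻¹]) (n : ℤ) :
    (toLaurent p * f).coeff n =
      ∑ k ∈ Finset.range (p.natDegree + 1), p.coeff k * f.coeff (n - k) := by
  conv_lhs => rw [p.as_sum_range]
  rw [map_sum, Finset.sum_mul, AddMonoidAlgebra.coeff_sum, Finsupp.finsetSum_apply]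
  refine Finset.sum_congr rfl fun k _ => ?_
  rw [toLaurent_C_mul_T, mul_assoc, ← LaurentPolynomial.smul_eq_C_mul,
    AddMonoidAlgebra.coeff_smul_apply, coeff_T_mul, smul_eq_mul]

theorem coeff_toLaurent_nat (p : F[X]) (k : ℕ) : (toLaurent p).coeff (k : ℤ) = p.coeff k := by
  rw [coeff_toLaurent]
  exact Finsupp.mapDomain_apply Nat.cast_injective _ _

theorem coeff_toLaurent_neg (p : F[X]) {n : ℤ} (hn : n < 0) : (toLaurent p).coeff n = 0 := by
  rw [coeff_toLaurent]
  refine Finsupp.mapDomain_of_notMem_range _ _ ?_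
  rintro ⟨k, hk⟩
  change (k : ℤ) = n at hk
  omega

theorem coeff_trunc (f : F[T;T⁻¹]) (k : ℕ) : (trunc f).coeff k = f.coeff (k : ℤ) := rfl

theorem map_PM (m a : ℤ) : Submodule.orderIsoMapComap (tM ι F m) (PM ι F a) = PM ι F (m + a) := by
  ext x
  rw [mem_map_tM]
  constructor
  · intro h i n hn
    have := h i (n - m) (by omega)
    rwa [coeff_T_mul, show n - m - -m = n by ring] at this
  · intro h i n hn
    rw [coeff_T_mul]
    exact h i _ (by omega)

theorem map_LM (m a : ℤ) : Submodule.orderIsoMapComap (tM ι F m) (LM ι F a) = LM ι F (m + a) := by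
  ext x
  rw [mem_map_tM]
  constructor
  · intro h i n hn
    have := h i (n - m) (by omega)
    rwa [coeff_T_mul, show n - m - -m = n by ring] at this
  · intro h i n hn
    rw [coeff_T_mul]
    exact h i _ (by omega)

theorem PM_anti {a b : ℤ} (h : a ≤ b) : PM ι F b ≤ PM ι F a :=
  fun _ hx i n hn => hx i n (lt_of_lt_of_le hn h)

theorem LM_mono {a b : ℤ} (h : a ≤ b) : LM ι F a ≤ LM ι F b :=
  fun _ hx i n hn => hx i n (lt_of_le_of_lt h hn)

theorem LM_inf_PM (a : ℤ) : LM ι F a ⊓ PM ι F (a + 1) = ⊥ := by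
  rw [eq_bot_iff]
  rintro x ⟨h1, h2⟩
  rw [Submodule.mem_bot]
  funext i
  refine LaurentPolynomial.ext fun n => ?_
  rcases lt_or_ge a n with h | h
  · exact h1 i n h
  · exact h2 i n (by omega)

theorem LM_sup_PM (a : ℤ) : LM ι F a ⊔ PM ι F (a + 1) = ⊤ := by
  rw [eq_top_iff]
  intro x _
  let y : MM ι F := fun i => AddMonoidAlgebra.ofCoeff ((x i).coeff.filter fun n => n ≤ a)
  have hy : ∀ i n, (y i).coeff n = if n ≤ a then (x i).coeff n else 0 := fun i n =>
    Finsupp.filter_apply _ _ _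
  refine Submodule.mem_sup.2 ⟨y, fun i n hn => ?_, x - y, fun i n hn => ?_, add_sub_cancel _ _⟩
  · rw [hy, if_neg (by omega)]
  · have : ((x - y) i).coeff n = (x i).coeff n - (y i).coeff n := by simp
    rw [this, hy, if_pos (by omega), sub_self]

/-- the constant vectors: `LM 0 ⊓ PM 0 ≃ (ι → F)` via `v ↦ fun i => C (v i)`. -/
theorem const_rank : FiniteDimensional F ↥(LM ι F 0 ⊓ PM ι F 0) ∧
    Module.finrank F ↥(LM ι F 0 ⊓ PM ι F 0) = Fintype.card ι := by
  let c : (ι → F) →ₗ[F] MM ι F :=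
    { toFun := fun v i => LaurentPolynomial.C (v i)
      map_add' := fun v w => by funext i; simp
      map_smul' := fun r v => by funext i; simp [LaurentPolynomial.smul_eq_C_mul] }
  have hc : ∀ v i n, (c v i).coeff n = if n = 0 then v i else 0 := fun v i n =>
    LaurentPolynomial.C_apply _ _
  have hinj : Function.Injective c := by
    intro v w h
    funext i
    have := hc v i 0
    rw [h, hc] at this
    simpa using this.symm
  have hr : LinearMap.range c = LM ι F 0 ⊓ PM ι F 0 := by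
    apply le_antisymm
    · rintro _ ⟨v, rfl⟩
      exact ⟨fun i n hn => by rw [hc, if_neg (by omega)], fun i n hn => by
        rw [hc, if_neg (by omega)]⟩
    · rintro x ⟨h1, h2⟩
      refine ⟨fun i => (x i).coeff 0, funext fun i => LaurentPolynomial.ext fun n => ?_⟩
      rw [hc]
      split_ifs with hn
      · rw [hn]
      · rcases lt_or_gt_of_ne hn with h | h
        · exact (h2 i n h).symm
        · exact (h1 i n h).symm
  rw [← hr]
  refine ⟨inferInstance, ?_⟩
  rw [LinearMap.finrank_range_of_inj hinj, Module.finrank_fintype_fun_eq_card]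

variable (ι F)

/-- the concrete ambient structure -/
noncomputable def amb : Amb F (MM ι F) where
  t := tM ι F 1
  P := PM ι F 0
  Λ := LM ι F 0
  N := Fintype.card ι
  P_le := by rw [map_PM]; exact PM_anti (by norm_num)
  Λ_le := by rw [map_LM]; exact LM_mono (by norm_num)
  inf_eq := by rw [map_PM]; simpa using LM_inf_PM (ι := ι) (F := F) 0
  sup_eq := by rw [map_PM]; simpa using LM_sup_PM (ι := ι) (F := F) 0
  fin := const_rank.1
  rank := const_rank.2

/-- the linear action of a polynomial matrix on `MM` -/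
noncomputable def repL (A : Matrix ι ι F[X]) : MM ι F →ₗ[F] MM ι F where
  toFun x := (A.map toLaurent).mulVec x
  map_add' _ _ := Matrix.mulVec_add _ _ _
  map_smul' _ _ := Matrix.mulVec_smul _ _ _

theorem repL_mul (A B : Matrix ι ι F[X]) (x : MM ι F) :
    repL ι F (A * B) x = repL ι F A (repL ι F B x) := by
  simp [repL, Matrix.mulVec_mulVec, Matrix.map_mul]

theorem repL_one (x : MM ι F) : repL ι F 1 x = x := by
  simp [repL]

/-- the representation of `GL_ι(F[X])` on `MM` -/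
noncomputable def rep (g : GL ι F[X]) : MM ι F ≃ₗ[F] MM ι F :=
  { repL ι F (g : Matrix ι ι F[X]) with
    invFun := repL ι F ((g⁻¹ : GL ι F[X]) : Matrix ι ι F[X])
    left_inv := fun x => by
      change repL ι F _ (repL ι F _ x) = x
      rw [← repL_mul, Units.inv_mul, repL_one]
    right_inv := fun x => by
      change repL ι F _ (repL ι F _ x) = x
      rw [← repL_mul, Units.mul_inv, repL_one] }

theorem rep_apply (g : GL ι F[X]) (x : MM ι F) :
    rep ι F g x = ((g : Matrix ι ι F[X]).map toLaurent).mulVec x := rfl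

theorem rep_mul (g h : GL ι F[X]) (x : MM ι F) :
    rep ι F (g * h) x = rep ι F g (rep ι F h x) := repL_mul ι F _ _ x

theorem rep_one (x : MM ι F) : rep ι F 1 x = x := repL_one ι F x

/-- the action on subspaces -/
noncomputable def latAct : GL ι F[X] →* Equiv.Perm (Submodule F (MM ι F)) where
  toFun g := (Submodule.orderIsoMapComap (rep ι F g)).toEquiv
  map_one' := by
    refine Equiv.ext fun L => ?_
    change L.map (rep ι F 1 : MM ι F →ₗ[F] MM ι F) = L
    have : (rep ι F 1 : MM ι F →ₗ[F] MM ι F) = LinearMap.id := LinearMap.ext (rep_one ι F)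
    rw [this, Submodule.map_id]
  map_mul' g h := by
    refine Equiv.ext fun L => ?_
    change L.map (rep ι F (g * h) : MM ι F →ₗ[F] MM ι F) =
      (L.map (rep ι F h : MM ι F →ₗ[F] MM ι F)).map (rep ι F g : MM ι F →ₗ[F] MM ι F)
    rw [← Submodule.map_comp]
    congr 1
    exact LinearMap.ext (rep_mul ι F g h)

theorem latAct_apply (g : GL ι F[X]) (L : Submodule F (MM ι F)) :
    latAct ι F g L = Submodule.orderIsoMapComap (rep ι F g) L := rfl

theorem latAct_eq_map (g : GL ι F[X]) (L : Submodule F (MM ι F)) :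
    latAct ι F g L = L.map (rep ι F g : MM ι F →ₗ[F] MM ι F) := rfl

variable {ι F}

theorem amb_N : (amb ι F).N = Fintype.card ι := rfl

theorem amb_Λ : (amb ι F).Λ = LM ι F 0 := rfl

theorem amb_sh (m : ℤ) (L : Submodule F (MM ι F)) :
    (amb ι F).sh m L = Submodule.orderIsoMapComap (tM ι F m) L := by
  have step : ∀ m : ℤ, (amb ι F).sh 1 (Submodule.orderIsoMapComap (tM ι F m) L) =
      Submodule.orderIsoMapComap (tM ι F (m + 1)) L := by
    intro m
    have h1 : ∀ L', (amb ι F).sh 1 L' = Submodule.orderIsoMapComap (tM ι F 1) L' := fun L' =>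
      (amb ι F).sh_one L'
    ext x
    rw [h1, mem_map_tM, mem_map_tM, mem_map_tM]
    have : (fun i => T (-m) * (T (-1) * x i)) = fun i => T (-(m + 1)) * x i := by
      funext i
      rw [← mul_assoc, ← T_add, neg_add]
    rw [this]
  induction m using Int.induction_on with
  | zero =>
    rw [Amb.sh_zero]
    ext x
    rw [mem_map_tM]
    simp
  | succ m ih => rw [← step, ← ih, Amb.sh_sh, add_comm]
  | pred m ih =>
    apply ((amb ι F).sh 1).injective
    rw [step, Amb.sh_sh, sub_add_cancel, ← ih]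
    congr 2
    ring

theorem amb_Q (a : ℤ) : (amb ι F).Q a = PM ι F a := by
  rw [Amb.Q, amb_sh]; exact (map_PM a 0).trans (by rw [add_zero])

theorem amb_sh_Λ (m : ℤ) : (amb ι F).sh m (amb ι F).Λ = LM ι F m := by
  rw [amb_sh]; exact (map_LM m 0).trans (by rw [add_zero])

/-- `PM 0` consists of the polynomial vectors. -/
theorem mem_PM_zero {x : MM ι F} :
    x ∈ PM ι F 0 ↔ ∃ p : ι → F[X], x = fun i => toLaurent (p i) := by
  constructor
  · intro h
    refine ⟨fun i => trunc (x i), funext fun i => LaurentPolynomial.ext fun n => ?_⟩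
    rcases lt_or_ge n 0 with hn | hn
    · rw [h i n hn, coeff_toLaurent_neg _ hn]
    · lift n to ℕ using hn
      rw [coeff_toLaurent_nat, coeff_trunc]
  · rintro ⟨p, rfl⟩ i n hn
    exact coeff_toLaurent_neg _ hn

theorem coeff_repL (A : Matrix ι ι F[X]) (x : MM ι F) (i : ι) (n : ℤ) :
    (repL ι F A x i).coeff n = ∑ j, ∑ k ∈ Finset.range ((A i j).natDegree + 1),
      (A i j).coeff k * (x j).coeff (n - k) := by
  have : repL ι F A x i = ∑ j, toLaurent (A i j) * x j := rfl
  rw [this, AddMonoidAlgebra.coeff_sum, Finsupp.finsetSum_apply]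
  exact Finset.sum_congr rfl fun j _ => coeff_toLaurent_mul _ _ _

theorem repL_mem_LM {A : Matrix ι ι F[X]} {k : ℕ} (h : ∀ i j, (A i j).natDegree ≤ k) {a : ℤ}
    {x : MM ι F} (hx : x ∈ LM ι F a) : repL ι F A x ∈ LM ι F (a + k) := by
  intro i n hn
  rw [coeff_repL]
  refine Finset.sum_eq_zero fun j _ => Finset.sum_eq_zero fun l hl => ?_
  have h1 := Finset.mem_range.1 hl
  have h2 := h i j
  rw [hx j _ (by omega), mul_zero]

theorem repL_mem_PM (A : Matrix ι ι F[X]) {a : ℤ} {x : MM ι F} (hx : x ∈ PM ι F a) :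
    repL ι F A x ∈ PM ι F a := by
  intro i n hn
  rw [coeff_repL]
  refine Finset.sum_eq_zero fun j _ => Finset.sum_eq_zero fun l _ => ?_
  rw [hx j _ (by omega), mul_zero]

theorem mem_latAct (g : GL ι F[X]) (L : Submodule F (MM ι F)) (x : MM ι F) :
    x ∈ Submodule.orderIsoMapComap (rep ι F g) L ↔
      repL ι F ((g⁻¹ : GL ι F[X]) : Matrix ι ι F[X]) x ∈ L :=
  Submodule.mem_map_equiv L (e := rep ι F g) (x := x)

theorem repL_tM (A : Matrix ι ι F[X]) (m : ℤ) (x : MM ι F) :
    repL ι F A (tM ι F m x) = tM ι F m (repL ι F A x) := by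
  funext i
  change ∑ j, toLaurent (A i j) * (T m * x j) = T m * ∑ j, toLaurent (A i j) * x j
  rw [Finset.mul_sum]
  exact Finset.sum_congr rfl fun j _ => mul_left_comm _ _ _

theorem exists_natDegree_le (A : Matrix ι ι F[X]) : ∃ k : ℕ, ∀ i j, (A i j).natDegree ≤ k :=
  ⟨Finset.univ.sup fun p : ι × ι => (A p.1 p.2).natDegree, fun i j =>
    Finset.le_sup (f := fun p : ι × ι => (A p.1 p.2).natDegree) (Finset.mem_univ (i, j))⟩

theorem rep_isSym (g : GL ι F[X]) : (amb ι F).IsSym (rep ι F g) := by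
  refine ⟨fun x => repL_tM _ 1 x, ?_, ?_⟩
  · apply le_antisymm
    · rintro _ ⟨x, hx, rfl⟩
      exact repL_mem_PM _ hx
    · intro x hx
      rw [mem_latAct]
      exact repL_mem_PM _ hx
  · obtain ⟨k, hk⟩ := exists_natDegree_le (g : Matrix ι ι F[X])
    obtain ⟨k', hk'⟩ := exists_natDegree_le ((g⁻¹ : GL ι F[X]) : Matrix ι ι F[X])
    refine ⟨max k k', ?_, ?_⟩
    · rw [amb_sh_Λ]
      rintro _ ⟨x, hx, rfl⟩
      have := repL_mem_LM (fun i j => (hk i j).trans (le_max_left k k')) hx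
      rwa [zero_add] at this
    · rw [amb_sh_Λ]
      intro x hx
      rw [mem_latAct]
      have := repL_mem_LM (fun i j => (hk' i j).trans (le_max_right k k')) hx
      rwa [neg_add_cancel] at this

/-- apply the inclusion to the basis vectors `Pi.single j 1 ∈ LM 0`. -/
theorem bdd_entries {g : GL ι F[X]} {k : ℕ} (h : latAct ι F g (LM ι F 0) ≤ LM ι F k) :
    ∀ i j, ((g : Matrix ι ι F[X]) i j).natDegree ≤ k := by
  intro i j
  have h1 : (Pi.single j 1 : MM ι F) ∈ LM ι F 0 := by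
    intro l n hn
    by_cases hl : l = j
    · subst hl
      rw [Pi.single_eq_same, ← T_zero, T_apply, if_neg (by omega)]
    · rw [Pi.single_eq_of_ne hl]; rfl
  have h2 := h ⟨_, h1, rfl⟩
  rw [natDegree_le_iff_coeff_eq_zero]
  intro N hN
  have h3 := h2 i N (by exact_mod_cast hN)
  have h4 : (rep ι F g : MM ι F →ₗ[F] MM ι F) (Pi.single j 1) i =
      toLaurent ((g : Matrix ι ι F[X]) i j) := by
    change (((g : Matrix ι ι F[X]).map toLaurent).mulVec (Pi.single j 1)) i = _
    rw [Matrix.mulVec_single_one]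
    rfl
  rwa [h4, coeff_toLaurent_nat] at h3

/-- elements of `Γ₁` move vectors of `PM a` only modulo `PM (a+1)`. -/
theorem rep_sub_mem {γ : GL ι F[X]} (hγ : γ ∈ Gam ι F 1) {a : ℤ} {x : MM ι F}
    (hx : x ∈ PM ι F a) : rep ι F γ x - x ∈ PM ι F (a + 1) := by
  rw [mem_Gam] at hγ
  choose B hB using hγ
  have h1 : rep ι F γ x - x = tM ι F 1 (repL ι F (Matrix.of B) x) := by
    conv_lhs => arg 2; rw [← repL_one ι F x]
    funext i
    change ∑ j, toLaurent ((γ : Matrix ι ι F[X]) i j) * x j -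
      ∑ j, toLaurent ((1 : Matrix ι ι F[X]) i j) * x j = T 1 * ∑ j, toLaurent (B i j) * x j
    rw [Finset.mul_sum, ← Finset.sum_sub_distrib]
    refine Finset.sum_congr rfl fun j _ => ?_
    rw [← sub_mul, ← map_sub, hB, pow_one, map_mul, toLaurent_X, mul_assoc]
  rw [h1, add_comm, ← map_PM]
  exact ⟨_, repL_mem_PM _ hx, rfl⟩

theorem latAct_LM_of_const {g : GL ι F[X]} (h : ∀ i j, ((g : Matrix ι ι F[X]) i j).natDegree ≤ 0)
    (h' : ∀ i j, (((g⁻¹ : GL ι F[X]) : Matrix ι ι F[X]) i j).natDegree ≤ 0) :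
    latAct ι F g (LM ι F 0) = LM ι F 0 := by
  apply le_antisymm
  · rintro _ ⟨x, hx, rfl⟩
    have := repL_mem_LM h hx
    rwa [Nat.cast_zero, add_zero] at this
  · intro x hx
    rw [latAct_apply, mem_latAct]
    simpa using repL_mem_LM h' hx

/-- Recipe: `g₀ = GL.map (C.comp (evalRingHom 0)) g` is a constant matrix, stabilises `LM 0`, and
`γ = g * g₀⁻¹ ∈ Γ₁`. -/
theorem exists_Gam_one (g : GL ι F[X]) :
    ∃ γ ∈ Gam ι F 1, latAct ι F γ (LM ι F 0) = latAct ι F g (LM ι F 0) := by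
  let φ : F[X] →+* F[X] := (Polynomial.C : F →+* F[X]).comp (evalRingHom 0)
  let ψ : GL ι F[X] →* GL ι F[X] := Matrix.GeneralLinearGroup.map φ
  have hψ : ∀ (h : GL ι F[X]) i j, ((ψ h : GL ι F[X]) : Matrix ι ι F[X]) i j =
      Polynomial.C (((h : Matrix ι ι F[X]) i j).eval 0) := fun h i j => rfl
  have hψψ : ψ (ψ g) = ψ g := by
    ext i j : 2
    rw [hψ, hψ, eval_C]
  refine ⟨g * (ψ g)⁻¹, ?_, ?_⟩
  · rw [mem_Gam]
    intro i j
    have h1 : ψ (g * (ψ g)⁻¹) = 1 := by rw [map_mul, map_inv, hψψ, mul_inv_cancel]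
    have h2 := hψ (g * (ψ g)⁻¹) i j
    rw [h1] at h2
    have h3 := congrArg (eval 0) h2
    rw [eval_C] at h3
    rw [pow_one, X_dvd_iff, coeff_zero_eq_eval_zero, eval_sub, ← h3]
    exact sub_self _
  · rw [map_mul, Equiv.Perm.mul_apply, latAct_LM_of_const (g := (ψ g)⁻¹)]
    · intro i j
      rw [← map_inv, hψ, natDegree_C]
    · intro i j
      rw [inv_inv, hψ, natDegree_C]

/-- infinitely many inequivalent vertices.  Recipe: `v j = elem i₀ i₁ (X^(j+1)) • LM 0`.  If
`γ (v j) = v j'` then `h = elem(..j')⁻¹ γ elem(..j)` stabilises `LM 0`, so has constant entries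
(`bdd_entries`), and `h ≡ elem i₀ i₁ (X^(j+1) - X^(j'+1)) mod X^n` (`Gam n` is normal); compare
coefficients of the `(i₀,i₁)` entry. -/
theorem many_vertices (h2 : 2 ≤ Fintype.card ι) : ∃ g : ℕ → GL ι F[X], ∀ n j j' : ℕ, j + 1 < n →
    j' + 1 < n → ∀ γ ∈ Gam ι F n,
      latAct ι F γ (latAct ι F (g j) (LM ι F 0)) = latAct ι F (g j') (LM ι F 0) → j = j' := by
  obtain ⟨i₀, i₁, hne⟩ := Fintype.exists_pair_of_one_lt_card (α := ι) (by omega)
  refine ⟨fun j => elem i₀ i₁ (X ^ (j + 1)), fun n j j' hj hj' γ hγ h => ?_⟩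
  set e : GL ι F[X] := elem i₀ i₁ (X ^ (j + 1)) with he
  set e' : GL ι F[X] := elem i₀ i₁ (X ^ (j' + 1)) with he'
  have h1 : latAct ι F (e'⁻¹ * γ * e) (LM ι F 0) = LM ι F 0 := by
    rw [map_mul, map_mul, Equiv.Perm.mul_apply, Equiv.Perm.mul_apply, h, ← Equiv.Perm.mul_apply,
      ← map_mul, inv_mul_cancel, map_one, Equiv.Perm.one_apply]
  have h2 := bdd_entries (k := 0) (g := e'⁻¹ * γ * e) (by rw [h1]; exact le_rfl) i₀ i₁
  have h3 : e'⁻¹ * γ * e' ∈ Gam ι F n := by
    have := (Gam_normal (ι := ι) (F := F) n).conj_mem γ hγ e'⁻¹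
    rwa [inv_inv] at this
  rw [mem_Gam] at h3
  have h4 : ((e'⁻¹ * γ * e : GL ι F[X]) : Matrix ι ι F[X]) - ((e'⁻¹ * e : GL ι F[X]) : Matrix _ _ _) =
      (((e'⁻¹ * γ * e' : GL ι F[X]) : Matrix ι ι F[X]) - 1) *
        ((e'⁻¹ * e : GL ι F[X]) : Matrix ι ι F[X]) := by
    rw [sub_mul, one_mul, ← Units.val_mul]
    congr 2
    group
  have h5 : (X : F[X]) ^ n ∣ ((e'⁻¹ * γ * e : GL ι F[X]) : Matrix ι ι F[X]) i₀ i₁ -
      ((e'⁻¹ * e : GL ι F[X]) : Matrix ι ι F[X]) i₀ i₁ := by
    rw [← Matrix.sub_apply, h4, Matrix.mul_apply]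
    exact Finset.dvd_sum fun l _ => (h3 i₀ l).mul_right _
  have h6 : ((e'⁻¹ * e : GL ι F[X]) : Matrix ι ι F[X]) i₀ i₁ = X ^ (j + 1) - X ^ (j' + 1) := by
    have h0 : Matrix.single i₀ i₁ ((X : F[X]) ^ (j' + 1)) * Matrix.single i₀ i₁ (X ^ (j + 1)) = 0 :=
      Matrix.single_mul_single_of_ne _ _ _ _ (Ne.symm hne) _
    rw [Units.val_mul, he, he', elem_inv_val hne, elem_val hne, sub_mul, mul_add, mul_add, h0]
    simp [Matrix.one_apply_ne hne]
  rw [h6, X_pow_dvd_iff] at h5
  have h7 := h5 (j + 1) hj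
  rw [natDegree_le_iff_coeff_eq_zero] at h2
  rw [coeff_sub, h2 _ (by omega), coeff_sub, coeff_X_pow, coeff_X_pow, if_pos rfl] at h7
  by_contra hjj
  rw [if_neg (by omega)] at h7
  simp at h7

end Crest.Agent.R66
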